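import Crest.Agent.R302.Mix

/-!
# Row 302: adaptive annealing

Stages `θ : Θ` carry a state space `Ω θ`, integer weights `w θ` (computed by `wq θ`) and a chain `step θ`.  The next stage is computed from
`K` samples of the current one.  A sample of the last stage of a history is obtained by running `T` steps of every stage in turn (`pathQ`).
The ratio of consecutive partition functions is estimated from `K` samples of the new stage.
-/

set_option autoImplicit false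

noncomputable section

namespace Crest.Agent.R302

open Finset Crest.Agent.Lib.PolyTime Crest.Agent.R309 QT

variable {σ Θ : Type}

/-- `t` is `τ`-close to the normalised weight `W` on `Ω` -/
structure Close (O : Orc) (t : QT σ) (Ω : Finset σ) (W : σ → ℝ) (τ : ℝ) : Prop where
  mem : AllO O (fun s => s ∈ Ω) t
  cl : ∀ g : σ → ℝ, (∀ s ∈ Ω, |g s| ≤ 1) → |ex O t g - mn Ω W g| ≤ τ

/-- consecutive stages -/
structure Near (Ω Ω' : Finset σ) (w w' : σ → ℕ) (b : ℕ) (τ' : ℝ) : Prop where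
  sub : Ω ⊆ Ω'
  bad : ∑ s ∈ Ω.filter (fun s => b * w' s < w s), (w s : ℝ) ≤ τ' * ∑ s ∈ Ω, (w s : ℝ)
  le : ∑ s ∈ Ω', (w' s : ℝ) ≤ b * ∑ s ∈ Ω, (w s : ℝ)

variable {O : Orc} {t : QT σ} {Ω Ω' : Finset σ} {W : σ → ℝ} {w w' : σ → ℕ} {τ τ' : ℝ} {b : ℕ}

theorem Close.mono (h : Close O t Ω W τ) (hτ : τ ≤ τ') : Close O t Ω W τ' :=
  ⟨h.mem, fun g hg => (h.cl g hg).trans hτ⟩

theorem Close.nonempty (h : Close O t Ω W τ) : Ω.Nonempty := allO_exists h.mem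

/-- pointwise comparable stages are near -/
theorem Near.of_le (hs : Ω ⊆ Ω') (h : ∀ s ∈ Ω, w s ≤ b * w' s)
    (hZ : ∑ s ∈ Ω', (w' s : ℝ) ≤ b * ∑ s ∈ Ω, (w s : ℝ)) (hτ : 0 ≤ τ') : Near Ω Ω' w w' b τ' := by
  refine ⟨hs, ?_, hZ⟩
  rw [filter_false_of_mem fun s hs' => not_lt.2 (h s hs'), sum_empty]
  positivity

/-- empirical means of a close sampler -/
theorem Close.hoeff (h : Close O t Ω W τ) (φ : σ → ℝ) (hφ : ∀ s, 0 ≤ φ s ∧ φ s ≤ 1) (K : ℕ) {δ : ℝ}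
    (h0 : 0 ≤ δ) (h1 : δ ≤ 1) :
    pr O (rep K t) (fun l => (δ + τ) * K < |(l.map φ).sum - K * mn Ω W φ|) ≤
      2 * Real.exp (-(K * δ ^ 2) / 4) := by
  refine le_trans (pr_mono_on (allO_true _) fun l _ hl => ?_) (QT.hoeff t φ hφ K h0 h1)
  have h2 := h.cl φ fun s _ => abs_le.2 ⟨by linarith [(hφ s).1], (hφ s).2⟩
  have hK : (0 : ℝ) ≤ K := Nat.cast_nonneg K
  have h3 : |(K : ℝ) * ex O t φ - K * mn Ω W φ| ≤ τ * K := by
    rw [← mul_sub, abs_mul, abs_of_nonneg hK, mul_comm]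
    exact mul_le_mul_of_nonneg_right h2 hK
  have h4 := abs_sub_le (l.map φ).sum (K * ex O t φ) (K * mn Ω W φ)
  linarith

/-- a sample of the old stage is a warm start for the new one -/
theorem Close.next {step : σ → QT σ} {C η : ℝ} (h : Close O t Ω (fun s => w s) τ)
    (hw : ∀ s ∈ Ω, 0 < w s) (hn : Near Ω Ω' w w' b τ') (hτ' : τ' ≤ 1 / 2)
    (hr : Rev O step Ω' fun s => w' s) (hC : 1 ≤ C) (hη : 0 ≤ η)
    (hP : WP O step Ω' (fun s => w' s) C η) (T : ℕ) :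
    Close O (t.bind (iter step T)) Ω' (fun s => w' s)
      (τ + 2 * τ' + Real.sqrt (2 * b ^ 2 * (η + Real.exp (-(T / C))))) := by
  classical
  have hm : AllO O (fun s => s ∈ Ω') t := h.mem.mono fun s hs => hn.sub hs
  refine ⟨hm.bind fun s hs => allO_iter hr.closed T hs, fun f hf => ?_⟩
  set Z : ℝ := ∑ s ∈ Ω, (w s : ℝ) with hZ
  set Zb : ℝ := ∑ s ∈ Ω.filter (fun s => b * w' s < w s), (w s : ℝ) with hZb
  set A := Ω.filter (fun s => ¬ b * w' s < w s) with hA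
  set Zg : ℝ := ∑ s ∈ A, (w s : ℝ) with hZg
  have hZ0 : 0 < Z := sum_pos (fun s hs => by exact_mod_cast hw s hs) h.nonempty
  have hsplit : Zb + Zg = Z := sum_filter_add_sum_filter_not _ _ _
  have hbad : Zb ≤ τ' * Z := hn.bad
  have hZb0 : 0 ≤ Zb := sum_nonneg fun s _ => Nat.cast_nonneg _
  have hZg2 : Z ≤ 2 * Zg := by nlinarith
  have hZg0 : 0 < Zg := by linarith
  have hAs : A ⊆ Ω' := (filter_subset _ _).trans hn.sub
  have hsum : ∀ g : σ → ℝ, ∑ s ∈ Ω', (if s ∈ A then (w s : ℝ) / Zg else 0) * g s =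
      (∑ s ∈ A, (w s : ℝ) * g s) / Zg := by
    intro g
    rw [sum_div, ← sum_subset hAs fun s _ hs => by simp [hs]]
    exact sum_congr rfl fun s hs => by rw [if_pos hs]; ring
  refine hr.mix hC hη hP (μ := fun s => if s ∈ A then (w s : ℝ) / Zg else 0) (B := 2 * b ^ 2)
    (τ := τ + 2 * τ') (fun s _ => by split_ifs <;> positivity) ?_ (fun s hs => ?_) hm (fun g hg => ?_) T f hf
  · have := hsum fun _ => 1
    simp only [mul_one] at this
    rw [this, div_self hZg0.ne']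
  · split_ifs with hsA
    · have h1 : (w s : ℝ) ≤ b * w' s := by exact_mod_cast not_lt.1 (mem_filter.1 hsA).2
      have h2 : ∑ s ∈ Ω', (w' s : ℝ) ≤ b * Z := hn.le
      have h3 : (0 : ℝ) ≤ ∑ s ∈ Ω', (w' s : ℝ) := sum_nonneg fun s _ => Nat.cast_nonneg _
      rw [div_mul_eq_mul_div, div_le_iff₀ hZg0]
      calc (w s : ℝ) * ∑ s ∈ Ω', (w' s : ℝ) ≤ (b * w' s) * (b * (2 * Zg)) := by
            refine mul_le_mul h1 (h2.trans ?_) h3 (by positivity)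
            gcongr
        _ = _ := by ring
    · rw [zero_mul]; positivity
  · have h1 := h.cl g fun s hs => hg s (hn.sub hs)
    rw [hsum]
    set x : ℝ := ∑ s ∈ A, (w s : ℝ) * g s with hx
    set y : ℝ := ∑ s ∈ Ω.filter (fun s => b * w' s < w s), (w s : ℝ) * g s with hy
    have hxy : mn Ω (fun s => w s) g = (y + x) / Z := by
      rw [mn, hy, hx, hA, sum_filter_add_sum_filter_not]
    have hb : ∀ S : Finset σ, S ⊆ Ω → |∑ s ∈ S, (w s : ℝ) * g s| ≤ ∑ s ∈ S, (w s : ℝ) := by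
      intro S hS
      refine (abs_sum_le_sum_abs _ _).trans (sum_le_sum fun s hs => ?_)
      rw [abs_mul, abs_of_nonneg (Nat.cast_nonneg _)]
      exact mul_le_of_le_one_right (Nat.cast_nonneg _) (hg s (hn.sub (hS hs)))
    have hx1 : |x| ≤ Zg := hb _ (filter_subset _ _)
    have hy1 : |y| ≤ Zb := hb _ (filter_subset _ _)
    have h2 : |(y + x) / Z - x / Zg| ≤ 2 * τ' := by
      have e : (y + x) / Z - x / Zg = (y * Zg - x * Zb) / (Z * Zg) := by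
        rw [← hsplit] at hZ0 ⊢
        field_simp
        ring
      rw [e, abs_div, abs_of_pos (mul_pos hZ0 hZg0), div_le_iff₀ (mul_pos hZ0 hZg0)]
      have h3 := abs_sub (y * Zg) (x * Zb)
      rw [abs_mul, abs_mul, abs_of_pos hZg0, abs_of_nonneg hZb0] at h3
      have h4 : |y| * Zg ≤ τ' * Z * Zg := by gcongr; exact hy1.trans hbad
      have h5 : |x| * Zb ≤ Zg * (τ' * Z) := mul_le_mul hx1 hbad hZb0 hZg0.le
      linarith
    have h3 := abs_sub_le (ex O t g) (mn Ω (fun s => w s) g) (x / Zg)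
    rw [← hxy] at h2
    linarith

/-- the truncated ratio of two weights, in units of `2 ^ -k` -/
def ratN (k b a a' : ℕ) : ℕ := min (2 ^ k) (2 ^ k * a / (b * a'))

theorem ratN_le (k b a a' : ℕ) : ratN k b a a' ≤ 2 ^ k := min_le_left _ _

/-- the mean of the truncated ratio -/
theorem Near.ratio (hn : Near Ω Ω' w w' b τ') (hb : 0 < b) (hw' : ∀ s ∈ Ω', 0 < w' s) (hne : Ω'.Nonempty)
    (h0 : ∀ s ∈ Ω', s ∉ Ω → w s = 0) (k : ℕ) :
    (1 - τ') * ((∑ s ∈ Ω, (w s : ℝ)) / (b * ∑ s ∈ Ω', (w' s : ℝ))) - (1 / 2) ^ k ≤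
        mn Ω' (fun s => w' s) (fun s => (ratN k b (w s) (w' s) : ℝ) / 2 ^ k) ∧
      mn Ω' (fun s => w' s) (fun s => (ratN k b (w s) (w' s) : ℝ) / 2 ^ k) ≤
        (∑ s ∈ Ω, (w s : ℝ)) / (b * ∑ s ∈ Ω', (w' s : ℝ)) := by
  classical
  set Z : ℝ := ∑ s ∈ Ω, (w s : ℝ) with hZ
  set Z' : ℝ := ∑ s ∈ Ω', (w' s : ℝ) with hZ'
  have hZ0 : 0 < Z' := sum_pos (fun s hs => by exact_mod_cast hw' s hs) hne
  have hb0 : (0 : ℝ) < b := by exact_mod_cast hb
  have hk : (0 : ℝ) < 2 ^ k := by positivity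
  have hZe : ∑ s ∈ Ω', (w s : ℝ) = Z :=
    (sum_subset hn.sub fun s hs hs' => by rw [h0 s hs hs', Nat.cast_zero]).symm
  constructor
  · set A := Ω.filter (fun s => ¬ b * w' s < w s) with hA
    have hAs : A ⊆ Ω' := (filter_subset _ _).trans hn.sub
    have h1 : (1 - τ') * Z ≤ ∑ s ∈ A, (w s : ℝ) := by
      have := sum_filter_add_sum_filter_not Ω (fun s => b * w' s < w s) fun s => (w s : ℝ)
      have := hn.bad
      linarith
    have h2 : ∀ s ∈ Ω', (if s ∈ A then (w s : ℝ) / b else 0) - (1 / 2) ^ k * w' s ≤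
        w' s * ((ratN k b (w s) (w' s) : ℝ) / 2 ^ k) := by
      intro s hs
      have hp : (0 : ℝ) < w' s := by exact_mod_cast hw' s hs
      split_ifs with hsA
      · have hle : w s ≤ b * w' s := not_lt.1 (mem_filter.1 hsA).2
        have hbw : 0 < b * w' s := Nat.mul_pos hb (hw' s hs)
        have e : ratN k b (w s) (w' s) = 2 ^ k * w s / (b * w' s) :=
          min_eq_right (Nat.div_le_of_le_mul (by rw [mul_comm (b * w' s)]; exact Nat.mul_le_mul_left _ hle))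
        have h3 : 2 ^ k * w s < b * w' s * (2 ^ k * w s / (b * w' s) + 1) := Nat.lt_mul_div_succ _ hbw
        rw [← e] at h3
        have h4 : (2 : ℝ) ^ k * w s < b * w' s * (ratN k b (w s) (w' s) + 1) := by exact_mod_cast h3
        rw [one_div, inv_pow, sub_le_iff_le_add, div_le_iff₀ hb0]
        have e2 : ((w' s : ℝ) * ((ratN k b (w s) (w' s) : ℝ) / 2 ^ k) + (2 ^ k)⁻¹ * w' s) * b =
            b * w' s * (ratN k b (w s) (w' s) + 1) / 2 ^ k := by field_simp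
        rw [e2, le_div_iff₀ hk]
        linarith
      · have : (0 : ℝ) ≤ (1 / 2) ^ k * w' s := by positivity
        have : (0 : ℝ) ≤ w' s * ((ratN k b (w s) (w' s) : ℝ) / 2 ^ k) := by positivity
        linarith
    have h3 := sum_le_sum h2
    rw [sum_sub_distrib, ← mul_sum, ← sum_subset hAs fun s _ hs => by simp [hs],
      sum_congr rfl fun s hs => if_pos hs, ← sum_div] at h3
    rw [mn, le_div_iff₀ hZ0]
    have h4 : (1 - τ') * Z / b ≤ (∑ s ∈ A, (w s : ℝ)) / b := by gcongr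
    have e : ((1 - τ') * (Z / (b * Z')) - (1 / 2) ^ k) * Z' = (1 - τ') * Z / b - (1 / 2) ^ k * Z' := by
      field_simp
    rw [e]
    linarith
  · rw [mn, div_le_div_iff₀ hZ0 (mul_pos hb0 hZ0), ← mul_assoc]
    refine mul_le_mul_of_nonneg_right ?_ hZ0.le
    rw [← hZe, sum_mul]
    refine sum_le_sum fun s hs => ?_
    have h3 : ratN k b (w s) (w' s) * (b * w' s) ≤ 2 ^ k * w s :=
      (Nat.mul_le_mul_right _ (min_le_right _ _)).trans (Nat.div_mul_le_self _ _)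
    have h4 : (ratN k b (w s) (w' s) : ℝ) * (b * w' s) ≤ 2 ^ k * w s := by exact_mod_cast h3
    have e : (w' s : ℝ) * ((ratN k b (w s) (w' s) : ℝ) / 2 ^ k) * b =
        (ratN k b (w s) (w' s) : ℝ) * (b * w' s) / 2 ^ k := by ring
    rw [e, div_le_iff₀ hk]
    linarith

/-- run `T` steps of every stage of the history -/
def pathQ (step : Θ → σ → QT σ) (T : ℕ) (t₀ : QT σ) (l : List Θ) : QT σ :=
  t₀.bind (foldQ (fun s θ => iter (step θ) T s) l)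

theorem foldQ_snoc {α : Type} (f : σ → α → QT σ) (l : List α) (a : α) (s : σ) :
    foldQ f (l ++ [a]) s = (foldQ f l s).bind fun s' => f s' a := by
  induction l generalizing s with
  | nil => exact bind_ret _
  | cons c l ih =>
    show (f s c).bind _ = ((f s c).bind _).bind _
    rw [QT.bind_assoc]
    exact congrArg _ (funext fun s' => ih s')

theorem pathQ_nil (step : Θ → σ → QT σ) (T : ℕ) (t₀ : QT σ) : pathQ step T t₀ [] = t₀ := bind_ret _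

theorem pathQ_snoc (step : Θ → σ → QT σ) (T : ℕ) (t₀ : QT σ) (l : List Θ) (θ : Θ) :
    pathQ step T t₀ (l ++ [θ]) = (pathQ step T t₀ l).bind (iter (step θ) T) := by
  rw [pathQ, pathQ, QT.bind_assoc]
  exact congrArg _ (funext fun s => foldQ_snoc _ l θ s)

/-- the truncated ratio of the weights of two stages -/
def ratQ (wq : Θ → σ → QT ℕ) (k b : ℕ) (θ θ' : Θ) (s : σ) : QT ℕ :=
  (wq θ s).bind fun a => (wq θ' s).map fun a' => ratN k b a a'

/-- one stage; the state is `(history, current stage, numerator, denominator)` -/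
def annStep (wq : Θ → σ → QT ℕ) (step : Θ → σ → QT σ) (nxt : Θ → List σ → Θ) (t₀ : QT σ) (T K k b : ℕ)
    (x : List Θ × Θ × ℕ × ℕ) : QT (List Θ × Θ × ℕ × ℕ) :=
  (rep K (pathQ step T t₀ x.1)).bind fun l =>
    (rep K ((pathQ step T t₀ (x.1 ++ [nxt x.2.1 l])).bind (ratQ wq k b x.2.1 (nxt x.2.1 l)))).map fun v =>
      (x.1 ++ [nxt x.2.1 l], nxt x.2.1 l, x.2.2.1 * (K * 2 ^ k), x.2.2.2 * (b * max v.sum 1))

/-- `m` stages from `θ₀`; `t₀` samples stage `θ₀` -/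
def annQ (wq : Θ → σ → QT ℕ) (step : Θ → σ → QT σ) (nxt : Θ → List σ → Θ) (t₀ : QT σ) (T K k b m : ℕ)
    (θ₀ : Θ) : QT (List Θ × Θ × ℕ × ℕ) :=
  iter (annStep wq step nxt t₀ T K k b) m ([], θ₀, 1, 1)

/-- hypotheses of the annealing theorem: `G i θ` is the invariant at stage `i`, `D` contains all state spaces -/
structure Ann (O : Orc) (Ω : Θ → Finset σ) (w : Θ → σ → ℕ) (D : σ → Prop) (wq : Θ → σ → QT ℕ)
    (step : Θ → σ → QT σ) (nxt : Θ → List σ → Θ) (G : ℕ → Θ → Prop) (m K b : ℕ) (C η τ' τ p : ℝ) : Prop where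
  rev : ∀ i ≤ m, ∀ θ, G i θ → Rev O (step θ) (Ω θ) fun s => w θ s
  wp : ∀ i ≤ m, ∀ θ, G i θ → WP O (step θ) (Ω θ) (fun s => w θ s) C η
  dom : ∀ i ≤ m, ∀ θ, G i θ → ∀ s ∈ Ω θ, D s
  det : ∀ i ≤ m, ∀ θ, G i θ → ∀ s, D s → Det O (wq θ s) (w θ s)
  zero : ∀ i ≤ m, ∀ θ, G i θ → ∀ s, D s → s ∉ Ω θ → w θ s = 0
  nxt : ∀ i < m, ∀ θ, G i θ → ∀ t : QT σ, Close O t (Ω θ) (fun s => w θ s) τ →
    pr O (rep K t) (fun l => ¬ (G (i + 1) (nxt θ l) ∧
      Near (Ω θ) (Ω (nxt θ l)) (w θ) (w (nxt θ l)) b τ')) ≤ p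

theorem all_annQ_pos (wq : Θ → σ → QT ℕ) (step : Θ → σ → QT σ) (nxt : Θ → List σ → Θ) (t₀ : QT σ)
    (T : ℕ) {K b : ℕ} (hK : 0 < K) (hb : 0 < b) (k m : ℕ) (θ₀ : Θ) :
    All (fun x => 0 < x.2.2.1 ∧ 0 < x.2.2.2) (annQ wq step nxt t₀ T K k b m θ₀) := by
  refine all_iter (fun x hx => ?_) m ⟨Nat.one_pos, Nat.one_pos⟩
  refine (all_of_forall (P := fun _ => True) _ fun _ => trivial).bind fun l _ => (all_map _ _).2 ?_
  exact all_of_forall _ fun v => ⟨Nat.mul_pos hx.1 (by positivity),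
    Nat.mul_pos hx.2 (Nat.mul_pos hb (lt_of_lt_of_le Nat.one_pos (le_max_right _ _)))⟩

theorem sum_map_div (v : List ℕ) (c : ℝ) : (v.map fun a : ℕ => (a : ℝ) / c).sum = (v.sum : ℝ) / c := by
  induction v with
  | nil => simp
  | cons a v ih => rw [List.map_cons, List.sum_cons, List.sum_cons, ih, Nat.cast_add, add_div]

/-- the ratio estimator -/
theorem Close.ratio {wq : Θ → σ → QT ℕ} {θ θ' : Θ} (h : Close O t Ω' (fun s => w' s) τ)
    (hn : Near Ω Ω' w w' b τ') (hb : 0 < b) (hw' : ∀ s ∈ Ω', 0 < w' s) (h0 : ∀ s ∈ Ω', s ∉ Ω → w s = 0)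
    (hd : ∀ s ∈ Ω', Det O (wq θ s) (w s)) (hd' : ∀ s ∈ Ω', Det O (wq θ' s) (w' s)) {K : ℕ} (hK : 0 < K) (k : ℕ)
    {δ e : ℝ} (hδ0 : 0 ≤ δ) (hδ1 : δ ≤ 1) (hτ : 0 ≤ τ) (hτ' : 0 ≤ τ')
    (he : b ^ 2 * (τ + δ + (1 / 2) ^ k) + τ' ≤ e) (he1 : e ≤ 1 / 2) :
    pr O (rep K (t.bind (ratQ wq k b θ θ'))) (fun v => ¬
      ((1 - e) * (∑ s ∈ Ω', (w' s : ℝ)) * (b * max v.sum 1 : ℕ) ≤ (K * 2 ^ k : ℕ) * ∑ s ∈ Ω, (w s : ℝ) ∧
        (K * 2 ^ k : ℕ) * ∑ s ∈ Ω, (w s : ℝ) ≤ (1 + 2 * e) * (∑ s ∈ Ω', (w' s : ℝ)) * (b * max v.sum 1 : ℕ))) ≤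
      2 * Real.exp (-(K * δ ^ 2) / 4) := by
  set t' := t.bind (ratQ wq k b θ θ') with ht'
  have hk : (0 : ℝ) < 2 ^ k := by positivity
  have hdet : ∀ s ∈ Ω', Det O (ratQ wq k b θ θ' s) (ratN k b (w s) (w' s)) := fun s hs =>
    (hd s hs).bind ((hd' s hs).map _)
  have hall : AllO O (fun a => a ≤ 2 ^ k) t' :=
    h.mem.bind fun s hs => (hdet s hs).mono fun a ha => ha ▸ ratN_le _ _ _ _
  set φ : ℕ → ℝ := fun a => (min a (2 ^ k) : ℕ) / 2 ^ k with hφ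
  have hφ1 : ∀ a, 0 ≤ φ a ∧ φ a ≤ 1 := fun a => ⟨by positivity, by
    rw [hφ, div_le_one hk]; exact_mod_cast min_le_right _ _⟩
  have hex : ex O t' φ = ex O t fun s => (ratN k b (w s) (w' s) : ℝ) / 2 ^ k := by
    rw [ht', QT.ex_bind]
    refine ex_congr_on h.mem fun s hs => ?_
    rw [ex_congr_on (hdet s hs) (g := fun _ => (ratN k b (w s) (w' s) : ℝ) / 2 ^ k) fun a ha => ?_, ex_const]
    rw [ha, hφ]
    simp only [min_eq_left (ratN_le _ _ _ _)]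
  have hcl := h.cl (fun s => (ratN k b (w s) (w' s) : ℝ) / 2 ^ k) fun s _ => by
    rw [abs_of_nonneg (by positivity), div_le_one hk]; exact_mod_cast ratN_le _ _ _ _
  obtain ⟨r1, r2⟩ := hn.ratio hb hw' h.nonempty h0 k
  refine le_trans (pr_mono_on (allO_rep hall K) fun v hv hE => ?_) (QT.hoeff t' φ hφ1 K hδ0 hδ1)
  by_contra hc
  apply hE
  rw [not_lt] at hc
  have hv' : (v.map φ).sum = (v.sum : ℝ) / 2 ^ k := by
    rw [← sum_map_div]
    exact congrArg _ (List.map_congr_left fun a ha => by rw [hφ]; simp only [min_eq_left (hv.2 a ha)])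
  rw [hv', hex] at hc
  set Z : ℝ := ∑ s ∈ Ω, (w s : ℝ) with hZ
  set Z' : ℝ := ∑ s ∈ Ω', (w' s : ℝ) with hZ'
  have hZ0 : 0 < Z' := sum_pos (fun s hs => by exact_mod_cast hw' s hs) h.nonempty
  have hb0 : (0 : ℝ) < b := by exact_mod_cast hb
  have hK0 : (0 : ℝ) < K := by exact_mod_cast hK
  have hle : Z' ≤ b * Z := hn.le
  set ρ : ℝ := Z / (b * Z') with hρ
  have hρ1 : 1 ≤ b ^ 2 * ρ := by
    rw [hρ, mul_div_assoc', le_div_iff₀ (mul_pos hb0 hZ0)]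
    nlinarith
  have hZρ : Z = ρ * (b * Z') := by rw [hρ]; field_simp
  set x : ℝ := (v.sum : ℝ) / 2 ^ k / K with hx
  have hvx : (v.sum : ℝ) = x * (K * 2 ^ k) := by rw [hx]; field_simp
  set y := ex O t fun s => (ratN k b (w s) (w' s) : ℝ) / 2 ^ k with hy
  have hxy : |x - y| ≤ δ := by
    have e1 : x - y = ((v.sum : ℝ) / 2 ^ k - K * y) / K := by rw [hx]; field_simp
    rw [e1, abs_div, abs_of_pos hK0, div_le_iff₀ hK0]
    exact hc
  have hs0 : (0 : ℝ) ≤ (1 / 2) ^ k := by positivity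
  set u : ℝ := τ + δ + (1 / 2) ^ k with hu
  have hu0 : 0 ≤ u := by positivity
  have hρ0 : 0 < ρ := by
    by_contra hh
    have : (b : ℝ) ^ 2 * ρ ≤ 0 := mul_nonpos_of_nonneg_of_nonpos (by positivity) (not_lt.1 hh)
    linarith
  have hu1 : u ≤ (e - τ') * ρ := by
    calc u ≤ u * (b ^ 2 * ρ) := le_mul_of_one_le_right hu0 hρ1
      _ = b ^ 2 * u * ρ := by ring
      _ ≤ _ := by gcongr; linarith
  obtain ⟨a1, a2⟩ := abs_le.1 hxy
  obtain ⟨a3, a4⟩ := abs_le.1 hcl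
  have hτρ : 0 ≤ τ' * ρ := by positivity
  have l1 : (1 - e) * ρ ≤ x := by nlinarith
  have l2 : x ≤ (1 + e) * ρ := by nlinarith
  have he0 : 0 ≤ e := le_trans (by positivity) he
  have hx0 : 0 < x := lt_of_lt_of_le (mul_pos (by linarith) hρ0) l1
  have hv0 : 1 ≤ v.sum := by
    have : (0 : ℝ) < v.sum := by rw [hvx]; positivity
    exact_mod_cast this
  rw [max_eq_left hv0, Nat.cast_mul, Nat.cast_mul, Nat.cast_pow, Nat.cast_ofNat, hvx, hZρ]
  have hp : 0 < Z' * b * (K * 2 ^ k) := by positivity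
  constructor
  · have : (1 - e) * x ≤ ρ := by nlinarith
    calc (1 - e) * Z' * (b * (x * (K * 2 ^ k))) = (1 - e) * x * (Z' * b * (K * 2 ^ k)) := by ring
      _ ≤ ρ * (Z' * b * (K * 2 ^ k)) := by gcongr
      _ = _ := by ring
  · have : ρ ≤ (1 + 2 * e) * x := by nlinarith [mul_nonneg he0 (sub_nonneg.2 he1), mul_nonneg (mul_nonneg he0 (sub_nonneg.2 he1)) hρ0.le]
    calc K * 2 ^ k * (ρ * (b * Z')) = ρ * (Z' * b * (K * 2 ^ k)) := by ring
      _ ≤ (1 + 2 * e) * x * (Z' * b * (K * 2 ^ k)) := by gcongr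
      _ = _ := by ring

/-- **Adaptive annealing.**  With high probability the last stage satisfies the invariant, its history gives a `τ`-close sampler and
`num / den` estimates the ratio of the partition functions. -/
theorem Ann.spec {Ω : Θ → Finset σ} {w : Θ → σ → ℕ} {D : σ → Prop} {wq : Θ → σ → QT ℕ} {step : Θ → σ → QT σ}
    {nxt : Θ → List σ → Θ} {G : ℕ → Θ → Prop} {m K b : ℕ} {C η τ' τ p : ℝ}
    (h : Ann O Ω w D wq step nxt G m K b C η τ' τ p) {t₀ : QT σ} {θ₀ : Θ} {τ₀ κ δ e : ℝ} {T : ℕ} (k : ℕ)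
    (hG : G 0 θ₀) (h₀ : Close O t₀ (Ω θ₀) (fun s => w θ₀ s) τ₀) (hK : 0 < K) (hb : 0 < b) (hC : 1 ≤ C)
    (hη : 0 ≤ η) (hτ₀ : 0 ≤ τ₀) (hτ' : 0 ≤ τ') (hp : 0 ≤ p) (hδ0 : 0 ≤ δ) (hδ1 : δ ≤ 1)
    (hκ : 2 * τ' + Real.sqrt (2 * b ^ 2 * (η + Real.exp (-(T / C)))) ≤ κ) (hτ : τ₀ + m * κ ≤ τ)
    (he : b ^ 2 * (τ + δ + (1 / 2) ^ k) + τ' ≤ e) (he1 : e ≤ 1 / 2) :
    pr O (annQ wq step nxt t₀ T K k b m θ₀) (fun x => ¬ (G m x.2.1 ∧
      Close O (pathQ step T t₀ x.1) (Ω x.2.1) (fun s => w x.2.1 s) τ ∧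
      (1 - e) ^ m * (∑ s ∈ Ω x.2.1, (w x.2.1 s : ℝ)) * x.2.2.2 ≤ x.2.2.1 * ∑ s ∈ Ω θ₀, (w θ₀ s : ℝ) ∧
      x.2.2.1 * ∑ s ∈ Ω θ₀, (w θ₀ s : ℝ) ≤ (1 + 2 * e) ^ m * (∑ s ∈ Ω x.2.1, (w x.2.1 s : ℝ)) * x.2.2.2)) ≤
      m * (p + 2 * Real.exp (-(K * δ ^ 2) / 4)) := by
  have hκ0 : 0 ≤ κ := le_trans (by positivity) hκ
  have hτ0 : 0 ≤ τ := le_trans (by positivity) hτ
  have he0 : 0 ≤ e := le_trans (by positivity) he
  have hτe : τ' ≤ 1 / 2 := by
    have : 0 ≤ (b : ℝ) ^ 2 * (τ + δ + (1 / 2) ^ k) := by positivity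
    linarith
  set Z : Θ → ℝ := fun θ => ∑ s ∈ Ω θ, (w θ s : ℝ) with hZ
  have hZ0 : ∀ θ, 0 ≤ Z θ := fun θ => sum_nonneg fun s _ => Nat.cast_nonneg _
  let I : ℕ → List Θ × Θ × ℕ × ℕ → Prop := fun i x => G i x.2.1 ∧
      Close O (pathQ step T t₀ x.1) (Ω x.2.1) (fun s => w x.2.1 s) (τ₀ + i * κ) ∧
      (1 - e) ^ i * Z x.2.1 * x.2.2.2 ≤ x.2.2.1 * Z θ₀ ∧ x.2.2.1 * Z θ₀ ≤ (1 + 2 * e) ^ i * Z x.2.1 * x.2.2.2
  have key := pr_iter_le (O := O) (P := fun _ => True) (G := I) (step := annStep wq step nxt t₀ T K k b)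
    (p := p + 2 * Real.exp (-(K * δ ^ 2) / 4)) (by positivity) m (fun s _ => allO_true _) ?_
    (s := ([], θ₀, 1, 1)) trivial ⟨hG, by simpa [pathQ_nil] using h₀, by simp, by simp⟩
  · refine le_trans (pr_mono_on (allO_true _) (E' := fun x => ¬ I m x) fun x _ hx hI => ?_) key
    exact hx ⟨hI.1, hI.2.1.mono hτ, hI.2.2⟩
  rintro i hi ⟨l₀, θ, a, d⟩ - ⟨g1, g2, g3, g4⟩
  simp only at g1 g2 g3 g4
  have hiτ : ∀ j ≤ m, τ₀ + j * κ ≤ τ := fun j hj => le_trans (by gcongr) hτ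
  refine le_trans (pr_bind_le (allO_true _) _ _ (G := fun l => G (i + 1) (nxt θ l) ∧
      Near (Ω θ) (Ω (nxt θ l)) (w θ) (w (nxt θ l)) b τ') (fun l _ hl => ?_) (by positivity))
    (add_le_add (h.nxt i hi θ g1 _ (g2.mono (hiτ i hi.le))) le_rfl)
  obtain ⟨n1, n2⟩ := hl
  set θ' := nxt θ l with hθ'
  have hw : ∀ s ∈ Ω θ, 0 < w θ s := fun s hs => by exact_mod_cast (h.rev i hi.le θ g1).pos s hs
  have hw' : ∀ s ∈ Ω θ', 0 < w θ' s := fun s hs => by exact_mod_cast (h.rev (i + 1) hi θ' n1).pos s hs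
  have c1 : Close O (pathQ step T t₀ (l₀ ++ [θ'])) (Ω θ') (fun s => w θ' s) (τ₀ + (i + 1 : ℕ) * κ) := by
    rw [pathQ_snoc]
    refine (g2.next hw n2 hτe (h.rev (i + 1) hi θ' n1) hC hη (h.wp (i + 1) hi θ' n1) T).mono ?_
    push_cast
    linarith
  have hD := h.dom (i + 1) hi θ' n1
  have r := (c1.mono (hiτ (i + 1) hi)).ratio (wq := wq) (θ := θ) (θ' := θ') n2 hb hw'
    (fun s hs => h.zero i hi.le θ g1 s (hD s hs)) (fun s hs => h.det i hi.le θ g1 s (hD s hs))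
    (fun s hs => h.det (i + 1) hi θ' n1 s (hD s hs)) hK k hδ0 hδ1 hτ0 hτ' he he1
  rw [pr_map]
  refine le_trans (pr_mono_on (allO_true _) fun v _ hv => ?_) r
  refine fun hr => hv ⟨n1, c1, ?_, ?_⟩
  · obtain ⟨r1, -⟩ := hr
    change (1 - e) * Z θ' * _ ≤ _ * Z θ at r1
    change (1 - e) ^ (i + 1) * Z θ' * ((d * (b * max v.sum 1) : ℕ) : ℝ) ≤ ((a * (K * 2 ^ k) : ℕ) : ℝ) * Z θ₀
    rw [Nat.cast_mul d, Nat.cast_mul a]
    have h1 : 0 ≤ (1 - e) ^ i := pow_nonneg (by linarith) i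
    calc _ = (1 - e) ^ i * d * ((1 - e) * Z θ' * ((b * max v.sum 1 : ℕ) : ℝ)) := by ring
      _ ≤ (1 - e) ^ i * d * (((K * 2 ^ k : ℕ) : ℝ) * Z θ) := by gcongr
      _ = ((K * 2 ^ k : ℕ) : ℝ) * ((1 - e) ^ i * Z θ * d) := by ring
      _ ≤ ((K * 2 ^ k : ℕ) : ℝ) * (a * Z θ₀) := by gcongr
      _ = _ := by ring
  · obtain ⟨-, r2⟩ := hr
    change _ * Z θ ≤ (1 + 2 * e) * Z θ' * _ at r2
    change ((a * (K * 2 ^ k) : ℕ) : ℝ) * Z θ₀ ≤ (1 + 2 * e) ^ (i + 1) * Z θ' * ((d * (b * max v.sum 1) : ℕ) : ℝ)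
    rw [Nat.cast_mul d, Nat.cast_mul a]
    calc _ = ((K * 2 ^ k : ℕ) : ℝ) * (a * Z θ₀) := by ring
      _ ≤ ((K * 2 ^ k : ℕ) : ℝ) * ((1 + 2 * e) ^ i * Z θ * d) := by gcongr
      _ = (1 + 2 * e) ^ i * d * (((K * 2 ^ k : ℕ) : ℝ) * Z θ) := by ring
      _ ≤ (1 + 2 * e) ^ i * d * ((1 + 2 * e) * Z θ' * ((b * max v.sum 1 : ℕ) : ℝ)) := by gcongr
      _ = _ := by ring

/-! ## Polynomial time -/

section pto

variable {α : Type} [Enc α] [Enc σ] [Enc Θ]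

theorem all_iter_grow {step : σ → QT σ} {g : ℕ} (h : ∀ s, All (fun s' => esize s' ≤ esize s + g) (step s)) (T : ℕ)
    (s : σ) : All (fun s' => esize s' ≤ esize s + T * g) (iter step T s) := by
  induction T generalizing s with
  | zero => exact Nat.le_add_right _ _
  | succ T ih => exact (h s).bind fun b hb => (ih b).mono fun s' hs' => by rw [Nat.succ_mul]; omega

theorem PTO.pathQ {step : α → Θ → σ → QT σ} {T : α → ℕ} {t₀ : α → QT σ} (g : α × Θ → ℕ)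
    (hstep : PTO fun p : (α × Θ) × σ => step p.1.1 p.1.2 p.2) (hg : PB g)
    (hs : ∀ a θ s, All (fun s' => esize s' ≤ esize s + g (a, θ)) (step a θ s)) (hT : PT T) (hT' : PB T)
    (ht : PTO t₀) : PTO fun p : α × List Θ => R302.pathQ (step p.1) (T p.1) (t₀ p.1) p.2 := by
  have h1 : PTO fun p : (α × Θ) × σ => iter (step p.1.1 p.1.2) (T p.1.1) p.2 :=
    PTO.iter_grow (step := fun (p : (α × Θ) × σ) s => step p.1.1 p.1.2 s) (fun p => g p.1) (by fun_prop)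
      (by fun_prop) (by fun_prop) (hstep.comp (g := fun p : ((α × Θ) × σ) × σ => (p.1.1, p.2)) (by fun_prop))
      (by fun_prop) fun a s => hs _ _ s
  obtain ⟨g', k1, k2⟩ := hg.exists_bound (s := fun p : (α × List Θ) × σ => esize p) PB.esize_id
  refine PTO.bind (ht.comp PT.fst') (PTO.foldQ_grow
    (step := fun (p : (α × List Θ) × σ) s θ => iter (step p.1.1 θ) (T p.1.1) s) (fun p => T p.1.1 * g' p)
    (by fun_prop) (by fun_prop)
    (h1.comp (g := fun p : ((α × List Θ) × σ) × σ × Θ => ((p.1.1.1, p.2.2), p.2.1)) (by fun_prop))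
    (by fun_prop) fun p s θ hθ => ?_)
  refine (all_iter_grow (hs p.1.1 θ) _ s).mono fun s' hs' => hs'.trans ?_
  have := k2 p (p.1.1, θ) (by
    have := esize_lt_of_mem hθ
    rw [esize_pair, esize_prod p, esize_prod p.1]
    omega)
  gcongr

theorem PTO.ratQ {wq : α → Θ → σ → QT ℕ} {k b : α → ℕ} (hw : PTO fun p : (α × Θ) × σ => wq p.1.1 p.1.2 p.2)
    (hk : PT k) (hk' : PB k) (hb : PT b) :
    PTO fun p : (α × Θ × Θ) × σ => R302.ratQ (wq p.1.1) (k p.1.1) (b p.1.1) p.1.2.1 p.1.2.2 p.2 := by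
  refine PTO.bind (hw.comp (g := fun p : (α × Θ × Θ) × σ => ((p.1.1, p.1.2.1), p.2)) (by fun_prop))
    (PTO.map (hw.comp (g := fun p : ((α × Θ × Θ) × σ) × ℕ => ((p.1.1.1, p.1.1.2.2), p.1.2)) (by fun_prop)) ?_)
  unfold ratN
  fun_prop

omit [Enc σ] [Enc Θ] in
theorem all_ratQ (wq : Θ → σ → QT ℕ) (k b : ℕ) (θ θ' : Θ) (s : σ) :
    All (fun v => v ≤ 2 ^ k) (ratQ wq k b θ θ' s) :=
  (all_of_forall (P := fun _ => True) _ fun _ => trivial).bind fun _ _ =>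
    (all_map _ _).2 (all_of_forall _ fun _ => ratN_le _ _ _ _)

theorem PTO.annQ {wq : α → Θ → σ → QT ℕ} {step : α → Θ → σ → QT σ} {nxt : α → Θ → List σ → Θ} {t₀ : α → QT σ}
    {T K k b m : α → ℕ} {θ₀ : α → Θ} (g : α × Θ → ℕ) (g' : α → ℕ)
    (hw : PTO fun p : (α × Θ) × σ => wq p.1.1 p.1.2 p.2)
    (hstep : PTO fun p : (α × Θ) × σ => step p.1.1 p.1.2 p.2) (hg : PB g)
    (hs : ∀ a θ s, All (fun s' => esize s' ≤ esize s + g (a, θ)) (step a θ s))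
    (hn : PT fun p : (α × Θ) × List σ => nxt p.1.1 p.1.2 p.2) (hg' : PB g')
    (hn' : ∀ a θ l, esize (nxt a θ l) ≤ esize θ + g' a) (ht : PTO t₀) (hT : PT T) (hT' : PB T)
    (hK : PT K) (hK' : PB K) (hk : PT k) (hk' : PB k) (hb : PT b) (hm : PT m) (hm' : PB m) (hθ : PT θ₀) :
    PTO fun a => R302.annQ (wq a) (step a) (nxt a) (t₀ a) (T a) (K a) (k a) (b a) (m a) (θ₀ a) := by
  have hp := PTO.pathQ g hstep hg hs hT hT' ht
  have hr := PTO.ratQ hw hk hk' hb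
  have hn2 : PT fun p : (α × List Θ × Θ × ℕ × ℕ) × List σ => nxt p.1.1 p.1.2.2.1 p.2 :=
    hn.comp (g := fun p : (α × List Θ × Θ × ℕ × ℕ) × List σ => ((p.1.1, p.1.2.2.1), p.2)) (by fun_prop)
  have hst : PTO fun p : α × List Θ × Θ × ℕ × ℕ =>
      annStep (wq p.1) (step p.1) (nxt p.1) (t₀ p.1) (T p.1) (K p.1) (k p.1) (b p.1) p.2 := by
    have h2 : PTO fun p : (α × List Θ × Θ × ℕ × ℕ) × Θ =>
        (QT.rep (K p.1.1) ((R302.pathQ (step p.1.1) (T p.1.1) (t₀ p.1.1) (p.1.2.1 ++ [p.2])).bind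
          (R302.ratQ (wq p.1.1) (k p.1.1) (b p.1.1) p.1.2.2.1 p.2))).map fun v =>
          (p.1.2.1 ++ [p.2], p.2, p.1.2.2.2.1 * (K p.1.1 * 2 ^ k p.1.1), p.1.2.2.2.2 * (b p.1.1 * max v.sum 1)) :=
      PTO.map (PTO.rep (by fun_prop) (by fun_prop) (PTO.bind
        (hp.comp (g := fun p : (α × List Θ × Θ × ℕ × ℕ) × Θ => (p.1.1, p.1.2.1 ++ [p.2])) (by fun_prop))
        (hr.comp (g := fun p : ((α × List Θ × Θ × ℕ × ℕ) × Θ) × σ =>
          ((p.1.1.1, p.1.1.2.2.1, p.1.2), p.2)) (by fun_prop)))) (by fun_prop)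
    exact PTO.bind (PTO.rep (by fun_prop) (by fun_prop)
      (hp.comp (g := fun p : α × List Θ × Θ × ℕ × ℕ => (p.1, p.2.1)) (by fun_prop)))
      (h2.comp (g := fun p : (α × List Θ × Θ × ℕ × ℕ) × List σ => (p.1, nxt p.1.1 p.1.2.2.1 p.2))
        (PT.prodMk PT.fst' hn2))
  set u : α → ℕ := fun a => esize (θ₀ a) + m a * g' a + 1 with hu
  set y : α → ℕ := fun a => esize (b a) + esize (K a * 2 ^ k a) + 7 with hy
  refine PTO.iter_inv' (fun a => 1 + m a * u a + u a + 2 * (7 + m a * y a) + 3)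
    (fun a i x => esize x.1 ≤ 1 + i * u a ∧ esize x.2.1 ≤ esize (θ₀ a) + i * g' a ∧
      esize x.2.2.1 ≤ 7 + i * y a ∧ esize x.2.2.2 ≤ 7 + i * y a) hm hm' (by fun_prop) hst
    (by rw [hu, hy]; fun_prop) (fun a => by simp) (fun a i x hi hx => ?_) fun a i x hi hx => ?_
  · obtain ⟨x1, x2, x3, x4⟩ := hx
    refine (all_of_forall (P := fun _ => True) _ fun _ => trivial).bind fun l _ => (all_map _ _).2 ?_
    refine (all_rep ((all_of_forall (P := fun _ => True) _ fun _ => trivial).bind fun s _ =>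
      all_ratQ _ _ _ _ _ s) _).mono fun v hv => ?_
    have h1 := hn' a x.2.1 l
    have h2 : (i + 1) * g' a ≤ m a * g' a := Nat.mul_le_mul_right _ hi
    have h3 := esize_append_le x.1 [nxt a x.2.1 l]
    have h3' := esize_append x.1 [nxt a x.2.1 l]
    have h4 := esize_nat_mul_le x.2.2.1 (K a * 2 ^ k a)
    have h5 := esize_nat_mul_le x.2.2.2 (b a * max v.sum 1)
    have h6 := esize_nat_mul_le (b a) (max v.sum 1)
    have h7 : v.sum ≤ K a * 2 ^ k a := by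
      have := List.sum_le_card_nsmul v _ hv.2
      rwa [hv.1, smul_eq_mul] at this
    have h8 : esize (max v.sum 1) ≤ esize (K a * 2 ^ k a) + 7 := by
      rcases le_total v.sum 1 with h | h
      · rw [max_eq_right h, esize_nat_one]; omega
      · rw [max_eq_left h]; exact (esize_nat_mono h7).trans (Nat.le_add_right _ _)
    rw [esize_cons, esize_nil] at h3'
    simp only [hu, hy, Nat.succ_mul] at *
    refine ⟨?_, ?_, ?_, ?_⟩ <;> omega
  · obtain ⟨x1, x2, x3, x4⟩ := hx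
    have h1 : i * u a ≤ m a * u a := Nat.mul_le_mul_right _ hi
    have h2 : i * g' a ≤ m a * g' a := Nat.mul_le_mul_right _ hi
    have h3 : i * y a ≤ m a * y a := Nat.mul_le_mul_right _ hi
    have h4 : u a = esize (θ₀ a) + m a * g' a + 1 := rfl
    rw [esize_prod x, esize_prod x.2, esize_prod x.2.2]
    omega

end pto

end Crest.Agent.R302
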