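import Crest.Agent.R302.Ann

/-!
# Row 302: annealing with a general controller

The stage `θ : Θ` contains all the data of the controller (fields, previous stage, numerator, denominator…).
One round draws `K` samples of the current stage and computes the next stage from them.
-/

set_option autoImplicit false

noncomputable section

namespace Crest.Agent.R302

open Finset Crest.Agent.Lib.PolyTime Crest.Agent.R309 QT

variable {σ Θ : Type}

/-- the old stage is a `B`-warm start for the new one -/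
structure Warm (Ω Ω' : Finset σ) (W W' : σ → ℝ) (B : ℝ) : Prop where
  sub : Ω ⊆ Ω'
  le : ∀ s ∈ Ω, W s * ∑ s ∈ Ω', W' s ≤ B * W' s * ∑ s ∈ Ω, W s

variable {O : Orc} {t : QT σ} {Ω Ω' : Finset σ} {W W' : σ → ℝ} {τ B : ℝ}

theorem Warm.refl (hW : ∀ s ∈ Ω, 0 ≤ W s) (hB : 1 ≤ B) : Warm Ω Ω W W B :=
  ⟨Subset.rfl, fun s hs => mul_le_mul_of_nonneg_right (le_mul_of_one_le_left (hW s hs) hB) (sum_nonneg hW)⟩

/-- rescaling the weights -/
theorem Warm.smul {V V' : σ → ℝ} {a a' : ℝ} (h : Warm Ω Ω' W W' B) (ha : 0 ≤ a) (ha' : 0 ≤ a')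
    (hV : ∀ s ∈ Ω, V s = a * W s) (hV' : ∀ s ∈ Ω', V' s = a' * W' s) : Warm Ω Ω' V V' B := by
  refine ⟨h.sub, fun s hs => ?_⟩
  rw [sum_congr rfl hV, sum_congr rfl hV', hV s hs, hV' s (h.sub hs), ← mul_sum, ← mul_sum]
  calc _ = a * a' * (W s * ∑ s ∈ Ω', W' s) := by ring
    _ ≤ a * a' * (B * W' s * ∑ s ∈ Ω, W s) := mul_le_mul_of_nonneg_left (h.le s hs) (mul_nonneg ha ha')
    _ = _ := by ring

theorem mn_smul {V : σ → ℝ} {a : ℝ} (ha : a ≠ 0) (hV : ∀ s ∈ Ω, V s = a * W s) (f : σ → ℝ) :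
    mn Ω V f = mn Ω W f := by
  rw [mn, mn, sum_congr rfl hV, sum_congr rfl fun s hs => by rw [hV s hs, mul_assoc], ← mul_sum, ← mul_sum,
    mul_div_mul_left _ _ ha]

theorem Close.smul {V : σ → ℝ} {a : ℝ} (h : Close O t Ω W τ) (ha : a ≠ 0) (hV : ∀ s ∈ Ω, V s = a * W s) :
    Close O t Ω V τ :=
  ⟨h.mem, fun g hg => by rw [mn_smul ha hV]; exact h.cl g hg⟩

/-- a point carrying almost all the mass -/
theorem close_ret {s₀ : σ} (hs : s₀ ∈ Ω) (hW : ∀ s ∈ Ω, 0 ≤ W s) (h0 : 0 < W s₀)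
    (h : ∑ s ∈ Ω, W s ≤ (1 + τ) * W s₀) : Close O (QT.ret s₀) Ω W (2 * τ) := by
  classical
  refine ⟨hs, fun g hg => ?_⟩
  have e1 := add_sum_erase Ω W hs
  have hZ : W s₀ ≤ ∑ s ∈ Ω, W s := single_le_sum hW hs
  have hZ0 : 0 < ∑ s ∈ Ω, W s := h0.trans_le hZ
  have e2 : g s₀ - mn Ω W g = (∑ s ∈ Ω.erase s₀, W s * (g s₀ - g s)) / ∑ s ∈ Ω, W s := by
    rw [mn, eq_div_iff hZ0.ne', sub_mul, div_mul_cancel₀ _ hZ0.ne', mul_sum, ← sum_sub_distrib,
      ← add_sum_erase Ω _ hs]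
    rw [sum_congr rfl fun s _ => show g s₀ * W s - W s * g s = W s * (g s₀ - g s) by ring]
    ring
  show |g s₀ - mn Ω W g| ≤ _
  rw [e2, abs_div, abs_of_pos hZ0, div_le_iff₀ hZ0]
  have h1 : |∑ s ∈ Ω.erase s₀, W s * (g s₀ - g s)| ≤ ∑ s ∈ Ω.erase s₀, W s * 2 := by
    refine (abs_sum_le_sum_abs _ _).trans (sum_le_sum fun s hs' => ?_)
    have hs'' := mem_of_mem_erase hs'
    rw [abs_mul, abs_of_nonneg (hW s hs'')]
    refine mul_le_mul_of_nonneg_left ((abs_sub _ _).trans ?_) (hW s hs'')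
    linarith [hg s₀ hs, hg s hs'']
  rw [← sum_mul] at h1
  have hτ : 0 ≤ τ := by
    by_contra hh
    nlinarith
  nlinarith

theorem Close.warm {step : σ → QT σ} {C η : ℝ} (h : Close O t Ω W τ) (hw : ∀ s ∈ Ω, 0 < W s)
    (hn : Warm Ω Ω' W W' B) (hB : 0 ≤ B) (hr : Rev O step Ω' W') (hC : 1 ≤ C) (hη : 0 ≤ η)
    (hP : WP O step Ω' W' C η) (T : ℕ) :
    Close O (t.bind (iter step T)) Ω' W' (τ + Real.sqrt (B * (η + Real.exp (-(T / C))))) := by
  classical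
  have hm : AllO O (fun s => s ∈ Ω') t := h.mem.mono fun s hs => hn.sub hs
  refine ⟨hm.bind fun s hs => allO_iter hr.closed T hs, fun f hf => ?_⟩
  set Z : ℝ := ∑ s ∈ Ω, W s with hZ
  have hZ0 : 0 < Z := sum_pos hw h.nonempty
  have hsum : ∀ g : σ → ℝ, ∑ s ∈ Ω', (if s ∈ Ω then W s / Z else 0) * g s = mn Ω W g := by
    intro g
    rw [mn, sum_div, ← sum_subset hn.sub fun s _ hs => by simp [hs]]
    exact sum_congr rfl fun s hs => by rw [if_pos hs]; ring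
  refine hr.mix hC hη hP (μ := fun s => if s ∈ Ω then W s / Z else 0) (fun s _ => ?_) ?_ (fun s hs => ?_) hm
    (fun g hg => ?_) T f hf
  · split_ifs with h1
    · exact div_nonneg (hw s h1).le hZ0.le
    · exact le_rfl
  · have := hsum fun _ => 1
    simp only [mul_one, mn] at this
    rw [this, div_self hZ0.ne']
  · split_ifs with h1
    · rw [div_mul_eq_mul_div, div_le_iff₀ hZ0]
      exact hn.le s h1
    · rw [zero_mul]
      exact mul_nonneg hB (hr.pos s hs).le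
  · rw [hsum]
    exact h.cl g fun s hs => hg s (hn.sub hs)

/-- empirical means of a finite family of statistics -/
theorem Close.hoeff_all {T : Type} (h : Close O t Ω W τ) (S : Finset T) (φ : T → σ → ℝ)
    (hφ : ∀ i ∈ S, ∀ s, 0 ≤ φ i s ∧ φ i s ≤ 1) (K : ℕ) {δ : ℝ} (h0 : 0 ≤ δ) (h1 : δ ≤ 1) :
    pr O (rep K t) (fun l => ¬ ((l.length = K ∧ ∀ s ∈ l, s ∈ Ω) ∧
        ∀ i ∈ S, |(l.map (φ i)).sum - K * mn Ω W (φ i)| ≤ (δ + τ) * K)) ≤
      #S * (2 * Real.exp (-(K * δ ^ 2) / 4)) := by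
  refine le_trans (pr_mono_on (allO_rep h.mem K)
    (E' := fun l => ∃ i ∈ S, (δ + τ) * K < |(l.map (φ i)).sum - K * mn Ω W (φ i)|) fun l hl hE => ?_)
    ((pr_exists_le S _ _).trans ?_)
  · by_contra hc
    push Not at hc
    exact hE ⟨hl, hc⟩
  · rw [← nsmul_eq_mul]
    exact sum_le_card_nsmul _ _ _ fun i hi => h.hoeff (φ i) (hφ i hi) K h0 h1

/-- a ratio of two empirical means -/
theorem ratio_est {a b A B K δ α e : ℝ} (hK : 0 < K) (hα : 0 < α) (hA : α ≤ A) (hB : α ≤ B)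
    (ha : |a - K * A| ≤ δ * K) (hb : |b - K * B| ≤ δ * K) (hδ : 4 * δ ≤ α * e) (he : e ≤ 1) :
    0 < a ∧ (1 - e) * B * a ≤ b * A ∧ b * A ≤ (1 + e) * B * a := by
  have hδ0 : 0 ≤ δ := by
    by_contra hh
    have := abs_nonneg (a - K * A)
    nlinarith
  have he0 : 0 ≤ e := by
    by_contra hh
    nlinarith
  obtain ⟨a1, a2⟩ := abs_le.1 ha
  obtain ⟨b1, b2⟩ := abs_le.1 hb
  have hA0 : 0 < A := hα.trans_le hA
  have hB0 : 0 < B := hα.trans_le hB
  have h1 : δ * K ≤ e / 4 * (K * A) := by nlinarith [mul_le_mul_of_nonneg_left hA he0]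
  have h2 : δ * K ≤ e / 4 * (K * B) := by nlinarith [mul_le_mul_of_nonneg_left hB he0]
  have hKA : 0 < K * A := by positivity
  have hKB : 0 < K * B := by positivity
  have a3 : (1 - e / 4) * (K * A) ≤ a := by linarith
  have a4 : a ≤ (1 + e / 4) * (K * A) := by linarith
  have b3 : (1 - e / 4) * (K * B) ≤ b := by linarith
  have b4 : b ≤ (1 + e / 4) * (K * B) := by linarith
  have hp : 0 < K * A * B := by positivity
  refine ⟨lt_of_lt_of_le (mul_pos (by linarith) hKA) a3, ?_, ?_⟩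
  · calc (1 - e) * B * a ≤ (1 - e) * B * ((1 + e / 4) * (K * A)) :=
          mul_le_mul_of_nonneg_left a4 (mul_nonneg (by linarith) hB0.le)
      _ = (1 - e) * (1 + e / 4) * (K * A * B) := by ring
      _ ≤ (1 - e / 4) * (K * A * B) := mul_le_mul_of_nonneg_right (by nlinarith) hp.le
      _ = (1 - e / 4) * (K * B) * A := by ring
      _ ≤ b * A := mul_le_mul_of_nonneg_right b3 hA0.le
  · calc b * A ≤ (1 + e / 4) * (K * B) * A := mul_le_mul_of_nonneg_right b4 hA0.le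
      _ = (1 + e / 4) * (K * A * B) := by ring
      _ ≤ (1 + e) * (1 - e / 4) * (K * A * B) := mul_le_mul_of_nonneg_right (by nlinarith) hp.le
      _ = (1 + e) * B * ((1 - e / 4) * (K * A)) := by ring
      _ ≤ (1 + e) * B * a := mul_le_mul_of_nonneg_left a3 (mul_nonneg (by linarith) hB0.le)

/-- one round; the state is `(history, current stage)` -/
def ctlStep (step : Θ → σ → QT σ) (nxt : Θ → List σ → Θ) (t₀ : QT σ) (T K : ℕ) (x : List Θ × Θ) :
    QT (List Θ × Θ) :=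
  (rep K (pathQ step T t₀ x.1)).map fun l => (x.1 ++ [nxt x.2 l], nxt x.2 l)

/-- `m` rounds from `θ₀`; `t₀` samples stage `θ₀` -/
def ctlQ (step : Θ → σ → QT σ) (nxt : Θ → List σ → Θ) (t₀ : QT σ) (T K m : ℕ) (θ₀ : Θ) : QT Θ :=
  (iter (ctlStep step nxt t₀ T K) m ([], θ₀)).map Prod.snd

/-- hypotheses: `G i θ` is the invariant at round `i` -/
structure Ctl (O : Orc) (Ω : Θ → Finset σ) (W : Θ → σ → ℝ) (step : Θ → σ → QT σ) (nxt : Θ → List σ → Θ)
    (G : ℕ → Θ → Prop) (m K : ℕ) (C η B τ p : ℝ) : Prop where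
  rev : ∀ i < m, ∀ θ, G i θ → Rev O (step θ) (Ω θ) (W θ)
  wp : ∀ i < m, ∀ θ, G i θ → WP O (step θ) (Ω θ) (W θ) C η
  nxt : ∀ i < m, ∀ θ, G i θ → ∀ t : QT σ, Close O t (Ω θ) (W θ) τ →
    pr O (rep K t) (fun l => ¬ (G (i + 1) (nxt θ l) ∧
      (i + 1 < m → Warm (Ω θ) (Ω (nxt θ l)) (W θ) (W (nxt θ l)) B))) ≤ p

/-- **Annealing with a controller.** -/
theorem Ctl.spec {Ω : Θ → Finset σ} {W : Θ → σ → ℝ} {step : Θ → σ → QT σ} {nxt : Θ → List σ → Θ}
    {G : ℕ → Θ → Prop} {m K : ℕ} {C η B τ p : ℝ} (h : Ctl O Ω W step nxt G m K C η B τ p) {t₀ : QT σ} {θ₀ : Θ}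
    {τ₀ : ℝ} {T : ℕ} (hG : G 0 θ₀) (h₀ : Close O t₀ (Ω θ₀) (W θ₀) τ₀) (hC : 1 ≤ C) (hη : 0 ≤ η) (hB : 0 ≤ B)
    (hp : 0 ≤ p) (hτ : τ₀ + m * Real.sqrt (B * (η + Real.exp (-(T / C)))) ≤ τ) :
    pr O (ctlQ step nxt t₀ T K m θ₀) (fun θ => ¬ G m θ) ≤ m * p := by
  set κ := Real.sqrt (B * (η + Real.exp (-(T / C)))) with hκ
  have hκ0 : 0 ≤ κ := Real.sqrt_nonneg _
  let I : ℕ → List Θ × Θ → Prop := fun i x => G i x.2 ∧
    (i < m → Close O (pathQ step T t₀ x.1) (Ω x.2) (W x.2) (τ₀ + i * κ))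
  have key := pr_iter_le (O := O) (P := fun _ => True) (G := I) (step := ctlStep step nxt t₀ T K) hp m
    (fun s _ => allO_true _) ?_ (s := ([], θ₀)) trivial ⟨hG, fun _ => by simpa [pathQ_nil] using h₀⟩
  · rw [ctlQ, pr_map]
    refine le_trans (pr_mono_on (allO_true _) (E' := fun x => ¬ I m x) fun x _ hx hI => ?_) key
    exact hx hI.1
  rintro i hi ⟨l₀, θ⟩ - ⟨g1, g2⟩
  have g2 := g2 hi
  simp only at g1 g2
  have hiτ : τ₀ + i * κ ≤ τ := le_trans (by gcongr) hτ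
  rw [ctlStep, pr_map]
  refine le_trans (pr_mono_on (allO_true _) fun l _ hl => ?_) (h.nxt i hi θ g1 _ (g2.mono hiτ))
  refine fun hc => hl ⟨hc.1, fun hi' => ?_⟩
  simp only
  rw [pathQ_snoc]
  refine (g2.warm (h.rev i hi θ g1).pos (hc.2 hi') hB (h.rev _ hi' _ hc.1) hC hη (h.wp _ hi' _ hc.1) T).mono ?_
  push_cast
  linarith

/-- invariants of the controller hold on all runs -/
theorem all_ctlQ {P : Θ → Prop} (step : Θ → σ → QT σ) {nxt : Θ → List σ → Θ} (t₀ : QT σ) (T K m : ℕ) {θ₀ : Θ}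
    (h0 : P θ₀) (h : ∀ θ l, P θ → P (nxt θ l)) : All P (ctlQ step nxt t₀ T K m θ₀) :=
  (all_map _ _).2 (all_iter (P := fun x : List Θ × Θ => P x.2)
    (fun _ hx => (all_map _ _).2 (all_of_forall _ fun l => h _ l hx)) m h0)

/-- `I a i θ` is a size invariant of the controller for arbitrary lists of `K a` samples -/
theorem PTO.ctlQ {α : Type} [Enc α] [Enc σ] [Enc Θ] {step : α → Θ → σ → QT σ} {nxt : α → Θ → List σ → Θ}
    {t₀ : α → QT σ} {T K m : α → ℕ} {θ₀ : α → Θ} (g : α × Θ → ℕ) (S : α → ℕ) (I : α → ℕ → Θ → Prop)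
    (hstep : PTO fun p : (α × Θ) × σ => step p.1.1 p.1.2 p.2) (hg : PB g)
    (hs : ∀ a θ s, All (fun s' => esize s' ≤ esize s + g (a, θ)) (step a θ s))
    (hn : PT fun p : (α × Θ) × List σ => nxt p.1.1 p.1.2 p.2) (hS : PB S) (h0 : ∀ a, I a 0 (θ₀ a))
    (hI : ∀ a i θ l, i < m a → l.length = K a → I a i θ → I a (i + 1) (nxt a θ l))
    (hsz : ∀ a i θ, i ≤ m a → I a i θ → esize θ ≤ S a) (ht : PTO t₀) (hT : PT T) (hT' : PB T)
    (hK : PT K) (hK' : PB K) (hm : PT m) (hm' : PB m) (hθ : PT θ₀) :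
    PTO fun a => R302.ctlQ (step a) (nxt a) (t₀ a) (T a) (K a) (m a) (θ₀ a) := by
  have hp := PTO.pathQ g hstep hg hs hT hT' ht
  have hn2 : PT fun p : (α × List Θ × Θ) × List σ => nxt p.1.1 p.1.2.2 p.2 :=
    hn.comp (g := fun p : (α × List Θ × Θ) × List σ => ((p.1.1, p.1.2.2), p.2)) (by fun_prop)
  have h3 : PT fun p : (α × List Θ × Θ) × Θ => (p.1.2.1 ++ [p.2], p.2) := by fun_prop
  have hst : PTO fun p : α × List Θ × Θ => ctlStep (step p.1) (nxt p.1) (t₀ p.1) (T p.1) (K p.1) p.2 :=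
    PTO.map (PTO.rep (by fun_prop) (by fun_prop)
      (hp.comp (g := fun p : α × List Θ × Θ => (p.1, p.2.1)) (by fun_prop)))
      (h3.comp (g := fun p : (α × List Θ × Θ) × List σ => (p.1, nxt p.1.1 p.1.2.2 p.2)) (PT.prodMk PT.fst' hn2))
  refine PTO.map (g := fun _ (x : List Θ × Θ) => x.2) (PTO.iter_inv' (fun a => 1 + m a * (S a + 1) + S a + 1)
    (fun a i x => esize x.1 ≤ 1 + i * (S a + 1) ∧ I a i x.2) hm hm' (by fun_prop) hst (by fun_prop)
    (fun a => ⟨by simp, h0 a⟩) (fun a i x hi hx => ?_) fun a i x hi hx => ?_) (by fun_prop)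
  · refine (all_map _ _).2 ((all_rep (all_of_forall (P := fun _ => True) _ fun _ => trivial) _).mono fun l hl => ?_)
    have h1 := hI a i x.2 l hi hl.1 hx.2
    have h2 := hsz a (i + 1) _ hi h1
    have h3 := esize_append x.1 [nxt a x.2 l]
    rw [esize_cons, esize_nil] at h3
    have h4 := hx.1
    refine ⟨?_, h1⟩
    simp only [Nat.succ_mul]
    omega
  · have h1 : i * (S a + 1) ≤ m a * (S a + 1) := Nat.mul_le_mul_right _ hi
    have h2 := hsz a i _ hi hx.2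
    have h3 := hx.1
    rw [esize_prod x]
    omega

end Crest.Agent.R302
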