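import Mathlib

/-!
# Row 302: DL arrays

A positive array `c : (J → ℕ) → ℝ` is `DL` if at every base point `b` the form
`q_b (i, j) = c (b + e_i + e_j)` on `Option J` (`e_none = 0`) has exactly one positive eigenvalue.

Recipe.
* `hyp_of_ker` (abstract): put `φ' = B v v • φ - B φ v • v` (orthogonal to `v`,
  `B φ' φ' = B v v * (B v v * B φ φ - (B φ v)^2)`); if this is positive, `ψ = ℓ v • φ' - ℓ φ' • v` is in the kernel of `ℓ`
  and `B ψ ψ = (ℓ v)^2 B φ' φ' + (ℓ φ')^2 B v v ≤ 0` forces `ℓ v = 0`, so `B v v ≤ 0`.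
* `qf c b φ (single v 1) = lf c (b + ee v) φ`, `qf c b (single v 1) (single v 1) = c (b + ee v + ee v)`.
* `DL.of_schur`: split off the `none` coordinate (`Fintype.sum_option`).
* `DL.mul`: put `ψ_i = φ_i c (b + e_i) / c b`; then `∑ φ_i φ_j c (b+e_i+e_j) / c b - (∑ ψ_i)^2 = ∑ ψ_i ψ_j m_ij`,
  `m_ij = c b c (b+e_i+e_j) / (c (b+e_i) c (b+e_j)) - 1`.  For the product, `m_ij = m¹_ij` if `c₂` ignores `i, j`, `m²_ij` if
  `c₁` ignores both, and `0` in the mixed case.  (Or apply the Schur inequality of `c₁` to `φ` restricted to `A`, of `c₂` to `φ`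
  restricted to `Aᶜ` and expand.)
* `DL.mul_lc`: only the diagonal entry `(j, j)` of `m` changes, and it decreases.
* `dl_gadget`: all entries `c (b + e_i + e_j)` only depend on `[i ∈ A] + [j ∈ A]`.
-/

set_option autoImplicit false
set_option linter.unusedSectionVars false

noncomputable section

namespace Crest.Agent.R302

open Finset

variable {J : Type} [Fintype J] [DecidableEq J]

/-- unit vector -/
abbrev e1 (j : J) : J → ℕ := Pi.single j 1

/-- unit vectors, `none ↦ 0` -/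
def ee : Option J → J → ℕ
  | none => 0
  | some j => e1 j

@[simp] theorem ee_none : ee (none : Option J) = 0 := rfl
@[simp] theorem ee_some (j : J) : ee (some j) = e1 j := rfl

/-- first-order form at the base point `b` -/
def lf (c : (J → ℕ) → ℝ) (b : J → ℕ) (φ : Option J → ℝ) : ℝ := ∑ i, φ i * c (b + ee i)

/-- second-order form at the base point `b` -/
def qf (c : (J → ℕ) → ℝ) (b : J → ℕ) (φ ψ : Option J → ℝ) : ℝ :=
  ∑ i, ∑ j, φ i * ψ j * c (b + ee i + ee j)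

/-- discretely Lorentzian arrays -/
structure DL (c : (J → ℕ) → ℝ) : Prop where
  pos : ∀ b, 0 < c b
  hyp : ∀ b φ, qf c b φ φ * c b ≤ lf c b φ ^ 2

/-- positive log-concave sequences -/
structure LC (κ : ℕ → ℝ) : Prop where
  pos : ∀ s, 0 < κ s
  lc : ∀ s, κ s * κ (s + 2) ≤ κ (s + 1) ^ 2

theorem hyp_of_ker {V : Type} [AddCommGroup V] [Module ℝ V] (B : V →ₗ[ℝ] V →ₗ[ℝ] ℝ)
    (hB : ∀ x y, B x y = B y x) (ℓ : V →ₗ[ℝ] ℝ) (h : ∀ φ, ℓ φ = 0 → B φ φ ≤ 0) {v : V}
    (hv : 0 < B v v) (φ : V) : B φ φ * B v v ≤ B φ v ^ 2 := by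
  by_contra hcon
  push Not at hcon
  set φ' : V := B v v • φ - B φ v • v with hφ'
  have h1 : B φ' v = 0 := by
    simp only [hφ', map_sub, map_smul, LinearMap.sub_apply, LinearMap.smul_apply, smul_eq_mul]
    ring
  have h1' : B v φ' = 0 := (hB _ _).trans h1
  have h2 : B φ' φ' = B v v * (B φ φ * B v v - B φ v ^ 2) := by
    simp only [hφ', map_sub, map_smul, LinearMap.sub_apply, LinearMap.smul_apply, smul_eq_mul]
    rw [hB v φ]
    ring
  have h3 : 0 < B φ' φ' := by rw [h2]; exact mul_pos hv (by linarith)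
  have h4 := h (ℓ v • φ' - ℓ φ' • v) (by
    simp only [map_sub, map_smul, smul_eq_mul]; ring)
  have h5 : B (ℓ v • φ' - ℓ φ' • v) (ℓ v • φ' - ℓ φ' • v) = ℓ v ^ 2 * B φ' φ' + ℓ φ' ^ 2 * B v v := by
    simp only [map_sub, map_smul, LinearMap.sub_apply, LinearMap.smul_apply, smul_eq_mul]
    rw [h1, h1']
    ring
  rw [h5] at h4
  have h6 : ℓ v = 0 := by
    by_contra hne
    have h7 : 0 < ℓ v ^ 2 * B φ' φ' := mul_pos (by positivity) h3
    have h8 : 0 ≤ ℓ φ' ^ 2 * B v v := mul_nonneg (sq_nonneg _) hv.le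
    linarith
  linarith [h v h6]

theorem qf_comm (c : (J → ℕ) → ℝ) (b : J → ℕ) (φ ψ : Option J → ℝ) : qf c b φ ψ = qf c b ψ φ := by
  unfold qf
  rw [sum_comm]
  refine sum_congr rfl fun i _ => sum_congr rfl fun j _ => ?_
  rw [add_right_comm b, mul_comm (φ j)]

theorem qf_add_left (c : (J → ℕ) → ℝ) (b : J → ℕ) (φ φ' ψ : Option J → ℝ) :
    qf c b (φ + φ') ψ = qf c b φ ψ + qf c b φ' ψ := by
  simp only [qf, Pi.add_apply, add_mul, sum_add_distrib]

theorem qf_smul_left (c : (J → ℕ) → ℝ) (b : J → ℕ) (t : ℝ) (φ ψ : Option J → ℝ) :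
    qf c b (t • φ) ψ = t * qf c b φ ψ := by
  simp only [qf, Pi.smul_apply, smul_eq_mul, mul_sum, mul_assoc]

theorem qf_single (c : (J → ℕ) → ℝ) (b : J → ℕ) (φ : Option J → ℝ) (v : Option J) :
    qf c b φ (Pi.single v 1) = lf c (b + ee v) φ := by
  unfold qf lf
  refine sum_congr rfl fun i _ => ?_
  rw [sum_eq_single v, Pi.single_eq_same, mul_one, add_right_comm b]
  · intro j _ hj
    rw [Pi.single_eq_of_ne hj, mul_zero, zero_mul]
  · intro h; exact absurd (mem_univ v) h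

theorem lf_add (c : (J → ℕ) → ℝ) (b : J → ℕ) (φ ψ : Option J → ℝ) :
    lf c b (φ + ψ) = lf c b φ + lf c b ψ := by
  simp only [lf, Pi.add_apply, add_mul, sum_add_distrib]

theorem lf_smul (c : (J → ℕ) → ℝ) (b : J → ℕ) (t : ℝ) (φ : Option J → ℝ) :
    lf c b (t • φ) = t * lf c b φ := by
  simp only [lf, Pi.smul_apply, smul_eq_mul, mul_sum, mul_assoc]

theorem lf_single (c : (J → ℕ) → ℝ) (b : J → ℕ) (v : Option J) :
    lf c b (Pi.single v 1) = c (b + ee v) := by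
  unfold lf
  rw [sum_eq_single v, Pi.single_eq_same, one_mul]
  · intro j _ hj
    rw [Pi.single_eq_of_ne hj, zero_mul]
  · intro h; exact absurd (mem_univ v) h

/-- `qf` as a bilinear map -/
def qB (c : (J → ℕ) → ℝ) (b : J → ℕ) : (Option J → ℝ) →ₗ[ℝ] (Option J → ℝ) →ₗ[ℝ] ℝ :=
  LinearMap.mk₂ ℝ (qf c b) (qf_add_left c b) (qf_smul_left c b)
    (fun φ ψ ψ' => by rw [qf_comm, qf_add_left, qf_comm c b ψ, qf_comm c b ψ'])
    (fun t φ ψ => by rw [qf_comm, qf_smul_left, qf_comm c b ψ]; rfl)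

@[simp] theorem qB_apply (c : (J → ℕ) → ℝ) (b : J → ℕ) (φ ψ : Option J → ℝ) : qB c b φ ψ = qf c b φ ψ := rfl

/-- `lf` as a linear map -/
def lL (c : (J → ℕ) → ℝ) (b : J → ℕ) : (Option J → ℝ) →ₗ[ℝ] ℝ where
  toFun := lf c b
  map_add' := lf_add c b
  map_smul' := lf_smul c b

@[simp] theorem lL_apply (c : (J → ℕ) → ℝ) (b : J → ℕ) (φ : Option J → ℝ) : lL c b φ = lf c b φ := rfl

theorem hyp_qf {c : (J → ℕ) → ℝ} {b : J → ℕ} (ℓ : (Option J → ℝ) →ₗ[ℝ] ℝ)
    (h : ∀ φ, ℓ φ = 0 → qf c b φ φ ≤ 0) {v : Option J} (hv : 0 < c (b + ee v + ee v)) (φ : Option J → ℝ) :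
    qf c b φ φ * c (b + ee v + ee v) ≤ lf c (b + ee v) φ ^ 2 := by
  have h1 := hyp_of_ker (qB c b) (qf_comm c b) ℓ h (v := Pi.single v 1)
    (by rw [qB_apply, qf_single, lf_single]; exact hv) φ
  rwa [qB_apply, qB_apply, qB_apply, qf_single, qf_single, lf_single] at h1

/-- `qf` of a vector with two extra coordinates -/
theorem qf_add_two (c : (J → ℕ) → ℝ) (b : J → ℕ) (φ : Option J → ℝ) (x y : J) (α β : ℝ) :
    qf c b (φ + α • Pi.single (some x) 1 + β • Pi.single (some y) 1)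
        (φ + α • Pi.single (some x) 1 + β • Pi.single (some y) 1) =
      qf c b φ φ + 2 * α * lf c (b + e1 x) φ + 2 * β * lf c (b + e1 y) φ +
        α ^ 2 * c (b + e1 x + e1 x) + 2 * α * β * c (b + e1 x + e1 y) + β ^ 2 * c (b + e1 y + e1 y) := by
  have e : ∀ (ψ : Option J → ℝ) (v : Option J), qB c b ψ (Pi.single v 1) = lf c (b + ee v) ψ :=
    fun ψ v => qf_single c b ψ v
  have e' : ∀ (ψ : Option J → ℝ) (v : Option J), qB c b (Pi.single v 1) ψ = lf c (b + ee v) ψ :=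
    fun ψ v => (qf_comm c b _ _).trans (qf_single c b ψ v)
  have e2 : ∀ u v : Option J, qB c b (Pi.single u 1) (Pi.single v 1) = c (b + ee v + ee u) :=
    fun u v => (e _ v).trans (lf_single c _ u)
  change qB c b _ _ = qB c b φ φ + _ + _ + _ + _ + _
  simp only [map_add, map_smul, LinearMap.add_apply, LinearMap.smul_apply, smul_eq_mul]
  rw [e2, e2, e2, e2, e, e, e', e']
  simp only [ee_some]
  rw [add_right_comm b (e1 y) (e1 x)]
  ring

theorem DL.of_ker {c : (J → ℕ) → ℝ} (hpos : ∀ b, 0 < c b)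
    (h : ∀ b, ∃ ℓ : (Option J → ℝ) →ₗ[ℝ] ℝ, ∀ φ, ℓ φ = 0 → qf c b φ φ ≤ 0) : DL c := by
  refine ⟨hpos, fun b φ => ?_⟩
  obtain ⟨ℓ, hℓ⟩ := h b
  exact hyp_qf (v := none) ℓ hℓ (hpos _) φ |>.trans_eq' (by simp) |>.trans_eq (by simp)

theorem DL.of_schur {c : (J → ℕ) → ℝ} (hpos : ∀ b, 0 < c b)
    (h : ∀ b (φ : J → ℝ), (∑ i, ∑ j, φ i * φ j * c (b + e1 i + e1 j)) * c b ≤
      (∑ i, φ i * c (b + e1 i)) ^ 2) : DL c := by
  refine ⟨hpos, fun b φ => ?_⟩
  have h1 := h b fun i => φ (some i)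
  have h2 : ∑ i, φ (some i) * φ none * c (b + e1 i) = φ none * ∑ i, φ (some i) * c (b + e1 i) := by
    rw [mul_sum]; exact sum_congr rfl fun i _ => by ring
  have h3 : ∑ i, φ none * φ (some i) * c (b + e1 i) = φ none * ∑ i, φ (some i) * c (b + e1 i) := by
    rw [mul_sum]; exact sum_congr rfl fun i _ => by ring
  simp only [qf, lf, Fintype.sum_option, ee_none, ee_some, add_zero, sum_add_distrib]
  rw [h2, h3]
  nlinarith

theorem DL.schur {c : (J → ℕ) → ℝ} (hc : DL c) (b : J → ℕ) (φ : J → ℝ) :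
    (∑ i, ∑ j, φ i * φ j * c (b + e1 i + e1 j)) * c b ≤ (∑ i, φ i * c (b + e1 i)) ^ 2 := by
  have h := hc.hyp b fun o => o.elim 0 φ
  simpa only [qf, lf, Fintype.sum_option, ee_none, ee_some, add_zero, Option.elim_none, Option.elim_some,
    zero_mul, mul_zero, sum_const_zero, zero_add] using h

/-- reverse Cauchy–Schwarz against any basis vector -/
theorem DL.rev {c : (J → ℕ) → ℝ} (hc : DL c) (b : J → ℕ) (φ : Option J → ℝ) (v : Option J) :
    qf c b φ φ * c (b + ee v + ee v) ≤ lf c (b + ee v) φ ^ 2 := by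
  refine hyp_qf (lL c b) (fun ψ hψ => ?_) (hc.pos _) φ
  have h := hc.hyp b ψ
  have h' : lf c b ψ = 0 := hψ
  rw [h'] at h
  have hp := hc.pos b
  by_contra hn
  push Not at hn
  have := mul_pos hn hp
  linarith

theorem DL.nonpos {c : (J → ℕ) → ℝ} (hc : DL c) {b : J → ℕ} {φ : Option J → ℝ} (v : Option J)
    (h : lf c (b + ee v) φ = 0) : qf c b φ φ ≤ 0 := by
  have h1 := hc.rev b φ v
  rw [h] at h1
  have hp := hc.pos (b + ee v + ee v)
  by_contra hn
  push Not at hn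
  have := mul_pos hn hp
  linarith

theorem DL.lc2 {c : (J → ℕ) → ℝ} (hc : DL c) (b : J → ℕ) (u v : Option J) :
    c (b + ee u + ee u) * c (b + ee v + ee v) ≤ c (b + ee u + ee v) ^ 2 := by
  have h := hc.rev b (Pi.single u 1) v
  rwa [qf_single, lf_single, lf_single, add_right_comm b (ee v) (ee u)] at h

end Crest.Agent.R302
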