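import Crest.Agent.R302.DL

/-!
# Row 302: constructions of DL arrays
Recipes: see the header of `DL.lean`.  `DL.comp`: `DL.of_schur`, the directions outside the range of `f` act like `none`
(use `hc.hyp` with `φ' none = ∑_{j ∉ range f} φ j`, `φ' (some i) = φ (f i)`).  `LC.min_le`: a positive log-concave sequence is unimodal
(if `κ (r+1) < κ r`-type descent starts it continues: `κ (s+1) ≤ κ s → κ (s+2) ≤ κ (s+1)`).
-/

set_option autoImplicit false
set_option linter.unusedSectionVars false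

noncomputable section

namespace Crest.Agent.R302

open Finset

variable {J : Type} [Fintype J] [DecidableEq J]

/-- the Schur complement of the form at the base point `b` -/
def dl2D (c : (J → ℕ) → ℝ) (b : J → ℕ) (i j : J) : ℝ :=
  c (b + e1 i) * c (b + e1 j) - c (b + e1 i + e1 j) * c b

theorem dl2_sum (c : (J → ℕ) → ℝ) (b : J → ℕ) (φ : J → ℝ) :
    ∑ i, ∑ j, φ i * φ j * dl2D c b i j =
      (∑ i, φ i * c (b + e1 i)) ^ 2 - (∑ i, ∑ j, φ i * φ j * c (b + e1 i + e1 j)) * c b := by
  rw [sq, Finset.sum_mul_sum, Finset.sum_mul, ← Finset.sum_sub_distrib]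
  refine Finset.sum_congr rfl fun i _ => ?_
  rw [Finset.sum_mul, ← Finset.sum_sub_distrib]
  refine Finset.sum_congr rfl fun j _ => ?_
  unfold dl2D
  ring

theorem DL.of_dl2 {c : (J → ℕ) → ℝ} (hpos : ∀ b, 0 < c b)
    (h : ∀ b (φ : J → ℝ), 0 ≤ ∑ i, ∑ j, φ i * φ j * dl2D c b i j) : DL c :=
  DL.of_schur hpos fun b φ => by
    have := h b φ
    rw [dl2_sum] at this
    linarith

theorem DL.dl2 {c : (J → ℕ) → ℝ} (hc : DL c) (b : J → ℕ) (φ : J → ℝ) :
    0 ≤ ∑ i, ∑ j, φ i * φ j * dl2D c b i j := by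
  have := hc.schur b φ
  rw [dl2_sum]
  linarith

theorem dl_one : DL (fun _ : J → ℕ => (1 : ℝ)) :=
  DL.of_dl2 (fun _ => one_pos) fun b φ => by simp [dl2D]

/-- product of two arrays depending on disjoint sets of coordinates -/
theorem DL.mul {c₁ c₂ : (J → ℕ) → ℝ} (h₁ : DL c₁) (h₂ : DL c₂)
    (h : ∀ j, (∀ u, c₁ (u + e1 j) = c₁ u) ∨ ∀ u, c₂ (u + e1 j) = c₂ u) :
    DL fun u => c₁ u * c₂ u := by
  refine DL.of_dl2 (fun b => mul_pos (h₁.pos b) (h₂.pos b)) fun b φ => ?_
  have key : ∀ i j, dl2D (fun u => c₁ u * c₂ u) b i j =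
      c₂ b ^ 2 * dl2D c₁ b i j + c₁ b ^ 2 * dl2D c₂ b i j := by
    intro i j
    unfold dl2D
    beta_reduce
    have e : b + e1 i + e1 j = b + e1 j + e1 i := add_right_comm _ _ _
    rcases h i with hi | hi <;> rcases h j with hj | hj
    · rw [hj (b + e1 i), hi b, hj b]; ring
    · rw [hj (b + e1 i), hj b, e, hi (b + e1 j), hi b]; ring
    · rw [hj (b + e1 i), hj b, e, hi (b + e1 j), hi b]; ring
    · rw [hj (b + e1 i), hi b, hj b]; ring
  have e : ∑ i, ∑ j, φ i * φ j * dl2D (fun u => c₁ u * c₂ u) b i j =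
      c₂ b ^ 2 * (∑ i, ∑ j, φ i * φ j * dl2D c₁ b i j) +
        c₁ b ^ 2 * (∑ i, ∑ j, φ i * φ j * dl2D c₂ b i j) := by
    simp only [Finset.mul_sum, ← Finset.sum_add_distrib]
    refine Finset.sum_congr rfl fun i _ => Finset.sum_congr rfl fun j _ => ?_
    rw [key]
    ring
  rw [e]
  exact add_nonneg (mul_nonneg (sq_nonneg _) (h₁.dl2 b φ)) (mul_nonneg (sq_nonneg _) (h₂.dl2 b φ))

theorem DL.mul_lc {c : (J → ℕ) → ℝ} (hc : DL c) {κ : ℕ → ℝ} (hκ : LC κ) (j : J) :
    DL fun u => c u * κ (u j) := by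
  refine DL.of_dl2 (fun b => mul_pos (hc.pos b) (hκ.pos _)) fun b φ => ?_
  set a : J → ℝ := fun i => κ ((b + e1 i : J → ℕ) j) with ha
  have key : ∀ i k, a i * a k * dl2D c b i k +
      (if i = j then 1 else 0) * (if k = j then 1 else 0) *
        ((κ (b j + 1) ^ 2 - κ (b j) * κ (b j + 2)) * (c (b + e1 j + e1 j) * c b)) =
      dl2D (fun u => c u * κ (u j)) b i k := by
    intro i k
    unfold dl2D
    simp only [ha, Pi.add_apply]
    by_cases hi : i = j <;> by_cases hk : k = j
    · subst hi; subst hk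
      simp only [e1, Pi.single_eq_same, if_true, add_assoc (b k) 1 1]
      ring
    · subst hi
      simp only [e1, Pi.single_eq_same, Pi.single_eq_of_ne' hk, hk, if_true, if_false, add_zero]
      ring
    · subst hk
      simp only [e1, Pi.single_eq_same, Pi.single_eq_of_ne' hi, hi, if_true, if_false, add_zero]
      ring
    · simp only [e1, Pi.single_eq_of_ne' hk, Pi.single_eq_of_ne' hi, hi, hk, if_false, add_zero]
      ring
  set δ : ℝ := (κ (b j + 1) ^ 2 - κ (b j) * κ (b j + 2)) * (c (b + e1 j + e1 j) * c b) with hδ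
  have hδ0 : 0 ≤ δ :=
    mul_nonneg (sub_nonneg.2 (hκ.lc _)) (mul_pos (hc.pos _) (hc.pos _)).le
  have e : ∑ i, ∑ k, φ i * φ k * dl2D (fun u => c u * κ (u j)) b i k =
      (∑ i, ∑ k, (φ i * a i) * (φ k * a k) * dl2D c b i k) +
        (∑ i, φ i * (if i = j then 1 else 0)) ^ 2 * δ := by
    rw [sq, Finset.sum_mul_sum]
    simp only [Finset.sum_mul, ← Finset.sum_add_distrib]
    refine Finset.sum_congr rfl fun i _ => Finset.sum_congr rfl fun k _ => ?_
    rw [← key]
    ring
  rw [e]
  exact add_nonneg (hc.dl2 b _) (mul_nonneg (sq_nonneg _) hδ0)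

theorem DL.mul_prod_lc {c : (J → ℕ) → ℝ} (hc : DL c) {κ : J → ℕ → ℝ} (hκ : ∀ j, LC (κ j)) :
    DL fun u => c u * ∏ j, κ j (u j) := by
  have key : ∀ s : Finset J, DL fun u => c u * ∏ j ∈ s, κ j (u j) := by
    intro s
    induction s using Finset.induction_on with
    | empty => simpa using hc
    | insert j s hj ih =>
      have := ih.mul_lc (hκ j) j
      convert this using 2 with u
      rw [Finset.prod_insert hj]
      ring
  exact key Finset.univ

theorem dl2_sum_e1 (A : Finset J) (u : J → ℕ) (i : J) :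
    ∑ j ∈ A, (u + e1 i : J → ℕ) j = ∑ j ∈ A, u j + if i ∈ A then 1 else 0 := by
  simp only [Pi.add_apply, Finset.sum_add_distrib, e1, Finset.sum_pi_single']

theorem dl_gadget {κ : ℕ → ℝ} (hκ : LC κ) (A : Finset J) : DL fun u : J → ℕ => κ (∑ j ∈ A, u j) := by
  refine DL.of_dl2 (fun b => hκ.pos _) fun b φ => ?_
  set s := ∑ j ∈ A, b j with hs
  set δ : ℝ := κ (s + 1) ^ 2 - κ s * κ (s + 2) with hδ
  have key : ∀ i k, dl2D (fun u : J → ℕ => κ (∑ j ∈ A, u j)) b i k =
      (if i ∈ A then 1 else 0) * (if k ∈ A then 1 else 0) * δ := by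
    intro i k
    unfold dl2D
    simp only [dl2_sum_e1, ← hs]
    by_cases hi : i ∈ A <;> by_cases hk : k ∈ A <;>
      simp only [hi, hk, if_true, if_false, add_zero, add_assoc s 1 1, hδ] <;> ring
  have e : ∑ i, ∑ k, φ i * φ k * dl2D (fun u : J → ℕ => κ (∑ j ∈ A, u j)) b i k =
      (∑ i, φ i * (if i ∈ A then 1 else 0)) ^ 2 * δ := by
    rw [sq, Finset.sum_mul_sum]
    simp only [Finset.sum_mul]
    refine Finset.sum_congr rfl fun i _ => Finset.sum_congr rfl fun k _ => ?_
    rw [key]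
    ring
  rw [e]
  exact mul_nonneg (sq_nonneg _) (sub_nonneg.2 (hκ.lc _))

/-- product of gadgets on pairwise disjoint sets -/
theorem dl_gadgets {T : Type} (s : Finset T) {κ : T → ℕ → ℝ} (hκ : ∀ t, LC (κ t)) (A : T → Finset J)
    (hA : ∀ t t', t ≠ t' → Disjoint (A t) (A t')) :
    DL fun u : J → ℕ => ∏ t ∈ s, κ t (∑ j ∈ A t, u j) := by
  classical
  induction s using Finset.induction_on with
  | empty => simpa using dl_one
  | insert t s ht ih =>
    simp only [Finset.prod_insert ht]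
    refine DL.mul (dl_gadget (hκ t) (A t)) ih fun j => ?_
    by_cases hj : j ∈ A t
    · refine Or.inr fun u => Finset.prod_congr rfl fun t' ht' => ?_
      have hne : t ≠ t' := fun h => ht (h ▸ ht')
      have : j ∉ A t' := Finset.disjoint_left.1 (hA t t' hne) hj
      rw [dl2_sum_e1, if_neg this, add_zero]
    · refine Or.inl fun u => ?_
      rw [dl2_sum_e1, if_neg hj, add_zero]

/-- pull-back along an injection of the coordinates -/
theorem DL.comp {I : Type} [Fintype I] [DecidableEq I] {c : (I → ℕ) → ℝ} (hc : DL c) {f : I → J}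
    (hf : Function.Injective f) : DL fun u : J → ℕ => c fun i => u (f i) := by
  refine DL.of_dl2 (fun b => hc.pos _) fun b φ => ?_
  have h1 : ∀ (u : J → ℕ) (i : I), (fun k => (u + e1 (f i) : J → ℕ) (f k)) =
      (fun k => u (f k)) + e1 i := by
    intro u i
    funext k
    simp only [Pi.add_apply, e1, Pi.single_apply, hf.eq_iff]
  have h2 : ∀ (u : J → ℕ) (j : J), j ∉ Finset.univ.map ⟨f, hf⟩ →
      (fun k => (u + e1 j : J → ℕ) (f k)) = fun k => u (f k) := by
    intro u j hj
    funext k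
    have : f k ≠ j := fun h => hj (Finset.mem_map.2 ⟨k, Finset.mem_univ _, h⟩)
    simp only [Pi.add_apply, e1, Pi.single_eq_of_ne this, add_zero]
  have e : ∑ i, ∑ j, φ i * φ j * dl2D (fun u : J → ℕ => c fun i => u (f i)) b i j =
      ∑ i, ∑ j, φ (f i) * φ (f j) * dl2D c (fun k => b (f k)) i j := by
    rw [← Finset.sum_subset (Finset.subset_univ (Finset.univ.map ⟨f, hf⟩))]
    · rw [Finset.sum_map]
      refine Finset.sum_congr rfl fun i _ => ?_
      rw [← Finset.sum_subset (Finset.subset_univ (Finset.univ.map ⟨f, hf⟩))]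
      · rw [Finset.sum_map]
        refine Finset.sum_congr rfl fun j _ => ?_
        simp only [Function.Embedding.coeFn_mk, dl2D, h1]
      · intro j _ hj
        simp only [dl2D, h2 _ j hj]
        ring
    · intro i _ hi
      refine Finset.sum_eq_zero fun j _ => ?_
      have e' : b + e1 i + e1 j = b + e1 j + e1 i := add_right_comm _ _ _
      simp only [dl2D, e', h2 _ i hi]
      ring
  rw [e]
  exact hc.dl2 _ _

theorem LC.min_le {κ : ℕ → ℝ} (hκ : ∀ s, 0 < κ s) {N : ℕ}
    (h : ∀ s, s + 2 ≤ N → κ s * κ (s + 2) ≤ κ (s + 1) ^ 2) {s r t : ℕ} (h1 : s ≤ r) (h2 : r ≤ t)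
    (h3 : t ≤ N) : min (κ s) (κ t) ≤ κ r := by
  have step : ∀ m, m + 2 ≤ N → κ (m + 1) ≤ κ m → κ (m + 2) ≤ κ (m + 1) := by
    intro m hm hd
    have a1 := h m hm
    have a2 := hκ m
    have a3 := hκ (m + 1)
    have a4 := hκ (m + 2)
    by_contra hlt
    push Not at hlt
    nlinarith [mul_le_mul_of_nonneg_right hd a4.le, mul_lt_mul_of_pos_left hlt a3]
  have desc : ∀ m, κ (m + 1) ≤ κ m → ∀ k, m + k + 1 ≤ N → κ (m + k + 1) ≤ κ (m + k) := by
    intro m hm k
    induction k with
    | zero => intro _; simpa using hm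
    | succ k ih =>
      intro hk
      exact step (m + k) (by omega) (ih (by omega))
  by_cases hup : ∀ m, s ≤ m → m < r → κ m ≤ κ (m + 1)
  · refine (min_le_left _ _).trans ?_
    have : ∀ k, s + k ≤ r → κ s ≤ κ (s + k) := by
      intro k
      induction k with
      | zero => intro _; simp
      | succ k ih =>
        intro hk
        exact (ih (by omega)).trans (hup (s + k) (by omega) (by omega))
    have h4 := this (r - s) (by omega)
    rwa [Nat.add_sub_cancel' h1] at h4
  · push Not at hup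
    obtain ⟨m, hm1, hm2, hm3⟩ := hup
    refine (min_le_right _ _).trans ?_
    have : ∀ k, r + k ≤ N → κ (r + k) ≤ κ r := by
      intro k
      induction k with
      | zero => intro _; simp
      | succ k ih =>
        intro hk
        have h5 := desc m hm3.le (r + k - m) (by omega)
        have e : m + (r + k - m) = r + k := by omega
        rw [e] at h5
        exact h5.trans (ih (by omega))
    have h4 := this (t - r) (by omega)
    rwa [Nat.add_sub_cancel' h2] at h4

end Crest.Agent.R302
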