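import Crest.Agent.R302.Msum

/-!
# Row 302: the flow lemma

Induction on `K` (`Finset.induction_on`, generalising `w`, `φ`).  `K = ∅`: `lf g w φ = 0`.
`insert j K`: `x = x j`, `y = y j`, `N = N j`, `ĉ = msum K g` (DL), vertices `w_a = pt x y w a (N - a)` (`a ≤ N`),
`m_a = lf ĉ w_a φ` (`lf_msum`; `∑ m_a = 0`), edges `w_a + e_x` (`a < N`), `c_a = ĉ (w_a + e_x)`.
Use the shifted flow `ψ_0 = 0`, `ψ_{a+1} = (∑_{r ≤ a} m_r) / c_a` (so `ψ_{N+1} = 0`), and the children
`φ_a = φ - ψ_{a+1} e_x + ψ_a e_y`, for which `lf ĉ w_a φ_a = 0` (note `w_a + e_y = w_{a-1} + e_x` for `1 ≤ a ≤ N`).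
* `lf g u φ = lf g u φ_a + ψ_{a+1} g (u + e_x) - ψ_a g (u + e_y)`; summing over `a`, with `τ_a = pt x y w a (N - 1 - a)`
  (`τ_a + e_y = w_a`, `τ_a + e_x = w_{a+1}`), the extra terms are
  `∑_{a < N} ψ_{a+1} msum K (g (u + e_x + e_y) (F (u + e_y) - F (u + e_x))) τ_a`, and `2 ψ g ΔF ≤ g (ψ^2 / ω + ω ΔF^2)`.
* `green`: `∑_{a<N} ψ_{a+1}^2 c_a ≤ ∑_{a<N} gw N a * (-qf ĉ τ_a φ φ)` from `merge_step` (`t = 0`) at `τ_a`:
  with `e_a = ψ_{a+1}^2 c_a`, `qf ĉ τ_a φ φ ≤ e_{a+1} - 2 e_a + e_{a-1}`, `e_{-1} = e_N = 0`, and `gw` has second difference `-1`,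
  `gw N (-1) = gw N N = 0` (`green_sum`).
* `children`: for every `u`, `∑_{a ≤ N} qf g (pt x y u a (N-a)) φ φ ≤ ∑_{a ≤ N} qf g (pt x y u a (N-a)) φ_a φ_a`
  (`qf_add_two`; the cross terms telescope, the quadratic terms add up to `∑ n_a (ψ_{a+1} - ψ_a)^2 ≥ 0`).
  Transfer to `dsum K` with `dsum_shift`, `dsum_sum`, `dsum_mono` (`pt x y w a b = w + pt x y 0 a b`).
-/

set_option autoImplicit false
set_option linter.unusedSectionVars false

noncomputable section

namespace Crest.Agent.R302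

open Finset

variable {J : Type} [Fintype J] [DecidableEq J] {ι : Type} [Fintype ι] [DecidableEq ι]

/-- Green weights of the path -/
def gw (N a : ℕ) : ℝ := ((a : ℝ) + 1) * ((N : ℝ) - a) / 2

/-- `E (a + 1)` plays the role of `e_a` -/
theorem green_sum (N : ℕ) (E : ℕ → ℝ) (h0 : E 0 = 0) (hN : E (N + 1) = 0) :
    ∑ a ∈ range N, E (a + 1) = ∑ a ∈ range N, gw N a * (-E (a + 2) + 2 * E (a + 1) - E a) := by
  have key : ∀ m : ℕ, ∑ a ∈ range m, gw N a * (-E (a + 2) + 2 * E (a + 1) - E a) =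
      ∑ a ∈ range m, E (a + 1) + (((m : ℝ) + 1) * ((N : ℝ) - m) / 2 * E m -
        (m : ℝ) * ((N : ℝ) + 1 - m) / 2 * E (m + 1)) := by
    intro m
    induction m with
    | zero => simp [h0]
    | succ m ih =>
      rw [sum_range_succ, sum_range_succ, ih, gw]
      push_cast
      ring
  rw [key, hN]
  ring

theorem Flow_gw {N a : ℕ} (h : a < N) : 0 ≤ gw N a := by
  have : (a : ℝ) ≤ N := by exact_mod_cast h.le
  exact div_nonneg (mul_nonneg (by positivity) (by linarith)) (by norm_num)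

theorem green {c : (J → ℕ) → ℝ} (hc : DL c) (x y : J) (N : ℕ) (w : J → ℕ) (φ : Option J → ℝ)
    (ψ : ℕ → ℝ) (h0 : ψ 0 = 0) (hN : ψ (N + 1) = 0)
    (h : ∀ a ≤ N, lf c (pt x y w a (N - a)) φ =
      ψ (a + 1) * c (pt x y w (a + 1) (N - a)) - ψ a * c (pt x y w a (N - a + 1))) :
    ∑ a ∈ range N, ψ (a + 1) ^ 2 * c (pt x y w (a + 1) (N - a)) ≤
      ∑ a ∈ range N, gw N a * -qf c (pt x y w a (N - 1 - a)) φ φ := by
  have h1 := green_sum N (fun a => ψ a ^ 2 * c (pt x y w a (N + 1 - a))) (by simp [h0]) (by simp [hN])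
  simp only [Nat.add_sub_add_right] at h1
  rw [h1]
  refine sum_le_sum fun a ha => mul_le_mul_of_nonneg_left ?_ (Flow_gw (mem_range.1 ha))
  have ha' := mem_range.1 ha
  obtain ⟨r, hr⟩ : ∃ r, N - 1 - a = r := ⟨_, rfl⟩
  have a1 := h a (by omega)
  have a2 := h (a + 1) (by omega)
  rw [show N - a = r + 1 by omega] at a1
  rw [show N - (a + 1) = r by omega] at a2
  have a3 := merge_step hc x y (pt x y w a r) φ (ψ₀ := ψ a) (ψ₁ := ψ (a + 1)) (ψ₂ := ψ (a + 1 + 1))
    (t := 0) (by simpa only [pt_add_x, pt_add_y, add_zero] using a1)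
    (by simpa only [pt_add_x, pt_add_y, add_zero] using a2)
  simp only [pt_add_x, pt_add_y, add_zero] at a3
  rw [hr, show N - (a + 1) = r by omega, show N - a = r + 1 by omega,
    show N + 1 - a = r + 1 + 1 by omega]
  linarith

theorem children {g : (J → ℕ) → ℝ} (hg : ∀ u, 0 ≤ g u) (x y : J) (N : ℕ) (u : J → ℕ)
    (φ : Option J → ℝ) (ψ : ℕ → ℝ) (h0 : ψ 0 = 0) (hN : ψ (N + 1) = 0) :
    ∑ a ∈ range (N + 1), qf g (pt x y u a (N - a)) φ φ ≤
      ∑ a ∈ range (N + 1), qf g (pt x y u a (N - a))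
        (φ + (-ψ (a + 1)) • Pi.single (some x) 1 + ψ a • Pi.single (some y) 1)
        (φ + (-ψ (a + 1)) • Pi.single (some x) 1 + ψ a • Pi.single (some y) 1) := by
  set T : ℕ → ℝ := fun a => ψ a ^ 2 * g (pt x y u (a + 1) (N + 1 - a)) -
    ψ a ^ 2 * g (pt x y u a (N + 2 - a)) - 2 * (ψ a * lf g (pt x y u a (N + 1 - a)) φ) with hT
  have h1 : ∑ a ∈ range (N + 1), (T (a + 1) - T a) = 0 := by
    rw [sum_range_sub]
    simp [hT, h0, hN]
  rw [← add_zero (∑ a ∈ range (N + 1), qf g (pt x y u a (N - a)) φ φ), ← h1, ← sum_add_distrib]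
  refine sum_le_sum fun a ha => ?_
  have ha' := mem_range.1 ha
  obtain ⟨r, hr⟩ : ∃ r, N - a = r := ⟨_, rfl⟩
  rw [qf_add_two]
  simp only [hT, pt_add_x, pt_add_y]
  rw [hr, show N + 1 - (a + 1) = r by omega, show N + 2 - (a + 1) = r + 1 by omega,
    show N + 1 - a = r + 1 by omega, show N + 2 - a = r + 1 + 1 by omega]
  have := mul_nonneg (hg (pt x y u (a + 1) (r + 1))) (sq_nonneg (ψ (a + 1) - ψ a))
  linarith

theorem Flow_lf (c : (J → ℕ) → ℝ) (u : J → ℕ) (φ : Option J → ℝ) (x y : J) (α β : ℝ) :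
    lf c u (φ + α • Pi.single (some x) 1 + β • Pi.single (some y) 1) =
      lf c u φ + α * c (u + e1 x) + β * c (u + e1 y) := by
  rw [lf_add, lf_add, lf_smul, lf_smul, lf_single, lf_single, ee_some, ee_some]

theorem Flow_pt (x y : J) (w : J → ℕ) (a b : ℕ) : pt x y w a b = w + pt x y 0 a b := by
  simp [pt, add_assoc]

theorem flow {g : (J → ℕ) → ℝ} (hg : DL g) (x y : ι → J) (N : ι → ℕ) (ω : ι → ℝ) (hω : ∀ k, 0 < ω k)
    (F : (J → ℕ) → ℝ) (K : Finset ι) (w : J → ℕ) (φ : Option J → ℝ)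
    (h : msum x y N K (fun u => lf g u φ) w = 0) :
    2 * msum x y N K (fun u => lf g u φ * F u) w ≤
      dsum x y N K (fun k a u => gw (N k) a * -qf g u φ φ / ω k +
        ω k * (g (u + e1 (x k) + e1 (y k)) * (F (u + e1 (x k)) - F (u + e1 (y k))) ^ 2)) w := by
  induction K using Finset.induction_on generalizing w φ with
  | empty =>
    rw [msum_empty] at h
    rw [msum_empty, dsum_empty, h]
    simp
  | insert j K hj ih =>
    rw [msum_insert x y N hj] at h
    rw [msum_insert x y N hj, dsum_insert x y N hj]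
    simp only [mrg] at h ⊢
    have hc : DL (msum x y N K g) := DL.msum x y N hg K
    have hw := hω j
    generalize x j = X at *
    generalize y j = Y at *
    generalize N j = n at *
    generalize ω j = o at *
    simp only [← lf_msum] at h ih
    obtain ⟨ψ, h0, hn, hψ⟩ : ∃ ψ : ℕ → ℝ, ψ 0 = 0 ∧ ψ (n + 1) = 0 ∧ ∀ a ≤ n,
        lf (msum x y N K g) (pt X Y w a (n - a)) φ =
          ψ (a + 1) * msum x y N K g (pt X Y w (a + 1) (n - a)) -
            ψ a * msum x y N K g (pt X Y w a (n - a + 1)) := by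
      refine ⟨fun a => (∑ r ∈ range a, lf (msum x y N K g) (pt X Y w r (n - r)) φ) /
        msum x y N K g (pt X Y w a (n + 1 - a)), by simp, by simp only [h, zero_div], fun a ha => ?_⟩
      beta_reduce
      rw [Nat.add_sub_add_right, show n + 1 - a = n - a + 1 by omega,
        div_mul_cancel₀ _ (hc.pos _).ne', div_mul_cancel₀ _ (hc.pos _).ne', sum_range_succ]
      ring
    set Φ : ℕ → Option J → ℝ := fun a =>
      φ + (-ψ (a + 1)) • Pi.single (some X) 1 + ψ a • Pi.single (some Y) 1 with hΦ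
    have i1 := sum_le_sum fun a (ha : a ∈ range (n + 1)) => ih (pt X Y w a (n - a)) (Φ a) (by
      rw [hΦ, Flow_lf, hψ a (by have := mem_range.1 ha; omega), pt_add_x, pt_add_y]
      ring)
    have i2 : ∑ a ∈ range (n + 1), dsum x y N K (fun k a' u => gw (N k) a' * -qf g u (Φ a) (Φ a) / ω k +
          ω k * (g (u + e1 (x k) + e1 (y k)) * (F (u + e1 (x k)) - F (u + e1 (y k))) ^ 2))
          (pt X Y w a (n - a)) ≤
        ∑ a ∈ range (n + 1), dsum x y N K (fun k a' u => gw (N k) a' * -qf g u φ φ / ω k +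
          ω k * (g (u + e1 (x k) + e1 (y k)) * (F (u + e1 (x k)) - F (u + e1 (y k))) ^ 2))
          (pt X Y w a (n - a)) := by
      simp only [Flow_pt X Y w, dsum_shift]
      rw [← dsum_sum, ← dsum_sum]
      refine dsum_mono x y N K (fun k _ a' ha' u => ?_) w
      simp only [← Flow_pt, sum_add_distrib]
      refine add_le_add ?_ le_rfl
      rw [← sum_div, ← sum_div, ← mul_sum, ← mul_sum, sum_neg_distrib, sum_neg_distrib]
      refine div_le_div_of_nonneg_right (mul_le_mul_of_nonneg_left (neg_le_neg ?_) (Flow_gw ha'))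
        (hω k).le
      exact children (fun u => (hg.pos u).le) X Y n u φ ψ h0 hn
    have i3 : ∀ a, msum x y N K (fun u => lf g u φ * F u) (pt X Y w a (n - a)) =
        msum x y N K (fun u => lf g u (Φ a) * F u) (pt X Y w a (n - a)) +
          ψ (a + 1) * msum x y N K (fun u => g (u + e1 X) * F u) (pt X Y w a (n - a)) +
          -ψ a * msum x y N K (fun u => g (u + e1 Y) * F u) (pt X Y w a (n - a)) := by
      intro a
      rw [← msum_mul, ← msum_mul, ← msum_add, ← msum_add]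
      congr 1
      funext u
      rw [hΦ, Flow_lf]
      ring
    have i4 : ∀ a ∈ range n,
        2 * (ψ (a + 1) * msum x y N K (fun u => g (u + e1 X) * F u) (pt X Y w a (n - a))) +
          2 * (-ψ (a + 1) *
            msum x y N K (fun u => g (u + e1 Y) * F u) (pt X Y w (a + 1) (n - (a + 1)))) ≤
        o⁻¹ * (ψ (a + 1) ^ 2 * msum x y N K g (pt X Y w (a + 1) (n - a))) +
          msum x y N K (fun u => o * (g (u + e1 X + e1 Y) * (F (u + e1 X) - F (u + e1 Y)) ^ 2))
            (pt X Y w a (n - 1 - a)) := by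
      intro a ha
      have ha' := mem_range.1 ha
      obtain ⟨r, hr⟩ : ∃ r, n - 1 - a = r := ⟨_, rfl⟩
      rw [hr, show n - a = r + 1 by omega, show n - (a + 1) = r by omega, ← pt_add_y, ← pt_add_y,
        ← pt_add_x, add_assoc (pt X Y w a r), msum_shift, msum_shift, msum_shift, ← mul_assoc,
        ← mul_assoc, ← mul_assoc, ← msum_mul, ← msum_mul, ← msum_mul, ← msum_add, ← msum_add]
      refine msum_mono x y N K (fun u => ?_) _
      rw [← add_assoc, add_right_comm u (e1 Y) (e1 X)]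
      have b1 := mul_nonneg (mul_nonneg (inv_pos.2 hw).le (hg.pos (u + e1 X + e1 Y)).le)
        (sq_nonneg (ψ (a + 1) + o * (F (u + e1 X) - F (u + e1 Y))))
      have b2 : o⁻¹ * g (u + e1 X + e1 Y) * (ψ (a + 1) + o * (F (u + e1 X) - F (u + e1 Y))) ^ 2 =
          o⁻¹ * ψ (a + 1) ^ 2 * g (u + e1 X + e1 Y) +
            o * (g (u + e1 X + e1 Y) * (F (u + e1 X) - F (u + e1 Y)) ^ 2) +
            2 * ψ (a + 1) * g (u + e1 X + e1 Y) * (F (u + e1 X) - F (u + e1 Y)) := by
        field_simp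
        ring
      linarith
    have i5 := mul_le_mul_of_nonneg_left (green hc X Y n w φ ψ h0 hn hψ) (inv_pos.2 hw).le
    have i6 : ∀ a, msum x y N K (fun u => gw n a * -qf g u φ φ / o +
          o * (g (u + e1 X + e1 Y) * (F (u + e1 X) - F (u + e1 Y)) ^ 2)) (pt X Y w a (n - 1 - a)) =
        o⁻¹ * (gw n a * -qf (msum x y N K g) (pt X Y w a (n - 1 - a)) φ φ) +
          msum x y N K (fun u => o * (g (u + e1 X + e1 Y) * (F (u + e1 X) - F (u + e1 Y)) ^ 2))
            (pt X Y w a (n - 1 - a)) := by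
      intro a
      rw [msum_add, qf_msum, mul_neg, ← neg_mul, ← mul_assoc, ← msum_mul]
      congr 2
      funext u
      ring
    have i7 := sum_le_sum i4
    simp only [i3, i6, sum_add_distrib, ← mul_sum] at i1 i7 ⊢
    rw [sum_range_succ (fun a => ψ (a + 1) * _), sum_range_succ' (fun a => -ψ a * _), h0, hn]
    linarith

end Crest.Agent.R302
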