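import Crest.Agent.R302.Target

/-!
# Row 302: matroids as polymatroids
* `mrk M A = (M.eRk A).toNat` (finite: `eRk_le_encard`); `Matroid.eRk_inter_add_eRk_union_le`, `eRk_mono`.
* `num_eq`: a vector `x` counted by `numCommonIntBases` has `x j ≤ mrk {j} ≤ 1`, so it is the indicator of `B = {j | x j = 1}`; `|B| ≤ mrk B` gives independence
  (`Matroid.indep_iff_eRk_eq_encard_of_finite`), `|B| = r` gives a base (`Indep.isBase_of_eRk_ge` or `isBase_iff_indep_encard…`); conversely for a base `B`,
  `|B ∩ A| = eRk (B ∩ A) ≤ eRk A`.  (For `r = 0` the indicator of a base still has values in `Fin (r + 1)`: `B = ∅`.)  `Finset.card_bij`/`card_nbij'`.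
* `det_rankQ`: `det_foldQ`; the greedy invariant after the indices `< j`: `bset n cur` is a basis (`Matroid.IsBasis`, or maximal independent subset) of
  `bset n s ∩ {i < j}` and the counter is its cardinality (`Indep.insert_indep_iff_of_notMem`, closure; `IsBasis.encard_eq_eRk`).
* `good_matroid`: `A' a = sim (rankQ (min (a.2.headD 0) a.1.length)) (a.2.getD 1 0 + 1) (A a) (d a) (0, 1)` with `d` from `PTO.exists_dep`; `n ≤ sizeParam`;
  `ex_sim`, `allO_sim`, `PTO.sim`.
-/

set_option autoImplicit false

noncomputable section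

namespace Crest.Agent.R302

open Finset Crest.Polymatroid Crest.Agent.Lib.PolyTime Crest.Agent.R309 QT

/-- the rank function of a matroid -/
def mrk {n : ℕ} (M : Matroid (Fin n)) (A : Finset (Fin n)) : ℕ := (M.eRk (A : Set (Fin n))).toNat

theorem mrk_cast {n : ℕ} (M : Matroid (Fin n)) (A : Finset (Fin n)) :
    (mrk M A : ℕ∞) = M.eRk (A : Set (Fin n)) :=
  ENat.natCast_toNat (ne_top_of_le_ne_top (by simp) (M.eRk_le_encard _))

theorem mrk_le_card {n : ℕ} (M : Matroid (Fin n)) (A : Finset (Fin n)) : mrk M A ≤ A.card := by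
  have h := M.eRk_le_encard (A : Set (Fin n))
  rw [← mrk_cast, Set.encard_coe_eq_coe_finsetCard] at h
  exact_mod_cast h

theorem indep_iff_mrk {n : ℕ} (M : Matroid (Fin n)) (A : Finset (Fin n)) :
    M.Indep (A : Set (Fin n)) ↔ A.card ≤ mrk M A := by
  rw [Matroid.indep_iff_eRk_eq_encard_of_finite A.finite_toSet, ← mrk_cast,
    Set.encard_coe_eq_coe_finsetCard, Nat.cast_inj]
  have := mrk_le_card M A
  omega

theorem mrk_rank {n : ℕ} (M : Matroid (Fin n)) : IsPolymatroidRank (mrk M) := by
  refine ⟨by simp [mrk], fun A B h => ?_, fun A B => ?_⟩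
  · have h1 := M.eRk_mono (Finset.coe_subset.2 h)
    rw [← mrk_cast, ← mrk_cast] at h1
    exact_mod_cast h1
  · have h1 := M.eRk_inter_add_eRk_union_le (A : Set (Fin n)) B
    rw [← Finset.coe_inter, ← Finset.coe_union, ← mrk_cast, ← mrk_cast, ← mrk_cast, ← mrk_cast,
      add_comm] at h1
    exact_mod_cast h1

theorem mrk_univ {n r : ℕ} {M : Matroid (Fin n)} (hE : M.E = Set.univ) (hr : M.eRank = r) :
    mrk M univ = r := by
  have _ := hE
  simp [mrk, hr]

theorem isBase_iff_mrk {n r : ℕ} {M : Matroid (Fin n)} (hr : M.eRank = r) (B : Finset (Fin n)) :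
    M.IsBase (B : Set (Fin n)) ↔ B.card = r ∧ ∀ A : Finset (Fin n), (A ∩ B).card ≤ mrk M A := by
  constructor
  · intro h
    refine ⟨?_, fun A => ?_⟩
    · have h1 := h.encard_eq_eRank
      rw [hr, Set.encard_coe_eq_coe_finsetCard] at h1
      exact_mod_cast h1
    · have h1 : M.Indep ((A ∩ B : Finset (Fin n)) : Set (Fin n)) :=
        h.indep.subset (Finset.coe_subset.2 inter_subset_right)
      exact ((indep_iff_mrk M _).1 h1).trans ((mrk_rank M).2.1 _ _ inter_subset_left)
  · rintro ⟨h1, h2⟩
    have hi : M.Indep (B : Set (Fin n)) := (indep_iff_mrk M B).2 (by simpa using h2 B)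
    refine hi.isBase_of_eRk_ge B.finite_toSet ?_
    rw [hi.eRk_eq_encard, hr, Set.encard_coe_eq_coe_finsetCard, h1]

theorem sum_eq_card_of_le_one {n : ℕ} {x : Fin n → ℕ} (hx : ∀ j, x j ≤ 1) (A : Finset (Fin n)) :
    ∑ j ∈ A, x j = (A ∩ univ.filter fun j => x j = 1).card := by
  rw [inter_filter, inter_univ, card_filter]
  refine sum_congr rfl fun j _ => ?_
  have := hx j
  split_ifs <;> omega

theorem num_eq {n r : ℕ} {M₁ M₂ : Matroid (Fin n)} (h₁ : M₁.E = Set.univ) (h₂ : M₂.E = Set.univ)
    (e₁ : M₁.eRank = r) (e₂ : M₂.eRank = r) :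
    numCommonIntBases r (mrk M₁) (mrk M₂) = numCommonBases M₁ M₂ := by
  have _ := h₁
  have _ := h₂
  have hle : ∀ x : Fin n → Fin (r + 1), (∀ A : Finset (Fin n), (∑ j ∈ A, (x j : ℕ)) ≤ mrk M₁ A ∧
      (∑ j ∈ A, (x j : ℕ)) ≤ mrk M₂ A) → ∀ j, (x j : ℕ) ≤ 1 := fun x hx j => by
    simpa using (hx {j}).1.trans (mrk_le_card M₁ {j})
  unfold numCommonIntBases numCommonBases
  refine card_bij (fun x _ => univ.filter fun j => (x j : ℕ) = 1) (fun x hx => ?_)
    (fun x hx y hy h => ?_) fun B hB => ?_
  · simp only [mem_filter, mem_univ, true_and] at hx ⊢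
    have h1 := sum_eq_card_of_le_one (hle x hx.2)
    rw [isBase_iff_mrk e₁, isBase_iff_mrk e₂]
    have h0 : (univ.filter fun j => (x j : ℕ) = 1).card = r := by
      have h2 := hx.1
      rwa [h1, univ_inter] at h2
    exact ⟨⟨h0, fun A => h1 A ▸ (hx.2 A).1⟩, h0, fun A => h1 A ▸ (hx.2 A).2⟩
  · simp only [mem_filter, mem_univ, true_and] at hx hy
    funext j
    have h1 := hle x hx.2 j
    have h2 := hle y hy.2 j
    have h3 : (x j : ℕ) = 1 ↔ (y j : ℕ) = 1 := by simpa using Finset.ext_iff.1 h j
    exact Fin.ext (by omega)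
  · simp only [mem_filter, mem_univ, true_and] at hB
    rw [isBase_iff_mrk e₁, isBase_iff_mrk e₂] at hB
    have hlt : ∀ j, (if j ∈ B then 1 else 0) < r + 1 := fun j => by
      split_ifs with h
      · have := card_pos.2 ⟨j, h⟩
        omega
      · omega
    have hf : (univ.filter fun j => (if j ∈ B then 1 else 0) = 1) = B := by
      ext j
      simp
    have h1 := sum_eq_card_of_le_one (x := fun j => if j ∈ B then 1 else 0)
      fun j => by split_ifs <;> omega
    rw [hf] at h1
    refine ⟨fun j => ⟨_, hlt j⟩, ?_, hf⟩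
    simp only [mem_filter, mem_univ, true_and]
    exact ⟨by rw [h1, univ_inter, hB.1.1], fun A => by rw [h1]; exact ⟨hB.1.2 A, hB.2.2 A⟩⟩

/-- the greedy algorithm -/
def rankQ (n : ℕ) (b : Bool) (s : List Bool) : QT ℕ :=
  (foldQ (fun (st : List Bool × ℕ) j =>
    if s.getD j false = true then
      (query b (st.1.set j true) 1).map fun v => if v = 1 then (st.1.set j true, st.2 + 1) else st
    else QT.ret st) (List.range n) (List.replicate n false, 0)).map Prod.snd

open Classical in
/-- the greedy step -/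
def grd {n : ℕ} (M : Matroid (Fin n)) (s : List Bool) (st : List Bool × ℕ) (j : ℕ) : List Bool × ℕ :=
  if s.getD j false = true then
    if M.Indep (bset n (st.1.set j true) : Set (Fin n)) then (st.1.set j true, st.2 + 1) else st
  else st

theorem bset_set {n : ℕ} {l : List Bool} (hl : l.length = n) (e : Fin n) :
    bset n (l.set e true) = insert e (bset n l) := by
  ext i
  simp only [bset, mem_filter, mem_univ, true_and, mem_insert, List.getD_eq_getElem?_getD,
    List.getElem?_set]
  by_cases h : i = e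
  · subst h
    simp [hl]
  · have : ¬ (e : ℕ) = i := fun h' => h (Fin.ext h'.symm)
    simp [h, this]

theorem grd_inv {n : ℕ} {M : Matroid (Fin n)} (hE : M.E = Set.univ) (s : List Bool) (j : ℕ) (hj : j ≤ n) :
    ((List.range j).foldl (grd M s) (List.replicate n false, 0)).1.length = n ∧
      M.IsBasis (bset n ((List.range j).foldl (grd M s) (List.replicate n false, 0)).1 : Set (Fin n))
        {i | i ∈ bset n s ∧ (i : ℕ) < j} ∧
      ((List.range j).foldl (grd M s) (List.replicate n false, 0)).2 =
        (bset n ((List.range j).foldl (grd M s) (List.replicate n false, 0)).1).card := by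
  induction j with
  | zero =>
    have h0 : bset n (List.replicate n false) = ∅ := by
      ext i
      simp [bset]
    simp [h0]
  | succ j ih =>
    obtain ⟨h1, h2, h3⟩ := ih (by omega)
    rw [List.range_succ, List.foldl_append, List.foldl_cons, List.foldl_nil]
    generalize (List.range j).foldl (grd M s) (List.replicate n false, 0) = st at h1 h2 h3
    set e : Fin n := ⟨j, hj⟩ with he
    have hb : bset n (st.1.set j true) = insert e (bset n st.1) := bset_set h1 e
    have hne : e ∉ bset n st.1 := fun h => by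
      have := (h2.subset (Finset.mem_coe.2 h)).2
      simp [he] at this
    unfold grd
    by_cases hs : s.getD j false = true
    · have hX : {i : Fin n | i ∈ bset n s ∧ (i : ℕ) < j + 1} =
          insert e {i : Fin n | i ∈ bset n s ∧ (i : ℕ) < j} := by
        ext i
        simp only [Set.mem_ofPred_eq, Set.mem_insert_iff]
        constructor
        · rintro ⟨a, b⟩
          by_cases h : i = e
          · exact Or.inl h
          · have : (i : ℕ) ≠ j := fun h' => h (Fin.ext h')
            exact Or.inr ⟨a, by omega⟩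
        · rintro (rfl | ⟨a, b⟩)
          · exact ⟨by simpa [bset, he] using hs, by simp [he]⟩
          · exact ⟨a, by omega⟩
      rw [if_pos hs, hX, hb, Finset.coe_insert]
      split_ifs with hi
      · refine ⟨by simpa using h1, ?_, ?_⟩
        · simp only [hb, Finset.coe_insert]
          exact h2.insert_isBasis_insert hi
        · simp only [hb, card_insert_of_notMem hne, h3]
      · refine ⟨h1, ?_, h3⟩
        have h4 : M.IsBasis (bset n st.1 : Set (Fin n)) (insert e (bset n st.1 : Set (Fin n))) :=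
          h2.indep.isBasis_insert_iff.2 (Or.inl ⟨hi, by simp [hE]⟩)
        have h5 := h4.isBasis_union h2
        rwa [Set.insert_union, Set.union_eq_self_of_subset_left h2.subset] at h5
    · have hX : {i : Fin n | i ∈ bset n s ∧ (i : ℕ) < j + 1} =
          {i : Fin n | i ∈ bset n s ∧ (i : ℕ) < j} := by
        ext i
        simp only [Set.mem_ofPred_eq]
        refine ⟨fun ⟨a, b⟩ => ⟨a, ?_⟩, fun ⟨a, b⟩ => ⟨a, by omega⟩⟩
        have : (i : ℕ) ≠ j := fun h' => hs (by simpa [bset, h'] using a)
        omega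
      rw [if_neg hs, hX]
      exact ⟨h1, h2, h3⟩

theorem det_rankQ {n : ℕ} {M₁ M₂ : Matroid (Fin n)} (h₁ : M₁.E = Set.univ) (h₂ : M₂.E = Set.univ)
    (b : Bool) (s : List Bool) :
    Det (ol n (indepOracle M₁ M₂)) (rankQ n b s) (ol n (fun b => if b then mrk M₂ else mrk M₁) b s) := by
  have hE : (if b then M₂ else M₁).E = Set.univ := by cases b <;> simpa
  have hd := (det_foldQ (O := ol n (indepOracle M₁ M₂)) (P := fun _ => True)
    (step := fun (st : List Bool × ℕ) j =>
      if s.getD j false = true then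
        (query b (st.1.set j true) 1).map fun v => if v = 1 then (st.1.set j true, st.2 + 1) else st
      else QT.ret st) (F := grd (if b then M₂ else M₁) s) (l := List.range n)
    (s := (List.replicate n false, 0)) (fun st j _ _ => ⟨?_, trivial⟩) trivial).map Prod.snd
  · obtain ⟨-, h2, h3⟩ := grd_inv hE s n le_rfl
    have hX : {i : Fin n | i ∈ bset n s ∧ (i : ℕ) < n} = (bset n s : Set (Fin n)) := by
      ext i
      simp
    rw [hX] at h2
    have h4 := h2.encard_eq_eRk
    rw [← mrk_cast, Set.encard_coe_eq_coe_finsetCard, Nat.cast_inj, ← h3] at h4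
    rw [h4] at hd
    have e : ol n (fun b => if b then mrk M₂ else mrk M₁) b s = mrk (if b then M₂ else M₁) (bset n s) := by
      cases b <;> rfl
    rw [e]
    exact hd
  · unfold grd
    by_cases hs : s.getD j false = true
    · rw [if_pos hs, if_pos hs]
      have hq := (det_query (O := ol n (indepOracle M₁ M₂)) b (st.1.set j true) (M := 1) (by
        simp only [ol, indepOracle]
        generalize (if b = true then M₂ else M₁) = M
        split_ifs <;> omega)).map fun v => if v = 1 then (st.1.set j true, st.2 + 1) else st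
      convert hq using 1
      simp only [ol, indepOracle]
      by_cases hi : (if b then M₂ else M₁).Indep (bset n (st.1.set j true) : Set (Fin n))
      · simp only [hi, if_true]
      · simp [hi]
    · rw [if_neg hs, if_neg hs]
      exact det_ret _

theorem pto_rankQ {α : Type} [Enc α] {n : α → ℕ} {b : α → Bool} {s : α → List Bool} (hn : PT n) (hn' : PB n)
    (hb : PT b) (hs : PT s) : PTO fun a => rankQ (n a) (b a) (s a) := by
  refine PTO.map (g := fun _ => Prod.snd) (PTO.foldQ_idx
    (step := fun a (st : List Bool × ℕ) j =>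
      if (s a).getD j false = true then
        (query (b a) (st.1.set j true) 1).map fun v => if v = 1 then (st.1.set j true, st.2 + 1) else st
      else QT.ret st) (fun a => n a * 4 + 1 + esize (n a) + 1)
    (fun a i st => st.1.length = n a ∧ st.2 ≤ i) (by fun_prop) (by fun_prop) ?_ (by fun_prop)
    (fun a => by simp) (fun a i st j _ _ hI => ?_) fun a i st hi hI => ?_) (by fun_prop)
  · refine PTO.ite (by fun_prop) (PTO.map (g := fun (p : α × (List Bool × ℕ) × ℕ) v =>
      if v = 1 then (p.2.1.1.set p.2.2 true, p.2.1.2 + 1) else p.2.1)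
      (PTO.query (by fun_prop) (by fun_prop) (by fun_prop)) (by fun_prop)) (PTO.ret (by fun_prop))
  · split_ifs
    · rw [all_map]
      refine all_of_forall _ fun v => ?_
      split_ifs
      · exact ⟨by simpa using hI.1, by simpa using hI.2⟩
      · exact ⟨hI.1, by omega⟩
    · exact ⟨hI.1, by omega⟩
  · rw [List.length_range] at hi
    have h1 := esize_list_le (l := st.1) fun v _ => esize_bool_le v
    have h2 : esize st.2 ≤ esize (n a) := esize_nat_mono (by omega)
    rw [hI.1] at h1
    rw [show st = (st.1, st.2) from rfl, esize_pair]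
    omega

theorem good_matroid {A : List Unit × List ℕ → QT (ℕ × ℕ)} (hA : PTO A) (hG : Good A) :
    ∃ A' : List Unit × List ℕ → QT (ℕ × ℕ), PTO A' ∧
      ∀ (n r : ℕ) (M₁ M₂ : Matroid (Fin n)) (ε δ : ℚ), M₁.E = Set.univ → M₂.E = Set.univ →
        M₁.eRank = r → M₂.eRank = r → 0 < ε → ε < 1 → 0 < δ → δ < 1 →
        AllO (ol n (indepOracle M₁ M₂)) (fun y => 0 < y.2 ∧ (numCommonBases M₁ M₂ = 0 → y.1 = 0))
          (A' (List.replicate (sizeParam n r ε δ) (), countInput n r ε δ)) ∧
        pr (ol n (indepOracle M₁ M₂)) (A' (List.replicate (sizeParam n r ε δ) (), countInput n r ε δ))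
          (fun y => ¬ ((1 - ε) * numCommonBases M₁ M₂ ≤ (y.1 : ℚ) / y.2 ∧
            (y.1 : ℚ) / y.2 ≤ (1 + ε) * numCommonBases M₁ M₂)) ≤ δ := by
  obtain ⟨d, hd, hd', hdep⟩ := hA.exists_dep
  have hR : PTO fun p : (List Unit × List ℕ) × Bool × List Bool =>
      rankQ (min (p.1.2.headD 0) p.1.1.length) p.2.1 p.2.2 :=
    pto_rankQ (n := fun p : (List Unit × List ℕ) × Bool × List Bool => min (p.1.2.headD 0) p.1.1.length)
      (b := fun p => p.2.1) (s := fun p => p.2.2) (by fun_prop) (PB.min_right (by fun_prop)) (by fun_prop)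
      (by fun_prop)
  refine ⟨fun a => sim (rankQ (min (a.2.headD 0) a.1.length)) (a.2.getD 1 0 + 1) (A a) (d a) (0, 1),
    PTO.sim (h := fun a => rankQ (min (a.2.headD 0) a.1.length)) (M := fun a => a.2.getD 1 0 + 1)
      (b₀ := fun _ => (0, 1)) hR (by fun_prop) hA hd hd' (by fun_prop),
    fun n r M₁ M₂ ε δ h₁ h₂ e₁ e₂ a1 a2 a3 a4 => ?_⟩
  obtain ⟨g1, g2⟩ := hG n r (mrk M₁) (mrk M₂) ε δ (mrk_rank _) (mrk_rank _) (mrk_univ h₁ e₁)
    (mrk_univ h₂ e₂) a1 a2 a3 a4
  rw [num_eq h₁ h₂ e₁ e₂] at g1 g2
  have e : min ((countInput n r ε δ).headD 0) (List.replicate (sizeParam n r ε δ) ()).length = n := by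
    simp only [countInput, List.headD_cons, List.length_replicate, sizeParam]
    omega
  have e' : (countInput n r ε δ).getD 1 0 = r := rfl
  have hM : ∀ b s, ol n (fun b => if b then mrk M₂ else mrk M₁) b s ≤ r + 1 := fun b s =>
    R302.IsPolymatroidRank.le_succ (mrk_rank M₁) (mrk_rank M₂) (mrk_univ h₁ e₁) (mrk_univ h₂ e₂) b
      (bset n s)
  simp only [e, e']
  refine ⟨allO_sim (det_rankQ h₁ h₂) hM (hdep _) _ g1, ?_⟩
  unfold pr at g2 ⊢
  rw [ex_sim (det_rankQ h₁ h₂) hM (hdep _)]
  exact g2

end Crest.Agent.R302
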