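import Crest.Agent.R302.DL

/-!
# Row 302: merging coordinates of DL arrays

`pt x y w a b = w + a e_x + b e_y`; `mrg x y N G w = ∑_{a ≤ N} G (w + a e_x + (N - a) e_y)`;
`msum x y N K G w` is the iterated merge over the pairs `(x k, y k)`, `k ∈ K`, with sums `N k`.

Recipe.
* `merge_step`: at the base point `b` the vector `Φ = φ - ψ₂ e_x + (ψ₁ + t) e_y` has `lf c (b + e_x) Φ = 0` (hypothesis `h2`), so
  `qf c b Φ Φ ≤ 0` (`DL.nonpos`); expand with `qf_add_two`, substitute `h1`, `h2` and use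
  `2 (ψ₁+t) (ψ₀+t) - (ψ₁+t)^2 ≤ (ψ₀+t)^2`.
* `merge_ineq`: `c_a = c (w + a e_x + (N+2-a) e_y)` (`a ≤ N+2`), `m_a = lf c (w + a e_x + (N+1-a) e_y) φ` (`a ≤ N+1`),
  `t = -∑ m / ∑ c`, `ψ_0 = 0`, `ψ_{a+1} c_{a+1} = m_a + (ψ_a + t) c_a`, i.e. `ψ_a = (∑_{r<a} m_r + t ∑_{r<a} c_r) / c_a`;
  then `ψ_{N+2} = -t`.  `merge_step` at `b = w + a e_x + (N-a) e_y` with `ψ₀, ψ₁, ψ₂ = ψ_a, ψ_{a+1}, ψ_{a+2}`; summing over `a ≤ N` the
  coefficient of every `c_r` is at most `t^2 = ψ_r^2 - 2 ψ_r (ψ_r + t) + (ψ_r + t)^2`.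
* `DL.mrg`: `DL.of_ker` with `ℓ φ = mrg x y (N+1) (lf c · φ) w`; `qf (mrg x y N c) w φ φ = mrg x y N (qf c · φ φ) w`.
* `mrg_lc`: `merge_ineq` with `φ = single none 1`.
* `msum_insert`: `Finset.sum_bij'`/`sum_nbij'` with `a ↦ (a j, update a j 0)`, or `Fintype.piFinset_update_eq_filter_piFinset_mem`.
-/

set_option autoImplicit false
set_option linter.unusedSectionVars false

noncomputable section

namespace Crest.Agent.R302

open Finset

variable {J : Type} [Fintype J] [DecidableEq J]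

/-- the point `w + a e_x + b e_y` -/
def pt (x y : J) (w : J → ℕ) (a b : ℕ) : J → ℕ := w + a • e1 x + b • e1 y

theorem pt_add_x (x y : J) (w : J → ℕ) (a b : ℕ) : pt x y w a b + e1 x = pt x y w (a + 1) b := by
  unfold pt
  rw [succ_nsmul]
  abel

theorem pt_add_y (x y : J) (w : J → ℕ) (a b : ℕ) : pt x y w a b + e1 y = pt x y w a (b + 1) := by
  unfold pt
  rw [succ_nsmul]
  abel

theorem pt_add (x y : J) (w v : J → ℕ) (a b : ℕ) : pt x y (w + v) a b = pt x y w a b + v := by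
  unfold pt
  abel

/-- merge of the coordinates `x`, `y` at the sum `N` -/
def mrg (x y : J) (N : ℕ) (G : (J → ℕ) → ℝ) (w : J → ℕ) : ℝ :=
  ∑ a ∈ range (N + 1), G (pt x y w a (N - a))

theorem merge_step {c : (J → ℕ) → ℝ} (hc : DL c) (x y : J) (b : J → ℕ) (φ : Option J → ℝ)
    {ψ₀ ψ₁ ψ₂ t : ℝ}
    (h1 : lf c (b + e1 y) φ = ψ₁ * c (b + e1 x + e1 y) - (ψ₀ + t) * c (b + e1 y + e1 y))
    (h2 : lf c (b + e1 x) φ = ψ₂ * c (b + e1 x + e1 x) - (ψ₁ + t) * c (b + e1 x + e1 y)) :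
    qf c b φ φ ≤ ψ₂ ^ 2 * c (b + e1 x + e1 x) - 2 * ψ₁ * (ψ₁ + t) * c (b + e1 x + e1 y) +
      (ψ₀ + t) ^ 2 * c (b + e1 y + e1 y) := by
  have h0 : lf c (b + ee (some x))
      (φ + (-ψ₂) • Pi.single (some x) 1 + (ψ₁ + t) • Pi.single (some y) 1) = 0 := by
    rw [lf_add, lf_add, lf_smul, lf_smul, lf_single, lf_single]
    simp only [ee]
    rw [h2]
    ring
  have h3 := hc.nonpos (some x) h0
  rw [qf_add_two, h1, h2] at h3
  have h4 := mul_nonneg (sq_nonneg (ψ₁ - ψ₀)) (hc.pos (b + e1 y + e1 y)).le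
  nlinarith

theorem Merge_sum (A B C : ℕ → ℝ) (N : ℕ) :
    ∑ a ∈ range (N + 1), (A (a + 2) - B (a + 1) + C a) =
      ∑ r ∈ range (N + 3), (A r - B r + C r) - A 0 - A 1 + B 0 + B (N + 2) - C (N + 1) - C (N + 2) := by
  induction N with
  | zero => simp [sum_range_succ]; ring
  | succ N ih =>
    rw [sum_range_succ, ih, sum_range_succ _ (N + 3)]
    ring

theorem Merge_pos {c : (J → ℕ) → ℝ} (hc : DL c) (x y : J) (N : ℕ) (w : J → ℕ) :
    0 < mrg x y N c w :=
  sum_pos (fun _ _ => hc.pos _) ⟨0, by simp⟩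

theorem merge_ineq {c : (J → ℕ) → ℝ} (hc : DL c) (x y : J) (N : ℕ) (w : J → ℕ) (φ : Option J → ℝ) :
    mrg x y N (fun u => qf c u φ φ) w * mrg x y (N + 2) c w ≤
      mrg x y (N + 1) (fun u => lf c u φ) w ^ 2 := by
  set cc : ℕ → ℝ := fun a => c (pt x y w a (N + 2 - a)) with hcc
  set m : ℕ → ℝ := fun a => lf c (pt x y w a (N + 1 - a)) φ with hm
  have hpos : ∀ a, 0 < cc a := fun a => hc.pos _
  set S := ∑ a ∈ range (N + 3), cc a with hS
  set M := ∑ a ∈ range (N + 2), m a with hM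
  have hS0 : 0 < S := Merge_pos hc x y (N + 2) w
  set t := -M / S with ht
  have htS : t * S = -M := by rw [ht]; field_simp
  set ψ : ℕ → ℝ := fun a => (∑ r ∈ range a, m r + t * ∑ r ∈ range a, cc r) / cc a with hψ
  have hψc : ∀ a, ψ a * cc a = ∑ r ∈ range a, m r + t * ∑ r ∈ range a, cc r := fun a =>
    div_mul_cancel₀ _ (hpos a).ne'
  have hrec : ∀ a, m a = ψ (a + 1) * cc (a + 1) - (ψ a + t) * cc a := by
    intro a
    rw [add_mul, hψc, hψc, sum_range_succ, sum_range_succ]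
    ring
  have hψ0 : ψ 0 = 0 := by simp [hψ]
  have hψN : ψ (N + 2) + t = 0 := by
    have h1 : (ψ (N + 2) + t) * cc (N + 2) = 0 := by
      rw [add_mul, hψc, ← hM]
      have : S = ∑ r ∈ range (N + 2), cc r + cc (N + 2) := sum_range_succ _ _
      rw [this] at htS
      linarith
    exact (mul_eq_zero.1 h1).resolve_right (hpos _).ne'
  have hstep : ∀ a ∈ range (N + 1), qf c (pt x y w a (N - a)) φ φ ≤
      ψ (a + 2) ^ 2 * cc (a + 2) - 2 * ψ (a + 1) * (ψ (a + 1) + t) * cc (a + 1) +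
        (ψ a + t) ^ 2 * cc a := by
    intro a ha
    have ha' : a ≤ N := Nat.lt_succ_iff.1 (mem_range.1 ha)
    have e1' : c (pt x y w a (N - a) + e1 x + e1 x) = cc (a + 2) := by
      rw [pt_add_x, pt_add_x, hcc]
      simp only
      rw [show N + 2 - (a + 2) = N - a by omega]
    have e2 : c (pt x y w a (N - a) + e1 x + e1 y) = cc (a + 1) := by
      rw [pt_add_x, pt_add_y, hcc]
      simp only
      rw [show N + 2 - (a + 1) = N - a + 1 by omega]
    have e3 : c (pt x y w a (N - a) + e1 y + e1 y) = cc a := by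
      rw [pt_add_y, pt_add_y, hcc]
      simp only
      rw [show N + 2 - a = N - a + 1 + 1 by omega]
    have e4 : lf c (pt x y w a (N - a) + e1 y) φ = m a := by
      rw [pt_add_y, hm]
      simp only
      rw [show N + 1 - a = N - a + 1 by omega]
    have e5 : lf c (pt x y w a (N - a) + e1 x) φ = m (a + 1) := by
      rw [pt_add_x, hm]
      simp only
      rw [show N + 1 - (a + 1) = N - a by omega]
    have := merge_step hc x y (pt x y w a (N - a)) φ (ψ₀ := ψ a) (ψ₁ := ψ (a + 1))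
      (ψ₂ := ψ (a + 2)) (t := t) (by rw [e4, e2, e3]; exact hrec a)
      (by rw [e5, e1', e2]; exact hrec (a + 1))
    rwa [e1', e2, e3] at this
  have hsum := (sum_le_sum hstep).trans_eq (Merge_sum (fun r => ψ r ^ 2 * cc r)
    (fun r => 2 * ψ r * (ψ r + t) * cc r) (fun r => (ψ r + t) ^ 2 * cc r) N)
  have hid : ∑ r ∈ range (N + 3), (ψ r ^ 2 * cc r - 2 * ψ r * (ψ r + t) * cc r +
      (ψ r + t) ^ 2 * cc r) = t ^ 2 * S := by
    rw [hS, mul_sum]
    exact sum_congr rfl fun r _ => by ring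
  simp only [hid, hψ0, hψN] at hsum
  have p1 := mul_nonneg (sq_nonneg (ψ 1)) (hpos 1).le
  have p2 := mul_nonneg (sq_nonneg (ψ (N + 1) + t)) (hpos (N + 1)).le
  have hQ : mrg x y N (fun u => qf c u φ φ) w ≤ t ^ 2 * S := by
    unfold mrg
    linarith
  calc mrg x y N (fun u => qf c u φ φ) w * mrg x y (N + 2) c w ≤ t ^ 2 * S * S :=
        mul_le_mul_of_nonneg_right hQ hS0.le
    _ = (t * S) ^ 2 := by ring
    _ = M ^ 2 := by rw [htS, neg_sq]

theorem Merge_qf (c : (J → ℕ) → ℝ) (x y : J) (N : ℕ) (w : J → ℕ) (φ : Option J → ℝ) :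
    qf (mrg x y N c) w φ φ = mrg x y N (fun u => qf c u φ φ) w := by
  simp only [qf, mrg, pt_add, mul_sum]
  rw [sum_comm (s := range (N + 1))]
  exact sum_congr rfl fun i _ => sum_comm

theorem DL.mrg {c : (J → ℕ) → ℝ} (hc : DL c) (x y : J) (N : ℕ) : DL (mrg x y N c) := by
  refine DL.of_ker (Merge_pos hc x y N) fun w => ⟨
    { toFun := fun φ => R302.mrg x y (N + 1) (fun u => lf c u φ) w
      map_add' := fun φ ψ => by simp only [R302.mrg, lf_add, sum_add_distrib]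
      map_smul' := fun t φ => by simp only [R302.mrg, lf_smul, mul_sum, RingHom.id_apply, smul_eq_mul] },
    fun φ h => ?_⟩
  have h1 := merge_ineq hc x y N w φ
  have h2 : R302.mrg x y (N + 1) (fun u => lf c u φ) w = 0 := h
  rw [h2] at h1
  rw [Merge_qf]
  have h3 := Merge_pos hc x y (N + 2) w
  nlinarith

theorem mrg_lc {c : (J → ℕ) → ℝ} (hc : DL c) (x y : J) (w : J → ℕ) : LC fun N => mrg x y N c w := by
  refine ⟨fun N => Merge_pos hc x y N w, fun N => ?_⟩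
  have h := merge_ineq hc x y N w (Pi.single none 1)
  simpa only [qf_single, lf_single, ee, add_zero] using h

end Crest.Agent.R302
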