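import Crest.Agent.R302.PTO

/-!
# Row 302: reversible chains given by query trees

`kr O step s s'` is the transition probability.  `Rev`: the finite set `Ω` is closed, the positive weight `W` is reversible, the chain is lazy.
* `ex_step`: `ex O (step s) f = ∑_{s' ∈ Ω} kr s s' * f s'` (`ex_congr_on` with `f b = ∑_{s' ∈ Ω} f s' * ind (b = s')`, `ex_sum`, `ex_mul`).
* Put `P f s = ex O (step s) f`.  `∑ W (P f) = ∑ W f`; `∑ W f (P f) = ∑ W f^2 - en f`; laziness gives `∑ W (P f)^2 ≤ ∑ W f (P f)`: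
  with `L f = f - P f`, `(L f s)^2 = (∑_{s' ≠ s} kr s s' (f s - f s'))^2 ≤ 1/2 ∑ kr s s' (f s - f s')^2`, so `∑ W (L f)^2 ≤ en f` and
  `∑ W (P f)^2 = ∑ W f^2 - 2 en f + ∑ W (L f)^2 ≤ ∑ W f^2 - en f`.  Hence `v (t+1) ≤ v t - (v t - η) / C`, `v 0 ≤ 1`, `v t ≤ η + (1 - 1/C)^t`.
* `mix`: `ex (iter step T s) f = P^[T] f s`; Cauchy–Schwarz `(∑ μ g)^2 ≤ ∑ μ g^2 ≤ B ∑ (W/Z) g^2` for `g = P^[T] f - mean`.
* `metro`: for `s ≠ s'` in `Ω`, `kr s s' = 1/2 * q s s' * w s' / 2 ^ size (max (w s) (w s'))` (`ex_coin`, `Det.ex_bind`, `ex_unif`, `avgN_lt`).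
-/

set_option autoImplicit false

noncomputable section

namespace Crest.Agent.R302

open Finset Crest.Agent.Lib.PolyTime Crest.Agent.R309 QT

variable {σ : Type}

/-- transition probability -/
def kr (O : Orc) (step : σ → QT σ) (s s' : σ) : ℝ := pr O (step s) fun b => b = s'

/-- a lazy reversible chain on `Ω` -/
structure Rev (O : Orc) (step : σ → QT σ) (Ω : Finset σ) (W : σ → ℝ) : Prop where
  pos : ∀ s ∈ Ω, 0 < W s
  closed : ∀ s ∈ Ω, AllO O (fun b => b ∈ Ω) (step s)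
  rev : ∀ s ∈ Ω, ∀ s' ∈ Ω, W s * kr O step s s' = W s' * kr O step s' s
  lazy : ∀ s ∈ Ω, 1 / 2 ≤ kr O step s s

/-- Dirichlet form (not normalised) -/
def en (O : Orc) (step : σ → QT σ) (Ω : Finset σ) (W f : σ → ℝ) : ℝ :=
  (∑ s ∈ Ω, ∑ s' ∈ Ω, W s * kr O step s s' * (f s - f s') ^ 2) / 2

/-- mean under the normalised weight -/
def mn (Ω : Finset σ) (W f : σ → ℝ) : ℝ := (∑ s ∈ Ω, W s * f s) / ∑ s ∈ Ω, W s

/-- weak Poincaré inequality -/
def WP (O : Orc) (step : σ → QT σ) (Ω : Finset σ) (W : σ → ℝ) (C η : ℝ) : Prop :=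
  ∀ f : σ → ℝ, (∀ s ∈ Ω, |f s| ≤ 1) →
    mn Ω W (fun s => f s ^ 2) - mn Ω W f ^ 2 ≤ C * (en O step Ω W f / ∑ s ∈ Ω, W s) + η

variable {O : Orc} {step : σ → QT σ} {Ω : Finset σ} {W : σ → ℝ}

theorem ex_eq_sum {t : QT σ} (ht : AllO O (fun b => b ∈ Ω) t) (f : σ → ℝ) :
    ex O t f = ∑ s ∈ Ω, pr O t (fun b => b = s) * f s := by
  classical
  rw [ex_congr_on ht (g := fun b => ∑ s ∈ Ω, f s * ind (b = s)) fun b hb => ?_, ex_sum]
  · exact sum_congr rfl fun s _ => by rw [ex_mul, mul_comm]; rfl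
  · rw [sum_eq_single_of_mem b hb fun s _ hs => by rw [ind_of_not (Ne.symm hs), mul_zero],
      ind_of rfl, mul_one]

theorem kr_nonneg (s s' : σ) : 0 ≤ kr O step s s' := pr_nonneg _ _

theorem Rev.ex_step (h : Rev O step Ω W) {s : σ} (hs : s ∈ Ω) (f : σ → ℝ) :
    ex O (step s) f = ∑ s' ∈ Ω, kr O step s s' * f s' := ex_eq_sum (h.closed s hs) f

theorem Rev.row (h : Rev O step Ω W) {s : σ} (hs : s ∈ Ω) : ∑ s' ∈ Ω, kr O step s s' = 1 := by
  have := h.ex_step hs fun _ => 1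
  simpa [ex_const] using this.symm

theorem Rev.sum_left (h : Rev O step Ω W) (f : σ → ℝ) :
    ∑ s ∈ Ω, ∑ s' ∈ Ω, W s * kr O step s s' * f s = ∑ s ∈ Ω, W s * f s :=
  sum_congr rfl fun s hs => by rw [← sum_mul, ← mul_sum, h.row hs, mul_one]

theorem Rev.sum_right (h : Rev O step Ω W) (f : σ → ℝ) :
    ∑ s ∈ Ω, ∑ s' ∈ Ω, W s * kr O step s s' * f s' = ∑ s ∈ Ω, W s * f s := by
  rw [sum_comm, ← h.sum_left f]
  exact sum_congr rfl fun s hs => sum_congr rfl fun s' hs' => by rw [h.rev s' hs' s hs]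

theorem Rev.mean_step (h : Rev O step Ω W) (f : σ → ℝ) :
    ∑ s ∈ Ω, W s * ex O (step s) f = ∑ s ∈ Ω, W s * f s := by
  rw [← h.sum_right f]
  exact sum_congr rfl fun s hs => by
    rw [h.ex_step hs, mul_sum]
    exact sum_congr rfl fun s' _ => by ring

theorem Rev.inner_step (h : Rev O step Ω W) (f : σ → ℝ) :
    ∑ s ∈ Ω, W s * (f s * ex O (step s) f) = ∑ s ∈ Ω, W s * f s ^ 2 - en O step Ω W f := by
  have h1 := h.sum_left fun s => f s ^ 2
  have h2 := h.sum_right fun s => f s ^ 2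
  have h3 : ∑ s ∈ Ω, W s * (f s * ex O (step s) f) =
      ∑ s ∈ Ω, ∑ s' ∈ Ω, W s * kr O step s s' * (f s * f s') :=
    sum_congr rfl fun s hs => by
      rw [h.ex_step hs, mul_sum, mul_sum]
      exact sum_congr rfl fun s' _ => by ring
  have h4 : ∑ s ∈ Ω, ∑ s' ∈ Ω, W s * kr O step s s' * (f s - f s') ^ 2 =
      ∑ s ∈ Ω, ∑ s' ∈ Ω, W s * kr O step s s' * f s ^ 2 +
        ∑ s ∈ Ω, ∑ s' ∈ Ω, W s * kr O step s s' * f s' ^ 2 -
        2 * ∑ s ∈ Ω, ∑ s' ∈ Ω, W s * kr O step s s' * (f s * f s') := by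
    simp only [mul_sum, ← sum_add_distrib, ← sum_sub_distrib]
    exact sum_congr rfl fun s _ => sum_congr rfl fun s' _ => by ring
  rw [en, h4, h3, h1, h2]
  ring

theorem Rev.sq_diff_le (h : Rev O step Ω W) (f : σ → ℝ) {s : σ} (hs : s ∈ Ω) :
    (f s - ex O (step s) f) ^ 2 ≤ (∑ s' ∈ Ω, kr O step s s' * (f s - f s') ^ 2) / 2 := by
  classical
  have h1 : f s - ex O (step s) f = ∑ s' ∈ Ω.erase s, kr O step s s' * (f s - f s') := by
    rw [sum_erase _ (by simp), h.ex_step hs]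
    simp only [mul_sub, sum_sub_distrib, ← sum_mul, h.row hs, one_mul]
  have h2 : ∑ s' ∈ Ω.erase s, kr O step s s' ≤ 1 / 2 := by
    have := add_sum_erase Ω (kr O step s) hs
    have := h.row hs
    have := h.lazy s hs
    linarith
  have h3 := sum_sq_le_sum_mul_sum_of_sq_le_mul (Ω.erase s)
    (r := fun s' => kr O step s s' * (f s - f s')) (f := kr O step s)
    (g := fun s' => kr O step s s' * (f s - f s') ^ 2) (fun s' _ => kr_nonneg s s')
    (fun s' _ => mul_nonneg (kr_nonneg s s') (sq_nonneg _)) fun s' _ => le_of_eq (by ring)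
  have h4 : 0 ≤ ∑ s' ∈ Ω, kr O step s s' * (f s - f s') ^ 2 :=
    sum_nonneg fun s' _ => mul_nonneg (kr_nonneg s s') (sq_nonneg _)
  rw [sum_erase (f := fun s' => kr O step s s' * (f s - f s') ^ 2) _ (by simp)] at h3
  rw [h1]
  nlinarith

theorem Rev.sq_step (h : Rev O step Ω W) (f : σ → ℝ) :
    ∑ s ∈ Ω, W s * ex O (step s) f ^ 2 ≤ ∑ s ∈ Ω, W s * f s ^ 2 - en O step Ω W f := by
  have h1 : ∑ s ∈ Ω, W s * (f s - ex O (step s) f) ^ 2 ≤ en O step Ω W f := by
    rw [en, sum_div]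
    refine sum_le_sum fun s hs => ?_
    refine (mul_le_mul_of_nonneg_left (h.sq_diff_le f hs) (h.pos s hs).le).trans (le_of_eq ?_)
    rw [← mul_div_assoc, mul_sum]
    simp only [mul_assoc]
  have h2 : ∑ s ∈ Ω, W s * (f s - ex O (step s) f) ^ 2 = ∑ s ∈ Ω, W s * f s ^ 2 -
      2 * ∑ s ∈ Ω, W s * (f s * ex O (step s) f) + ∑ s ∈ Ω, W s * ex O (step s) f ^ 2 := by
    simp only [mul_sum, ← sum_add_distrib, ← sum_sub_distrib]
    exact sum_congr rfl fun s _ => by ring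
  have h3 := h.inner_step f
  linarith

theorem abs_ex_le {t : QT σ} (ht : AllO O (fun b => b ∈ Ω) t) {f : σ → ℝ} (hf : ∀ s ∈ Ω, |f s| ≤ 1) :
    |ex O t f| ≤ 1 := by
  have h1 := ex_mono_on ht (g := fun _ => 1) fun b hb => (abs_le.1 (hf b hb)).2
  have h2 := ex_mono_on ht (f := fun _ => -1) fun b hb => (abs_le.1 (hf b hb)).1
  rw [ex_const] at h1 h2
  exact abs_le.2 ⟨h2, h1⟩

theorem Rev.mn_iter (h : Rev O step Ω W) (f : σ → ℝ) (T : ℕ) :
    mn Ω W (fun s => ex O (iter step T s) f) = mn Ω W f := by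
  induction T with
  | zero => rfl
  | succ T ih =>
    rw [← ih]
    simp only [mn, iter, ex_bind]
    rw [h.mean_step]

theorem Rev.var_iter (h : Rev O step Ω W) (hZ : 0 < ∑ s ∈ Ω, W s) {C η : ℝ} (hC : 1 ≤ C) (hη : 0 ≤ η)
    (hP : WP O step Ω W C η) {f : σ → ℝ} (hf : ∀ s ∈ Ω, |f s| ≤ 1) (T : ℕ) :
    mn Ω W (fun s => ex O (iter step T s) f ^ 2) - mn Ω W f ^ 2 ≤ η + (1 - 1 / C) ^ T := by
  induction T with
  | zero =>
    have h1 : mn Ω W (fun s => f s ^ 2) ≤ 1 := by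
      rw [mn, div_le_one hZ]
      refine sum_le_sum fun s hs => mul_le_of_le_one_right (h.pos s hs).le ?_
      rw [← sq_abs]
      exact pow_le_one₀ (abs_nonneg _) (hf s hs)
    simp only [iter, ex_ret, pow_zero]
    nlinarith [sq_nonneg (mn Ω W f)]
  | succ T ih =>
    have h1 := hP (fun s => ex O (iter step T s) f) fun s hs =>
      abs_ex_le (allO_iter h.closed T hs) hf
    rw [h.mn_iter] at h1
    have h2 := div_le_div_of_nonneg_right (h.sq_step fun s => ex O (iter step T s) f) hZ.le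
    rw [sub_div] at h2
    have h3 : mn Ω W (fun s => ex O (iter step (T + 1) s) f ^ 2) =
        (∑ s ∈ Ω, W s * ex O (step s) (fun s => ex O (iter step T s) f) ^ 2) / ∑ s ∈ Ω, W s := by
      simp only [mn, iter, ex_bind]
    have h4 : 0 ≤ 1 - 1 / C := sub_nonneg.2 ((div_le_one (by linarith)).2 hC)
    rw [h3, pow_succ (1 - 1 / C)]
    change _ ≤ mn Ω W (fun s => ex O (iter step T s) f ^ 2) - _ at h2
    generalize mn Ω W (fun s => ex O (iter step T s) f ^ 2) = a at *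
    generalize en O step Ω W (fun s => ex O (iter step T s) f) / ∑ s ∈ Ω, W s = e at *
    have h5 : (a - mn Ω W f ^ 2 - η) * (1 / C) ≤ e := by
      rw [mul_one_div, div_le_iff₀ (by linarith)]
      linarith
    have h6 := mul_le_mul_of_nonneg_right (show a - mn Ω W f ^ 2 - η ≤ (1 - 1 / C) ^ T by linarith) h4
    linarith

theorem mn_sq_sub (hZ : 0 < ∑ s ∈ Ω, W s) (g : σ → ℝ) :
    ∑ s ∈ Ω, W s * (g s - mn Ω W g) ^ 2 =
      (mn Ω W (fun s => g s ^ 2) - mn Ω W g ^ 2) * ∑ s ∈ Ω, W s := by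
  have h1 : ∑ s ∈ Ω, W s * (g s - mn Ω W g) ^ 2 = ∑ s ∈ Ω, W s * g s ^ 2 -
      2 * mn Ω W g * ∑ s ∈ Ω, W s * g s + mn Ω W g ^ 2 * ∑ s ∈ Ω, W s := by
    simp only [mul_sum, ← sum_add_distrib, ← sum_sub_distrib]
    exact sum_congr rfl fun s _ => by ring
  rw [h1]
  unfold mn
  field_simp
  ring

theorem warm_le (hZ : 0 < ∑ s ∈ Ω, W s) {B : ℝ} {μ : σ → ℝ} (hμ0 : ∀ s ∈ Ω, 0 ≤ μ s)
    (hμ1 : ∑ s ∈ Ω, μ s = 1) (hμ : ∀ s ∈ Ω, μ s * ∑ s ∈ Ω, W s ≤ B * W s) (g : σ → ℝ) :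
    (∑ s ∈ Ω, μ s * g s - mn Ω W g) ^ 2 ≤ B * (mn Ω W (fun s => g s ^ 2) - mn Ω W g ^ 2) := by
  have h1 : ∑ s ∈ Ω, μ s * g s - mn Ω W g = ∑ s ∈ Ω, μ s * (g s - mn Ω W g) := by
    simp only [mul_sub, sum_sub_distrib, ← sum_mul, hμ1, one_mul]
  have h2 := sum_sq_le_sum_mul_sum_of_sq_le_mul Ω
    (r := fun s => μ s * (g s - mn Ω W g)) (f := μ)
    (g := fun s => μ s * (g s - mn Ω W g) ^ 2) hμ0
    (fun s hs => mul_nonneg (hμ0 s hs) (sq_nonneg _)) fun s' _ => le_of_eq (by ring)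
  rw [hμ1, one_mul] at h2
  rw [h1]
  refine h2.trans (le_of_mul_le_mul_right ?_ hZ)
  rw [mul_assoc, ← mn_sq_sub hZ, sum_mul, mul_sum]
  refine sum_le_sum fun s hs => ?_
  have := mul_le_mul_of_nonneg_right (hμ s hs) (sq_nonneg (g s - mn Ω W g))
  linarith

/-- mixing from a start that is `τ`-close to a `B`-warm law `μ` -/
theorem Rev.mix (h : Rev O step Ω W) {C η B τ : ℝ} (hC : 1 ≤ C) (hη : 0 ≤ η) (hP : WP O step Ω W C η)
    {μ : σ → ℝ} (hμ0 : ∀ s ∈ Ω, 0 ≤ μ s) (hμ1 : ∑ s ∈ Ω, μ s = 1)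
    (hμ : ∀ s ∈ Ω, μ s * ∑ s ∈ Ω, W s ≤ B * W s) {t : QT σ} (ht : AllO O (fun b => b ∈ Ω) t)
    (hτ : ∀ g : σ → ℝ, (∀ s ∈ Ω, |g s| ≤ 1) → |ex O t g - ∑ s ∈ Ω, μ s * g s| ≤ τ) (T : ℕ)
    (f : σ → ℝ) (hf : ∀ s ∈ Ω, |f s| ≤ 1) :
    |ex O (t.bind (iter step T)) f - mn Ω W f| ≤ τ + Real.sqrt (B * (η + Real.exp (-(T / C)))) := by
  have hne : Ω.Nonempty := by
    rcases Ω.eq_empty_or_nonempty with rfl | hne
    · simp at hμ1
    · exact hne
  have hZ : 0 < ∑ s ∈ Ω, W s := sum_pos h.pos hne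
  have hB : 0 ≤ B := by
    obtain ⟨s, hs⟩ := hne
    exact nonneg_of_mul_nonneg_left ((mul_nonneg (hμ0 s hs) hZ.le).trans (hμ s hs)) (h.pos s hs)
  have h1 := hτ (fun s => ex O (iter step T s) f) fun s hs => abs_ex_le (allO_iter h.closed T hs) hf
  have h2 := h.var_iter hZ hC hη hP hf T
  have h3 := warm_le hZ hμ0 hμ1 hμ fun s => ex O (iter step T s) f
  have h4 : (1 - 1 / C) ^ T ≤ Real.exp (-(T / C)) := by
    rw [show -((T : ℝ) / C) = T * (-(1 / C)) by ring, Real.exp_nat_mul]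
    exact pow_le_pow_left₀ (sub_nonneg.2 ((div_le_one (by linarith)).2 hC))
      (Real.one_sub_le_exp_neg _) T
  rw [h.mn_iter] at h3
  have h5 := Real.abs_le_sqrt (h3.trans (mul_le_mul_of_nonneg_left
    (h2.trans (add_le_add_right h4 η)) hB))
  rw [ex_bind]
  exact (abs_sub_le _ _ _).trans (add_le_add h1 h5)

/-- mixing from a cold start -/
theorem Rev.mix_cold (h : Rev O step Ω W) {C η B : ℝ} (hC : 1 ≤ C) (hη : 0 ≤ η) (hP : WP O step Ω W C η)
    {s₀ : σ} (hs : s₀ ∈ Ω) (hB : ∑ s ∈ Ω, W s ≤ B * W s₀) (T : ℕ) (f : σ → ℝ) (hf : ∀ s ∈ Ω, |f s| ≤ 1) :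
    |ex O (iter step T s₀) f - mn Ω W f| ≤ Real.sqrt (B * (η + Real.exp (-(T / C)))) := by
  have h1 : ∀ g : σ → ℝ, ∑ s ∈ Ω, ind (s = s₀) * g s = g s₀ := fun g => by
    rw [sum_eq_single_of_mem s₀ hs fun s _ hs => by rw [ind_of_not hs, zero_mul], ind_of rfl, one_mul]
  have h2 := h.mix (B := B) (τ := 0) hC hη hP (μ := fun s => ind (s = s₀)) (fun s _ => ind_nonneg _)
    (by simpa using h1 fun _ => 1) (fun s hs' => by
      by_cases e : s = s₀
      · rw [ind_of e, one_mul, e]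
        exact hB
      · have hZ : 0 < ∑ s ∈ Ω, W s := sum_pos h.pos ⟨s₀, hs⟩
        rw [ind_of_not e, zero_mul]
        exact mul_nonneg (nonneg_of_mul_nonneg_left (hZ.le.trans hB) (h.pos s₀ hs)) (h.pos s hs').le)
    (t := QT.ret s₀) hs (fun g _ => by simp [h1]) T f hf
  simpa using h2

/-- lazy Metropolis filter with integer weights; `wq` computes the weight (`0` outside the state space) -/
def metro (wq : σ → QT ℕ) (prop : σ → QT σ) (s : σ) : QT σ :=
  coin.bind fun c => if c = true then QT.ret s else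
    (prop s).bind fun s' => (wq s).bind fun a => (wq s').bind fun b =>
      (unif (max a b).size).map fun u => if u < b then s' else s

/-- hypotheses for the Metropolis filter; `D` is a set containing all proposals -/
structure Met (O : Orc) (wq : σ → QT ℕ) (prop : σ → QT σ) (Ω : Finset σ) (w : σ → ℕ) (D : σ → Prop) : Prop where
  dom : ∀ s ∈ Ω, D s
  det : ∀ s, D s → Det O (wq s) (w s)
  mem : ∀ s, D s → (s ∈ Ω ↔ w s ≠ 0)
  prop_dom : ∀ s ∈ Ω, AllO O D (prop s)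
  symm : ∀ s ∈ Ω, ∀ s' ∈ Ω, kr O prop s s' = kr O prop s' s

variable {wq : σ → QT ℕ} {prop : σ → QT σ} {w : σ → ℕ} {D : σ → Prop}

/-- acceptance probability -/
def macc (w : σ → ℕ) (s s' : σ) : ℝ := (w s' : ℝ) / 2 ^ (max (w s) (w s')).size

theorem macc_nonneg (s s' : σ) : 0 ≤ macc w s s' := by
  unfold macc
  positivity

theorem macc_le_one (s s' : σ) : macc w s s' ≤ 1 := by
  have h : w s' ≤ 2 ^ (max (w s) (w s')).size := (le_max_right _ _).trans (Nat.lt_size_self _).le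
  rw [macc, div_le_one (by positivity)]
  exact_mod_cast h

theorem Met.ex_metro (h : Met O wq prop Ω w D) {s : σ} (hs : s ∈ Ω) (f : σ → ℝ) :
    ex O (metro wq prop s) f = ex O (prop s) (fun s' => macc w s s' * (f s' - f s)) / 2 + f s := by
  have h1 : ex O ((prop s).bind fun s' => (wq s).bind fun a => (wq s').bind fun b =>
      (unif (max a b).size).map fun u => if u < b then s' else s) f =
      ex O (prop s) (fun s' => macc w s s' * (f s' - f s)) + f s := by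
    rw [ex_bind, ex_congr_on (h.prop_dom s hs) (g := fun s' => macc w s s' * (f s' - f s) + f s),
      ex_add, ex_const]
    intro s' hs'
    rw [(h.det s (h.dom s hs)).ex_bind, (h.det s' hs').ex_bind, ex_map, ex_unif,
      avgN_congr (g := fun u => (f s' - f s) * ind (u < w s') + f s), avgN_add, avgN_mul_left,
      avgN_const (by positivity), avgN_lt ((le_max_right _ _).trans (Nat.lt_size_self _).le), macc]
    · push_cast
      ring
    · intro u _
      by_cases hu : u < w s'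
      · rw [if_pos hu, ind_of hu]
        ring
      · rw [if_neg hu, ind_of_not hu]
        ring
  rw [metro, ex_bind, ex_coin]
  simp only [Bool.false_eq_true, if_false, if_true, ex_ret, h1]
  ring

theorem Met.kr_metro (h : Met O wq prop Ω w D) {s s' : σ} (hs : s ∈ Ω) (hne : s ≠ s') :
    kr O (metro wq prop) s s' = macc w s s' * kr O prop s s' / 2 := by
  rw [kr, pr, h.ex_metro hs, ind_of_not hne, add_zero, kr, pr, ← ex_mul]
  congr 2
  funext b
  by_cases e : b = s'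
  · rw [e, sub_zero]
  · rw [ind_of_not e, sub_zero, mul_zero, mul_zero]

theorem Met.rev (h : Met O wq prop Ω w D) : Rev O (metro wq prop) Ω fun s => w s := by
  refine ⟨fun s hs => ?_, fun s hs => ?_, fun s hs s' hs' => ?_, fun s hs => ?_⟩
  · exact Nat.cast_pos.2 (Nat.pos_of_ne_zero ((h.mem s (h.dom s hs)).1 hs))
  · rw [metro, allO_bind]
    refine allO_of_forall _ fun c => ?_
    split_ifs
    · exact hs
    · refine (h.prop_dom s hs).bind fun s' hs' => ?_
      rw [(h.det s (h.dom s hs)).allO_bind, (h.det s' hs').allO_bind, allO_map]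
      refine allO_of_forall _ fun u => ?_
      split_ifs with hu
      · exact (h.mem s' hs').2 (by omega)
      · exact hs
  · by_cases e : s = s'
    · rw [e]
    · rw [h.kr_metro hs e, h.kr_metro hs' (Ne.symm e), h.symm s hs s' hs', macc, macc, max_comm]
      ring
  · rw [kr, pr, h.ex_metro hs, ind_of rfl]
    have h1 := ex_mono (O := O) (prop s) (f := fun _ => -1)
      (g := fun s' => macc w s s' * (ind (s' = s) - 1)) fun b => by
        nlinarith [macc_nonneg (w := w) s b, macc_le_one (w := w) s b, ind_nonneg (b = s),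
          mul_nonneg (macc_nonneg (w := w) s b) (ind_nonneg (b = s))]
    rw [ex_const] at h1
    linarith

theorem Met.cond_ge (h : Met O wq prop Ω w D) {s s' : σ} (hs : s ∈ Ω) (hs' : s' ∈ Ω) (hne : s ≠ s') :
    kr O prop s s' * min (w s : ℝ) (w s') / 4 ≤ w s * kr O (metro wq prop) s s' := by
  have h1 : w s ≠ 0 := (h.mem s (h.dom s hs)).1 hs
  have h2 : 2 ^ (max (w s) (w s')).size ≤ 2 * max (w s) (w s') := by
    have h3 : 0 < (max (w s) (w s')).size := Nat.size_pos.2 (by omega)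
    have h4 := Nat.lt_size.1 (show (max (w s) (w s')).size - 1 < (max (w s) (w s')).size by omega)
    calc 2 ^ (max (w s) (w s')).size = 2 * 2 ^ ((max (w s) (w s')).size - 1) := by
          rw [← pow_succ', Nat.sub_add_cancel h3]
      _ ≤ _ := Nat.mul_le_mul_left _ h4
  have h3 : min (w s : ℝ) (w s') / 2 ≤ w s * macc w s s' := by
    rw [macc, ← mul_div_assoc, div_le_div_iff₀ (by positivity) (by positivity),
      ← min_mul_max (w s : ℝ) (w s'), mul_assoc]
    refine mul_le_mul_of_nonneg_left ?_ (by positivity)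
    rw [mul_comm]
    exact_mod_cast h2
  have h4 := mul_le_mul_of_nonneg_left h3 (kr_nonneg (O := O) (step := prop) s s')
  rw [h.kr_metro hs hne]
  linarith

theorem all_metro {P : σ → Prop} {s : σ} (hs : P s) (hp : All P (prop s)) : All P (metro wq prop s) := by
  rw [metro, all_bind]
  refine all_of_forall _ fun c => ?_
  split_ifs
  · exact hs
  · refine hp.bind fun s' hs' => ?_
    rw [all_bind]
    refine all_of_forall _ fun a => ?_
    rw [all_bind]
    refine all_of_forall _ fun b => ?_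
    rw [all_map]
    refine all_of_forall _ fun u => ?_
    split_ifs
    · exact hs'
    · exact hs

theorem PTO.metro {α : Type} [Enc α] [Enc σ] {wq : α → σ → QT ℕ} {prop : α → σ → QT σ}
    (hw : PTO fun p : α × σ => wq p.1 p.2) (hp : PTO fun p : α × σ => prop p.1 p.2) :
    PTO fun p : α × σ => R302.metro (wq p.1) (prop p.1) p.2 := by
  have h5 : PT fun p : (((α × σ) × σ) × ℕ) × ℕ => max p.1.2 p.2 := by fun_prop
  have h4 : PTO fun p : (((α × σ) × σ) × ℕ) × ℕ =>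
      (QT.unif (max p.1.2 p.2).size).map fun u => if u < p.2 then p.1.1.2 else p.1.1.1.2 :=
    (PTO.unif (PT.natSize h5) (PB.natSize h5)).map
      (g := fun (p : (((α × σ) × σ) × ℕ) × ℕ) u => if u < p.2 then p.1.1.2 else p.1.1.1.2) (by fun_prop)
  have h3 : PTO fun p : ((α × σ) × σ) × ℕ => (wq p.1.1.1 p.1.2).bind fun b =>
      (QT.unif (max p.2 b).size).map fun u => if u < b then p.1.2 else p.1.1.2 :=
    (hw.comp (g := fun p : ((α × σ) × σ) × ℕ => (p.1.1.1, p.1.2)) (by fun_prop)).bind h4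
  have h2 : PTO fun p : (α × σ) × σ => (wq p.1.1 p.1.2).bind fun a => (wq p.1.1 p.2).bind fun b =>
      (QT.unif (max a b).size).map fun u => if u < b then p.2 else p.1.2 :=
    (hw.comp PT.fst').bind h3
  have h1 : PTO fun p : α × σ => (prop p.1 p.2).bind fun s' => (wq p.1 p.2).bind fun a =>
      (wq p.1 s').bind fun b => (QT.unif (max a b).size).map fun u => if u < b then s' else p.2 :=
    hp.bind h2
  exact PTO.coin.bind (PTO.ite (c := fun p : (α × σ) × Bool => p.2 = true) (by fun_prop)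
    (PTO.ret (f := fun p : (α × σ) × Bool => p.1.2) (by fun_prop)) (h1.comp PT.fst'))

end Crest.Agent.R302
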