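import Crest.Agent.R302.Merge

/-!
# Row 302: iterated merges
* `msum_insert`: `Finset.sum_nbij'` / `sum_sigma'` with `a ↦ (a j, update a j 0)`; `emb (insert j K) a = a j • e_x + (N j - a j) • e_y + emb K a` and
  `emb K` only depends on the values on `K`.
* `dsum_insert`: `(insert j K).erase j = K`, `(insert j K).erase k = insert j (K.erase k)`, `msum_insert`, `pt` commute, `sum_comm`.
* `dsum_fill_le`: for `k ∈ K`, `msum K G w = mrg (x k) (y k) (N k) (msum (K.erase k) G) w ≥ ∑_{a < N k} msum (K.erase k) G (pt w a (N k - 1 - a) + e_y)`.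
-/

set_option autoImplicit false
set_option linter.unusedSectionVars false

noncomputable section

namespace Crest.Agent.R302

open Finset

variable {J : Type} [Fintype J] [DecidableEq J]

variable {ι : Type} [Fintype ι] [DecidableEq ι]

/-- the states of the pairs in `K` -/
def box (N : ι → ℕ) (K : Finset ι) : Finset (ι → ℕ) :=
  Fintype.piFinset fun k => if k ∈ K then range (N k + 1) else {0}

/-- the vector of a state -/
def emb (x y : ι → J) (N : ι → ℕ) (K : Finset ι) (a : ι → ℕ) : J → ℕ :=
  ∑ k ∈ K, (a k • e1 (x k) + (N k - a k) • e1 (y k))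

/-- iterated merge -/
def msum (x y : ι → J) (N : ι → ℕ) (K : Finset ι) (G : (J → ℕ) → ℝ) (w : J → ℕ) : ℝ :=
  ∑ a ∈ box N K, G (w + emb x y N K a)

variable (x y : ι → J) (N : ι → ℕ)

theorem msum_empty (G : (J → ℕ) → ℝ) (w : J → ℕ) : msum x y N ∅ G w = G w := by
  have : box N (∅ : Finset ι) = {0} := by
    ext a
    simp [box, funext_iff]
  simp [msum, this, emb]

theorem Msum_mem_box {K : Finset ι} {a : ι → ℕ} :
    a ∈ box N K ↔ ∀ k, (k ∈ K → a k ≤ N k) ∧ (k ∉ K → a k = 0) := by
  simp only [box, Fintype.mem_piFinset]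
  refine forall_congr' fun k => ?_
  by_cases hk : k ∈ K <;> simp [hk]

theorem Msum_emb_update {K : Finset ι} {j : ι} (hj : j ∉ K) (a : ι → ℕ) (b : ℕ) :
    emb x y N K (Function.update a j b) = emb x y N K a :=
  sum_congr rfl fun k hk => by rw [Function.update_of_ne (by rintro rfl; exact hj hk)]

theorem msum_insert {K : Finset ι} {j : ι} (hj : j ∉ K) (G : (J → ℕ) → ℝ) :
    msum x y N (insert j K) G = mrg (x j) (y j) (N j) (msum x y N K G) := by
  funext w
  unfold mrg msum
  rw [← sum_product']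
  refine sum_nbij' (fun a => (a j, Function.update a j 0)) (fun z => Function.update z.2 j z.1)
    ?_ ?_ ?_ ?_ ?_
  · intro a ha
    rw [Msum_mem_box] at ha
    refine mem_product.2 ⟨mem_range.2 (Nat.lt_succ_of_le ((ha j).1 (mem_insert_self _ _))),
      (Msum_mem_box N).2 fun k => ?_⟩
    by_cases hk : k = j
    · subst hk
      simp
    · simp only [Function.update_of_ne hk]
      exact ⟨fun h => (ha k).1 (mem_insert_of_mem h), fun h => (ha k).2 (by simp [hk, h])⟩
  · intro z hz
    obtain ⟨h1, h2⟩ := mem_product.1 hz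
    rw [Msum_mem_box] at h2 ⊢
    intro k
    by_cases hk : k = j
    · subst hk
      simpa [Nat.lt_succ_iff] using h1
    · simpa [Function.update_of_ne hk, hk] using h2 k
  · intro a _
    simp
  · intro z hz
    have h2 := (((Msum_mem_box N).1 (mem_product.1 hz).2) j).2 hj
    refine Prod.ext (by simp) ?_
    simp only [Function.update_idem]
    rw [← h2, Function.update_eq_self]
  · intro a _
    rw [Msum_emb_update x y N hj, emb, sum_insert hj, pt, emb]
    simp only [add_assoc]

theorem msum_shift (K : Finset ι) (G : (J → ℕ) → ℝ) (w v : J → ℕ) :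
    msum x y N K G (w + v) = msum x y N K (fun u => G (u + v)) w := by
  simp only [msum, add_right_comm w v]

theorem msum_mono (K : Finset ι) {G G' : (J → ℕ) → ℝ} (h : ∀ u, G u ≤ G' u) (w : J → ℕ) :
    msum x y N K G w ≤ msum x y N K G' w := by
  exact sum_le_sum fun a _ => h _

theorem msum_add (K : Finset ι) (G G' : (J → ℕ) → ℝ) (w : J → ℕ) :
    msum x y N K (fun u => G u + G' u) w = msum x y N K G w + msum x y N K G' w := by
  exact sum_add_distrib

theorem msum_mul (K : Finset ι) (t : ℝ) (G : (J → ℕ) → ℝ) (w : J → ℕ) :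
    msum x y N K (fun u => t * G u) w = t * msum x y N K G w := by
  exact (mul_sum _ _ _).symm

theorem msum_sum {T : Type} (s : Finset T) (K : Finset ι) (G : T → (J → ℕ) → ℝ) (w : J → ℕ) :
    msum x y N K (fun u => ∑ t ∈ s, G t u) w = ∑ t ∈ s, msum x y N K (G t) w := by
  exact sum_comm

theorem lf_msum (K : Finset ι) (c : (J → ℕ) → ℝ) (φ : Option J → ℝ) (w : J → ℕ) :
    lf (msum x y N K c) w φ = msum x y N K (fun u => lf c u φ) w := by
  simp only [lf, msum_shift, msum_sum, ← msum_mul]

theorem qf_msum (K : Finset ι) (c : (J → ℕ) → ℝ) (φ ψ : Option J → ℝ) (w : J → ℕ) :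
    qf (msum x y N K c) w φ ψ = msum x y N K (fun u => qf c u φ ψ) w := by
  simp only [qf, add_assoc, msum_shift, msum_sum, ← msum_mul]

theorem DL.msum {c : (J → ℕ) → ℝ} (hc : DL c) (K : Finset ι) : DL (msum x y N K c) := by
  induction K using Finset.induction_on with
  | empty =>
    have : R302.msum x y N ∅ c = c := funext (msum_empty x y N c)
    rwa [this]
  | insert j K hj ih =>
    rw [msum_insert x y N hj]
    exact ih.mrg _ _ _

/-- sum over the states in which the pair `k ∈ K` misses one unit (`a` is its first coordinate) -/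
def dsum (K : Finset ι) (H : ι → ℕ → (J → ℕ) → ℝ) (w : J → ℕ) : ℝ :=
  ∑ k ∈ K, ∑ a ∈ range (N k), msum x y N (K.erase k) (H k a) (pt (x k) (y k) w a (N k - 1 - a))

theorem dsum_empty (H : ι → ℕ → (J → ℕ) → ℝ) (w : J → ℕ) : dsum x y N ∅ H w = 0 := by
  simp [dsum]

theorem Msum_pt_comm (x y x' y' : J) (w : J → ℕ) (a b a' b' : ℕ) :
    pt x y (pt x' y' w a' b') a b = pt x' y' (pt x y w a b) a' b' := by
  unfold pt
  abel

theorem dsum_insert {K : Finset ι} {j : ι} (hj : j ∉ K) (H : ι → ℕ → (J → ℕ) → ℝ) (w : J → ℕ) :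
    dsum x y N (insert j K) H w =
      ∑ a ∈ range (N j), msum x y N K (H j a) (pt (x j) (y j) w a (N j - 1 - a)) +
        mrg (x j) (y j) (N j) (dsum x y N K H) w := by
  unfold dsum
  rw [sum_insert hj, erase_insert hj, mrg]
  congr 1
  symm
  rw [sum_comm]
  refine sum_congr rfl fun k hk => ?_
  rw [sum_comm]
  refine sum_congr rfl fun a _ => ?_
  rw [erase_insert_of_ne (by rintro rfl; exact hj hk),
    msum_insert x y N fun h => hj (mem_of_mem_erase h), mrg]
  exact sum_congr rfl fun b _ => by rw [Msum_pt_comm]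

theorem dsum_shift (K : Finset ι) (H : ι → ℕ → (J → ℕ) → ℝ) (w v : J → ℕ) :
    dsum x y N K H (w + v) = dsum x y N K (fun k a u => H k a (u + v)) w := by
  simp only [dsum, pt_add, msum_shift]

theorem dsum_mono (K : Finset ι) {H H' : ι → ℕ → (J → ℕ) → ℝ}
    (h : ∀ k ∈ K, ∀ a < N k, ∀ u, H k a u ≤ H' k a u) (w : J → ℕ) :
    dsum x y N K H w ≤ dsum x y N K H' w := by
  exact sum_le_sum fun k hk => sum_le_sum fun a ha =>
    msum_mono x y N _ (h k hk a (mem_range.1 ha)) _

theorem dsum_add (K : Finset ι) (H H' : ι → ℕ → (J → ℕ) → ℝ) (w : J → ℕ) :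
    dsum x y N K (fun k a u => H k a u + H' k a u) w = dsum x y N K H w + dsum x y N K H' w := by
  simp only [dsum, msum_add, sum_add_distrib]

theorem dsum_mul (K : Finset ι) (t : ℝ) (H : ι → ℕ → (J → ℕ) → ℝ) (w : J → ℕ) :
    dsum x y N K (fun k a u => t * H k a u) w = t * dsum x y N K H w := by
  simp only [dsum, msum_mul, mul_sum]

theorem dsum_sum {T : Type} (s : Finset T) (K : Finset ι) (H : T → ι → ℕ → (J → ℕ) → ℝ) (w : J → ℕ) :
    dsum x y N K (fun k a u => ∑ t ∈ s, H t k a u) w = ∑ t ∈ s, dsum x y N K (H t) w := by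
  simp only [dsum, msum_sum]
  rw [sum_comm (s := s)]
  exact sum_congr rfl fun k _ => sum_comm

/-- filling the hole on the `y` side gives distinct states -/
theorem dsum_fill_le (K : Finset ι) {G : (J → ℕ) → ℝ} (hG : ∀ u, 0 ≤ G u) (w : J → ℕ) :
    dsum x y N K (fun k _ u => G (u + e1 (y k))) w ≤ K.card * msum x y N K G w := by
  rw [← nsmul_eq_mul]
  refine sum_le_card_nsmul _ _ _ fun k hk => ?_
  conv_rhs => rw [← insert_erase hk, msum_insert x y N (notMem_erase k K), mrg, sum_range_succ]
  refine le_add_of_le_of_nonneg (le_of_eq (sum_congr rfl fun a ha => ?_))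
    (sum_nonneg fun _ _ => hG _)
  have := mem_range.1 ha
  rw [← msum_shift, pt_add_y, show N k - 1 - a + 1 = N k - a by omega]

end Crest.Agent.R302
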