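import Crest.Agent.R302.QT

/-!
# Row 302: polynomial-time query trees

`PTO f`: feeding answers to `f a` is polynomial-time, the depth and the sizes of the leaves are polynomially bounded in `a`.
* `probe_bind`; `probe t l = inl (b, l')` implies that `l'` is a suffix of `l` and that `b` is a leaf (`All P t → P b`).
* `PTO.bind`: `PB.exists_bound` turns the bounds of `g (a, b)` into bounds in `a`.
* `PTO.foldQ_inv`: `probe (foldQ step l s) ans = l.foldl (fun x a => x.elim (fun (s, r) => probe (step s a) r) inr) (inl (s, ans))`;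
  `PT.foldl_inv` with the invariant "`inl (s, r)` with `I a s` and `r` a suffix of `ans`, or `inr q` with `esize q ≤` the bound obtained from
  `PB.esize` of the step by `PB.exists_bound`".
* `iter step n = foldQ (fun s _ => step s) (replicate n ())`; `*_grow`: add a counter to the state or prove the bound along the fold directly;
  `mapQ g l = (foldQ (fun acc x => (g x).map (· :: acc)) l []).map reverse` (prove equality of trees by `bind_assoc`).
-/

set_option autoImplicit false

noncomputable section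

namespace Crest.Agent.R302

open Finset Crest.Agent.Lib.PolyTime QT

variable {α β γ σ : Type} [Enc α] [Enc β] [Enc γ] [Enc σ]

/-- polynomial-time families of query trees -/
structure PTO (f : α → QT β) : Prop where
  pt : PT fun p : α × List ℕ => probe (f p.1) p.2
  dep : ∃ d : α → ℕ, PB d ∧ ∀ a, Dep (f a) (d a)
  size : ∃ B : α → ℕ, PB B ∧ ∀ a, All (fun b => esize b ≤ B a) (f a)

omit [Enc β] [Enc γ] in
theorem probe_bind (t : QT β) (g : β → QT γ) (l : List ℕ) :
    probe (t.bind g) l = (probe t l).elim (fun p => probe (g p.1) p.2) Sum.inr := by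
  induction t generalizing l with
  | ret b => rfl
  | ask q k ih =>
    cases l with
    | nil => rfl
    | cons v l => exact ih v l

section aux
variable {α β γ σ : Type}

theorem probe_inl {P : β → Prop} {t : QT β} (ht : All P t) {l l' : List ℕ} {b : β}
    (h : probe t l = Sum.inl (b, l')) : P b ∧ l' <:+ l := by
  induction t generalizing l with
  | ret c =>
    simp only [probe, Sum.inl.injEq, Prod.mk.injEq] at h
    obtain ⟨rfl, rfl⟩ := h
    exact ⟨ht, List.suffix_refl _⟩
  | ask q k ih =>
    cases l with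
    | nil => simp [probe] at h
    | cons v l =>
      obtain ⟨h1, h2⟩ := ih v (ht v) h
      exact ⟨h1, h2.trans (List.suffix_cons v l)⟩

theorem dep_mono {t : QT β} {d d' : ℕ} (ht : Dep t d) (h : d ≤ d') : Dep t d' := by
  induction t generalizing d d' with
  | ret b => trivial
  | ask q k ih => exact ⟨by have := ht.1; omega, fun v => ih v (ht.2 v) (by omega)⟩

theorem dep_bind {P : β → Prop} {t : QT β} {g : β → QT γ} {d e : ℕ} (ht : Dep t d) (hP : All P t)
    (hg : ∀ b, P b → Dep (g b) e) : Dep (t.bind g) (d + e) := by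
  induction t generalizing d with
  | ret b => exact dep_mono (hg b hP) (by omega)
  | ask q k ih =>
    have := ht.1
    exact ⟨by omega, fun v => dep_mono (ih v (ht.2 v) (hP v)) (by omega)⟩

theorem probe_foldQ (step : σ → β → QT σ) (l : List β) (x : (σ × List ℕ) ⊕ Qy) :
    l.foldl (fun x b => x.elim (fun p => probe (step p.1 b) p.2) Sum.inr) x =
      x.elim (fun p => probe (foldQ step l p.1) p.2) Sum.inr := by
  induction l generalizing x with
  | nil => cases x <;> rfl
  | cons b l ih =>
    rw [List.foldl_cons, ih]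
    cases x with
    | inl p => exact (probe_bind _ _ _).symm
    | inr q => rfl

theorem foldQ_idx_aux {step : σ → β → QT σ} {I : ℕ → σ → Prop} {d : ℕ} (l : List β) (j : ℕ) (s : σ)
    (hs : ∀ i s x, i < j + l.length → x ∈ l → I i s → All (I (i + 1)) (step s x) ∧ Dep (step s x) d)
    (h0 : I j s) : All (I (j + l.length)) (foldQ step l s) ∧ Dep (foldQ step l s) (l.length * d) := by
  induction l generalizing j s with
  | nil => exact ⟨h0, trivial⟩
  | cons b l ih =>
    obtain ⟨h1, h2⟩ := hs j s b (by simp) List.mem_cons_self h0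
    have h3 : ∀ s', I (j + 1) s' → All (I (j + 1 + l.length)) (foldQ step l s') ∧
        Dep (foldQ step l s') (l.length * d) := fun s' hs' =>
      ih (j + 1) s' (fun i s x hi hx => hs i s x (by simp only [List.length_cons]; omega)
        (List.mem_cons_of_mem _ hx)) hs'
    constructor
    · have e : j + (b :: l).length = j + 1 + l.length := by simp only [List.length_cons]; omega
      rw [e]
      exact h1.bind fun s' hs' => (h3 s' hs').1
    · refine dep_mono (dep_bind h2 h1 fun s' hs' => (h3 s' hs').2) (le_of_eq ?_)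
      simp only [List.length_cons]
      ring

theorem foldl_take_idx {X : Type} {F : X → β → X} {J : ℕ → X → Prop} (l : List β) (j : ℕ) (x : X)
    (hs : ∀ i x b, i < j + l.length → b ∈ l → J i x → J (i + 1) (F x b)) (h0 : J j x) (i : ℕ) :
    ∃ i', J i' ((l.take i).foldl F x) := by
  induction l generalizing j x i with
  | nil => exact ⟨j, by simpa using h0⟩
  | cons b l ih =>
    cases i with
    | zero => exact ⟨j, h0⟩
    | succ i =>
      rw [List.take_succ_cons, List.foldl_cons]
      exact ih (j + 1) _ (fun i x c hi hc => hs i x c (by simp only [List.length_cons]; omega)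
        (List.mem_cons_of_mem _ hc)) (hs j x b (by simp) List.mem_cons_self h0) i

theorem iter_eq_foldQ (step : σ → QT σ) (n : ℕ) :
    iter step n = foldQ (fun s (_ : Unit) => step s) (List.replicate n ()) := by
  induction n with
  | zero => rfl
  | succ n ih =>
    funext s
    simp only [iter, List.replicate_succ, foldQ, ih]

theorem foldQ_cons_eq (g : β → QT γ) (l : List β) (acc : List γ) :
    foldQ (fun acc x => (g x).map (· :: acc)) l acc =
      (mapQ g l).map fun bs => bs.reverse ++ acc := by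
  induction l generalizing acc with
  | nil => rfl
  | cons b l ih =>
    simp only [foldQ, mapQ, QT.map, bind_assoc, ret_bind] at ih ⊢
    congr 1
    funext c
    rw [ih]
    simp

theorem mapQ_eq_foldQ (g : β → QT γ) (l : List β) :
    mapQ g l = (foldQ (fun acc x => (g x).map (· :: acc)) l []).map List.reverse := by
  rw [foldQ_cons_eq]
  simp only [QT.map, bind_assoc, ret_bind, List.append_nil, List.reverse_reverse]
  exact (bind_ret _).symm

end aux

namespace PTO

theorem of_eq {f g : α → QT β} (h : PTO f) (e : ∀ a, f a = g a) : PTO g := funext e ▸ h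

theorem comp {f : β → QT γ} {g : α → β} (hf : PTO f) (hg : PT g) : PTO fun a => f (g a) := by
  obtain ⟨d, hd, hd'⟩ := hf.dep
  obtain ⟨B, hB, hB'⟩ := hf.size
  exact ⟨hf.pt.comp (g := fun p : α × List ℕ => (g p.1, p.2)) (by fun_prop),
    ⟨_, hd.comp hg, fun a => hd' _⟩, ⟨_, hB.comp hg, fun a => hB' _⟩⟩

theorem ret {f : α → β} (hf : PT f) : PTO fun a => QT.ret (f a) := by
  refine ⟨?_, ⟨_, PB.const 0, fun a => trivial⟩, ⟨_, PB.esize hf, fun a => le_rfl⟩⟩
  simp only [probe]
  fun_prop

theorem coin : PTO fun _ : α => QT.coin := by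
  refine ⟨?_, ⟨_, PB.const 1, fun a => ⟨one_ne_zero, fun v => trivial⟩⟩,
    ⟨_, PB.const 3, fun a v => esize_bool_le _⟩⟩
  have h : PT fun p : α × List ℕ => List.casesOn (motive := fun _ => (Bool × List ℕ) ⊕ Qy) p.2
      (Sum.inr none) fun v l => Sum.inl (decide (v % 2 = 1), l) :=
    PT.list_casesOn (g := fun _ v l => Sum.inl (decide (v % 2 = 1), l)) (by fun_prop) (by fun_prop)
      (by fun_prop)
  refine h.of_eq fun p => ?_
  rcases p with ⟨a, _ | ⟨v, l⟩⟩ <;> rfl

theorem query {b : α → Bool} {s : α → List Bool} {M : α → ℕ} (hb : PT b) (hs : PT s) (hM : PT M) :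
    PTO fun a => QT.query (b a) (s a) (M a) := by
  refine ⟨?_, ⟨_, PB.const 1, fun a => ⟨one_ne_zero, fun v => trivial⟩⟩,
    ⟨_, PB.esize hM, fun a v => esize_nat_mono (min_le_right _ _)⟩⟩
  have h : PT fun p : α × List ℕ => List.casesOn (motive := fun _ => (ℕ × List ℕ) ⊕ Qy) p.2
      (Sum.inr (some (b p.1, s p.1))) fun v l => Sum.inl (min v (M p.1), l) :=
    PT.list_casesOn (g := fun (p : α × List ℕ) v l => Sum.inl (min v (M p.1), l)) (by fun_prop)
      (by fun_prop)
      (by fun_prop)
  refine h.of_eq fun p => ?_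
  rcases p with ⟨a, _ | ⟨v, l⟩⟩ <;> rfl

theorem bind {f : α → QT β} {g : α → β → QT γ} (hf : PTO f) (hg : PTO fun p : α × β => g p.1 p.2) :
    PTO fun a => (f a).bind (g a) := by
  obtain ⟨d, hd, hd'⟩ := hf.dep
  obtain ⟨B, hB, hB'⟩ := hf.size
  obtain ⟨e, he, he'⟩ := hg.dep
  obtain ⟨C, hC, hC'⟩ := hg.size
  have hs : PB fun a : α => esize a + B a + 1 := (PB.esize_id.add hB).add (PB.const 1)
  obtain ⟨e', k1, k2⟩ := he.exists_bound hs
  obtain ⟨C', k3, k4⟩ := hC.exists_bound hs
  refine ⟨?_, ⟨_, hd.add k1, fun a => dep_bind (hd' a) (hB' a) fun b hb =>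
      dep_mono (he' (a, b)) (k2 a (a, b) (by rw [esize_pair]; omega))⟩,
    ⟨_, k3, fun a => (hB' a).bind fun b hb => (hC' (a, b)).mono fun c hc =>
      hc.trans (k4 a (a, b) (by rw [esize_pair]; omega))⟩⟩
  simp only [probe_bind]
  exact PT.sum_elim (f := fun (p : α × List ℕ) (x : β × List ℕ) => probe (g p.1 x.1) x.2)
    (g := fun _ q => Sum.inr q) hf.pt
    (hg.pt.comp (g := fun z : (α × List ℕ) × β × List ℕ => ((z.1.1, z.2.1), z.2.2)) (by fun_prop))
    (by fun_prop)

theorem map {f : α → QT β} {g : α → β → γ} (hf : PTO f) (hg : PT fun p : α × β => g p.1 p.2) :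
    PTO fun a => (f a).map (g a) := by
  exact hf.bind (g := fun a b => QT.ret (g a b)) (ret hg)

theorem ite {c : α → Prop} [∀ a, Decidable (c a)] {f g : α → QT β} (hc : PT c) (hf : PTO f)
    (hg : PTO g) : PTO fun a => if c a then f a else g a := by
  obtain ⟨d, hd, hd'⟩ := hf.dep
  obtain ⟨B, hB, hB'⟩ := hf.size
  obtain ⟨e, he, he'⟩ := hg.dep
  obtain ⟨C, hC, hC'⟩ := hg.size
  refine ⟨?_, ⟨_, hd.add he, fun a => ?_⟩, ⟨_, hB.add hC, fun a => ?_⟩⟩
  · refine (PT.ite (c := fun p : α × List ℕ => c p.1) (hc.comp PT.fst') hf.pt hg.pt).of_eq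
      fun p => ?_
    split_ifs <;> rfl
  · split_ifs
    · exact dep_mono (hd' a) (by omega)
    · exact dep_mono (he' a) (by omega)
  · split_ifs
    · exact (hB' a).mono fun b hb => by omega
    · exact (hC' a).mono fun b hb => by omega

/-- the invariant may depend on the number of steps done -/
theorem foldQ_idx {l : α → List β} {ini : α → σ} {step : α → σ → β → QT σ} (B : α → ℕ)
    (I : α → ℕ → σ → Prop) (hl : PT l) (hini : PT ini)
    (hstep : PTO fun p : α × σ × β => step p.1 p.2.1 p.2.2) (hB : PB B) (h0 : ∀ a, I a 0 (ini a))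
    (hs : ∀ a i s x, i < (l a).length → x ∈ l a → I a i s → All (I a (i + 1)) (step a s x))
    (hsz : ∀ a i s, i ≤ (l a).length → I a i s → esize s ≤ B a) :
    PTO fun a => foldQ (step a) (l a) (ini a) := by
  obtain ⟨d, hd, hd'⟩ := hstep.dep
  have hS : PB fun a : α => esize a + B a + esize (l a) + 2 :=
    ((PB.esize_id.add hB).add (PB.esize hl)).add (PB.const 2)
  obtain ⟨d', k1, k2⟩ := hd.exists_bound hS
  have key : ∀ a, All (I a (0 + (l a).length)) (foldQ (step a) (l a) (ini a)) ∧
      Dep (foldQ (step a) (l a) (ini a)) ((l a).length * d' a) := fun a =>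
    foldQ_idx_aux (l a) 0 (ini a) (fun i s x hi hx hI => ⟨hs a i s x (by omega) hx hI,
      dep_mono (hd' (a, s, x)) (k2 a (a, s, x) (by
        have h1 := hsz a i s (by omega) hI
        have h2 := esize_lt_of_mem hx
        simp only [esize_pair]
        omega))⟩) (h0 a)
  refine ⟨?_, ⟨_, (PB.length hl).mul k1, fun a => (key a).2⟩,
    ⟨_, hB, fun a => (key a).1.mono fun s hs => hsz a _ s (by omega) hs⟩⟩
  have hS' : PB fun p : α × List ℕ => esize p.1 + B p.1 + esize (l p.1) + 2 + esize p.2 + 1 :=
    ((hS.comp PT.fst').add (PB.esize PT.snd')).add (PB.const 1)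
  obtain ⟨Q, k3, k4⟩ := (PB.esize hstep.pt).exists_bound hS'
  have hx0 : PT fun p : α × List ℕ => (Sum.inl (ini p.1, p.2) : (σ × List ℕ) ⊕ Qy) := by fun_prop
  refine (PT.foldl (l := fun p : α × List ℕ => l p.1)
    (f := fun p x b => x.elim (fun z => probe (step p.1 z.1 b) z.2) Sum.inr)
    (fun p => Q p + esize (Sum.inl (ini p.1, p.2) : (σ × List ℕ) ⊕ Qy)) (hl.comp PT.fst') hx0
    ?_ (k3.add (PB.esize hx0)) fun p i => ?_).of_eq fun p => ?_
  · exact PT.sum_elim
      (f := fun (w : (α × List ℕ) × ((σ × List ℕ) ⊕ Qy) × β) (z : σ × List ℕ) =>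
        probe (step w.1.1 z.1 w.2.2) z.2) (g := fun _ q => Sum.inr q) (by fun_prop)
      (hstep.pt.comp (g := fun z : ((α × List ℕ) × ((σ × List ℕ) ⊕ Qy) × β) × σ × List ℕ =>
        ((z.1.1.1, z.2.1, z.1.2.2), z.2.2)) (by fun_prop)) (by fun_prop)
  · obtain ⟨i', hi'⟩ := foldl_take_idx
      (F := fun x b => x.elim (fun z => probe (step p.1 z.1 b) z.2) Sum.inr)
      (J := fun i x => esize x ≤ Q p + esize (Sum.inl (ini p.1, p.2) : (σ × List ℕ) ⊕ Qy) ∧
        ∀ s r, x = Sum.inl (s, r) → I p.1 i s ∧ r <:+ p.2) (l p.1) 0 (Sum.inl (ini p.1, p.2))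
      (fun i x b hi hb hJ => by
        rcases x with ⟨s, r⟩ | q
        · obtain ⟨h1, h2⟩ := hJ.2 s r rfl
          refine ⟨(k4 p ((p.1, s, b), r) ?_).trans (Nat.le_add_right _ _), fun s' r' h => ?_⟩
          · have h3 := hsz p.1 i s (by omega) h1
            have h4 := esize_lt_of_mem hb
            have h5 := esize_sublist h2.sublist
            simp only [esize_pair]
            omega
          · obtain ⟨h3, h4⟩ := probe_inl (hs p.1 i s b (by omega) hb h1) h
            exact ⟨h3, h4.trans h2⟩
        · exact ⟨hJ.1, fun s r h => by simp at h⟩)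
      ⟨Nat.le_add_left _ _, fun s r h => by
        simp only [Sum.inl.injEq, Prod.mk.injEq] at h
        obtain ⟨rfl, rfl⟩ := h
        exact ⟨h0 _, List.suffix_refl _⟩⟩ i
    exact hi'.1
  · exact probe_foldQ (step p.1) (l p.1) _

theorem foldQ_inv {l : α → List β} {ini : α → σ} {step : α → σ → β → QT σ} (B : α → ℕ)
    (I : α → σ → Prop) (hl : PT l) (hini : PT ini)
    (hstep : PTO fun p : α × σ × β => step p.1 p.2.1 p.2.2) (hB : PB B) (h0 : ∀ a, I a (ini a))
    (hs : ∀ a s x, x ∈ l a → I a s → All (I a) (step a s x)) (hsz : ∀ a s, I a s → esize s ≤ B a) :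
    PTO fun a => foldQ (step a) (l a) (ini a) := by
  exact foldQ_idx B (fun a _ s => I a s) hl hini hstep hB h0 (fun a _ s x _ hx => hs a s x hx)
    fun a _ s _ => hsz a s

theorem foldQ_grow {l : α → List β} {ini : α → σ} {step : α → σ → β → QT σ} (g : α → ℕ)
    (hl : PT l) (hini : PT ini) (hstep : PTO fun p : α × σ × β => step p.1 p.2.1 p.2.2) (hg : PB g)
    (hs : ∀ a s x, x ∈ l a → All (fun s' => esize s' ≤ esize s + g a) (step a s x)) :
    PTO fun a => foldQ (step a) (l a) (ini a) := by
  refine foldQ_idx (fun a => esize (ini a) + (l a).length * g a)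
    (fun a i s => esize s ≤ esize (ini a) + i * g a) hl hini hstep
    ((PB.esize hini).add ((PB.length hl).mul hg)) (fun a => by simp)
    (fun a i s x _ hx hI => (hs a s x hx).mono fun s' hs' => ?_) fun a i s hi hI =>
      hI.trans (Nat.add_le_add_left (Nat.mul_le_mul_right _ hi) _)
  rw [add_mul, one_mul]
  omega

theorem iter_inv {n : α → ℕ} {ini : α → σ} {step : α → σ → QT σ} (B : α → ℕ) (I : α → σ → Prop)
    (hn : PT n) (hn' : PB n) (hini : PT ini) (hstep : PTO fun p : α × σ => step p.1 p.2) (hB : PB B)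
    (h0 : ∀ a, I a (ini a)) (hs : ∀ a s, I a s → All (I a) (step a s))
    (hsz : ∀ a s, I a s → esize s ≤ B a) : PTO fun a => iter (step a) (n a) (ini a) := by
  simp only [iter_eq_foldQ]
  exact foldQ_inv (step := fun a s (_ : Unit) => step a s) B I (by fun_prop) hini
    (hstep.comp (g := fun p : α × σ × Unit => (p.1, p.2.1)) (by fun_prop)) hB h0
    (fun a s _ _ => hs a s) hsz

theorem iter_grow {n : α → ℕ} {ini : α → σ} {step : α → σ → QT σ} (g : α → ℕ)
    (hn : PT n) (hn' : PB n) (hini : PT ini) (hstep : PTO fun p : α × σ => step p.1 p.2) (hg : PB g)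
    (hs : ∀ a s, All (fun s' => esize s' ≤ esize s + g a) (step a s)) :
    PTO fun a => iter (step a) (n a) (ini a) := by
  simp only [iter_eq_foldQ]
  exact foldQ_grow (step := fun a s (_ : Unit) => step a s) g (by fun_prop) hini
    (hstep.comp (g := fun p : α × σ × Unit => (p.1, p.2.1)) (by fun_prop)) hg
    fun a s _ _ => hs a s

/-- the invariant may depend on the number of steps done -/
theorem iter_inv' {n : α → ℕ} {ini : α → σ} {step : α → σ → QT σ} (B : α → ℕ) (I : α → ℕ → σ → Prop)
    (hn : PT n) (hn' : PB n) (hini : PT ini) (hstep : PTO fun p : α × σ => step p.1 p.2) (hB : PB B)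
    (h0 : ∀ a, I a 0 (ini a)) (hs : ∀ a i s, i < n a → I a i s → All (I a (i + 1)) (step a s))
    (hsz : ∀ a i s, i ≤ n a → I a i s → esize s ≤ B a) : PTO fun a => iter (step a) (n a) (ini a) := by
  simp only [iter_eq_foldQ]
  exact foldQ_idx (step := fun a s (_ : Unit) => step a s) B I (by fun_prop) hini
    (hstep.comp (g := fun p : α × σ × Unit => (p.1, p.2.1)) (by fun_prop)) hB h0
    (fun a i s _ hi _ => hs a i s (by simpa using hi)) fun a i s hi => hsz a i s (by simpa using hi)

theorem mapQ {l : α → List β} {g : α → β → QT γ} (hl : PT l) (hg : PTO fun p : α × β => g p.1 p.2) :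
    PTO fun a => QT.mapQ (g a) (l a) := by
  simp only [mapQ_eq_foldQ]
  obtain ⟨C, hC, hC'⟩ := hg.size
  have hS : PB fun a : α => esize a + esize (l a) + 1 :=
    (PB.esize_id.add (PB.esize hl)).add (PB.const 1)
  obtain ⟨C', k1, k2⟩ := hC.exists_bound hS
  refine PTO.map (g := fun _ bs => List.reverse bs) (foldQ_grow
    (step := fun a acc x => (g a x).map (· :: acc)) (fun a => C' a + 1) hl (PT.const [])
    (PTO.map (g := fun (p : α × List γ × β) c => c :: p.2.1)
      (hg.comp (g := fun p : α × List γ × β => (p.1, p.2.2)) (by fun_prop)) (by fun_prop))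
    (k1.add (PB.const 1)) fun a s x hx => ?_) (by fun_prop)
  rw [all_map]
  refine (hC' (a, x)).mono fun c hc => ?_
  have h1 := k2 a (a, x) (by
    have := esize_lt_of_mem hx
    rw [esize_pair]
    omega)
  rw [esize_cons]
  omega

theorem rep {K : α → ℕ} {t : α → QT β} (hK : PT K) (hK' : PB K) (ht : PTO t) :
    PTO fun a => QT.rep (K a) (t a) := by
  exact mapQ (g := fun a (_ : Unit) => t a) (by fun_prop) (ht.comp PT.fst')

theorem unif {K : α → ℕ} (hK : PT K) (hK' : PB K) : PTO fun a => QT.unif (K a) := by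
  exact PTO.map (g := fun _ bs => ofBits bs) (rep hK hK' coin) (by fun_prop)

end PTO

end Crest.Agent.R302
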