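import Crest.Agent.R302.Flow

/-!
# Row 302: the Poincaré inequality for merged DL arrays

`g` is DL, changes by a factor in `[ρ k * lam, ρ k / lam]` in the direction `y k`, and `F` ignores the directions `y k`.

* `step_le` (two consecutive values of the pinned pair `i ∉ K`, base point `v`): `Z₀ = msum K g (v + e_{y i})`, `Z₁ = msum K g (v + e_{x i})`.
  `flow` with `φ = e_{x i} / Z₁ - e_{y i} / Z₀` (and with `-F`), `ω k = s ρ i / ρ k`.  `-qf g u φ φ ≤ 2 g (u + e_{x i} + e_{y i}) / (Z₀ Z₁)`,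
  `0 ≤ gw (N k) a ≤ M^2 / 2`, `g (u + e_{x i} + e_{y i}) ≤ ρ i / (ρ k lam^2) g (u + e_{x i} + e_{y k})` and `dsum_fill_le` bound the first part by
  `|K| M^2 / (s lam^2 Z₀)`; `g (u + e_{x k} + e_{y k}) ≤ ρ k / (ρ i lam^2) g (u + e_{y i} + e_{x k})` bounds the second by
  `s / lam^2 * dirW K (v + e_{y i})` (`dsum_shift`, `hF`).  `2 |D| ≤ A / s + s B` for all `s > 0` gives `D^2 ≤ A B`.
* `between_le`: `Z_t = msum K g (pt w t (N - t))` is log-concave in `t ≤ N` (`DL.lc2` for `msum K g`), so `Z_s Z_t / ∑ Z ≤ min (Z_r, Z_{r+1})` for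
  `s ≤ r < t` (`LC.min_le`); `(μ_s - μ_t)^2 ≤ N ∑_{s ≤ r < t} (μ_r - μ_{r+1})^2`; `(μ_{r+1} - μ_r)^2 ≤ 2 (μ_{r+1} - ν_r)^2 + 2 (ν_r - μ_r)^2` with
  `ν_r = msum K (g (u + e_x) F u) τ_r / Z_{r+1}`, Cauchy–Schwarz for the first term and `step_le` at `v = τ_r = pt w r (N - 1 - r)` for the second.
  `(∑ Z) (∑ Z μ^2) - (∑ Z μ)^2 = ∑_{s<t} Z_s Z_t (μ_s - μ_t)^2`.
* `poincare`: induction on `K` (generalising `w`), `msum_insert`, `dsum_insert`.
-/

set_option autoImplicit false
set_option linter.unusedSectionVars false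

noncomputable section

namespace Crest.Agent.R302

open Finset

variable {J : Type} [Fintype J] [DecidableEq J] {ι : Type} [Fintype ι] [DecidableEq ι]

/-- the single-site Dirichlet form -/
def dirW (x y : ι → J) (N : ι → ℕ) (g F : (J → ℕ) → ℝ) (K : Finset ι) (w : J → ℕ) : ℝ :=
  dsum x y N K (fun k _ u => g (u + e1 (x k)) * (F (u + e1 (x k)) - F u) ^ 2) w

/-- hypotheses of the Poincaré inequality -/
structure PH (x y : ι → J) (N : ι → ℕ) (g F : (J → ℕ) → ℝ) (ρ : ι → ℝ) (lam : ℝ) (M : ℕ) : Prop where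
  dl : DL g
  ρ_pos : ∀ k, 0 < ρ k
  lam_pos : 0 < lam
  lo : ∀ k u, ρ k * lam * g u ≤ g (u + e1 (y k))
  hi : ∀ k u, lam * g (u + e1 (y k)) ≤ ρ k * g u
  hF : ∀ k u, F (u + e1 (y k)) = F u
  hM : ∀ k, N k ≤ M

variable {x y : ι → J} {N : ι → ℕ} {g F : (J → ℕ) → ℝ} {ρ : ι → ℝ} {lam : ℝ} {M : ℕ}

theorem poinc_opt {D A B : ℝ} (hA : 0 ≤ A) (h : ∀ s, 0 < s → 2 * |D| ≤ A / s + s * B) :
    D ^ 2 ≤ A * B := by
  rcases eq_or_ne D 0 with rfl | hD
  · by_contra hc
    have hB : B < 0 := by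
      by_contra hB
      exact hc (by simpa using mul_nonneg hA (not_lt.1 hB))
    have h1 := h (A / -B + 1) (add_pos_of_nonneg_of_pos (div_nonneg hA (by linarith)) one_pos)
    have h2 : 0 ≤ A / -B := div_nonneg hA (by linarith)
    have h3 : A / (A / -B + 1) ≤ A := div_le_self hA (by linarith)
    have h4 : A / -B * B = -A := by field_simp [hB.ne]
    simp only [abs_zero, mul_zero, add_mul, one_mul, h4] at h1
    linarith
  have hD' := abs_pos.2 hD
  rcases hA.eq_or_lt with rfl | hA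
  · have h1 := h (|D| / (|B| + 1)) (by positivity)
    have h2 : |D| / (|B| + 1) * B ≤ |D| := by
      rw [div_mul_eq_mul_div, div_le_iff₀ (by positivity)]
      nlinarith [le_abs_self B]
    rw [zero_div] at h1
    linarith
  · have h1 := h (A / |D|) (by positivity)
    rw [show A / (A / |D|) = |D| by field_simp, div_mul_eq_mul_div] at h1
    have h2 : |D| ≤ A * B / |D| := by linarith
    rwa [le_div_iff₀ hD', abs_mul_abs_self, ← sq] at h2

theorem PH.flow_le (h : PH x y N g F ρ lam M) (K : Finset ι) (i : ι) (v : J → ℕ) {s : ℝ}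
    (hs : 0 < s) :
    2 * (msum x y N K (fun u => g (u + e1 (x i)) * F u) v / msum x y N K g (v + e1 (x i)) -
        msum x y N K (fun u => g (u + e1 (y i)) * F u) v / msum x y N K g (v + e1 (y i))) ≤
      K.card * M ^ 2 / (lam ^ 2 * msum x y N K g (v + e1 (y i))) / s +
        s * (dirW x y N g F K (v + e1 (y i)) / lam ^ 2) := by
  set Z₀ := msum x y N K g (v + e1 (y i)) with hZ₀
  set Z₁ := msum x y N K g (v + e1 (x i)) with hZ₁
  have p₀ : 0 < Z₀ := (h.dl.msum x y N K).pos _
  have p₁ : 0 < Z₁ := (h.dl.msum x y N K).pos _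
  have hg := h.dl.pos
  have hρ := h.ρ_pos
  have hl := h.lam_pos
  set φ : Option J → ℝ := 0 + Z₁⁻¹ • Pi.single (some (x i)) 1 + (-Z₀⁻¹) • Pi.single (some (y i)) 1
    with hφ
  have l0 : ∀ u, lf g u 0 = 0 := fun u => by simp [lf]
  have hlf : ∀ u, lf g u φ = Z₁⁻¹ * g (u + e1 (x i)) + -Z₀⁻¹ * g (u + e1 (y i)) := fun u => by
    rw [hφ, lf_add, lf_add, lf_smul, lf_smul, lf_single, lf_single, l0, zero_add]
    rfl
  have hqf : ∀ u, -qf g u φ φ ≤ 2 * (Z₁⁻¹ * Z₀⁻¹) * g (u + e1 (x i) + e1 (y i)) := fun u => by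
    rw [hφ, qf_add_two, l0, l0, show qf g u 0 0 = 0 by simp [qf]]
    have h1 := mul_nonneg (sq_nonneg Z₁⁻¹) (hg (u + e1 (x i) + e1 (x i))).le
    have h2 := mul_nonneg (sq_nonneg (-Z₀⁻¹)) (hg (u + e1 (y i) + e1 (y i))).le
    linarith
  have h0 : msum x y N K (fun u => lf g u φ) v = 0 := by
    simp only [hlf]
    rw [msum_add, msum_mul, msum_mul, ← msum_shift, ← msum_shift, ← hZ₀, ← hZ₁]
    field_simp
    ring
  have h1 := flow h.dl x y N (fun k => s * ρ i / ρ k) (fun k => by
    have := hρ k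
    have := hρ i
    positivity) F K v φ h0
  have e1' : msum x y N K (fun u => lf g u φ * F u) v =
      msum x y N K (fun u => g (u + e1 (x i)) * F u) v / Z₁ -
        msum x y N K (fun u => g (u + e1 (y i)) * F u) v / Z₀ := by
    simp only [hlf, add_mul, mul_assoc]
    rw [msum_add, msum_mul, msum_mul]
    ring
  rw [← e1']
  refine h1.trans ((dsum_mono x y N K (H' := fun k _ u =>
    M ^ 2 / (s * lam ^ 2 * Z₀ * Z₁) * g (u + e1 (y k) + e1 (x i)) +
      s / lam ^ 2 * (g (u + e1 (y i) + e1 (x k)) *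
        (F (u + e1 (y i) + e1 (x k)) - F (u + e1 (y i))) ^ 2)) (fun k _ a ha u => ?_) v).trans ?_)
  · have hk := hρ k
    have hi := hρ i
    refine add_le_add ?_ ?_
    · have a1 : (a : ℝ) + 1 ≤ N k := by exact_mod_cast ha
      have a2 : (N k : ℝ) ≤ M := by exact_mod_cast h.hM k
      have a3 : (0 : ℝ) ≤ a := Nat.cast_nonneg a
      have g0 : 0 ≤ gw (N k) a := by unfold gw; nlinarith
      have g1 : gw (N k) a ≤ M ^ 2 / 2 := by unfold gw; nlinarith
      have b1 := h.hi i (u + e1 (x i))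
      have b2 := h.lo k (u + e1 (x i))
      rw [add_right_comm] at b2
      have b3 : g (u + e1 (x i) + e1 (y i)) ≤
          ρ i / (ρ k * lam ^ 2) * g (u + e1 (y k) + e1 (x i)) := by
        rw [div_mul_eq_mul_div, le_div_iff₀ (by positivity)]
        nlinarith [mul_le_mul_of_nonneg_left b1 (mul_pos hk hl).le,
          mul_le_mul_of_nonneg_left b2 hi.le]
      have b4 := hg (u + e1 (y k) + e1 (x i))
      have b5 := hg (u + e1 (x i) + e1 (y i))
      calc gw (N k) a * -qf g u φ φ / (s * ρ i / ρ k)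
          ≤ M ^ 2 / 2 * (2 * (Z₁⁻¹ * Z₀⁻¹) *
            (ρ i / (ρ k * lam ^ 2) * g (u + e1 (y k) + e1 (x i)))) / (s * ρ i / ρ k) := by
            refine div_le_div_of_nonneg_right ?_ (by positivity)
            refine (mul_le_mul_of_nonneg_left (hqf u) g0).trans ?_
            gcongr
        _ = _ := by field_simp
    · have b1 := h.hi k (u + e1 (x k))
      have b2 := h.lo i (u + e1 (x k))
      rw [add_right_comm] at b2
      rw [h.hF, h.hF, add_right_comm u (e1 (y i)) (e1 (x k)), h.hF,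
        add_right_comm u (e1 (x k)) (e1 (y i)), ← mul_assoc, ← mul_assoc]
      refine mul_le_mul_of_nonneg_right ?_ (sq_nonneg _)
      rw [div_mul_eq_mul_div, div_mul_eq_mul_div, div_le_div_iff₀ hk (by positivity)]
      nlinarith [mul_le_mul_of_nonneg_left b1 (mul_pos (mul_pos hs hi) hl).le,
        mul_le_mul_of_nonneg_left b2 (mul_pos hs hk).le]
  · rw [dsum_add, dsum_mul, dsum_mul, dirW, dsum_shift]
    refine add_le_add ?_ (le_of_eq (by ring))
    have h2 := dsum_fill_le x y N K (G := fun u => g (u + e1 (x i))) (fun u => (hg _).le) v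
    rw [← msum_shift, ← hZ₁] at h2
    refine (mul_le_mul_of_nonneg_left h2 (by positivity)).trans (le_of_eq ?_)
    field_simp

theorem PH.neg (h : PH x y N g F ρ lam M) : PH x y N g (fun u => -F u) ρ lam M :=
  { h with hF := fun k u => by rw [h.hF] }

theorem PH.step_le (h : PH x y N g F ρ lam M) (K : Finset ι) (i : ι) (v : J → ℕ) :
    msum x y N K g (v + e1 (y i)) *
      (msum x y N K (fun u => g (u + e1 (x i)) * F u) v / msum x y N K g (v + e1 (x i)) -
        msum x y N K (fun u => g (u + e1 (y i)) * F u) v / msum x y N K g (v + e1 (y i))) ^ 2 ≤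
      K.card * M ^ 2 / lam ^ 4 * dirW x y N g F K (v + e1 (y i)) := by
  have p₀ : 0 < msum x y N K g (v + e1 (y i)) := (h.dl.msum x y N K).pos _
  have hl := h.lam_pos
  have key := poinc_opt (D := msum x y N K (fun u => g (u + e1 (x i)) * F u) v /
      msum x y N K g (v + e1 (x i)) -
        msum x y N K (fun u => g (u + e1 (y i)) * F u) v / msum x y N K g (v + e1 (y i)))
    (A := K.card * M ^ 2 / (lam ^ 2 * msum x y N K g (v + e1 (y i))))
    (B := dirW x y N g F K (v + e1 (y i)) / lam ^ 2) (by positivity) fun s hs => by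
      have h1 := h.flow_le K i v hs
      have h2 := h.neg.flow_le K i v hs
      have e : ∀ z : J, msum x y N K (fun u => g (u + e1 z) * -F u) v =
          -msum x y N K (fun u => g (u + e1 z) * F u) v := fun z => by
        rw [← neg_one_mul, ← msum_mul]
        simp
      have e' : dirW x y N g (fun u => -F u) K (v + e1 (y i)) = dirW x y N g F K (v + e1 (y i)) := by
        simp only [dirW]
        congr 1
        funext k a u
        ring
      rw [e, e, e', neg_div, neg_div] at h2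
      rcases abs_cases (msum x y N K (fun u => g (u + e1 (x i)) * F u) v /
        msum x y N K g (v + e1 (x i)) -
          msum x y N K (fun u => g (u + e1 (y i)) * F u) v / msum x y N K g (v + e1 (y i))) with
        h3 | h3 <;> rw [h3.1] <;> linarith
  refine (mul_le_mul_of_nonneg_left key p₀.le).trans (le_of_eq ?_)
  field_simp

end Crest.Agent.R302
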