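import Crest.Agent.R302.Poinc
import Crest.Agent.R302.DL2

/-!
# Row 302: the Poincaré inequality, martingale decomposition
Recipes: see the header of `Poinc.lean`.
-/

set_option autoImplicit false
set_option linter.unusedSectionVars false

noncomputable section

namespace Crest.Agent.R302

open Finset

variable {J : Type} [Fintype J] [DecidableEq J] {ι : Type} [Fintype ι] [DecidableEq ι]
variable {x y : ι → J} {N : ι → ℕ} {g F : (J → ℕ) → ℝ} {ρ : ι → ℝ} {lam : ℝ} {M : ℕ}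

theorem var_eq_half (n : ℕ) (Z μ : ℕ → ℝ) :
    (∑ t ∈ range n, Z t) * (∑ t ∈ range n, Z t * μ t ^ 2) - (∑ t ∈ range n, Z t * μ t) ^ 2 =
      (1 / 2) * ∑ s ∈ range n, ∑ t ∈ range n, Z s * Z t * (μ s - μ t) ^ 2 := by
  have h1 : ∑ s ∈ range n, ∑ t ∈ range n, Z s * Z t * (μ s - μ t) ^ 2 =
      ∑ s ∈ range n, ∑ t ∈ range n, ((Z s * μ s ^ 2) * Z t + Z s * (Z t * μ t ^ 2) -
        2 * ((Z s * μ s) * (Z t * μ t))) :=
    sum_congr rfl fun s _ => sum_congr rfl fun t _ => by ring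
  rw [h1]
  simp only [sum_sub_distrib, sum_add_distrib, ← mul_sum, ← sum_mul]
  ring

theorem diff_sq_le (μ : ℕ → ℝ) {s t : ℕ} (hst : s ≤ t) :
    (μ s - μ t) ^ 2 ≤ ((t : ℝ) - s) * ∑ r ∈ Ico s t, (μ (r + 1) - μ r) ^ 2 := by
  have h1 : ∑ r ∈ Ico s t, (μ (r + 1) - μ r) = μ t - μ s := sum_Ico_sub μ hst
  have h2 := sq_sum_le_card_mul_sum_sq (s := Ico s t) (f := fun r => μ (r + 1) - μ r)
  rw [h1, Nat.card_Ico, Nat.cast_sub hst] at h2
  calc (μ s - μ t) ^ 2 = (μ t - μ s) ^ 2 := by ring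
    _ ≤ _ := h2

theorem pair_le (n : ℕ) (Z μ B : ℕ → ℝ) (hZ : ∀ t, 0 < Z t)
    (hlc : ∀ s, s + 2 ≤ n → Z s * Z (s + 2) ≤ Z (s + 1) ^ 2)
    (hB : ∀ r < n, min (Z r) (Z (r + 1)) * (μ (r + 1) - μ r) ^ 2 ≤ B r) {s t : ℕ} (hst : s ≤ t)
    (ht : t ≤ n) :
    Z s * Z t * (μ s - μ t) ^ 2 ≤ n * (∑ t ∈ range (n + 1), Z t) * ∑ r ∈ range n, B r := by
  set T := ∑ t ∈ range (n + 1), Z t with hT
  have hle : ∀ r ≤ n, Z r ≤ T := fun r hr =>
    single_le_sum (f := Z) (fun i _ => (hZ i).le) (mem_range.2 (by omega))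
  have hm0 : 0 < min (Z s) (Z t) := lt_min (hZ s) (hZ t)
  have hB0 : ∀ r < n, 0 ≤ B r := fun r hr =>
    le_trans (mul_nonneg (le_min (hZ _).le (hZ _).le) (sq_nonneg _)) (hB r hr)
  have h1 : Z s * Z t ≤ min (Z s) (Z t) * T := by
    rcases le_total (Z s) (Z t) with h | h
    · rw [min_eq_left h]; exact mul_le_mul_of_nonneg_left (hle t ht) (hZ s).le
    · rw [min_eq_right h, mul_comm]; exact mul_le_mul_of_nonneg_left (hle s (by omega)) (hZ t).le
  have h2 : min (Z s) (Z t) * ∑ r ∈ Ico s t, (μ (r + 1) - μ r) ^ 2 ≤ ∑ r ∈ range n, B r := by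
    rw [mul_sum]
    calc ∑ r ∈ Ico s t, min (Z s) (Z t) * (μ (r + 1) - μ r) ^ 2 ≤ ∑ r ∈ Ico s t, B r := by
          refine sum_le_sum fun r hr => ?_
          rw [mem_Ico] at hr
          refine le_trans (mul_le_mul_of_nonneg_right ?_ (sq_nonneg _)) (hB r (by omega))
          exact le_min (LC.min_le hZ hlc hr.1 hr.2.le ht) (LC.min_le hZ hlc (by omega) (by omega) ht)
      _ ≤ ∑ r ∈ range n, B r := by
          refine sum_le_sum_of_subset_of_nonneg ?_ fun r hr _ => hB0 r (mem_range.1 hr)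
          intro r hr
          rw [mem_Ico] at hr
          exact mem_range.2 (by omega)
  have h3 := diff_sq_le μ hst
  have h4 : (t : ℝ) - s ≤ n := by
    have : (t : ℝ) ≤ n := by exact_mod_cast ht
    have : (0 : ℝ) ≤ s := Nat.cast_nonneg s
    linarith
  have hT0 : 0 ≤ T := le_trans (hZ 0).le (hle 0 (Nat.zero_le _))
  have hS0 : 0 ≤ ∑ r ∈ Ico s t, (μ (r + 1) - μ r) ^ 2 := sum_nonneg fun _ _ => sq_nonneg _
  calc Z s * Z t * (μ s - μ t) ^ 2
      ≤ (min (Z s) (Z t) * T) * (n * ∑ r ∈ Ico s t, (μ (r + 1) - μ r) ^ 2) := by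
        refine mul_le_mul h1 (h3.trans (mul_le_mul_of_nonneg_right h4 hS0)) (sq_nonneg _) ?_
        exact mul_nonneg hm0.le hT0
    _ = n * T * (min (Z s) (Z t) * ∑ r ∈ Ico s t, (μ (r + 1) - μ r) ^ 2) := by ring
    _ ≤ n * T * ∑ r ∈ range n, B r :=
        mul_le_mul_of_nonneg_left h2 (mul_nonneg (Nat.cast_nonneg n) hT0)

theorem var_le (n : ℕ) (Z μ B : ℕ → ℝ) (hZ : ∀ t, 0 < Z t)
    (hlc : ∀ s, s + 2 ≤ n → Z s * Z (s + 2) ≤ Z (s + 1) ^ 2)
    (hB : ∀ r < n, min (Z r) (Z (r + 1)) * (μ (r + 1) - μ r) ^ 2 ≤ B r) :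
    (∑ t ∈ range (n + 1), Z t) * (∑ t ∈ range (n + 1), Z t * μ t ^ 2) -
        (∑ t ∈ range (n + 1), Z t * μ t) ^ 2 ≤
      (n : ℝ) ^ 3 * (∑ t ∈ range (n + 1), Z t) * ∑ r ∈ range n, B r := by
  rw [var_eq_half]
  set T := ∑ t ∈ range (n + 1), Z t with hT
  set S := ∑ r ∈ range n, B r with hS
  have hT0 : 0 ≤ T := sum_nonneg fun t _ => (hZ t).le
  have hS0 : 0 ≤ S := sum_nonneg fun r hr =>
    le_trans (mul_nonneg (le_min (hZ _).le (hZ _).le) (sq_nonneg _)) (hB r (mem_range.1 hr))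
  have h1 : ∀ s ∈ range (n + 1), ∑ t ∈ range (n + 1), Z s * Z t * (μ s - μ t) ^ 2 ≤ n * (n * T * S) := by
    intro s hs
    rw [← add_sum_erase _ _ hs, sub_self]
    have h2 : ∑ t ∈ (range (n + 1)).erase s, Z s * Z t * (μ s - μ t) ^ 2 ≤
        ((range (n + 1)).erase s).card • (n * T * S) := by
      refine sum_le_card_nsmul _ _ _ fun t ht => ?_
      have ht' := mem_range.1 (mem_of_mem_erase ht)
      have hs' := mem_range.1 hs
      rcases le_total s t with h | h
      · exact pair_le n Z μ B hZ hlc hB h (by omega)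
      · have := pair_le n Z μ B hZ hlc hB h (by omega : s ≤ n)
        calc Z s * Z t * (μ s - μ t) ^ 2 = Z t * Z s * (μ t - μ s) ^ 2 := by ring
          _ ≤ _ := this
    rw [card_erase_of_mem hs, card_range, Nat.add_sub_cancel, nsmul_eq_mul] at h2
    simpa using h2
  have h3 := sum_le_card_nsmul _ _ _ h1
  rw [card_range, nsmul_eq_mul] at h3
  have h4 : (1 / 2 : ℝ) * (((n + 1 : ℕ) : ℝ) * (n * (n * T * S))) ≤ (n : ℝ) ^ 3 * T * S := by
    rcases Nat.eq_zero_or_pos n with h0 | h0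
    · subst h0; simp
    · have hn : (1 : ℝ) ≤ n := by exact_mod_cast h0
      have hTS : 0 ≤ (n : ℝ) ^ 2 * (T * S) := by positivity
      push_cast
      nlinarith
  linarith

theorem msum_nonneg' (K : Finset ι) {G : (J → ℕ) → ℝ} (hG : ∀ u, 0 ≤ G u) (w : J → ℕ) :
    0 ≤ msum x y N K G w := sum_nonneg fun _ _ => hG _

theorem msum_cs (K : Finset ι) {G : (J → ℕ) → ℝ} (hG : ∀ u, 0 ≤ G u) (D : (J → ℕ) → ℝ) (w : J → ℕ) :
    msum x y N K (fun u => G u * D u) w ^ 2 ≤
      msum x y N K G w * msum x y N K (fun u => G u * D u ^ 2) w := by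
  unfold msum
  refine sum_sq_le_sum_mul_sum_of_sq_le_mul _ (fun a _ => hG _)
    (fun a _ => mul_nonneg (hG _) (sq_nonneg _)) fun a _ => le_of_eq ?_
  ring

theorem PH.dirW_nonneg (h : PH x y N g F ρ lam M) (K : Finset ι) (w : J → ℕ) :
    0 ≤ dirW x y N g F K w :=
  sum_nonneg fun _ _ => sum_nonneg fun _ _ =>
    msum_nonneg' _ (fun _ => mul_nonneg (h.dl.pos _).le (sq_nonneg _)) _

theorem dirW_insert {K : Finset ι} {i : ι} (hi : i ∉ K) (w : J → ℕ) :
    dirW x y N g F (insert i K) w =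
      ∑ a ∈ range (N i), msum x y N K (fun u => g (u + e1 (x i)) * (F (u + e1 (x i)) - F u) ^ 2)
          (pt (x i) (y i) w a (N i - 1 - a)) +
        ∑ a ∈ range (N i + 1), dirW x y N g F K (pt (x i) (y i) w a (N i - a)) := by
  unfold dirW
  rw [dsum_insert x y N hi]
  rfl

/-- one step of the pinned pair -/
theorem PH.one_step (h : PH x y N g F ρ lam M) (K : Finset ι) (i : ι) (v : J → ℕ) :
    min (msum x y N K g (v + e1 (y i))) (msum x y N K g (v + e1 (x i))) *
      (msum x y N K (fun u => g u * F u) (v + e1 (x i)) / msum x y N K g (v + e1 (x i)) -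
        msum x y N K (fun u => g u * F u) (v + e1 (y i)) / msum x y N K g (v + e1 (y i))) ^ 2 ≤
      2 * msum x y N K (fun u => g (u + e1 (x i)) * (F (u + e1 (x i)) - F u) ^ 2) v +
        2 * (K.card * M ^ 2 / lam ^ 4 * dirW x y N g F K (v + e1 (y i))) := by
  have hstep := h.step_le K i v
  have hZ0 := (h.dl.msum x y N K).pos (v + e1 (y i))
  have hZ1 := (h.dl.msum x y N K).pos (v + e1 (x i))
  have hcs := msum_cs (x := x) (y := y) (N := N) K (G := fun u => g (u + e1 (x i)))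
    (fun u => (h.dl.pos _).le) (fun u => F (u + e1 (x i)) - F u) v
  have e0 : msum x y N K (fun u => g u * F u) (v + e1 (y i)) =
      msum x y N K (fun u => g (u + e1 (y i)) * F u) v := by
    rw [msum_shift]
    simp only [h.hF]
  have e1' : msum x y N K (fun u => g u * F u) (v + e1 (x i)) =
      msum x y N K (fun u => g (u + e1 (x i)) * F u) v +
        msum x y N K (fun u => g (u + e1 (x i)) * (F (u + e1 (x i)) - F u)) v := by
    rw [msum_shift, ← msum_add]
    congr 1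
    funext u
    ring
  rw [← msum_shift x y N K g v] at hcs
  rw [e0, e1']
  set Z0 := msum x y N K g (v + e1 (y i))
  set Z1 := msum x y N K g (v + e1 (x i))
  set A := msum x y N K (fun u => g (u + e1 (x i)) * F u) v
  set D := msum x y N K (fun u => g (u + e1 (x i)) * (F (u + e1 (x i)) - F u)) v
  set E := msum x y N K (fun u => g (u + e1 (x i)) * (F (u + e1 (x i)) - F u) ^ 2) v
  set C := msum x y N K (fun u => g (u + e1 (y i)) * F u) v
  have h1 : Z1 * (D / Z1) ^ 2 ≤ E := by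
    rw [div_pow, ← mul_div_assoc, div_le_iff₀ (by positivity)]
    nlinarith
  have h2 : ((A + D) / Z1 - C / Z0) ^ 2 ≤ 2 * (D / Z1) ^ 2 + 2 * (A / Z1 - C / Z0) ^ 2 := by
    rw [add_div]
    nlinarith [sq_nonneg (D / Z1 - (A / Z1 - C / Z0))]
  have hm0 : 0 ≤ min Z0 Z1 := le_min hZ0.le hZ1.le
  have h3 : min Z0 Z1 * (D / Z1) ^ 2 ≤ Z1 * (D / Z1) ^ 2 :=
    mul_le_mul_of_nonneg_right (min_le_right _ _) (sq_nonneg _)
  have h4 : min Z0 Z1 * (A / Z1 - C / Z0) ^ 2 ≤ Z0 * (A / Z1 - C / Z0) ^ 2 :=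
    mul_le_mul_of_nonneg_right (min_le_left _ _) (sq_nonneg _)
  have h5 := mul_le_mul_of_nonneg_left h2 hm0
  nlinarith

theorem PH.between_le (h : PH x y N g F ρ lam M) {K : Finset ι} {i : ι} (hi : i ∉ K) (w : J → ℕ) :
    msum x y N (insert i K) g w *
        mrg (x i) (y i) (N i) (fun v => msum x y N K (fun u => g u * F u) v ^ 2 / msum x y N K g v) w -
      msum x y N (insert i K) (fun u => g u * F u) w ^ 2 ≤
      2 * M ^ 3 * (1 + K.card * M ^ 2 / lam ^ 4) * msum x y N (insert i K) g w *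
        dirW x y N g F (insert i K) w := by
  have hdl := h.dl.msum x y N K
  set n := N i with hn
  set Z : ℕ → ℝ := fun t => msum x y N K g (pt (x i) (y i) w t (n - t)) with hZ
  set S : ℕ → ℝ := fun t => msum x y N K (fun u => g u * F u) (pt (x i) (y i) w t (n - t)) with hS
  set E : ℕ → ℝ := fun a => msum x y N K (fun u => g (u + e1 (x i)) * (F (u + e1 (x i)) - F u) ^ 2)
    (pt (x i) (y i) w a (n - 1 - a)) with hE
  set W : ℕ → ℝ := fun a => dirW x y N g F K (pt (x i) (y i) w a (n - a)) with hW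
  set C : ℝ := K.card * M ^ 2 / lam ^ 4 with hC
  have hC0 : 0 ≤ C := by have := h.lam_pos; positivity
  have hZpos : ∀ t, 0 < Z t := fun t => hdl.pos _
  have hlc : ∀ s, s + 2 ≤ n → Z s * Z (s + 2) ≤ Z (s + 1) ^ 2 := by
    intro s hs
    have := hdl.lc2 (pt (x i) (y i) w s (n - s - 2)) (some (y i)) (some (x i))
    simp only [ee_some, pt_add_x, pt_add_y] at this
    have a1 : n - s - 2 + 1 + 1 = n - s := by omega
    have a2 : n - s - 2 = n - (s + 2) := by omega
    have a3 : n - s - 2 + 1 = n - (s + 1) := by omega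
    rw [a1, a3, a2] at this
    exact this
  have hB : ∀ r < n, min (Z r) (Z (r + 1)) * (S (r + 1) / Z (r + 1) - S r / Z r) ^ 2 ≤
      2 * E r + 2 * (C * W r) := by
    intro r hr
    have := h.one_step K i (pt (x i) (y i) w r (n - 1 - r))
    simp only [pt_add_x, pt_add_y] at this
    have a1 : n - 1 - r + 1 = n - r := by omega
    have a2 : n - (r + 1) = n - 1 - r := by omega
    rw [a1] at this
    simp only [hZ, hS, hE, hW, a2]
    exact this
  have hv := var_le n Z (fun t => S t / Z t) _ hZpos hlc hB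
  have e1' : ∑ t ∈ range (n + 1), Z t * (S t / Z t) ^ 2 = ∑ t ∈ range (n + 1), S t ^ 2 / Z t :=
    sum_congr rfl fun t _ => by have := (hZpos t).ne'; field_simp
  have e2 : ∑ t ∈ range (n + 1), Z t * (S t / Z t) = ∑ t ∈ range (n + 1), S t :=
    sum_congr rfl fun t _ => by have := (hZpos t).ne'; field_simp
  rw [e1', e2] at hv
  rw [msum_insert x y N hi, msum_insert x y N hi, dirW_insert hi]
  change (∑ t ∈ range (n + 1), Z t) * (∑ t ∈ range (n + 1), S t ^ 2 / Z t) -
    (∑ t ∈ range (n + 1), S t) ^ 2 ≤ 2 * M ^ 3 * (1 + C) * (∑ t ∈ range (n + 1), Z t) *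
      (∑ a ∈ range n, E a + ∑ a ∈ range (n + 1), W a)
  refine hv.trans ?_
  have hE0 : 0 ≤ ∑ a ∈ range n, E a := sum_nonneg fun a _ =>
    msum_nonneg' _ (fun _ => mul_nonneg (h.dl.pos _).le (sq_nonneg _)) _
  have hW0 : ∀ a, 0 ≤ W a := fun a => h.dirW_nonneg _ _
  have hW1 : ∑ a ∈ range n, W a ≤ ∑ a ∈ range (n + 1), W a := by
    rw [sum_range_succ]; linarith [hW0 n]
  have hW2 : 0 ≤ ∑ a ∈ range n, W a := sum_nonneg fun a _ => hW0 a
  have hT0 : 0 ≤ ∑ t ∈ range (n + 1), Z t := sum_nonneg fun t _ => (hZpos t).le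
  have hnM : (n : ℝ) ^ 3 ≤ (M : ℝ) ^ 3 := by
    have : (n : ℝ) ≤ M := by exact_mod_cast h.hM i
    exact pow_le_pow_left₀ (Nat.cast_nonneg n) this 3
  rw [sum_add_distrib, ← mul_sum, ← mul_sum, ← mul_sum]
  set T := ∑ t ∈ range (n + 1), Z t
  set P := ∑ a ∈ range n, E a
  set Q := ∑ a ∈ range n, W a
  set Q' := ∑ a ∈ range (n + 1), W a
  have h1 : 2 * P + 2 * (C * Q) ≤ 2 * (1 + C) * (P + Q') := by
    nlinarith [mul_nonneg hC0 hE0, mul_le_mul_of_nonneg_left hW1 hC0]
  calc (n : ℝ) ^ 3 * T * (2 * P + 2 * (C * Q)) ≤ (M : ℝ) ^ 3 * T * (2 * (1 + C) * (P + Q')) := by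
        refine mul_le_mul (mul_le_mul_of_nonneg_right hnM hT0) h1 ?_ (by positivity)
        positivity
    _ = _ := by ring

theorem PH.poincare (h : PH x y N g F ρ lam M) (K : Finset ι) (w : J → ℕ) :
    msum x y N K g w * msum x y N K (fun u => g u * F u ^ 2) w -
        msum x y N K (fun u => g u * F u) w ^ 2 ≤
      2 * K.card * M ^ 3 * (1 + K.card * M ^ 2 / lam ^ 4) * msum x y N K g w * dirW x y N g F K w := by
  induction K using Finset.induction_on generalizing w with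
  | empty =>
    simp only [msum_empty, card_empty, Nat.cast_zero, mul_zero, zero_mul]
    nlinarith
  | insert i K hi ih =>
    have hb := h.between_le hi w
    have hdl := h.dl.msum x y N K
    have hD0 := h.dirW_nonneg (insert i K) w
    have hT0 := (h.dl.msum x y N (insert i K)).pos w
    have hlam := h.lam_pos
    set c : ℝ := 2 * K.card * M ^ 3 * (1 + K.card * M ^ 2 / lam ^ 4) with hc
    have hc0 : 0 ≤ c := by positivity
    have h1 : msum x y N (insert i K) (fun u => g u * F u ^ 2) w ≤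
        mrg (x i) (y i) (N i) (fun v => msum x y N K (fun u => g u * F u) v ^ 2 / msum x y N K g v) w +
          c * dirW x y N g F (insert i K) w := by
      rw [msum_insert x y N hi, dirW_insert hi]
      have hE0 : 0 ≤ ∑ a ∈ range (N i), msum x y N K
          (fun u => g (u + e1 (x i)) * (F (u + e1 (x i)) - F u) ^ 2) (pt (x i) (y i) w a (N i - 1 - a)) :=
        sum_nonneg fun a _ => msum_nonneg' _ (fun _ => mul_nonneg (h.dl.pos _).le (sq_nonneg _)) _
      have h2 : mrg (x i) (y i) (N i) (msum x y N K fun u => g u * F u ^ 2) w ≤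
          mrg (x i) (y i) (N i) (fun v => msum x y N K (fun u => g u * F u) v ^ 2 / msum x y N K g v) w +
            c * ∑ a ∈ range (N i + 1), dirW x y N g F K (pt (x i) (y i) w a (N i - a)) := by
        unfold mrg
        rw [mul_sum, ← sum_add_distrib]
        refine sum_le_sum fun a _ => ?_
        have h3 := ih (pt (x i) (y i) w a (N i - a))
        have h4 := hdl.pos (pt (x i) (y i) w a (N i - a))
        rw [← sub_le_iff_le_add', sub_div' h4.ne', div_le_iff₀ h4]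
        nlinarith
      nlinarith [mul_nonneg hc0 hE0]
    have h5 := mul_le_mul_of_nonneg_left h1 hT0.le
    rw [card_insert_of_notMem hi]
    push_cast
    set T := msum x y N (insert i K) g w
    set D := dirW x y N g F (insert i K) w
    have h6 : 0 ≤ 2 * ((K.card : ℝ) + 1) * M ^ 3 * (M ^ 2 / lam ^ 4) * T * D := by positivity
    have h7 : 2 * ((K.card : ℝ) + 1) * M ^ 3 * (1 + (K.card + 1) * M ^ 2 / lam ^ 4) * T * D =
        T * (c * D) + 2 * M ^ 3 * (1 + K.card * M ^ 2 / lam ^ 4) * T * D +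
          2 * ((K.card : ℝ) + 1) * M ^ 3 * (M ^ 2 / lam ^ 4) * T * D := by
      rw [hc]; ring
    rw [h7]
    nlinarith

end Crest.Agent.R302
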