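import Crest.Agent.R302.Poinc2

/-!
# Row 302: the Poincaré inequality on a box
`PH.poincare` with `J = ι ⊕ ι`, `x = inl`, `y = inr`, `g u = c (u ∘ inl) * h (u ∘ inr)` (`DL.comp`, `DL.mul`), `F u = f (u ∘ inl)`, `K = univ`, `w = 0`:
`emb inl inr N univ a = Sum.elim a (N - a)`.  For the Dirichlet form exchange the sums and, for a fixed `k`, match `(a, a')`
(`a < N k`, `a' ∈ box N (univ.erase k)`) with `z = update a' k (a + 1)`.
-/

set_option autoImplicit false
set_option linter.unusedSectionVars false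

noncomputable section

namespace Crest.Agent.R302

open Finset

variable {J : Type} [Fintype J] [DecidableEq J] {ι : Type} [Fintype ι] [DecidableEq ι]
variable {x y : ι → J} {N : ι → ℕ} {g F : (J → ℕ) → ℝ} {ρ : ι → ℝ} {lam : ℝ} {M : ℕ}

theorem Poinc3_emb_l (K : Finset ι) (a : ι → ℕ) (k : ι) :
    emb Sum.inl Sum.inr N K a (Sum.inl k) = if k ∈ K then a k else 0 := by
  simp [emb, Finset.sum_apply, Pi.single_apply]

theorem Poinc3_emb_r (K : Finset ι) (a : ι → ℕ) (k : ι) :
    emb Sum.inl Sum.inr N K a (Sum.inr k) = if k ∈ K then N k - a k else 0 := by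
  simp [emb, Finset.sum_apply, Pi.single_apply]

theorem Poinc3_msum (G : (ι → ℕ) → (ι → ℕ) → ℝ) :
    msum Sum.inl Sum.inr N univ (fun u => G (fun i => u (Sum.inl i)) fun i => u (Sum.inr i)) 0 =
      ∑ z ∈ box N univ, G z (N - z) := by
  refine sum_congr rfl fun z _ => ?_
  simp only [zero_add, Poinc3_emb_l, Poinc3_emb_r, mem_univ, if_true]
  rfl

theorem Poinc3_ll (u : ι ⊕ ι → ℕ) (k : ι) :
    (fun i => (u + e1 (Sum.inl k : ι ⊕ ι)) (Sum.inl i)) = (fun i => u (Sum.inl i)) + e1 k := by
  funext i; simp [Pi.single_apply]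

theorem Poinc3_rr (u : ι ⊕ ι → ℕ) (k : ι) :
    (fun i => (u + e1 (Sum.inr k : ι ⊕ ι)) (Sum.inr i)) = (fun i => u (Sum.inr i)) + e1 k := by
  funext i; simp [Pi.single_apply]

theorem Poinc3_lr (u : ι ⊕ ι → ℕ) (k : ι) :
    (fun i => (u + e1 (Sum.inl k : ι ⊕ ι)) (Sum.inr i)) = fun i => u (Sum.inr i) := by
  funext i; simp

theorem Poinc3_rl (u : ι ⊕ ι → ℕ) (k : ι) :
    (fun i => (u + e1 (Sum.inr k : ι ⊕ ι)) (Sum.inl i)) = fun i => u (Sum.inl i) := by
  funext i; simp

theorem Poinc3_sum (k : ι) (T : (ι → ℕ) → ℝ) :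
    ∑ a ∈ range (N k), ∑ a' ∈ box N (univ.erase k), T (Function.update a' k (a + 1)) =
      ∑ z ∈ box N univ with z k ≠ 0, T z := by
  rw [← sum_product' (f := fun a a' => T (Function.update a' k (a + 1)))]
  refine sum_nbij' (fun p => Function.update p.2 k (p.1 + 1))
    (fun z => (z k - 1, Function.update z k 0)) (fun p hp => ?_) (fun z hz => ?_) (fun p hp => ?_)
    (fun z hz => ?_) fun _ _ => rfl
  · obtain ⟨h1, h2⟩ := mem_product.1 hp
    refine mem_filter.2 ⟨Fintype.mem_piFinset.2 fun j => ?_, by simp⟩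
    have := Fintype.mem_piFinset.1 h2 j
    by_cases c : j = k
    · subst c; simpa using h1
    · simpa [c] using this
  · obtain ⟨h1, h2⟩ := mem_filter.1 hz
    have h3 := Fintype.mem_piFinset.1 h1
    refine mem_product.2 ⟨?_, Fintype.mem_piFinset.2 fun j => ?_⟩
    · have := h3 k
      simp only [mem_univ, if_true, mem_range] at this ⊢
      omega
    · by_cases c : j = k
      · subst c; simp
      · simpa [c] using h3 j
  · have := Fintype.mem_piFinset.1 (mem_product.1 hp).2 k
    simp only [notMem_erase, if_false, mem_singleton] at this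
    refine Prod.ext (by simp) ?_
    simp only [Function.update_idem]
    rw [← this, Function.update_eq_self]
  · have := (mem_filter.1 hz).2
    simp only [Function.update_idem]
    rw [Nat.sub_add_cancel (Nat.pos_of_ne_zero this), Function.update_eq_self]

theorem Poinc3_dir (G : (ι → ℕ) → (ι → ℕ) → ℝ) (f : (ι → ℕ) → ℝ) :
    dirW Sum.inl Sum.inr N (fun u => G (fun i => u (Sum.inl i)) fun i => u (Sum.inr i))
        (fun u => f fun i => u (Sum.inl i)) univ 0 =
      ∑ z ∈ box N univ, G z (N - z) * ∑ k with z k ≠ 0, (f z - f (z - e1 k)) ^ 2 := by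
  simp only [mul_sum, sum_filter, mul_ite, mul_zero]
  rw [sum_comm, dirW, dsum]
  refine sum_congr rfl fun k _ => ?_
  rw [← sum_filter, ← Poinc3_sum]
  refine sum_congr rfl fun a ha => sum_congr rfl fun a' _ => ?_
  have e1' : (fun i => (pt (Sum.inl k) (Sum.inr k) 0 a (N k - 1 - a) +
      emb Sum.inl Sum.inr N (univ.erase k) a') (Sum.inl i)) = Function.update a' k a := by
    funext i
    by_cases c : i = k <;> simp [pt, Poinc3_emb_l, c]
  have e2 : (fun i => (pt (Sum.inl k) (Sum.inr k) 0 a (N k - 1 - a) +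
      emb Sum.inl Sum.inr N (univ.erase k) a') (Sum.inr i)) = N - Function.update a' k (a + 1) := by
    funext i
    by_cases c : i = k
    · simp [pt, Poinc3_emb_r, c]; omega
    · simp [pt, Poinc3_emb_r, c]
  have e3 : Function.update a' k a + e1 k = Function.update a' k (a + 1) := by
    funext i
    by_cases c : i = k <;> simp [c]
  have e4 : Function.update a' k (a + 1) - e1 k = Function.update a' k a := by
    rw [← e3, add_tsub_cancel_right]
  simp only [Poinc3_ll, Poinc3_lr]
  rw [e1', e2, e3, e4]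

/-- The inequality on a box, for the weight `c z * h (N - z)`. -/
theorem poincare_box {c h : (ι → ℕ) → ℝ} (hc : DL c) (hh : DL h) (ρ : ι → ℝ) (hρ : ∀ k, 0 < ρ k)
    (hlam : 0 < lam) (lo : ∀ k u, ρ k * lam * h u ≤ h (u + e1 k))
    (hi : ∀ k u, lam * h (u + e1 k) ≤ ρ k * h u) (hM : ∀ k, N k ≤ M) (f : (ι → ℕ) → ℝ) :
    (∑ z ∈ box N univ, c z * h (N - z)) * (∑ z ∈ box N univ, c z * h (N - z) * f z ^ 2) -
        (∑ z ∈ box N univ, c z * h (N - z) * f z) ^ 2 ≤
      2 * Fintype.card ι * M ^ 3 * (1 + Fintype.card ι * M ^ 2 / lam ^ 4) *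
        (∑ z ∈ box N univ, c z * h (N - z)) *
        ∑ z ∈ box N univ, c z * h (N - z) * ∑ k with z k ≠ 0, (f z - f (z - e1 k)) ^ 2 := by
  have H : PH Sum.inl Sum.inr N (fun u => c (fun i => u (Sum.inl i)) * h fun i => u (Sum.inr i))
      (fun u => f fun i => u (Sum.inl i)) ρ lam M := by
    refine ⟨(hc.comp Sum.inl_injective).mul (hh.comp Sum.inr_injective) ?_, hρ, hlam,
      fun k u => ?_, fun k u => ?_, fun k u => by simp only [Poinc3_rl], hM⟩
    · rintro (j | j)
      · exact Or.inr fun u => by simp only [Poinc3_lr]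
      · exact Or.inl fun u => by simp only [Poinc3_rl]
    · simp only [Poinc3_rl, Poinc3_rr]
      have := mul_le_mul_of_nonneg_left (lo k fun i => u (Sum.inr i))
        (hc.pos fun i => u (Sum.inl i)).le
      linarith
    · simp only [Poinc3_rl, Poinc3_rr]
      have := mul_le_mul_of_nonneg_left (hi k fun i => u (Sum.inr i))
        (hc.pos fun i => u (Sum.inl i)).le
      linarith
  have := H.poincare univ 0
  rwa [Poinc3_msum fun z z' => c z * h z', Poinc3_msum fun z z' => c z * h z' * f z ^ 2,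
    Poinc3_msum fun z z' => c z * h z' * f z, Poinc3_dir fun z z' => c z * h z', card_univ] at this

end Crest.Agent.R302
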