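import Crest.Agent.R309.Prob

/-!
# Row 302: query trees

A randomised oracle computation is a tree: `ask none` flips a coin (answers `0`, `1`), `ask (some (b, s))` asks the oracle `O b s`.
`ex O t f` is the expectation of `f` at the leaf, `AllO O P t` says that all leaves reachable under `O` satisfy `P`,
`All P t` says this for arbitrary answers, `Dep t d` bounds the depth, `probe` feeds a list of answers.
All lemmas: induction on the tree (or on the list / the number of iterations).
-/

set_option autoImplicit false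

noncomputable section

namespace Crest.Agent.R302

open Finset Crest.Agent.R309

/-- queries: a coin, or an oracle query -/
abbrev Qy : Type := Option (Bool × List Bool)

/-- oracles -/
abbrev Orc : Type := Bool → List Bool → ℕ

/-- query trees -/
inductive QT (β : Type) : Type
  | ret (b : β) : QT β
  | ask (q : Qy) (k : ℕ → QT β) : QT β

namespace QT

variable {α β γ σ : Type}

/-- sequential composition -/
def bind : QT β → (β → QT γ) → QT γ
  | ret b, g => g b
  | ask q k, g => ask q fun v => (k v).bind g

/-- post-composition with a function -/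
def map (f : β → γ) (t : QT β) : QT γ := t.bind fun b => ret (f b)

/-- expectation -/
def ex (O : Orc) : QT β → (β → ℝ) → ℝ
  | ret b, f => f b
  | ask none k, f => (ex O (k 0) f + ex O (k 1) f) / 2
  | ask (some q) k, f => ex O (k (O q.1 q.2)) f

/-- probability -/
def pr (O : Orc) (t : QT β) (E : β → Prop) : ℝ := ex O t fun b => ind (E b)

/-- all leaves reachable under `O` satisfy `P` -/
def AllO (O : Orc) (P : β → Prop) : QT β → Prop
  | ret b => P b
  | ask none k => AllO O P (k 0) ∧ AllO O P (k 1)
  | ask (some q) k => AllO O P (k (O q.1 q.2))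

/-- all leaves satisfy `P` -/
def All (P : β → Prop) : QT β → Prop
  | ret b => P b
  | ask _ k => ∀ v, All P (k v)

/-- the depth is at most `d` -/
def Dep : QT β → ℕ → Prop
  | ret _, _ => True
  | ask _ k, d => d ≠ 0 ∧ ∀ v, Dep (k v) (d - 1)

/-- feed a list of answers: the leaf and the unused answers, or the next query -/
def probe : QT β → List ℕ → (β × List ℕ) ⊕ Qy
  | ret b, l => Sum.inl (b, l)
  | ask q _, [] => Sum.inr q
  | ask _ k, v :: l => probe (k v) l

/-- `t` computes `b` under `O` -/
def Det (O : Orc) (t : QT β) (b : β) : Prop := AllO O (fun b' => b' = b) t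

/-- a fair coin -/
def coin : QT Bool := ask none fun v => ret (decide (v % 2 = 1))

/-- an oracle query, clipped at `M` -/
def query (b : Bool) (s : List Bool) (M : ℕ) : QT ℕ := ask (some (b, s)) fun v => ret (min v M)

/-- iteration -/
def iter (step : σ → QT σ) : ℕ → σ → QT σ
  | 0, s => ret s
  | n + 1, s => (step s).bind (iter step n)

/-- left fold -/
def foldQ (step : σ → α → QT σ) : List α → σ → QT σ
  | [], s => ret s
  | a :: l, s => (step s a).bind (foldQ step l)

/-- map over a list -/
def mapQ (g : α → QT β) : List α → QT (List β)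
  | [] => ret []
  | a :: l => (g a).bind fun b => (mapQ g l).map fun bs => b :: bs

/-- `K` independent copies -/
def rep (K : ℕ) (t : QT β) : QT (List β) := mapQ (fun _ : Unit => t) (List.replicate K ())

/-- a uniform number below `2 ^ K` -/
def unif (K : ℕ) : QT ℕ := (rep K coin).map Lib.PolyTime.ofBits

variable {O : Orc}

@[simp] theorem ret_bind (b : β) (g : β → QT γ) : (ret b).bind g = g b := rfl
@[simp] theorem ex_ret (b : β) (f : β → ℝ) : ex O (ret b) f = f b := rfl
@[simp] theorem allO_ret (b : β) (P : β → Prop) : AllO O P (ret b) ↔ P b := Iff.rfl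
@[simp] theorem all_ret (b : β) (P : β → Prop) : All P (ret b) ↔ P b := Iff.rfl

theorem ask_bind (q : Qy) (k : ℕ → QT β) (g : β → QT γ) :
    (ask q k).bind g = ask q fun v => (k v).bind g := rfl

theorem ex_none (k : ℕ → QT β) (f : β → ℝ) :
    ex O (ask none k) f = (ex O (k 0) f + ex O (k 1) f) / 2 := rfl

theorem ex_some (q : Bool × List Bool) (k : ℕ → QT β) (f : β → ℝ) :
    ex O (ask (some q) k) f = ex O (k (O q.1 q.2)) f := rfl

theorem allO_none (k : ℕ → QT β) (P : β → Prop) :
    AllO O P (ask none k) ↔ AllO O P (k 0) ∧ AllO O P (k 1) := Iff.rfl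

theorem allO_some (q : Bool × List Bool) (k : ℕ → QT β) (P : β → Prop) :
    AllO O P (ask (some q) k) ↔ AllO O P (k (O q.1 q.2)) := Iff.rfl

theorem all_ask (q : Qy) (k : ℕ → QT β) (P : β → Prop) :
    All P (ask q k) ↔ ∀ v, All P (k v) := Iff.rfl

theorem rep_zero (t : QT β) : rep 0 t = ret [] := rfl

theorem rep_succ (K : ℕ) (t : QT β) :
    rep (K + 1) t = t.bind fun b => (rep K t).map fun bs => b :: bs := rfl

theorem bind_ret (t : QT β) : t.bind ret = t := by
  induction t with
  | ret b => rfl
  | ask q k ih => exact congrArg (ask q) (funext ih)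

theorem bind_assoc (t : QT α) (g : α → QT β) (h : β → QT γ) :
    (t.bind g).bind h = t.bind fun a => (g a).bind h := by
  induction t with
  | ret b => rfl
  | ask q k ih => exact congrArg (ask q) (funext ih)

theorem iter_succ' (step : σ → QT σ) (n : ℕ) (s : σ) :
    iter step (n + 1) s = (iter step n s).bind step := by
  induction n generalizing s with
  | zero => exact bind_ret _
  | succ n ih =>
    show (step s).bind (iter step (n + 1)) = ((step s).bind (iter step n)).bind step
    rw [bind_assoc]
    exact congrArg _ (funext ih)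

theorem ex_bind (t : QT β) (g : β → QT γ) (f : γ → ℝ) :
    ex O (t.bind g) f = ex O t fun b => ex O (g b) f := by
  induction t with
  | ret b => rfl
  | ask q k ih => rcases q with _ | q <;> simp only [ask_bind, ex_none, ex_some, ih]

theorem ex_map (t : QT β) (g : β → γ) (f : γ → ℝ) : ex O (t.map g) f = ex O t fun b => f (g b) := by
  exact ex_bind t _ f

theorem ex_const (t : QT β) (c : ℝ) : ex O t (fun _ => c) = c := by
  induction t with
  | ret b => rfl
  | ask q k ih =>
    rcases q with _ | q <;> simp only [ex_none, ex_some, ih]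
    ring

theorem ex_add (t : QT β) (f g : β → ℝ) : ex O t (fun b => f b + g b) = ex O t f + ex O t g := by
  induction t with
  | ret b => rfl
  | ask q k ih =>
    rcases q with _ | q <;> simp only [ex_none, ex_some, ih]
    ring

theorem ex_mul (t : QT β) (c : ℝ) (f : β → ℝ) : ex O t (fun b => c * f b) = c * ex O t f := by
  induction t with
  | ret b => rfl
  | ask q k ih =>
    rcases q with _ | q <;> simp only [ex_none, ex_some, ih]
    ring

theorem ex_sub (t : QT β) (f g : β → ℝ) : ex O t (fun b => f b - g b) = ex O t f - ex O t g := by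
  induction t with
  | ret b => rfl
  | ask q k ih =>
    rcases q with _ | q <;> simp only [ex_none, ex_some, ih]
    ring

theorem ex_sum {T : Type} (s : Finset T) (t : QT β) (f : T → β → ℝ) :
    ex O t (fun b => ∑ i ∈ s, f i b) = ∑ i ∈ s, ex O t (f i) := by
  induction t with
  | ret b => rfl
  | ask q k ih =>
    rcases q with _ | q <;> simp only [ex_none, ex_some, ih]
    rw [← sum_add_distrib, sum_div]

theorem ex_mono_on {P : β → Prop} {t : QT β} (ht : AllO O P t) {f g : β → ℝ}
    (h : ∀ b, P b → f b ≤ g b) : ex O t f ≤ ex O t g := by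
  induction t with
  | ret b => exact h b ht
  | ask q k ih =>
    rcases q with _ | q
    · have h0 := ih 0 ht.1
      have h1 := ih 1 ht.2
      simp only [ex_none]
      linarith
    · exact ih _ ht

theorem ex_mono (t : QT β) {f g : β → ℝ} (h : ∀ b, f b ≤ g b) : ex O t f ≤ ex O t g := by
  induction t with
  | ret b => exact h b
  | ask q k ih =>
    rcases q with _ | q
    · have h0 := ih 0
      have h1 := ih 1
      simp only [ex_none]
      linarith
    · exact ih _

theorem ex_congr_on {P : β → Prop} {t : QT β} (ht : AllO O P t) {f g : β → ℝ}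
    (h : ∀ b, P b → f b = g b) : ex O t f = ex O t g := by
  exact le_antisymm (ex_mono_on ht fun b hb => (h b hb).le) (ex_mono_on ht fun b hb => (h b hb).ge)

theorem ex_coin (f : Bool → ℝ) : ex O coin f = (f false + f true) / 2 := by
  rfl

theorem ex_unif (K : ℕ) (f : ℕ → ℝ) : ex O (unif K) f = avgN (2 ^ K) f := by
  rw [unif, ex_map]
  induction K generalizing f with
  | zero => simp [rep_zero, avgN]
  | succ K ih =>
    rw [rep_succ, ex_bind, ex_coin, ex_map, ex_map]
    simp only [Lib.PolyTime.ofBits_cons]
    rw [ih fun u => f (Nat.bit false u), ih fun u => f (Nat.bit true u), pow_succ']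
    have h := avgN_mul 2 (2 ^ K) fun x y => f (x + 2 * y)
    simp only [Nat.mod_add_div] at h
    rw [show avgN (2 * 2 ^ K) f = avgN (2 * 2 ^ K) fun u => f u from rfl, h]
    conv_rhs => rw [avgN]
    simp only [sum_range_succ, range_zero, sum_empty, zero_add, Nat.cast_ofNat, Nat.bit_false,
      Nat.bit_true, add_comm 1]

theorem pr_nonneg (t : QT β) (E : β → Prop) : 0 ≤ pr O t E := by
  exact (ex_const t 0).ge.trans (ex_mono t fun b => ind_nonneg _)

theorem pr_le_one (t : QT β) (E : β → Prop) : pr O t E ≤ 1 := by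
  exact (ex_mono t fun b => ind_le_one _).trans (ex_const t 1).le

theorem pr_not (t : QT β) (E : β → Prop) : pr O t (fun b => ¬ E b) = 1 - pr O t E := by
  simp only [pr, ind_not]
  rw [ex_sub, ex_const]

theorem pr_mono_on {P : β → Prop} {t : QT β} (ht : AllO O P t) {E E' : β → Prop}
    (h : ∀ b, P b → E b → E' b) : pr O t E ≤ pr O t E' := by
  exact ex_mono_on ht fun b hb => ind_mono (h b hb)

theorem pr_or_le (t : QT β) (E E' : β → Prop) :
    pr O t (fun b => E b ∨ E' b) ≤ pr O t E + pr O t E' := by
  exact (ex_mono t fun b => ind_or_le _ _).trans (ex_add t _ _).le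

theorem pr_exists_le {T : Type} (s : Finset T) (t : QT β) (E : T → β → Prop) :
    pr O t (fun b => ∃ i ∈ s, E i b) ≤ ∑ i ∈ s, pr O t (E i) := by
  refine (ex_mono t fun b => ?_).trans (ex_sum s t fun i b => ind (E i b)).le
  by_cases h : ∃ i ∈ s, E i b
  · obtain ⟨i, hi, hE⟩ := h
    refine (ind_le_one _).trans ((ind_of hE).ge.trans ?_)
    exact single_le_sum (f := fun i => ind (E i b)) (fun j _ => ind_nonneg _) hi
  · rw [ind_of_not h]
    exact sum_nonneg fun j _ => ind_nonneg _

theorem pr_map (t : QT β) (g : β → γ) (E : γ → Prop) : pr O (t.map g) E = pr O t fun b => E (g b) := by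
  exact ex_map t g _

/-- failure probabilities add up along `bind` -/
theorem pr_bind_le {P G : β → Prop} {t : QT β} (ht : AllO O P t) (g : β → QT γ) (E : γ → Prop) {p : ℝ}
    (h : ∀ b, P b → G b → pr O (g b) E ≤ p) (hp : 0 ≤ p) :
    pr O (t.bind g) E ≤ pr O t (fun b => ¬ G b) + p := by
  rw [pr, ex_bind]
  refine (ex_mono_on ht (g := fun b => ind (¬ G b) + p) fun b hb => ?_).trans ?_
  · by_cases hG : G b
    · rw [ind_of_not (not_not.2 hG), zero_add]
      exact h b hb hG
    · rw [ind_of hG]
      exact (pr_le_one (g b) E).trans (le_add_of_nonneg_right hp)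
  · rw [ex_add, ex_const]
    rfl

theorem allO_bind_aux {P : β → Prop} {P' : γ → Prop} {t : QT β} (ht : AllO O P t) {g : β → QT γ}
    (h : ∀ b, P b → AllO O P' (g b)) : AllO O P' (t.bind g) := by
  induction t with
  | ret b => exact h b ht
  | ask q k ih =>
    rcases q with _ | q
    · exact ⟨ih 0 ht.1, ih 1 ht.2⟩
    · exact ih _ ht

theorem allO_iter_aux {P : σ → Prop} {step : σ → QT σ} (h : ∀ s, P s → AllO O P (step s)) (n : ℕ)
    {s : σ} (hs : P s) : AllO O P (iter step n s) := by
  induction n generalizing s with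
  | zero => exact hs
  | succ n ih => exact allO_bind_aux (h s hs) fun b hb => ih hb

/-- union bound along an iteration: `P` always holds, `G i` holds after `i` steps unless something failed -/
theorem pr_iter_le {P : σ → Prop} {G : ℕ → σ → Prop} {step : σ → QT σ} {p : ℝ} (hp : 0 ≤ p) (n : ℕ)
    (hP : ∀ s, P s → AllO O P (step s))
    (h : ∀ i < n, ∀ s, P s → G i s → pr O (step s) (fun s' => ¬ G (i + 1) s') ≤ p)
    {s : σ} (hs : P s) (h0 : G 0 s) : pr O (iter step n s) (fun s' => ¬ G n s') ≤ n * p := by
  induction n with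
  | zero =>
    show ind (¬ G 0 s) ≤ _
    rw [ind_of_not (not_not.2 h0), Nat.cast_zero, zero_mul]
  | succ n ih =>
    rw [iter_succ']
    refine (pr_bind_le (G := G n) (allO_iter_aux hP n hs) step _
      (fun b hb hG => h n (Nat.lt_succ_self n) b hb hG) hp).trans ?_
    have := ih fun i hi => h i (Nat.lt_succ_of_lt hi)
    push_cast
    linarith

theorem AllO.mono {P P' : β → Prop} {t : QT β} (ht : AllO O P t) (h : ∀ b, P b → P' b) : AllO O P' t := by
  induction t with
  | ret b => exact h b ht
  | ask q k ih =>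
    rcases q with _ | q
    · exact ⟨ih 0 ht.1, ih 1 ht.2⟩
    · exact ih _ ht

theorem AllO.and {P P' : β → Prop} {t : QT β} (ht : AllO O P t) (ht' : AllO O P' t) :
    AllO O (fun b => P b ∧ P' b) t := by
  induction t with
  | ret b => exact ⟨ht, ht'⟩
  | ask q k ih =>
    rcases q with _ | q
    · exact ⟨ih 0 ht.1 ht'.1, ih 1 ht.2 ht'.2⟩
    · exact ih _ ht ht'

theorem allO_true (t : QT β) : AllO O (fun _ => True) t := by
  induction t with
  | ret b => trivial
  | ask q k ih =>
    rcases q with _ | q
    · exact ⟨ih 0, ih 1⟩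
    · exact ih _

theorem allO_of_forall {P : β → Prop} (t : QT β) (h : ∀ b, P b) : AllO O P t := by
  exact (allO_true t).mono fun b _ => h b

theorem allO_bind {P : γ → Prop} (t : QT β) (g : β → QT γ) :
    AllO O P (t.bind g) ↔ AllO O (fun b => AllO O P (g b)) t := by
  induction t with
  | ret b => rfl
  | ask q k ih => rcases q with _ | q <;> simp only [ask_bind, allO_none, allO_some, ih]

theorem AllO.bind {P : β → Prop} {P' : γ → Prop} {t : QT β} (ht : AllO O P t) {g : β → QT γ}
    (h : ∀ b, P b → AllO O P' (g b)) : AllO O P' (t.bind g) := by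
  exact allO_bind_aux ht h

theorem allO_map {P : γ → Prop} (t : QT β) (g : β → γ) :
    AllO O P (t.map g) ↔ AllO O (fun b => P (g b)) t := by
  exact allO_bind t _

theorem allO_iter {P : σ → Prop} {step : σ → QT σ} (h : ∀ s, P s → AllO O P (step s)) (n : ℕ) {s : σ}
    (hs : P s) : AllO O P (iter step n s) := by
  exact allO_iter_aux h n hs

theorem allO_foldQ {P : σ → Prop} {step : σ → α → QT σ} {l : List α}
    (h : ∀ s, ∀ a ∈ l, P s → AllO O P (step s a)) {s : σ} (hs : P s) : AllO O P (foldQ step l s) := by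
  induction l generalizing s with
  | nil => exact hs
  | cons a l ih =>
    exact (h s a List.mem_cons_self hs).bind fun b hb =>
      ih (fun s a' ha' => h s a' (List.mem_cons_of_mem _ ha')) hb

theorem allO_mapQ {P : α → β → Prop} {g : α → QT β} {l : List α} (h : ∀ a ∈ l, AllO O (P a) (g a)) :
    AllO O (fun bs => List.Forall₂ P l bs) (mapQ g l) := by
  induction l with
  | nil => exact List.Forall₂.nil
  | cons a l ih =>
    refine (h a List.mem_cons_self).bind fun b hb => (allO_map _ _).2 ?_
    exact (ih fun a' ha' => h a' (List.mem_cons_of_mem _ ha')).mono fun bs hbs => .cons hb hbs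

theorem allO_rep {P : β → Prop} {t : QT β} (h : AllO O P t) (K : ℕ) :
    AllO O (fun bs => bs.length = K ∧ ∀ b ∈ bs, P b) (rep K t) := by
  induction K with
  | zero => exact ⟨rfl, fun b hb => absurd hb List.not_mem_nil⟩
  | succ K ih =>
    rw [rep_succ]
    refine h.bind fun b hb => (allO_map _ _).2 (ih.mono fun bs hbs => ⟨?_, ?_⟩)
    · rw [List.length_cons, hbs.1]
    · exact List.forall_mem_cons.2 ⟨hb, hbs.2⟩

theorem allO_unif (K : ℕ) : AllO O (fun u => u < 2 ^ K) (unif K) := by
  refine (allO_map _ _).2 ((allO_rep (allO_true coin) K).mono fun bs hbs => ?_)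
  rw [← hbs.1]
  exact Lib.PolyTime.ofBits_lt bs

theorem All.allO {P : β → Prop} {t : QT β} (ht : All P t) : AllO O P t := by
  induction t with
  | ret b => exact ht
  | ask q k ih =>
    rcases q with _ | q
    · exact ⟨ih 0 (ht 0), ih 1 (ht 1)⟩
    · exact ih _ (ht _)

theorem All.mono {P P' : β → Prop} {t : QT β} (ht : All P t) (h : ∀ b, P b → P' b) : All P' t := by
  induction t with
  | ret b => exact h b ht
  | ask q k ih => exact fun v => ih v (ht v)

theorem All.and {P P' : β → Prop} {t : QT β} (ht : All P t) (ht' : All P' t) :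
    All (fun b => P b ∧ P' b) t := by
  induction t with
  | ret b => exact ⟨ht, ht'⟩
  | ask q k ih => exact fun v => ih v (ht v) (ht' v)

theorem all_of_forall {P : β → Prop} (t : QT β) (h : ∀ b, P b) : All P t := by
  induction t with
  | ret b => exact h b
  | ask q k ih => exact ih

theorem all_bind {P : γ → Prop} (t : QT β) (g : β → QT γ) :
    All P (t.bind g) ↔ All (fun b => All P (g b)) t := by
  induction t with
  | ret b => rfl
  | ask q k ih => simp only [ask_bind, all_ask, ih]

theorem All.bind {P : β → Prop} {P' : γ → Prop} {t : QT β} (ht : All P t) {g : β → QT γ}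
    (h : ∀ b, P b → All P' (g b)) : All P' (t.bind g) := by
  exact (all_bind t g).2 (ht.mono h)

theorem all_map {P : γ → Prop} (t : QT β) (g : β → γ) : All P (t.map g) ↔ All (fun b => P (g b)) t := by
  exact all_bind t _

theorem all_iter {P : σ → Prop} {step : σ → QT σ} (h : ∀ s, P s → All P (step s)) (n : ℕ) {s : σ}
    (hs : P s) : All P (iter step n s) := by
  induction n generalizing s with
  | zero => exact hs
  | succ n ih => exact (h s hs).bind fun b hb => ih hb

theorem all_foldQ {P : σ → Prop} {step : σ → α → QT σ} {l : List α}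
    (h : ∀ s, ∀ a ∈ l, P s → All P (step s a)) {s : σ} (hs : P s) : All P (foldQ step l s) := by
  induction l generalizing s with
  | nil => exact hs
  | cons a l ih =>
    exact (h s a List.mem_cons_self hs).bind fun b hb =>
      ih (fun s a' ha' => h s a' (List.mem_cons_of_mem _ ha')) hb

theorem all_mapQ {P : α → β → Prop} {g : α → QT β} {l : List α} (h : ∀ a ∈ l, All (P a) (g a)) :
    All (fun bs => List.Forall₂ P l bs) (mapQ g l) := by
  induction l with
  | nil => exact List.Forall₂.nil
  | cons a l ih =>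
    refine (h a List.mem_cons_self).bind fun b hb => (all_map _ _).2 ?_
    exact (ih fun a' ha' => h a' (List.mem_cons_of_mem _ ha')).mono fun bs hbs => .cons hb hbs

theorem all_rep {P : β → Prop} {t : QT β} (h : All P t) (K : ℕ) :
    All (fun bs => bs.length = K ∧ ∀ b ∈ bs, P b) (rep K t) := by
  induction K with
  | zero => exact ⟨rfl, fun b hb => absurd hb List.not_mem_nil⟩
  | succ K ih =>
    rw [rep_succ]
    refine h.bind fun b hb => (all_map _ _).2 (ih.mono fun bs hbs => ⟨?_, ?_⟩)
    · rw [List.length_cons, hbs.1]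
    · exact List.forall_mem_cons.2 ⟨hb, hbs.2⟩

theorem all_unif (K : ℕ) : All (fun u => u < 2 ^ K) (unif K) := by
  refine (all_map _ _).2 ((all_rep (all_of_forall (P := fun _ => True) coin fun _ => trivial) K).mono
    fun bs hbs => ?_)
  rw [← hbs.1]
  exact Lib.PolyTime.ofBits_lt bs

theorem all_query (b : Bool) (s : List Bool) (M : ℕ) : All (fun v => v ≤ M) (query b s M) := by
  exact fun v => min_le_right v M

theorem det_ret (b : β) : Det O (ret b) b := rfl

theorem det_query (b : Bool) (s : List Bool) {M : ℕ} (h : O b s ≤ M) : Det O (query b s M) (O b s) := by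
  exact min_eq_left h

theorem Det.bind {t : QT β} {b : β} (ht : Det O t b) {g : β → QT γ} {c : γ} (h : Det O (g b) c) :
    Det O (t.bind g) c := by
  exact AllO.bind ht fun b' hb => hb ▸ h

theorem Det.map {t : QT β} {b : β} (ht : Det O t b) (g : β → γ) : Det O (t.map g) (g b) := by
  exact ht.bind (det_ret _)

theorem Det.ex_bind {t : QT β} {b : β} (ht : Det O t b) (g : β → QT γ) (f : γ → ℝ) :
    ex O (t.bind g) f = ex O (g b) f := by
  rw [QT.ex_bind, ex_congr_on ht (g := fun _ => ex O (g b) f) fun b' hb => by rw [hb], ex_const]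

theorem allO_exists {P : β → Prop} {t : QT β} (ht : AllO O P t) : ∃ b, P b := by
  induction t with
  | ret b => exact ⟨b, ht⟩
  | ask q k ih =>
    rcases q with _ | q
    · exact ih 0 ht.1
    · exact ih _ ht

theorem Det.allO_bind {t : QT β} {b : β} (ht : Det O t b) (g : β → QT γ) (P : γ → Prop) :
    AllO O P (t.bind g) ↔ AllO O P (g b) := by
  refine ⟨fun h => ?_, fun h => AllO.bind ht fun b' hb => hb ▸ h⟩
  obtain ⟨b', h1, h2⟩ := allO_exists (AllO.and ht ((QT.allO_bind t g).1 h))
  exact h1 ▸ h2

theorem det_iter {P : σ → Prop} {step : σ → QT σ} {F : σ → σ}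
    (h : ∀ s, P s → Det O (step s) (F s) ∧ P (F s)) (n : ℕ) {s : σ} (hs : P s) :
    Det O (iter step n s) (F^[n] s) := by
  induction n generalizing s with
  | zero => exact det_ret s
  | succ n ih => exact (h s hs).1.bind (ih (h s hs).2)

theorem det_foldQ {P : σ → Prop} {step : σ → α → QT σ} {F : σ → α → σ} {l : List α}
    (h : ∀ s, ∀ a ∈ l, P s → Det O (step s a) (F s a) ∧ P (F s a)) {s : σ} (hs : P s) :
    Det O (foldQ step l s) (l.foldl F s) := by
  induction l generalizing s with
  | nil => exact det_ret s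
  | cons a l ih =>
    exact (h s a List.mem_cons_self hs).1.bind
      (ih (fun s a' ha' => h s a' (List.mem_cons_of_mem _ ha')) (h s a List.mem_cons_self hs).2)

theorem det_mapQ {g : α → QT β} {F : α → β} {l : List α} (h : ∀ a ∈ l, Det O (g a) (F a)) :
    Det O (mapQ g l) (l.map F) := by
  induction l with
  | nil => exact det_ret _
  | cons a l ih =>
    exact (h a List.mem_cons_self).bind
      ((ih fun a' ha' => h a' (List.mem_cons_of_mem _ ha')).map fun bs => F a :: bs)

theorem mgf_one (t : QT β) (φ : β → ℝ) (hφ : ∀ b, 0 ≤ φ b ∧ φ b ≤ 1) {l : ℝ} (hl : |l| ≤ 1) :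
    ex O t (fun b => Real.exp (l * (φ b - ex O t φ))) ≤ Real.exp (l ^ 2) := by
  set μ := ex O t φ with hμ
  have hμ0 : 0 ≤ μ := (ex_const t 0).ge.trans (ex_mono t fun b => (hφ b).1)
  have hμ1 : μ ≤ 1 := (ex_mono t fun b => (hφ b).2).trans (ex_const t 1).le
  have h : ex O t (fun b => Real.exp (l * (φ b - μ))) ≤
      ex O t fun b => (1 + l ^ 2 - l * μ) + l * φ b := by
    refine ex_mono t fun b => ?_
    have h1 : |φ b - μ| ≤ 1 := abs_le.2 ⟨by linarith [(hφ b).1], by linarith [(hφ b).2]⟩
    have h2 : |l * (φ b - μ)| ≤ 1 := by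
      rw [abs_mul]; exact mul_le_one₀ hl (abs_nonneg _) h1
    have h3 := (abs_le.1 (Real.abs_exp_sub_one_sub_id_le h2)).2
    have h4 : (φ b - μ) ^ 2 ≤ 1 := by rw [← sq_abs]; exact pow_le_one₀ (abs_nonneg _) h1
    have h5 : (l * (φ b - μ)) ^ 2 ≤ l ^ 2 := by
      rw [mul_pow]; exact mul_le_of_le_one_right (sq_nonneg l) h4
    linarith
  rw [ex_add, ex_const, ex_mul, ← hμ] at h
  linarith [Real.add_one_le_exp (l ^ 2)]

theorem mgf_rep (t : QT β) (φ : β → ℝ) (hφ : ∀ b, 0 ≤ φ b ∧ φ b ≤ 1) {l : ℝ} (hl : |l| ≤ 1)
    (K : ℕ) : ex O (rep K t) (fun bs => Real.exp (l * ((bs.map φ).sum - K * ex O t φ))) ≤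
      Real.exp (K * l ^ 2) := by
  set μ := ex O t φ
  induction K with
  | zero => simp [rep_zero]
  | succ K ih =>
    rw [rep_succ, ex_bind]
    calc _ = ex O t fun b => Real.exp (l * (φ b - μ)) * ex O (rep K t)
          (fun bs => Real.exp (l * ((bs.map φ).sum - K * μ))) := by
          congr 1
          funext b
          rw [ex_map, ← ex_mul (rep K t)]
          congr 1
          funext bs
          rw [List.map_cons, List.sum_cons, ← Real.exp_add]
          congr 1
          push_cast; ring
      _ ≤ ex O t fun b => Real.exp (K * l ^ 2) * Real.exp (l * (φ b - μ)) :=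
          ex_mono t fun b => by
            rw [mul_comm]; exact mul_le_mul_of_nonneg_right ih (Real.exp_pos _).le
      _ ≤ Real.exp (K * l ^ 2) * Real.exp (l ^ 2) := by
          rw [ex_mul]
          exact mul_le_mul_of_nonneg_left (mgf_one t φ hφ hl) (Real.exp_pos _).le
      _ = _ := by rw [← Real.exp_add]; congr 1; push_cast; ring

/-- Hoeffding's inequality for independent copies (copy the proof of `R309.hoeff`). -/
theorem hoeff (t : QT β) (φ : β → ℝ) (hφ : ∀ b, 0 ≤ φ b ∧ φ b ≤ 1) (K : ℕ) {δ : ℝ} (h0 : 0 ≤ δ)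
    (h1 : δ ≤ 1) :
    pr O (rep K t) (fun bs => δ * K < |(bs.map φ).sum - K * ex O t φ|) ≤
      2 * Real.exp (-(K * δ ^ 2) / 4) := by
  set μ := ex O t φ
  have hl : |δ / 2| ≤ 1 := by rw [abs_of_nonneg (by positivity)]; linarith
  have hl' : |-(δ / 2)| ≤ 1 := by rwa [abs_neg]
  have hA := mgf_rep (O := O) t φ hφ hl K
  have hB := mgf_rep (O := O) t φ hφ hl' K
  have hm : pr O (rep K t) (fun bs => δ * K < |(bs.map φ).sum - K * μ|) ≤
      ex O (rep K t) fun bs => Real.exp (-(δ / 2 * (δ * K))) *
        Real.exp (δ / 2 * ((bs.map φ).sum - K * μ)) +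
        Real.exp (-(δ / 2 * (δ * K))) * Real.exp (-(δ / 2) * ((bs.map φ).sum - K * μ)) := by
    refine ex_mono _ fun bs => ?_
    set S := (bs.map φ).sum - K * μ
    rw [← Real.exp_add, ← Real.exp_add]
    by_cases h : δ * K < |S|
    · rw [ind_of h]
      rcases lt_abs.1 h with h | h
      · have : 1 ≤ Real.exp (-(δ / 2 * (δ * K)) + δ / 2 * S) := Real.one_le_exp (by nlinarith)
        linarith [Real.exp_pos (-(δ / 2 * (δ * K)) + -(δ / 2) * S)]
      · have : 1 ≤ Real.exp (-(δ / 2 * (δ * K)) + -(δ / 2) * S) := Real.one_le_exp (by nlinarith)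
        linarith [Real.exp_pos (-(δ / 2 * (δ * K)) + δ / 2 * S)]
    · rw [ind_of_not h]; positivity
  rw [ex_add, ex_mul, ex_mul] at hm
  have he : Real.exp (-(δ / 2 * (δ * K))) * Real.exp (K * (δ / 2) ^ 2) =
      Real.exp (-(K * δ ^ 2) / 4) := by
    rw [← Real.exp_add]; congr 1; ring
  rw [neg_sq] at hB
  have h2 := mul_le_mul_of_nonneg_left hA (Real.exp_pos (-(δ / 2 * (δ * K)))).le
  have h3 := mul_le_mul_of_nonneg_left hB (Real.exp_pos (-(δ / 2 * (δ * K)))).le
  linarith

end QT

end Crest.Agent.R302
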