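import Crest.Agent.R302.Ann2

/-!
# Row 302: more probability for query trees (Fubini, products, difference proposals, transport of a chain)
-/

set_option autoImplicit false

noncomputable section

namespace Crest.Agent.R302

open Finset Crest.Agent.Lib.PolyTime Crest.Agent.R309 QT

variable {α β γ σ : Type} {O : Orc}

theorem ex_comm (t : QT α) (t' : QT β) (φ : α → β → ℝ) :
    ex O t (fun a => ex O t' fun b => φ a b) = ex O t' fun b => ex O t fun a => φ a b := by
  induction t with
  | ret a => rfl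
  | ask q k ih =>
    rcases q with _ | q
    · simp only [ex_none, ih]
      rw [← ex_add, div_eq_inv_mul, ← ex_mul]
      exact congrArg _ (funext fun b => by ring)
    · simp only [ex_some, ih]

theorem pr_congr (t : QT β) {E E' : β → Prop} (h : ∀ b, E b ↔ E' b) : pr O t E = pr O t E' :=
  congrArg _ (funext fun b => propext (h b))

theorem pr_bind_ge {t : QT β} {g : β → QT γ} {E : γ → Prop} {G : β → Prop} {p : ℝ}
    (h : ∀ b, G b → p ≤ pr O (g b) E) : pr O t G * p ≤ pr O (t.bind g) E := by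
  rw [pr, pr, QT.ex_bind, mul_comm, ← ex_mul]
  refine ex_mono t fun b => ?_
  by_cases hb : G b
  · rw [ind_of hb, mul_one]; exact h b hb
  · rw [ind_of_not hb, mul_zero]; exact pr_nonneg _ _

/-- a lower bound from finitely many points -/
theorem sum_le_ex (t : QT β) (A : Finset β) {f : β → ℝ} (hf : ∀ b, 0 ≤ f b) :
    ∑ a ∈ A, pr O t (fun b => b = a) * f a ≤ ex O t f := by
  classical
  simp only [pr, mul_comm _ (f _), ← ex_mul]
  rw [← ex_sum]
  refine ex_mono t fun b => ?_
  by_cases hb : b ∈ A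
  · rw [sum_eq_single_of_mem b hb fun a _ hne => by rw [ind_of_not hne.symm, mul_zero], ind_of rfl, mul_one]
  · rw [sum_eq_zero fun a ha => by rw [ind_of_not fun e : b = a => hb (e ▸ ha), mul_zero]]
    exact hf b

theorem pr_unif_eq {K a : ℕ} (h : a < 2 ^ K) : pr O (unif K) (fun u => u = a) = 1 / 2 ^ K := by
  rw [pr, ex_unif, avgN, sum_eq_single_of_mem a (mem_range.2 h) fun b _ hb => ind_of_not hb, ind_of rfl]
  push_cast
  rfl

/-- a value in the range of a function of a uniform number -/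
theorem pr_unif_map_ge {K a : ℕ} (h : a < 2 ^ K) (f : ℕ → β) :
    1 / 2 ^ K ≤ pr O ((unif K).map f) fun b => b = f a := by
  rw [pr_map, ← pr_unif_eq (O := O) h]
  exact pr_mono_on (allO_true _) fun u _ hu => by rw [hu]

theorem pr_mapQ_ge (g : α → QT β) (F : α → β) (p : α → ℝ) (l : List α) (hp : ∀ a ∈ l, 0 ≤ p a)
    (h : ∀ a ∈ l, p a ≤ pr O (g a) fun b => b = F a) :
    (l.map p).prod ≤ pr O (mapQ g l) fun bs => bs = l.map F := by
  induction l with
  | nil => exact (ind_of rfl).ge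
  | cons a l ih =>
    have ih := ih (fun a ha => hp a (List.mem_cons_of_mem _ ha)) fun a ha => h a (List.mem_cons_of_mem _ ha)
    rw [List.map_cons, List.prod_cons]
    refine le_trans (mul_le_mul_of_nonneg_right (h a List.mem_cons_self)
      (List.prod_nonneg fun x hx => ?_)) (pr_bind_ge fun b hb => ?_)
    · obtain ⟨a', ha', rfl⟩ := List.mem_map.1 hx
      exact hp a' (List.mem_cons_of_mem _ ha')
    · rw [pr_map]
      exact ih.trans (pr_mono_on (allO_true _) fun bs _ hbs => by rw [hb, hbs, List.map_cons])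

theorem pr_rep_ge (t : QT β) {p : ℝ} (hp : 0 ≤ p) (l : List β) (h : ∀ a ∈ l, p ≤ pr O t fun b => b = a) :
    p ^ l.length ≤ pr O (rep l.length t) fun bs => bs = l := by
  induction l with
  | nil => exact (pow_zero p).le.trans (ind_of rfl).ge
  | cons a l ih =>
    have ih := ih fun a ha => h a (List.mem_cons_of_mem _ ha)
    rw [List.length_cons, rep_succ, pow_succ']
    refine le_trans (mul_le_mul_of_nonneg_right (h a List.mem_cons_self) (by positivity))
      (pr_bind_ge fun b hb => ?_)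
    rw [pr_map]
    exact ih.trans (pr_mono_on (allO_true _) fun bs _ hbs => by rw [hb, hbs])

/-- the proposal `s ↦ F s x x'` with independent copies `x, x'` -/
def dif (t : QT β) (F : σ → β → β → σ) (s : σ) : QT σ := t.bind fun x => t.map fun x' => F s x x'

theorem kr_dif (t : QT β) (F : σ → β → β → σ) (s s' : σ) :
    kr O (dif t F) s s' = ex O t fun x => ex O t fun x' => ind (F s x x' = s') := by
  rw [kr, pr, dif, QT.ex_bind]
  exact congrArg _ (funext fun x => ex_map _ _ _)

theorem kr_dif_symm {t : QT β} {P : β → Prop} (ht : AllO O P t) {F : σ → β → β → σ} {s s' : σ}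
    (h : ∀ x x', P x → P x' → (F s x x' = s' ↔ F s' x' x = s)) : kr O (dif t F) s s' = kr O (dif t F) s' s := by
  rw [kr_dif, kr_dif, ex_comm]
  exact ex_congr_on ht fun x' hx' => ex_congr_on ht fun x hx => congrArg _ (propext (h x x' hx hx'))

theorem kr_dif_ge (t : QT β) {F : σ → β → β → σ} {s s' : σ} {ι : Type} (A : Finset ι) (x x' : ι → β)
    (hx : Set.InjOn x A) {p : ℝ} (hp : 0 ≤ p) (h : ∀ a ∈ A, p ≤ pr O t fun b => b = x a)
    (h' : ∀ a ∈ A, p ≤ pr O t fun b => b = x' a) (hF : ∀ a ∈ A, F s (x a) (x' a) = s') :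
    p ^ 2 * #A ≤ kr O (dif t F) s s' := by
  classical
  rw [kr_dif]
  refine le_trans ?_ (sum_le_ex t (A.image x) fun b => pr_nonneg t _)
  rw [sum_image hx, mul_comm, ← nsmul_eq_mul]
  refine card_nsmul_le_sum _ _ _ fun a ha => ?_
  rw [sq]
  refine mul_le_mul (h a ha) ((h' a ha).trans ?_) hp (pr_nonneg _ _)
  exact pr_mono_on (allO_true _) fun b _ hb => by rw [hb, hF a ha]

theorem all_dif {t : QT β} {P : β → Prop} (ht : All P t) {F : σ → β → β → σ} {s : σ} {Q : σ → Prop}
    (h : ∀ x x', P x → P x' → Q (F s x x')) : All Q (dif t F s) :=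
  ht.bind fun x hx => (all_map _ _).2 (ht.mono fun x' hx' => h x x' hx hx')

theorem PTO.dif [Enc α] [Enc β] [Enc σ] {t : α → QT β} {F : α → σ → β → β → σ} (ht : PTO t)
    (hF : PT fun p : ((α × σ) × β) × β => F p.1.1.1 p.1.1.2 p.1.2 p.2) :
    PTO fun p : α × σ => R302.dif (t p.1) (F p.1) p.2 :=
  PTO.bind (ht.comp PT.fst') (PTO.map (ht.comp (g := fun p : (α × σ) × β => p.1.1) (by fun_prop)) hF)

/-! ## Weak Poincaré inequalities along an encoding of the states -/

theorem mn_map (e : α ↪ σ) (Ω : Finset α) (W f : σ → ℝ) :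
    mn (Ω.map e) W f = mn Ω (fun a => W (e a)) fun a => f (e a) := by
  rw [mn, mn, sum_map, sum_map]

/-- a weak Poincaré inequality for abstract conductances `Q` on the abstract states gives `WP` for the encoded chain -/
theorem wp_of_cond (e : α ↪ σ) {Ω : Finset α} {W : α → ℝ} {V : σ → ℝ} {a C η : ℝ} {step : σ → QT σ} (ha : 0 < a)
    (hV : ∀ s ∈ Ω, V (e s) = a * W s)
    (h : ∀ f : α → ℝ, (∀ s ∈ Ω, |f s| ≤ 1) → mn Ω W (fun s => f s ^ 2) - mn Ω W f ^ 2 ≤
      C * ((∑ s ∈ Ω, ∑ s' ∈ Ω, W s * kr O step (e s) (e s') * (f s - f s') ^ 2) / 2 / ∑ s ∈ Ω, W s) + η) :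
    WP O step (Ω.map e) V C η := by
  intro f hf
  have h1 := h (fun s => f (e s)) fun s hs => hf _ (mem_map_of_mem e hs)
  rw [mn_map, mn_map, mn_smul ha.ne' hV, mn_smul ha.ne' hV, en, sum_map, sum_map, sum_congr rfl hV, ← mul_sum]
  refine h1.trans (le_of_eq ?_)
  have e1 : ∑ s ∈ Ω, ∑ s' ∈ Ω.map e, V (e s) * kr O step (e s) s' * (f (e s) - f s') ^ 2 =
      a * ∑ s ∈ Ω, ∑ s' ∈ Ω, W s * kr O step (e s) (e s') * (f (e s) - f (e s')) ^ 2 := by
    rw [mul_sum]
    refine sum_congr rfl fun s hs => ?_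
    rw [sum_map, mul_sum, hV s hs]
    exact sum_congr rfl fun s' _ => by ring
  rw [e1, mul_div_assoc, mul_div_mul_left _ _ ha.ne']

theorem WP.mono {step : σ → QT σ} {Ω : Finset σ} {W : σ → ℝ} {C C' η η' : ℝ} (h : WP O step Ω W C η)
    (hW : ∀ s ∈ Ω, 0 ≤ W s) (hC : C ≤ C') (hη : η ≤ η') : WP O step Ω W C' η' := by
  intro f hf
  refine (h f hf).trans (add_le_add (mul_le_mul_of_nonneg_right hC (div_nonneg (div_nonneg ?_ zero_le_two)
    (sum_nonneg hW))) hη)
  exact sum_nonneg fun s hs => sum_nonneg fun s' _ =>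
    mul_nonneg (mul_nonneg (hW s hs) (kr_nonneg _ _)) (sq_nonneg _)

end Crest.Agent.R302
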