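import Crest.Agent.R309.RamD
import Crest.Prelude.Def_OracleRAM

/-!
# Row 302: the oracle word-RAM driver

The program works in rounds on a growing list `l` of words held in the cells `0, …, |l| - 1` (register `0` holds `|l|`).
Preamble: compute `w` (`a := 1; i := 0; while a ≠ 0: a := a + a; i := i + 1`, here the addition wraps modulo `2 ^ w`) and append it to the input.
A round is the round of `R309.RamD.mainC` (reuse `ini_exec`, `nat_exec'`, `list_exec`, `A.comp`, `Reach.*`, `Stk`, `B`, `word_exec`; they hold for an arbitrary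
`code`), run on `baseProgram P`; copy `parseC`/`parse_exec` in a version that falls through instead of halting and remembers `mem` below `|l| + N`
(sentinels) and register `8 = |l|`.  The words `y` lie at the address `s` (register `1`), their number is in register `0`.  Tail: load the tag `mem s`;
`0`: `reg 1 := s + 1`, `reg 0 := reg 0 - 1`, halt; `1`: `v := mem (s + 1)`; `2`, `3`: `query b (s + 1)`; then `mem |l| := v`, `mem (|l| + N) := 0`,
`reg 0 := |l| + 1`, jump to the start of the round.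
`ostep_base`: as long as the base program does not halt no query is executed (a query reads as `halt`), so `ostep` and `step` agree;
for the final `halt` and the queries do single `ostep`s.
-/

set_option autoImplicit false

noncomputable section

namespace Crest.Agent.R302

open Finset Crest.WordRAM Crest.OracleRAM Crest.Agent.Lib.PolyTime Crest.Agent.R309

/-- the set read from a list of words -/
def wset (n : ℕ) (y : List ℕ) : Finset (Fin n) := univ.filter fun j => y.getD j 0 ≠ 0

/-- `P` works in rounds -/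
def ORounds (P : OProgram) (n : ℕ) (O : Bool → Finset (Fin n) → ℕ) (w : ℕ) (x : List ℕ)
    (G : List ℕ → ℕ → List ℕ) (D τ : ℕ) : Prop :=
  ∃ St : List ℕ → OCfg P.numRegs → Prop,
    (∃ T ≤ τ, ∃ c, (∀ ρ, orun P n O w ρ x T = c) ∧ c.cfg.drawn = 0 ∧ St (x ++ [w]) c) ∧
    ∀ l c, St l c → x ++ [w] <+: l → l.length ≤ D → (∀ a ∈ l, a < 2 ^ w) → ∀ U < 2 ^ w,
      ∃ T ≤ τ, ∃ c' : OCfg P.numRegs,
      (∀ ρ : ℕ → ℕ, ρ c.cfg.drawn % 2 ^ w = U → (ostep P n O w ρ)^[T] c = c') ∧
      c'.cfg.drawn = c.cfg.drawn + 1 ∧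
      (∀ y, G l U = 0 :: y → c'.cfg.halted = true ∧ c'.cfg.output = y) ∧
      (∀ v, G l U = [1, v] → St (l ++ [v]) c') ∧
      ∀ (b : Bool) (y : List ℕ), G l U = (2 + b.toNat) :: y → y.length = n →
        St (l ++ [O b (wset n y) % 2 ^ w]) c'

theorem RamA_step_halt (P : Program) (w : ℕ) (ρ : ℕ → ℕ) (c : Cfg P.numRegs) (h0 : c.halted = false)
    (h : P.code[c.pc]? = none ∨ P.code[c.pc]? = some .halt) : step P w ρ c = { c with halted := true } := by
  rcases h with h | h <;> simp [step, h0, h]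

theorem RamA_base_get (P : OProgram) (i : ℕ) :
    (baseProgram P).code[i]? = (P.code[i]?).map OInstr.toBase := List.getElem?_map

theorem ostep_base (P : OProgram) (n : ℕ) (O : Bool → Finset (Fin n) → ℕ) (w : ℕ) (ρ : ℕ → ℕ) (T : ℕ)
    (c : Cfg P.numRegs) (m : ℕ) (h : ((step (baseProgram P) w ρ)^[T] c).halted = false) :
    (ostep P n O w ρ)^[T] ⟨c, m⟩ = ⟨(step (baseProgram P) w ρ)^[T] c, m⟩ := by
  induction T generalizing c with
  | zero => rfl
  | succ T ih =>
    have fix : ∀ c : Cfg (baseProgram P).numRegs, c.halted = true →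
        (step (baseProgram P) w ρ)^[T] c = c := fun c hc =>
      Function.iterate_fixed (by simp [step, hc]) T
    have h' : ((step (baseProgram P) w ρ)^[T] (step (baseProgram P) w ρ c)).halted = false := h
    have h1 : (step (baseProgram P) w ρ c).halted = false := by
      by_contra h1
      rw [fix _ (by simpa using h1)] at h'
      exact h1 h'
    have h0 : c.halted = false := by
      by_contra h0
      have h0' : c.halted = true := by simpa using h0
      simp [step, h0'] at h1
    have h2 : ostep P n O w ρ ⟨c, m⟩ = ⟨step (baseProgram P) w ρ c, m⟩ := by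
      unfold ostep
      simp only [h0, Bool.false_eq_true, if_false]
      cases hp : P.code[c.pc]? with
      | none =>
        rw [RamA_step_halt (baseProgram P) w ρ c h0
          (Or.inl ((RamA_base_get P _).trans (congrArg _ hp)))] at h1
        exact absurd h1 (by simp)
      | some i =>
        cases i with
        | base i => rfl
        | query b a d =>
          rw [RamA_step_halt (baseProgram P) w ρ c h0
            (Or.inr ((RamA_base_get P _).trans (congrArg _ hp)))] at h1
          exact absurd h1 (by simp)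
    exact (congrArg (ostep P n O w ρ)^[T] h2).trans (ih _ h')

namespace RamA

open RamD hiding At

variable {N w : ℕ} {code : List (Instr (N + 8))} {Q : (ℕ → ℕ) → Prop} {pc d : ℕ}
  {R : Fin (N + 8) → ℕ} {M : ℕ → ℕ} {x : List ℕ}

/-- parse the words on stack `0` and fall through -/
def parC (N off : ℕ) : List (Instr (N + 8)) :=
  [.load (rg N 3) (rg N 8), .jumpIfZero (rg N 3) (off + 16), .const (rg N 5) 0,
    .load (rg N 3) (rg N 8), .sub (rg N 8) (rg N 8) (rg N 2), .jumpIfEq (rg N 3) (rg N 4) (off + 12),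
    .load (rg N 3) (rg N 8), .sub (rg N 8) (rg N 8) (rg N 2), .sub (rg N 3) (rg N 3) (rg N 4),
    .add (rg N 5) (rg N 5) (rg N 5), .add (rg N 5) (rg N 5) (rg N 3), .jump (off + 3),
    .store (rg N 5) (rg N 6), .add (rg N 6) (rg N 6) (rg N 4), .add (rg N 0) (rg N 0) (rg N 4),
    .jump off]

theorem word_exec' {base s : ℕ} {ys : List ℕ} {l : List Bool} (hN : 0 < N)
    (hc : RamD.At code pc (parC N pc)) :
    ∀ (bs : List Bool) (n : ℕ) (R : Fin (N + 8) → ℕ),
    B N base s R M ((bs.flatMap fun b => [true, b]) ++ false :: l) ys → R (rg N 5) = n →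
    val bs n < 2 ^ w →
    Reach code w Q ⟨pc + 3, false, R, M, d⟩ (9 * bs.length + 3) (Is (pc + 12) d fun R' M' =>
      M' = M ∧ B N base s R' M' l ys ∧ R' (rg N 5) = val bs n) := by
  simp only [parC, at_cons, add_assoc, Nat.reduceAdd] at hc
  obtain ⟨-, -, -, c3, c4, c5, c6, c7, c8, c9, c10, c11, -⟩ := hc
  intro bs
  induction bs with
  | nil =>
    intro n R hB h5 hv
    obtain ⟨r2, r4, r8, stk, r1, r6, r0, out, hs⟩ := hB
    simp only [List.flatMap_nil, List.nil_append, List.length_cons, Stk] at r8 stk hs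
    apply Reach.mono (T := 0 + 1 + 1 + 1)
    · refine Reach.load c3 1 (by rw [r8, stk.1]; rfl) ?_
      refine Reach.sub c4 (base + N * l.length) (by
        simp only [RamD.wr_ne hN, ne_eq, Nat.reduceEqDiff, not_false_eq_true, Nat.reduceLT, r8, r2]
        rw [mul_add]; omega) ?_
      refine Reach.jeY c5 (by simp [RamD.wr_ne hN, wr_same, r4]) ?_
      refine Reach.done ⟨rfl, rfl, rfl, rfl, ⟨?_, ?_, ?_, stk.2, ?_, ?_, ?_, out, by nlinarith⟩, ?_⟩ <;>
        simp [RamD.wr_ne hN, wr_same, RamD.val, *]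
    · simp
  | cons bt bs ih =>
    intro n R hB h5 hv
    obtain ⟨r2, r4, r8, stk, r1, r6, r0, out, hs⟩ := hB
    simp only [List.flatMap_cons, List.cons_append, List.nil_append] at r8 stk hs
    generalize hl' : (bs.flatMap fun b => [true, b]) ++ false :: l = l' at r8 stk hs ih
    simp only [List.length_cons, Stk] at r8 stk hs
    have hv' : val bs (2 * n + bt.toNat) < 2 ^ w := hv
    have hle := le_val bs (2 * n + bt.toNat)
    apply Reach.mono (T := 9 * bs.length + 3 + 1 + 1 + 1 + 1 + 1 + 1 + 1 + 1 + 1)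
    · refine Reach.load c3 2 (by rw [r8, stk.1]; rfl) ?_
      refine Reach.sub c4 (base + N * (l'.length + 1)) (by
        simp only [RamD.wr_ne hN, ne_eq, Nat.reduceEqDiff, not_false_eq_true, Nat.reduceLT, r8, r2]
        rw [mul_add]; omega) ?_
      refine Reach.jeN c5 (by simp [RamD.wr_ne hN, wr_same, r4]) ?_
      refine Reach.load c6 (1 + bt.toNat) (by rw [wr_same, stk.2.1]) ?_
      refine Reach.sub c7 (base + N * l'.length) (by
        simp only [RamD.wr_ne hN, wr_same, ne_eq, Nat.reduceEqDiff, not_false_eq_true, Nat.reduceLT, r2]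
        rw [mul_add]; omega) ?_
      refine Reach.sub c8 bt.toNat (by simp [RamD.wr_ne hN, wr_same, r4]) ?_
      refine Reach.add c9 (2 * n) (by simp [RamD.wr_ne hN, h5]; omega) (by omega) ?_
      refine Reach.add c10 (2 * n + bt.toNat) (by simp [RamD.wr_ne hN, wr_same]) (by omega) ?_
      refine Reach.jump c11 ?_
      refine ih (2 * n + bt.toNat) _ ⟨?_, ?_, ?_, stk.2.2, ?_, ?_, ?_, out, by nlinarith⟩
        (wr_same _ _ _) hv' <;> simp [RamD.wr_ne hN, wr_same, r2, r4, r1, r6, r0]
    · simp only [List.length_cons]; omega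

theorem par_exec {base s : ℕ} (hN : 0 < N) (hc : RamD.At code pc (parC N pc)) :
    ∀ (y ys : List ℕ) (R : Fin (N + 8) → ℕ) (M : ℕ → ℕ), B N base s R M (y.flatMap wordCode) ys →
    (∀ a ∈ y, a < 2 ^ w) → s + ys.length + y.length < 2 ^ w →
    Reach code w Q ⟨pc, false, R, M, d⟩ (10 * (y.flatMap wordCode).length + 2) (Is (pc + 16) d
      fun R' M' => B N base s R' M' [] (ys ++ y) ∧ ∀ a < s, M' a = M a) := by
  have hc' := hc
  simp only [parC, at_cons, add_assoc, Nat.reduceAdd] at hc'
  obtain ⟨c0, c1, c2, -, -, -, -, -, -, -, -, -, c12, c13, c14, c15, -⟩ := hc'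
  intro y
  induction y with
  | nil =>
    intro ys R M hB hy hb
    obtain ⟨r2, r4, r8, stk, r1, r6, r0, out, hs⟩ := hB
    simp only [List.flatMap_nil, List.length_nil, Stk, mul_zero, add_zero] at r8 stk hs
    apply Reach.mono (T := 0 + 1 + 1)
    · refine Reach.load c0 0 (by rw [r8, stk]) ?_
      refine Reach.jzY c1 (wr_same _ _ _) ?_
      refine Reach.done ⟨rfl, rfl, rfl, ⟨?_, ?_, ?_, stk, ?_, ?_, ?_, by simpa using out, by simpa using hs⟩,
        fun _ _ => rfl⟩ <;> simp [RamD.wr_ne hN, *]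
    · simp
  | cons n y ih =>
    intro ys R M hB hy hb
    have hn : n < 2 ^ w := hy n (by simp)
    simp only [List.length_cons] at hb
    have hcode : (n :: y).flatMap wordCode =
        (n.bits.reverse.flatMap fun b => [true, b]) ++ false :: y.flatMap wordCode := by
      simp [wordCode]
    have hlen : ∀ bs : List Bool, (bs.flatMap fun b => [true, b]).length = 2 * bs.length := by
      intro bs
      induction bs with
      | nil => simp
      | cons b bs ih => simp only [List.flatMap_cons, List.length_append, ih,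
          List.length_cons, List.length_nil]; omega
    rw [hcode] at hB ⊢
    obtain ⟨bt, l', hl'⟩ : ∃ bt l', (n.bits.reverse.flatMap fun b => [true, b]) ++
        false :: y.flatMap wordCode = bt :: l' := List.exists_cons_of_ne_nil (by simp)
    have htop : M (R (rg N 8)) = 1 + bt.toNat := by
      have h1 := hB.r8
      have h2 := hB.stk
      rw [hl'] at h1 h2
      rw [h1]; exact h2.1
    apply Reach.mono (T := 9 * n.bits.reverse.length + 3 +
      (10 * (y.flatMap wordCode).length + 2 + 1 + 1 + 1 + 1) + 1 + 1 + 1)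
    · refine Reach.load c0 _ htop ?_
      refine Reach.jzN c1 (by rw [wr_same]; omega) ?_
      refine Reach.const c2 (by positivity) ?_
      refine (word_exec' (base := base) (s := s) (ys := ys) (l := y.flatMap wordCode) hN hc
        n.bits.reverse 0 _ ?_ (wr_same _ _ _) (by rwa [val_bits])).bind ?_
      · obtain ⟨r2, r4, r8, stk, r1, r6, r0, out, hs⟩ := hB
        refine ⟨?_, ?_, ?_, stk, ?_, ?_, ?_, out, hs⟩ <;> simp only [RamD.wr_ne hN, ne_eq,
          Nat.reduceEqDiff, not_false_eq_true, Nat.reduceLT, OfNat.zero_ne_ofNat, OfNat.one_ne_ofNat,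
          Nat.ofNat_pos, Nat.one_lt_ofNat] <;> assumption
      rintro R1 M1 ⟨rfl, ⟨r2, r4, r8, stk, r1, r6, r0, out, hs⟩, h5⟩
      rw [val_bits] at h5
      refine Reach.store c12 _ _ r6 h5 ?_
      refine Reach.add c13 (s + ys.length + 1) (by rw [r6, r4]) (by omega) ?_
      refine Reach.add c14 (ys.length + 1) (by simp [RamD.wr_ne hN, r0, r4]) (by omega) ?_
      refine Reach.jump c15 ?_
      refine (ih (ys ++ [n]) (writeReg (writeReg R1 (rg N 6) (s + ys.length + 1)) (rg N 0)
        (ys.length + 1)) (writeMem M1 (s + ys.length) n) ?_ (fun a ha => hy a (by simp [ha]))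
        (by simp; omega)).last ?_
      · refine ⟨?_, ?_, ?_, stk.write (by omega), ?_, ?_, ?_, fun j hj => ?_, hs⟩
        · simp [RamD.wr_ne hN, r2]
        · simp [RamD.wr_ne hN, r4]
        · simp [RamD.wr_ne hN, r8]
        · simp [RamD.wr_ne hN, r1]
        · simp [RamD.wr_ne hN, wr_same, add_assoc]
        · simp [wr_same]
        · simp only [List.length_append, List.length_cons, List.length_nil] at hj
          by_cases hj' : j = ys.length
          · simp [writeMem, hj']
          · have hj2 : j < ys.length := by omega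
            simp [writeMem, hj', out j hj2, List.getElem?_append_left hj2]
      · rintro R2 M2 ⟨hB2, hM2⟩
        refine ⟨rfl, rfl, rfl, by simpa using hB2, fun a ha => ?_⟩
        show M2 a = M1 a
        rw [hM2 a ha, writeMem, if_neg (by omega)]
    · simp only [List.length_append, hlen, List.length_cons, List.length_reverse]; omega

/-- the preamble -/
def preC (N : ℕ) : List (Instr (N + 8)) :=
  [.const (rg N 4) 1, .const (rg N 5) 1, .const (rg N 6) 0, .jumpIfZero (rg N 5) 7,
    .add (rg N 5) (rg N 5) (rg N 5), .add (rg N 6) (rg N 6) (rg N 4), .jump 3,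
    .store (rg N 6) (rg N 0), .add (rg N 0) (rg N 0) (rg N 4)]

/-- a round up to the tail; placed at the position `9` -/
def rndC (N : ℕ) (p : Prog) : List (Instr (N + 8)) :=
  .const (rg N 2) N :: .const (rg N 4) 1 :: .const (rg N 7) 2 :: (iniC N N ++
    (.copy (rg N 5) (rg N 0) :: (natC N (12 + 2 * N + 1) ++ (.const (rg N 6) 0 ::
      (listC N (12 + 2 * N + 23) ++ (.rand (rg N 5) :: (natC N (12 + 2 * N + 49) ++
        (comp N p (12 + 2 * N + 70) ++ (.sub (rg N 8) (rg N 8) (rg N 2) ::
          .add (rg N 1) (rg N 8) (rg N 4) :: .copy (rg N 6) (rg N 1) ::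
            .const (rg N 0) 0 :: parC N (12 + 2 * N + 70 + clen p + 4))))))))))

/-- position of the tail -/
def tpos (N : ℕ) (p : Prog) : ℕ := 12 + 2 * N + 70 + clen p + 4 + 16

/-- the tail -/
def tailC (N e : ℕ) : List (OInstr (N + 8)) :=
  [.base (.load (rg N 3) (rg N 1)), .base (.add (rg N 1) (rg N 1) (rg N 4)),
    .base (.jumpIfZero (rg N 3) (e + 17)), .base (.jumpIfEq (rg N 3) (rg N 4) (e + 10)),
    .base (.sub (rg N 3) (rg N 3) (rg N 4)), .base (.jumpIfEq (rg N 3) (rg N 4) (e + 8)),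
    .query true (rg N 1) (rg N 5), .base (.jump (e + 11)), .query false (rg N 1) (rg N 5),
    .base (.jump (e + 11)), .base (.load (rg N 5) (rg N 1)), .base (.store (rg N 5) (rg N 8)),
    .base (.add (rg N 0) (rg N 8) (rg N 4)), .base (.add (rg N 8) (rg N 8) (rg N 2)),
    .base (.const (rg N 3) 0), .base (.store (rg N 3) (rg N 8)), .base (.jump 9),
    .base (.sub (rg N 0) (rg N 0) (rg N 4)), .base .halt]

/-- the whole program -/
def oc (N : ℕ) (p : Prog) : List (OInstr (N + 8)) :=
  (preC N ++ rndC N p).map .base ++ tailC N (tpos N p)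

theorem length_front (N : ℕ) (p : Prog) : (preC N ++ rndC N p).length = tpos N p := by
  simp only [preC, rndC, parC, tpos, List.length_append, List.length_cons, List.length_nil, length_iniC,
    length_natC, length_listC, length_comp]
  omega

theorem oc_base (N : ℕ) (p : Prog) : (oc N p).map OInstr.toBase =
    preC N ++ (rndC N p ++ (tailC N (tpos N p)).map OInstr.toBase) := by
  simp [oc, OInstr.toBase, Function.comp_def]

theorem oc_tail (N : ℕ) (p : Prog) (i : ℕ) : (oc N p)[tpos N p + i]? = (tailC N (tpos N p))[i]? := by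
  unfold oc
  rw [List.getElem?_append_right (by rw [List.length_map, length_front]; omega), List.length_map,
    length_front, Nat.add_sub_cancel_left]

theorem pre_loop (hN : 0 < N) (hc : RamD.At code 0 (preC N)) : ∀ (k i : ℕ) (R : Fin (N + 8) → ℕ),
    i + k = w → R (rg N 4) = 1 → R (rg N 5) = 2 ^ i % 2 ^ w → R (rg N 6) = i →
    Reach code w Q ⟨3, false, R, M, d⟩ (4 * k + 1) (Is 7 d fun R' M' =>
      M' = M ∧ R' (rg N 4) = 1 ∧ R' (rg N 6) = w ∧ R' (rg N 0) = R (rg N 0)) := by
  simp only [preC, at_cons, zero_add, Nat.reduceAdd] at hc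
  obtain ⟨-, -, -, c3, c4, c5, c6, -⟩ := hc
  intro k
  induction k with
  | zero =>
    intro i R hi r4 r5 r6
    obtain rfl : i = w := by omega
    refine Reach.jzY c3 (by rw [r5, Nat.mod_self]) ?_
    exact Reach.done ⟨rfl, rfl, rfl, rfl, r4, r6, rfl⟩
  | succ k ih =>
    intro i R hi r4 r5 r6
    have hlt : 2 ^ i < 2 ^ w := Nat.pow_lt_pow_right (by norm_num) (by omega)
    rw [Nat.mod_eq_of_lt hlt] at r5
    have hw : i + 1 < 2 ^ w := lt_of_le_of_lt (by omega) (Nat.lt_two_pow_self (n := w))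
    apply Reach.mono (T := 4 * k + 1 + 0 + 1 + 1 + 1 + 1) _ (by omega)
    refine Reach.jzN c3 (by rw [r5]; positivity) ?_
    refine Reach.one (c₁ := ⟨5, false, writeReg R (rg N 5) (2 ^ (i + 1) % 2 ^ w), M, d⟩)
      (fun ρ _ => by simp [step, c4, r5, pow_succ, mul_two]) ?_
    refine Reach.add c5 (i + 1) (by simp [RamD.wr_ne hN, r4, r6]) hw ?_
    refine Reach.jump c6 ?_
    refine Reach.bind (T := 4 * k + 1) (T' := 0) (ih (i + 1) _ (by omega) ?_ ?_ (wr_same _ _ _)) ?_
    · simp [RamD.wr_ne hN, r4]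
    · simp [RamD.wr_ne hN, wr_same]
    rintro R1 M1 ⟨rfl, e4, e6, e0⟩
    exact Reach.done ⟨rfl, rfl, rfl, rfl, e4, e6, by simpa [RamD.wr_ne hN] using e0⟩

theorem pre_exec (hN : 0 < N) (hc : RamD.At code 0 (preC N)) (hx : x.length + 1 < 2 ^ w)
    (r0 : R (rg N 0) = x.length) (hM : ∀ j, M j = x.getD j 0) :
    Reach code w Q ⟨0, false, R, M, d⟩ (4 * w + 6) (Is 9 d (St N (x ++ [w]))) := by
  have hc' := hc
  simp only [preC, at_cons, zero_add, Nat.reduceAdd] at hc'
  obtain ⟨c0, c1, c2, -, -, -, -, c7, c8, -⟩ := hc'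
  apply Reach.mono (T := 4 * w + 1 + (0 + 1 + 1) + 1 + 1 + 1) _ (by omega)
  refine Reach.const c0 (by omega) ?_
  refine Reach.const c1 (by omega) ?_
  refine Reach.const c2 (by omega) ?_
  refine Reach.bind (T := 4 * w + 1) (T' := 0 + 1 + 1)
    (pre_loop (w := w) hN hc w 0 _ (by omega) ?_ ?_ (wr_same _ _ _)) ?_
  · simp [RamD.wr_ne hN, wr_same]
  · simp [RamD.wr_ne hN, wr_same, Nat.mod_eq_of_lt (show 1 < 2 ^ w by omega)]
  rintro R1 M1 ⟨rfl, e4, e6, e0⟩
  have e0' : R1 (rg N 0) = x.length := by simpa [RamD.wr_ne hN, r0] using e0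
  refine Reach.store c7 _ _ e0' e6 ?_
  refine Reach.add c8 (x.length + 1) (by rw [e0', e4]) hx ?_
  refine Reach.done ⟨rfl, rfl, rfl, by simp [wr_same], fun j hj => ?_, fun k hk => ?_⟩
  · simp only [List.length_append, List.length_cons, List.length_nil] at hj
    by_cases hj' : j = x.length
    · simp [writeMem, hj']
    · have hj2 : j < x.length := by omega
      simp [writeMem, hj', hM, List.getElem?_append_left hj2]
  · simp only [List.length_append, List.length_cons, List.length_nil, writeMem]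
    rw [if_neg (by omega), hM, List.getD_eq_default _ _ (by omega)]

/-- the state at the start of the tail -/
structure Tl (N w : ℕ) (x y : List ℕ) (s : ℕ) (R : Fin (N + 8) → ℕ) (M : ℕ → ℕ) : Prop where
  b : B N x.length s R M [] y
  mem : ∀ j < x.length, M j = x.getD j 0
  bot : y ≠ [] → ∀ k < N, M (x.length + k) = 0
  sb : s + 1 < 2 ^ w
  xb : x.length + N < 2 ^ w

theorem rnd_exec {p : Prog} {n U t : ℕ} {y : List ℕ} (hc : RamD.At code 9 (rndC N p)) (hN : 0 < N)
    (hp : p.bound ≤ N) (hn : n ≤ N) (hU : U < 2 ^ w)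
    (hr : Runs p n (Crest.Enc.listCode x ++ Crest.Enc.natCode U).reverse (outCode (some y)) t)
    (hx : ∀ a ∈ x, a < 2 ^ w) (hg : ∀ a ∈ y, a < 2 ^ w)
    (hb : (3 * N + 60) * (t + (x.length + 2) * (w + 1)) < 2 ^ w) (hS : St N x R M) :
    Reach code w (fun ρ => ρ d % 2 ^ w = U) ⟨9, false, R, M, d⟩
      ((3 * N + 60) * (t + (x.length + 2) * (w + 1)))
      (Is (tpos N p) (d + 1) fun R' M' => ∃ s, Tl N w x y s R' M') := by
  simp only [rndC, at_cons, at_append, length_iniC, length_natC, length_listC, length_comp,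
    Nat.reduceAdd] at hc
  obtain ⟨c0, c1, c2, c3, c4, c5, c6, c7, c8, c9, c10, c12, c14, c15, c16, c17⟩ := hc
  obtain ⟨s0, s1, s2⟩ := hS
  -- arithmetic
  obtain ⟨K, hK⟩ : ∃ K, K = (x.length + 2) * (w + 1) := ⟨_, rfl⟩
  rw [← hK] at hb ⊢
  have hK1 : x.length + 2 ≤ K := by rw [hK]; nlinarith
  have hK2 : x.length * w + x.length + 2 * w + 2 = K := by rw [hK]; ring
  have hNK : N * 2 ≤ N * (t + K) := Nat.mul_le_mul_left N (by omega)
  have hb' : 3 * (N * (t + K)) + 60 * (t + K) < 2 ^ w := by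
    rw [show 3 * (N * (t + K)) + 60 * (t + K) = (3 * N + 60) * (t + K) by ring]; exact hb
  have hw : 2 < 2 ^ w := by omega
  have hxl : x.length < 2 ^ w := by omega
  have hbd : ∀ L, L ≤ t + 2 * K → x.length + N + N * L + L + 2 < 2 ^ w := by
    intro L hL
    have := Nat.mul_le_mul_left N (show L ≤ 2 * (t + K) by omega)
    rw [show N * (2 * (t + K)) = 2 * (N * (t + K)) by ring] at this
    omega
  have l1 := natCode_len hxl
  have l2 := flatten_len x hx
  have l3 := natCode_len hU
  have l2' : x.length * (2 * w + 2) = 2 * (x.length * w) + 2 * x.length := by ring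
  set inp := (Crest.Enc.listCode x ++ Crest.Enc.natCode U).reverse with hinp
  have hinp' : (Crest.Enc.natCode U).reverse ++ ((x.map Crest.Enc.natCode).flatten.reverse ++
      ((Crest.Enc.natCode x.length).reverse ++ [])) = inp := by
    simp [hinp, Crest.Enc.listCode]
  have l4 : inp.length ≤ 2 * K := by
    rw [← hinp']
    simp only [List.length_append, List.length_reverse, List.length_nil]
    omega
  have he : Exec p (st inp) (st (outCode (some y))) t := by
    have := hr (st inp) (by simp [st]) fun k hk _ => by simp [st, hk.ne']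
    simpa [st] using this
  have l5 : (outCode (some y)).length ≤ inp.length + t := by simpa [st] using he.length_le 0
  apply Reach.mono (T := 2 * N + (15 * w + 11 + (x.length * (15 * w + 15) + 1 + (15 * w + 11 +
    (5 * t + (10 * (y.flatMap wordCode).length + 2 + 1 + 1 + 1 + 1)) + 1) + 1) + 1) + 1 + 1 + 1)
  swap
  · simp only [outCode, List.length_cons] at l5
    rw [show (3 * N + 60) * (t + K) = 3 * (N * (t + K)) + 60 * (t + K) by ring,
      show x.length * (15 * w + 15) = 15 * (x.length * w) + 15 * x.length by ring]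
    omega
  refine Reach.const c0 (by omega) ?_
  refine Reach.const c1 (by omega) ?_
  refine Reach.const c2 hw ?_
  refine (ini_exec (base := x.length) (by omega) (by simp [RamD.wr_ne hN, s0]) N le_rfl c3).bind ?_
  rintro R1 M1 ⟨rfl, e1, e2⟩
  have hA1 : A N x R1 M1 (st []) := by
    have hst : ∀ k, st [] k = [] := fun k => by simp [st]
    refine ⟨⟨?_, ?_, fun k hk => ?_, s2, fun k hk i hi => ?_⟩, ?_, ?_, s1⟩
    · simp [e1 2, RamD.wr_ne hN, wr_same]
    · simp [e1 4, RamD.wr_ne hN, wr_same]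
    · simp [e2 k hk, hst]
    · simp [hst] at hi
    · simp [e1 0, RamD.wr_ne hN, s0]
    · simp [e1 7, wr_same]
  refine Reach.copy c4 hA1.r0 ?_
  refine (nat_exec' hN hw c5 hxl (wr_same _ _ _) (hA1.wr 5 (by omega) _)
    (by have := hbd ([] : List Bool).length.succ (by simp; omega)
        have := hbd (([] : List Bool).length + (2 * w + 2)) (by simp; omega); omega)).bind ?_
  rintro R2 M2 ⟨hA2, -⟩
  refine Reach.const c6 (by omega) ?_
  refine (list_exec hN hw c7 hx x [] _ _ M2 rfl (wr_same _ _ _) (hA2.wr 6 (by omega) _)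
    (by have := hbd (((Crest.Enc.natCode x.length).reverse ++ []).length + x.length * (2 * w + 2))
          (by simp only [List.length_append, List.length_reverse, List.length_nil]; omega)
        omega)).bind ?_
  intro R3 M3 hA3
  refine Reach.rand c8 (fun ρ h => h) ?_
  refine (nat_exec' hN hw c9 hU (wr_same _ _ _) (hA3.wr 5 (by omega) _)
    (by have := hbd (((x.map Crest.Enc.natCode).flatten.reverse ++
          ((Crest.Enc.natCode x.length).reverse ++ [])).length + (2 * w + 2))
          (by simp only [List.length_append, List.length_reverse, List.length_nil]; omega)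
        omega)).bind ?_
  rintro R4 M4 ⟨hA4, -⟩
  rw [hinp'] at hA4
  refine (hA4.comp c10 hw he hp fun k hk => ?_).bind ?_
  · have h1 : (st inp k).length ≤ inp.length := by
      by_cases hk0 : k = 0
      · simp [st, hk0]
      · simp [st, hk0]
    have := hbd ((st inp k).length + t) (by omega)
    omega
  rintro R5 M5 ⟨hA5, -, -⟩
  have r2 : R5 (rg N 2) = N := hA5.rep.r2
  have r4 : R5 (rg N 4) = 1 := hA5.rep.r4
  have r8 : R5 (rg N 8) = x.length + N * (outCode (some y)).length := by
    simpa [st] using hA5.rep.ptr 0 hN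
  have stk : Stk N x.length M5 (outCode (some y)) :=
    Stk.of_cell (hA5.rep.bot 0 hN) _ fun i hi => by
      simpa [st] using hA5.rep.cell 0 hN i (by simpa [st] using hi)
  simp only [outCode, List.length_cons, Stk] at r8 stk l5
  have l6 := flatMap_len y
  have hb3 := hbd (y.flatMap wordCode).length (by omega)
  refine Reach.sub c12 (x.length + N * (y.flatMap wordCode).length) (by
    rw [r8, r2, mul_add]; omega) ?_
  refine Reach.add c14 (x.length + N * (y.flatMap wordCode).length + 1)
    (by simp [RamD.wr_ne hN, wr_same, r4]) (by omega) ?_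
  refine Reach.copy c15 (wr_same _ _ _) ?_
  refine Reach.const c16 (by omega) ?_
  refine (par_exec (base := x.length) (s := x.length + N * (y.flatMap wordCode).length + 1) hN c17 y []
    _ M5 ⟨by simp [RamD.wr_ne hN, r2], by simp [RamD.wr_ne hN, r4], by simp [RamD.wr_ne hN, wr_same], stk.2,
      by simp [RamD.wr_ne hN, wr_same], by simp [RamD.wr_ne hN, wr_same], by simp [wr_same], by simp,
      by omega⟩ hg (by simp only [List.length_nil]; omega)).last ?_
  rintro R6 M6 ⟨hB, hM⟩
  refine ⟨rfl, rfl, rfl, x.length + N * (y.flatMap wordCode).length + 1, by simpa using hB,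
    fun j hj => ?_, fun hy k hk => ?_, by omega, by omega⟩
  · exact (hM j (by omega)).trans (hA5.mem j hj)
  · have h1 : 0 < y.length := List.length_pos_iff.2 hy
    have h2 : N * 1 ≤ N * (y.flatMap wordCode).length := Nat.mul_le_mul_left N (by omega)
    exact (hM _ (by omega)).trans (hA5.rep.bot k hk)

/-- reachability for the oracle program -/
def OReach (oc : List (OInstr (N + 8))) (n : ℕ) (O : Bool → Finset (Fin n) → ℕ) (w : ℕ)
    (Q : (ℕ → ℕ) → Prop) (c : OCfg (N + 8)) (T : ℕ) (Post : OCfg (N + 8) → Prop) : Prop :=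
  ∃ T' ≤ T, ∃ c', (∀ ρ, Q ρ → (ostep ⟨N + 8, oc⟩ n O w ρ)^[T'] c = c') ∧ Post c'

variable {ocode : List (OInstr (N + 8))} {n : ℕ} {O : Bool → Finset (Fin n) → ℕ} {T T' m : ℕ}
  {Post : OCfg (N + 8) → Prop}

theorem OReach.mono {c : OCfg (N + 8)} (h : OReach ocode n O w Q c T Post) (hT : T ≤ T') :
    OReach ocode n O w Q c T' Post := by
  obtain ⟨t, ht, h⟩ := h
  exact ⟨t, ht.trans hT, h⟩

theorem OReach.done {c : OCfg (N + 8)} (h : Post c) : OReach ocode n O w Q c 0 Post :=
  ⟨0, le_rfl, c, fun _ _ => rfl, h⟩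

theorem OReach.bind {c : Cfg (N + 8)} {P : (Fin (N + 8) → ℕ) → (ℕ → ℕ) → Prop}
    (h : Reach (ocode.map OInstr.toBase) w Q c T (Is pc d P))
    (k : ∀ R M, P R M → OReach ocode n O w Q ⟨⟨pc, false, R, M, d⟩, m⟩ T' Post) :
    OReach ocode n O w Q ⟨c, m⟩ (T + T') Post := by
  obtain ⟨t, ht, ⟨pc', ha, R, M, d'⟩, h1, h2, h3, h4, h5⟩ := h
  simp only at h2 h3 h4 h5
  subst h2 h3 h4
  obtain ⟨t', ht', c', h6, h7⟩ := k R M h5
  refine ⟨t' + t, by omega, c', fun ρ hρ => ?_, h7⟩
  have h8 := ostep_base ⟨N + 8, ocode⟩ n O w ρ t c m (congrArg Cfg.halted (h1 ρ hρ))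
  rw [Function.iterate_add_apply, h8]
  exact (congrArg (fun c => (ostep ⟨N + 8, ocode⟩ n O w ρ)^[t'] ⟨c, m⟩) (h1 ρ hρ)).trans (h6 ρ hρ)

theorem OReach.query {b : Bool} {a r : Fin (N + 8)} (h : ocode[pc]? = some (.query b a r)) (v : ℕ)
    (hv : O b (univ.filter fun j : Fin n => M (R a + j.val) ≠ 0) % 2 ^ w = v)
    (k : OReach ocode n O w Q ⟨⟨pc + 1, false, writeReg R r v, M, d⟩, m + 1⟩ T Post) :
    OReach ocode n O w Q ⟨⟨pc, false, R, M, d⟩, m⟩ (T + 1) Post := by
  obtain ⟨t, ht, c', h1, h2⟩ := k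
  refine ⟨t + 1, by omega, c', fun ρ hρ => ?_, h2⟩
  rw [Function.iterate_succ_apply, ← h1 ρ hρ, ← hv]
  congr 1
  simp [ostep, h]

theorem OReach.halt (h : ocode[pc]? = some (.base .halt)) (k : Post ⟨⟨pc, true, R, M, d⟩, m⟩) :
    OReach ocode n O w Q ⟨⟨pc, false, R, M, d⟩, m⟩ 1 Post :=
  ⟨1, le_rfl, _, fun ρ _ => by
    have h1 := RamA_step_halt (baseProgram ⟨N + 8, ocode⟩) w ρ ⟨pc, false, R, M, d⟩ rfl
      (Or.inr ((RamA_base_get ⟨N + 8, ocode⟩ _).trans (congrArg _ h)))
    simp only [Function.iterate_one, ostep, h, Bool.false_eq_true, if_false]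
    exact congrArg (fun c => (⟨c, m⟩ : OCfg (N + 8))) h1, k⟩

/-- append the content of register `5` to the list -/
theorem app_exec {e v : ℕ} (hN : 0 < N) (hc : RamD.At code e ((tailC N e).map OInstr.toBase))
    (r2 : R (rg N 2) = N) (r4 : R (rg N 4) = 1) (r8 : R (rg N 8) = x.length) (r5 : R (rg N 5) = v)
    (hm : ∀ j < x.length, M j = x.getD j 0) (hbot : ∀ k < N, M (x.length + k) = 0)
    (hb : x.length + N < 2 ^ w) :
    Reach code w Q ⟨e + 11, false, R, M, d⟩ 6 (Is 9 d (St N (x ++ [v]))) := by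
  simp only [tailC, List.map_cons, OInstr.toBase, at_cons, add_assoc, Nat.reduceAdd] at hc
  obtain ⟨-, -, -, -, -, -, -, -, -, -, -, c11, c12, c13, c14, c15, c16, -⟩ := hc
  refine Reach.store c11 _ _ r8 r5 ?_
  refine Reach.add c12 (x.length + 1) (by rw [r8, r4]) (by omega) ?_
  refine Reach.add c13 (x.length + N) (by simp [RamD.wr_ne hN, r8, r2]) hb ?_
  refine Reach.const c14 (by positivity) ?_
  refine Reach.store c15 (x.length + N) 0 (by simp [RamD.wr_ne hN, wr_same]) (wr_same _ _ _) ?_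
  refine Reach.jump c16 ?_
  refine Reach.done ⟨rfl, rfl, rfl, by simp [RamD.wr_ne hN, wr_same], fun j hj => ?_, fun k hk => ?_⟩
  · simp only [List.length_append, List.length_cons, List.length_nil] at hj
    simp only [writeMem]
    rw [if_neg (by omega)]
    by_cases hj' : j = x.length
    · simp [hj']
    · have hj2 : j < x.length := by omega
      simp [hj', hm j hj2, List.getElem?_append_left hj2]
  · simp only [List.length_append, List.length_cons, List.length_nil, writeMem]
    split_ifs with h1 h2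
    · rfl
    · omega
    · rw [add_assoc]
      exact hbot _ (by omega)

theorem tail_exec {e s : ℕ} {y : List ℕ} (hN : 0 < N) (ho : ∀ i, ocode[e + i]? = (tailC N e)[i]?)
    (hT : Tl N w x y s R M) :
    OReach ocode n O w Q ⟨⟨e, false, R, M, d⟩, m⟩ 20 fun c' => c'.cfg.drawn = d ∧
      (∀ z, y = 0 :: z → c'.cfg.halted = true ∧ c'.cfg.output = z) ∧
      (∀ v, y = [1, v] → Is 9 d (St N (x ++ [v])) c'.cfg) ∧
      ∀ (b : Bool) (z : List ℕ), y = (2 + b.toNat) :: z → z.length = n →
        Is 9 d (St N (x ++ [O b (wset n z) % 2 ^ w])) c'.cfg := by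
  have hc : RamD.At (ocode.map OInstr.toBase) e ((tailC N e).map OInstr.toBase) := fun i _ => by
    rw [List.getElem?_map, List.getElem?_map, ho]
  have hc' := hc
  simp only [tailC, List.map_cons, OInstr.toBase, at_cons, add_assoc, Nat.reduceAdd] at hc'
  obtain ⟨c0, c1, c2, c3, c4, c5, -, c7, -, c9, c10, -, -, -, -, -, -, c17, -⟩ := hc'
  obtain ⟨⟨r2, r4, r8, -, r1, -, r0, out, -⟩, hm, hbot, hs, hx⟩ := hT
  simp only [List.length_nil, mul_zero, add_zero] at r8
  have top : ∀ a z, y = a :: z → M (R (rg N 1)) = a := fun a z h => by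
    have := out 0 (by simp [h])
    rw [r1]
    simpa [h] using this
  have rest : ∀ a z, y = a :: z → ∀ j < z.length, M (s + 1 + j) = z.getD j 0 := fun a z h j hj => by
    have := out (j + 1) (by simpa [h] using hj)
    rw [show s + 1 + j = s + (j + 1) by omega, this, h]
    simp
  by_cases h0 : ∃ z, y = 0 :: z
  · obtain ⟨z, hz⟩ := h0
    refine OReach.mono (T := 0 + 1 + 1 + 1 + 1 + 1) (OReach.bind (pc := e + 18) (d := d)
      (P := fun R' M' => M' = M ∧ R' (rg N 0) = z.length ∧ R' (rg N 1) = s + 1) ?_ ?_) (by omega)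
    · refine Reach.load c0 0 (top _ _ hz) ?_
      refine Reach.add c1 (s + 1) (by simp [RamD.wr_ne hN, r1, r4]) hs ?_
      refine Reach.jzY c2 (by simp [RamD.wr_ne hN, wr_same]) ?_
      refine Reach.sub c17 z.length (by simp [RamD.wr_ne hN, r0, r4, hz]) ?_
      exact Reach.done ⟨rfl, rfl, rfl, rfl, by simp [wr_same], by simp [RamD.wr_ne hN, wr_same]⟩
    · rintro R1 M1 ⟨rfl, e0, e1⟩
      refine OReach.halt (ho 18) ⟨rfl, fun z' hz' => ⟨rfl, ?_⟩, fun v hv => ?_, fun b z' hz' => ?_⟩
      · obtain rfl : z = z' := by simpa [hz] using hz'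
        rw [Cfg.output, reg_eq _ (by omega : 0 < 8), reg_eq _ (by omega : 1 < 8)]
        simp only [e0, e1]
        refine List.ext_getElem (by simp) fun j h1 h2 => ?_
        simp [rest _ _ hz j h2, h2]
      · simp [hz] at hv
      · rw [hz, List.cons.injEq] at hz'
        omega
  by_cases h1 : ∃ v, y = [1, v]
  · obtain ⟨v, hv⟩ := h1
    refine OReach.mono (T := 6 + 1 + 1 + 1 + 1 + 1 + 0) (OReach.bind (pc := 9) (d := d)
      (P := St N (x ++ [v])) ?_ ?_) (by omega)
    · refine Reach.load c0 1 (top _ _ hv) ?_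
      refine Reach.add c1 (s + 1) (by simp [RamD.wr_ne hN, r1, r4]) hs ?_
      refine Reach.jzN c2 (by simp [RamD.wr_ne hN, wr_same]) ?_
      refine Reach.jeY c3 (by simp [RamD.wr_ne hN, wr_same, r4]) ?_
      refine Reach.load c10 v (by simpa [wr_same] using rest _ _ hv 0 (by simp)) ?_
      exact app_exec hN hc (by simp [RamD.wr_ne hN, r2]) (by simp [RamD.wr_ne hN, r4])
        (by simp [RamD.wr_ne hN, r8]) (wr_same _ _ _) hm (hbot (by simp [hv])) hx
    · intro R1 M1 hS
      refine OReach.done ⟨rfl, fun z hz => absurd ⟨z, hz⟩ h0, fun v' hv' => ?_, fun b z' hz' => ?_⟩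
      · obtain rfl : v = v' := by simpa [hv] using hv'
        exact ⟨rfl, rfl, rfl, hS⟩
      · rw [hv, List.cons.injEq] at hz'
        omega
  by_cases h2 : ∃ (b : Bool) (z : List ℕ), y = (2 + b.toNat) :: z ∧ z.length = n
  swap
  · exact (OReach.done ⟨rfl, fun z hz => absurd ⟨z, hz⟩ h0, fun v hv => absurd ⟨v, hv⟩ h1,
      fun b z hz hl => absurd ⟨b, z, hz, hl⟩ h2⟩).mono (by omega)
  obtain ⟨b, z, hz, hl⟩ := h2
  refine OReach.mono (T := 0 + 1 + 1 + 1 + 1 + 1 + 1 + (6 + 1 + 0 + 1))
    (OReach.bind (pc := if b then e + 6 else e + 8) (d := d) (T := 0 + 1 + 1 + 1 + 1 + 1 + 1)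
    (T' := 6 + 1 + 0 + 1)
    (P := fun R' M' => M' = M ∧ R' (rg N 1) = s + 1 ∧ R' (rg N 2) = N ∧ R' (rg N 4) = 1 ∧
      R' (rg N 8) = x.length) ?_ ?_) (by omega)
  · refine Reach.load c0 _ (top _ _ hz) ?_
    refine Reach.add c1 (s + 1) (by simp [RamD.wr_ne hN, r1, r4]) hs ?_
    refine Reach.jzN c2 (by simp [RamD.wr_ne hN, wr_same]) ?_
    refine Reach.jeN c3 (by simp [RamD.wr_ne hN, wr_same, r4]; omega) ?_
    refine Reach.sub c4 (1 + b.toNat) (by simp [RamD.wr_ne hN, wr_same, r4]) ?_
    cases b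
    · refine Reach.jeY c5 (by simp [RamD.wr_ne hN, wr_same, r4]) ?_
      exact Reach.done ⟨rfl, rfl, rfl, rfl, by simp [RamD.wr_ne hN, wr_same], by simp [RamD.wr_ne hN, r2],
        by simp [RamD.wr_ne hN, r4], by simp [RamD.wr_ne hN, r8]⟩
    · refine Reach.jeN c5 (by simp [RamD.wr_ne hN, wr_same, r4]) ?_
      exact Reach.done ⟨rfl, rfl, rfl, rfl, by simp [RamD.wr_ne hN, wr_same], by simp [RamD.wr_ne hN, r2],
        by simp [RamD.wr_ne hN, r4], by simp [RamD.wr_ne hN, r8]⟩
  · rintro R1 M1 ⟨rfl, e1, e2, e4, e8⟩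
    have hq : ocode[if b then e + 6 else e + 8]? = some (.query b (rg N 1) (rg N 5)) := by
      cases b
      · exact ho 8
      · exact ho 6
    have hj : (ocode.map OInstr.toBase)[(if b then e + 6 else e + 8) + 1]? = some (.jump (e + 11)) := by
      cases b
      · exact c9
      · exact c7
    refine OReach.query hq (O b (wset n z) % 2 ^ w) ?_ (OReach.bind (pc := 9) (d := d)
      (T := 6 + 1) (T' := 0) (P := St N (x ++ [O b (wset n z) % 2 ^ w])) ?_ ?_)
    · unfold wset
      congr 2
      refine Finset.filter_congr fun j _ => ?_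
      rw [e1, rest _ _ hz j (by rw [hl]; exact j.isLt)]
    · refine Reach.jump hj ?_
      exact app_exec hN hc (by simp [RamD.wr_ne hN, e2]) (by simp [RamD.wr_ne hN, e4])
        (by simp [RamD.wr_ne hN, e8]) (wr_same _ _ _) hm (hbot (by simp [hz])) hx
    · intro R2 M2 hS
      refine OReach.done ⟨rfl, fun z hz => absurd ⟨z, hz⟩ h0, fun v hv => absurd ⟨v, hv⟩ h1,
        fun b' z' hz' _ => ?_⟩
      rw [hz, List.cons.injEq] at hz'
      obtain ⟨hb, rfl⟩ := hz'
      obtain rfl : b = b' := by cases b <;> cases b' <;> simp at hb ⊢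
      exact ⟨rfl, rfl, rfl, hS⟩

end RamA

theorem exists_orounds (p : Prog) (m : ℕ) : ∃ (P : OProgram) (C : ℕ), ∀ (n : ℕ)
    (O : Bool → Finset (Fin n) → ℕ) (w : ℕ) (x : List ℕ) (G : List ℕ → ℕ → List ℕ) (D t : ℕ),
    (∀ l U, x ++ [w] <+: l → l.length ≤ D → (∀ a ∈ l, a < 2 ^ w) → U < 2 ^ w →
      Runs p m (Crest.Enc.listCode l ++ Crest.Enc.natCode U).reverse (outCode (some (G l U))) t ∧
        ∀ a ∈ G l U, a < 2 ^ w) →
    (∀ a ∈ x, a < 2 ^ w) → x.length < D → C * (t + (D + 2) * (w + 1)) < 2 ^ w →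
    ORounds P n O w x G D (C * (t + (D + 2) * (w + 1))) := by
  obtain ⟨N, hN, hp, hn⟩ : ∃ N, 0 < N ∧ p.bound ≤ N ∧ m ≤ N :=
    ⟨max m p.bound + 1, by omega, by omega, by omega⟩
  refine ⟨⟨N + 8, RamA.oc N p⟩, 3 * N + 80, fun n O w x G D t hr hx hD hb => ?_⟩
  have hc := RamD.at_self ((RamA.oc N p).map OInstr.toBase)
  conv at hc => arg 3; rw [RamA.oc_base]
  rw [RamD.at_append, RamD.at_append] at hc
  obtain ⟨hpre, hrnd, -⟩ := hc
  obtain ⟨K, hK⟩ : ∃ K, K = t + (D + 2) * (w + 1) := ⟨_, rfl⟩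
  rw [← hK] at hb ⊢
  have hK1 : D + 2 + w ≤ K := by rw [hK]; nlinarith [Nat.zero_le (D * w)]
  have hK2 : (3 * N + 80) * K = (3 * N + 60) * K + 20 * K := by ring
  have hK3 : 60 * K ≤ (3 * N + 60) * K := Nat.mul_le_mul_right K (by omega)
  refine ⟨fun l c => RamD.Is 9 c.cfg.drawn (RamD.St N l) c.cfg, ?_, ?_⟩
  · have hxl : x.length + 1 < 2 ^ w := by omega
    obtain ⟨T, hT, c', h1, h2⟩ := RamA.OReach.bind (ocode := RamA.oc N p) (n := n) (O := O) (m := 0)
      (T' := 0) (Post := fun c => RamD.Is 9 0 (RamD.St N (x ++ [w])) c.cfg)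
      (RamA.pre_exec (Q := fun _ => True) (d := 0) (x := x)
        (R := (init ⟨N + 8, []⟩ w x).regs) (M := (init ⟨N + 8, []⟩ w x).mem) hN hpre hxl
        (by simp [init, rg, Nat.mod_eq_of_lt (show x.length < 2 ^ w by omega)]) fun j => by
          by_cases hj : j < x.length
          · simp [init, hj, Nat.mod_eq_of_lt (hx _ (List.getElem_mem hj))]
          · simp [init, hj])
      fun R M h => RamA.OReach.done ⟨rfl, rfl, rfl, h⟩
    refine ⟨T, by omega, c', fun ρ => h1 ρ trivial, h2.2.2.1, ?_⟩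
    show RamD.Is 9 c'.cfg.drawn _ _
    rw [h2.2.2.1]
    exact h2
  · rintro l ⟨⟨pc, ha, R, M, d⟩, calls⟩ ⟨h1, h2, -, h4⟩ hl hlD hlw U hU
    simp only at h1 h2 h4
    subst h1 h2
    have hKl : t + (l.length + 2) * (w + 1) ≤ K := by
      rw [hK]
      exact Nat.add_le_add_left (Nat.mul_le_mul_right _ (by omega)) _
    have hKl' := Nat.mul_le_mul_left (3 * N + 60) hKl
    obtain ⟨T, hT, c', e1, e2, e3, e4, e5⟩ := RamA.OReach.bind (ocode := RamA.oc N p) (n := n) (O := O)
      (m := calls) (RamA.rnd_exec (d := d) hrnd hN hp hn hU (hr l U hl hlD hlw hU).1 hlw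
        (hr l U hl hlD hlw hU).2 (by omega) h4)
      fun R M ⟨s, h⟩ => RamA.tail_exec hN (RamA.oc_tail N p) h
    refine ⟨T, by omega, c', e1, e2, e3, fun v hv => ?_, fun b y hy hyl => ?_⟩
    · show RamD.Is 9 c'.cfg.drawn _ _
      rw [e2]
      exact e4 v hv
    · show RamD.Is 9 c'.cfg.drawn _ _
      rw [e2]
      exact e5 b y hy hyl

end Crest.Agent.R302
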