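import Crest.Agent.R302.RamA
import Crest.Agent.R302.PTO
import Crest.Agent.R309.RamP

/-!
# Row 302: a program working in rounds runs a query tree

Imitate `R309/RamP.lean` (`rpStrm`, `rpQ`, `rp_*`) for `ostep`: for a configuration `c` and a horizon `T` let `q T c E` be the probability of `E` after `T`
steps (recursion on `T`, averaging over the next random word if one is drawn; a query step draws nothing), `oprobAfter = q T init`.
Induction on the residual tree `t'`: if `St l c`, `l = x ++ [w] ++ a`, `∀ r, probe t (a ++ r) = probe t' r`, `Dep t' d'`, `|l| + d' ≤ D`, all words of `l` are `< 2 ^ w` and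
`(d' + 1) * τ ≤ T`, then `q T c (E ∘ output) = ex t' (ind ∘ E)`, and every run is halted after `T` steps with an output satisfying `P` if `AllO P t'`.
For a coin use `avgN_mod` (`2 ∣ 2 ^ w`).
-/

set_option autoImplicit false

noncomputable section

namespace Crest.Agent.R302

open Finset Crest.WordRAM Crest.OracleRAM Crest.Agent.Lib.PolyTime Crest.Agent.R309 QT

/-- the set given by a list of Booleans -/
def bset (n : ℕ) (s : List Bool) : Finset (Fin n) := univ.filter fun j => s.getD j false = true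

/-- an oracle on sets as an oracle on lists -/
def ol (n : ℕ) (O : Bool → Finset (Fin n) → ℕ) : Orc := fun b s => O b (bset n s)

/-- the words produced in a round from the result of `probe` -/
def gWords (n U : ℕ) : (List ℕ × List ℕ) ⊕ Qy → List ℕ
  | Sum.inl p => 0 :: p.1
  | Sum.inr none => [1, U % 2]
  | Sum.inr (some q) => (2 + q.1.toNat) :: (List.range n).map fun j => (q.2.getD j false).toNat

section

variable {P : OProgram} {n : ℕ} {O : Bool → Finset (Fin n) → ℕ} {w : ℕ}

theorem RamB_step_halted (ρ : ℕ → ℕ) {c : OCfg P.numRegs} (h : c.cfg.halted = true) :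
    ostep P n O w ρ c = c := by
  unfold ostep
  rw [if_pos h]

theorem RamB_iter_halted (ρ : ℕ → ℕ) {c : OCfg P.numRegs} (h : c.cfg.halted = true) (T : ℕ) :
    (ostep P n O w ρ)^[T] c = c :=
  Function.iterate_fixed (RamB_step_halted ρ h) T

theorem RamB_step_congr {ρ ρ' : ℕ → ℕ} {c : OCfg P.numRegs}
    (h : ρ c.cfg.drawn = ρ' c.cfg.drawn) : ostep P n O w ρ c = ostep P n O w ρ' c := by
  unfold ostep
  rw [rp_step_congr (P := baseProgram P) (w := w) (c := c.cfg) h]

theorem RamB_step_cases (c : OCfg P.numRegs) :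
    (∃ c₁ : OCfg P.numRegs, c₁.cfg.drawn = c.cfg.drawn ∧ ∀ ρ, ostep P n O w ρ c = c₁) ∨
      ∀ ρ, (ostep P n O w ρ c).cfg.drawn = c.cfg.drawn + 1 := by
  by_cases hh : c.cfg.halted = true
  · exact Or.inl ⟨c, rfl, fun ρ => RamB_step_halted ρ hh⟩
  · rcases hi : P.code[c.cfg.pc]? with _ | i | ⟨b, a, d⟩
    · refine Or.inl ⟨ostep P n O w (fun _ => 0) c, ?_, fun ρ => ?_⟩ <;> simp [ostep, hh, hi]
    · rcases rp_step_cases (baseProgram P) w c.cfg with ⟨c₁, h1, h2⟩ | h
      · exact Or.inl ⟨{ c with cfg := c₁ }, h1, fun ρ => by simp [ostep, hh, hi, h2]⟩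
      · exact Or.inr fun ρ => by simpa [ostep, hh, hi] using h ρ
    · refine Or.inl ⟨ostep P n O w (fun _ => 0) c, ?_, fun ρ => ?_⟩ <;> simp [ostep, hh, hi]

theorem RamB_drawn_le (ρ : ℕ → ℕ) (c : OCfg P.numRegs) :
    c.cfg.drawn ≤ (ostep P n O w ρ c).cfg.drawn := by
  rcases RamB_step_cases (n := n) (O := O) (w := w) c with ⟨c₁, h1, h2⟩ | h
  · rw [h2, h1]
  · rw [h]; omega

theorem RamB_iter_congr {ρ ρ' : ℕ → ℕ} (T : ℕ) :
    ∀ c : OCfg P.numRegs, (∀ i, c.cfg.drawn ≤ i → ρ i = ρ' i) →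
      (ostep P n O w ρ)^[T] c = (ostep P n O w ρ')^[T] c := by
  induction T with
  | zero => intro c _; rfl
  | succ T ih =>
    intro c h
    rw [Function.iterate_succ_apply, Function.iterate_succ_apply,
      ← RamB_step_congr (h _ le_rfl)]
    exact ih _ fun i hi => h i ((RamB_drawn_le ρ c).trans hi)

variable (P n O w) in
/-- probability of `E` after `T` steps from `c` -/
def RamBQ (E : OCfg P.numRegs → Prop) : ℕ → OCfg P.numRegs → ℝ
  | 0, c => ind (E c)
  | T + 1, c => avgN (2 ^ w) fun U => RamBQ E T (ostep P n O w (fun _ => U) c)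

theorem RamB_avgL_eq (E : OCfg P.numRegs → Prop) (T : ℕ) :
    ∀ (m : ℕ) (c : OCfg P.numRegs), T ≤ m →
      (avgL (2 ^ w) m fun us => ind (E ((ostep P n O w (rpStrm c.cfg.drawn us))^[T] c))) =
        RamBQ P n O w E T c := by
  have hW : 0 < 2 ^ w := by positivity
  induction T with
  | zero => intro m c _; exact avgL_const hW m (ind (E c))
  | succ T ih =>
    intro m c hn
    simp only [Function.iterate_succ_apply, RamBQ]
    rcases RamB_step_cases (n := n) (O := O) (w := w) c with ⟨c₁, h1, h2⟩ | h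
    · simp only [h2]
      rw [avgN_const hW, ← h1]
      exact ih m c₁ (by omega)
    · obtain ⟨m, rfl⟩ : ∃ m', m = m' + 1 := ⟨m - 1, by omega⟩
      show (avgN (2 ^ w) fun u => avgL (2 ^ w) m fun us => _) = _
      refine avgN_congr fun u _ => ?_
      rw [← ih m _ (by omega)]
      refine avgL_congr fun us _ => ?_
      have e : ostep P n O w (rpStrm c.cfg.drawn (u :: us)) c = ostep P n O w (fun _ => u) c :=
        RamB_step_congr (rpStrm_cons_self _ _ _)
      beta_reduce
      rw [e, h]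
      congr 2
      exact RamB_iter_congr T _ fun i hi => rpStrm_cons _ _ _ _ (by rwa [h] at hi)

theorem RamB_probAfter (x : List ℕ) (T : ℕ) (E : OCfg P.numRegs → Prop) :
    oprobAfter P n O w x T E =
      avgL (2 ^ w) T fun us => ind (E (orun P n O w (rpStrm 0 us) x T)) := by
  rw [← rp_sum_tab]
  unfold oprobAfter Crest.FinProb.uniformProb
  rw [Fintype.card_fun, Fintype.card_fin, Fintype.card_fin, Nat.cast_pow, card_filter]
  congr 1
  rw [Nat.cast_sum]
  refine sum_congr rfl fun tab _ => ?_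
  have e : rpStrm 0 (List.ofFn fun i => (tab i : ℕ)) = streamOf tab := by
    funext i
    show (List.ofFn fun i => (tab i : ℕ)).getD (i - 0) 0 = _
    unfold streamOf
    rw [Nat.sub_zero, List.getD_eq_getElem?_getD, List.getElem?_ofFn]
    split_ifs <;> rfl
  rw [e]
  by_cases hE : E (orun P n O w (streamOf tab) x T)
  · rw [if_pos (by exact hE), ind_of (by exact hE), Nat.cast_one]
  · rw [if_neg (by exact hE), ind_of_not (by exact hE), Nat.cast_zero]

theorem RamBQ_halted (E : OCfg P.numRegs → Prop) (T : ℕ) {c : OCfg P.numRegs}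
    (h : c.cfg.halted = true) : RamBQ P n O w E T c = ind (E c) := by
  induction T with
  | zero => rfl
  | succ T ih =>
    simp only [RamBQ, RamB_step_halted _ h, ih]
    exact avgN_const (by positivity) _

theorem RamBQ_round (E : OCfg P.numRegs → Prop) {T : ℕ} {c : OCfg P.numRegs} {g : ℕ → ℝ}
    (h : ∀ U < 2 ^ w, ∃ T' ≤ T, ∃ c' : OCfg P.numRegs,
      (∀ ρ : ℕ → ℕ, ρ c.cfg.drawn % 2 ^ w = U → (ostep P n O w ρ)^[T'] c = c') ∧
      c'.cfg.drawn = c.cfg.drawn + 1 ∧ RamBQ P n O w E (T - T') c' = g U) :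
    RamBQ P n O w E T c = avgN (2 ^ w) g := by
  rw [← RamB_avgL_eq E T (T + 1) c (by omega)]
  show (avgN (2 ^ w) fun u => avgL (2 ^ w) T fun us => _) = _
  refine avgN_congr fun U hU => ?_
  obtain ⟨T', hT, c', hc, hd, hg⟩ := h U hU
  rw [← hg, ← RamB_avgL_eq E (T - T') T c' (by omega)]
  refine avgL_congr fun us _ => ?_
  beta_reduce
  congr 2
  conv_lhs => rw [show T = (T - T') + T' by omega, Function.iterate_add_apply]
  rw [hc _ (by rw [rpStrm_cons_self, Nat.mod_eq_of_lt hU]), hd]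
  exact RamB_iter_congr _ _ fun i hi => rpStrm_cons _ _ _ _ (by rwa [hd] at hi)

theorem RamB_wset (n : ℕ) (s : List Bool) :
    wset n ((List.range n).map fun j => (s.getD j false).toNat) = bset n s := by
  ext j
  simp only [wset, bset, mem_filter, mem_univ, true_and]
  rw [List.getD_eq_getElem?_getD, List.getElem?_map, List.getElem?_range j.2]
  simp only [Option.map_some, Option.getD_some]
  generalize s.getD j false = b
  cases b <;> simp

/-- the conclusion for a residual tree -/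
def RamBOk (P : OProgram) (n : ℕ) (O : Bool → Finset (Fin n) → ℕ) (w : ℕ) (t : QT (List ℕ)) (T : ℕ)
    (c : OCfg P.numRegs) : Prop :=
  (∀ ρ, ((ostep P n O w ρ)^[T] c).cfg.halted = true ∧
    ∀ Q : List ℕ → Prop, AllO (ol n O) Q t → Q ((ostep P n O w ρ)^[T] c).cfg.output) ∧
  ∀ E : List ℕ → Prop, RamBQ P n O w (fun c => E c.cfg.output) T c = pr (ol n O) t E

theorem RamB_glue {t : QT (List ℕ)} {T : ℕ} {c : OCfg P.numRegs} (s : ℕ → QT (List ℕ))
    (h : ∀ U < 2 ^ w, ∃ T' ≤ T, ∃ c' : OCfg P.numRegs,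
      (∀ ρ : ℕ → ℕ, ρ c.cfg.drawn % 2 ^ w = U → (ostep P n O w ρ)^[T'] c = c') ∧
      c'.cfg.drawn = c.cfg.drawn + 1 ∧ RamBOk P n O w (s U) (T - T') c')
    (h1 : ∀ Q : List ℕ → Prop, AllO (ol n O) Q t → ∀ U, AllO (ol n O) Q (s U))
    (h2 : ∀ E : List ℕ → Prop, (avgN (2 ^ w) fun U => pr (ol n O) (s U) E) = pr (ol n O) t E) :
    RamBOk P n O w t T c := by
  refine ⟨fun ρ => ?_, fun E => ?_⟩
  · obtain ⟨T', hT, c', hc, -, hg⟩ := h (ρ c.cfg.drawn % 2 ^ w) (Nat.mod_lt _ (by positivity))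
    have e : (ostep P n O w ρ)^[T] c = (ostep P n O w ρ)^[T - T'] c' := by
      conv_lhs => rw [show T = (T - T') + T' by omega, Function.iterate_add_apply, hc ρ rfl]
    rw [e]
    exact ⟨(hg.1 ρ).1, fun Q hQ => (hg.1 ρ).2 Q (h1 Q hQ _)⟩
  · rw [← h2]
    refine RamBQ_round _ fun U hU => ?_
    obtain ⟨T', hT, c', hc, hd, hg⟩ := h U hU
    exact ⟨T', hT, c', hc, hd, hg.2 E⟩

theorem RamB_ret {y : List ℕ} (T : ℕ) {c : OCfg P.numRegs} (h : c.cfg.halted = true)
    (ho : c.cfg.output = y) : RamBOk P n O w (ret y) T c := by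
  refine ⟨fun ρ => ?_, fun E => ?_⟩
  · rw [RamB_iter_halted ρ h]
    exact ⟨h, fun Q hQ => ho ▸ hQ⟩
  · rw [RamBQ_halted _ _ h, ho]
    rfl

end

theorem ORounds.tree {P : OProgram} {n : ℕ} {O : Bool → Finset (Fin n) → ℕ} {w : ℕ} {x : List ℕ}
    {G : List ℕ → ℕ → List ℕ} {D τ : ℕ} (h : ORounds P n O w x G D τ) {t : QT (List ℕ)} {d : ℕ}
    (hG : ∀ r U, G (x ++ [w] ++ r) U = gWords n U (probe t r)) (hd : Dep t d)
    (hD : x.length + 1 + d ≤ D) (hx : ∀ a ∈ x, a < 2 ^ w) (hw : 1 ≤ w) (hO : ∀ b A, O b A < 2 ^ w)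
    {T : ℕ} (hT : (d + 2) * τ ≤ T) :
    (∀ ρ, (orun P n O w ρ x T).cfg.halted = true) ∧
    (∀ Q : List ℕ → Prop, AllO (ol n O) Q t → ∀ ρ, Q (orun P n O w ρ x T).cfg.output) ∧
    ∀ E : List ℕ → Prop, oprobAfter P n O w x T (fun c => E c.cfg.output) = pr (ol n O) t E := by
  obtain ⟨St, ⟨T₀, hT₀, c₀, hc₀, hd₀, hs₀⟩, hSt⟩ := h
  have hW : 0 < 2 ^ w := by positivity
  have h2W : 2 ≤ 2 ^ w := by simpa using Nat.pow_le_pow_right (show 0 < 2 by norm_num) hw
  have key : ∀ (t' : QT (List ℕ)) (a : List ℕ) (c : OCfg P.numRegs) (d' T' : ℕ),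
      St (x ++ [w] ++ a) c → (∀ r, probe t (a ++ r) = probe t' r) → Dep t' d' →
      x.length + 1 + a.length + d' ≤ D → (∀ b ∈ a, b < 2 ^ w) → (d' + 1) * τ ≤ T' →
      RamBOk P n O w t' T' c := by
    intro t'
    induction t' with
    | ret y =>
      intro a c d' T' hc hp _ hl ha hT'
      have hr := hSt _ c hc (List.prefix_append _ _) (by simp; omega) (by
        simp only [List.mem_append, List.mem_singleton]
        rintro b ((hb | rfl) | hb)
        exacts [hx b hb, Nat.lt_two_pow_self, ha b hb])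
      have hpa := hp []
      rw [List.append_nil] at hpa
      refine RamB_glue (fun _ => ret y) (fun U hU => ?_) (fun Q hQ _ => hQ)
        fun E => avgN_const hW _
      obtain ⟨T₁, hT₁, c', hc', hd', h1, -, -⟩ := hr U hU
      obtain ⟨h2, h3⟩ := h1 y (by rw [hG, hpa]; rfl)
      exact ⟨T₁, by nlinarith, c', hc', hd', RamB_ret _ h2 h3⟩
    | ask q k ih =>
      intro a c d' T' hc hp hdep hl ha hT'
      obtain ⟨d', rfl⟩ : ∃ e, d' = e + 1 := ⟨d' - 1, by have := hdep.1; omega⟩
      have hr := hSt _ c hc (List.prefix_append _ _) (by simp; omega) (by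
        simp only [List.mem_append, List.mem_singleton]
        rintro b ((hb | rfl) | hb)
        exacts [hx b hb, Nat.lt_two_pow_self, ha b hb])
      have hpa := hp []
      rw [List.append_nil] at hpa
      have step : ∀ v < 2 ^ w, ∀ T₁ ≤ τ, ∀ c', St (x ++ [w] ++ a ++ [v]) c' →
          RamBOk P n O w (k v) (T' - T₁) c' := by
        intro v hv T₁ hT₁ c' hc'
        refine ih v (a ++ [v]) c' d' _ (by rwa [← List.append_assoc]) (fun r => ?_) (hdep.2 v)
          (by simp; omega) ?_ ?_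
        · rw [List.append_assoc, hp]
          rfl
        · simp only [List.mem_append, List.mem_singleton]
          rintro b (hb | rfl)
          exacts [ha b hb, hv]
        · rw [Nat.succ_mul (d' + 1)] at hT'
          omega
      have hτ : τ ≤ T' := by nlinarith
      rcases q with _ | q
      · refine RamB_glue (fun U => k (U % 2)) (fun U hU => ?_) (fun Q hQ U => ?_) fun E => ?_
        · obtain ⟨T₁, hT₁, c', hc', hd', -, h1, -⟩ := hr U hU
          exact ⟨T₁, by omega, c', hc', hd', step _ (by omega) T₁ hT₁ c'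
            (h1 _ (by rw [hG, hpa]; rfl))⟩
        · rcases Nat.mod_two_eq_zero_or_one U with e | e <;> rw [e]
          exacts [hQ.1, hQ.2]
        · rw [avgN_mod hW (dvd_pow_self 2 (by omega)) fun v => pr (ol n O) (k v) E]
          simp [avgN, sum_range_succ, pr, ex]
      · refine RamB_glue (fun _ => k (ol n O q.1 q.2)) (fun U hU => ?_) (fun Q hQ _ => hQ)
          fun E => avgN_const hW _
        obtain ⟨T₁, hT₁, c', hc', hd', -, -, h1⟩ := hr U hU
        have h2 := h1 q.1 ((List.range n).map fun j => (q.2.getD j false).toNat)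
          (by rw [hG, hpa]; rfl) (by simp)
        rw [RamB_wset, Nat.mod_eq_of_lt (hO _ _)] at h2
        exact ⟨T₁, by omega, c', hc', hd', step _ (hO _ _) T₁ hT₁ c' h2⟩
  rw [show (d + 2) * τ = (d + 1) * τ + τ by ring] at hT
  have hk := key t [] c₀ d (T - T₀) (by rwa [List.append_nil]) (fun r => rfl) hd (by simpa using hD)
    (by simp) (by omega)
  have e : ∀ ρ, orun P n O w ρ x T = (ostep P n O w ρ)^[T - T₀] c₀ := fun ρ => by
    rw [← hc₀ ρ, orun, orun, ← Function.iterate_add_apply, show T - T₀ + T₀ = T by omega]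
  refine ⟨fun ρ => by rw [e]; exact (hk.1 ρ).1, fun Q hQ ρ => by rw [e]; exact (hk.1 ρ).2 Q hQ,
    fun E => ?_⟩
  rw [← hk.2 E, RamB_probAfter, ← RamB_avgL_eq _ (T - T₀) T c₀ (by omega), hd₀]
  simp only [e]

end Crest.Agent.R302
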