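import Crest.Agent.R302.PTO

/-!
# Row 302: replacing the oracle of a query tree by a computation

`sim h M t d b₀` replays `t` for `d` rounds; a coin is passed on, a query `(b, s)` is answered by `h b s` (clipped at `M`).
* `ex_sim`, `allO_sim`: generalise to the state `ans` with a residual tree `t'` such that `∀ r, probe t (ans ++ r) = probe t' r`
  and `Dep t' d`; induction on `d` (cases on `t'`; for `t' = ret b` the state never changes).
* `PTO.sim`: `PTO.iter_inv'` with the invariant `ans.length ≤ i ∧ ∀ v ∈ ans, v ≤ M + 1`; write the step with `Sum.elim`/`Option.elim` and prove small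
  case-distinction lemmas for `PTO` first (`PTO.sum_elim`, `PTO.option_elim`: directly from the three fields).
-/

set_option autoImplicit false

noncomputable section

namespace Crest.Agent.R302

open Finset Crest.Agent.Lib.PolyTime QT

variable {α β γ δ : Type}

/-- one round of the replay -/
def simStep (h : Bool → List Bool → QT ℕ) (M : ℕ) (t : QT β) (ans : List ℕ) : QT (List ℕ) :=
  (probe t ans).elim (fun _ => QT.ret ans) fun q =>
    q.elim (QT.coin.map fun c => ans ++ [c.toNat]) fun q => (h q.1 q.2).map fun v => ans ++ [min v M]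

/-- the replay -/
def sim (h : Bool → List Bool → QT ℕ) (M : ℕ) (t : QT β) (d : ℕ) (b₀ : β) : QT β :=
  (iter (simStep h M t) d []).map fun ans => (probe t ans).elim Prod.fst fun _ => b₀

theorem Sim_dep_mono {t : QT β} {d d' : ℕ} (h : Dep t d) (hd : d ≤ d') : Dep t d' := by
  induction t generalizing d d' with
  | ret b => trivial
  | ask q k ih => exact ⟨by have := h.1; omega, fun v => ih v (h.2 v) (by omega)⟩

theorem Sim_res {t : QT β} {ans : List ℕ} {q : Qy} {k : ℕ → QT β}
    (h : ∀ r, probe t (ans ++ r) = probe (QT.ask q k) r) (v : ℕ) (r : List ℕ) :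
    probe t (ans ++ [v] ++ r) = probe (k v) r := by
  rw [List.append_assoc, h]
  rfl

theorem Sim_ex {O O' : Orc} {h : Bool → List Bool → QT ℕ} {M : ℕ} (hh : ∀ b s, Det O' (h b s) (O b s))
    (hM : ∀ b s, O b s ≤ M) (t : QT β) (b₀ : β) (f : β → ℝ) (d : ℕ) (ans : List ℕ) (t' : QT β)
    (hr : ∀ r, probe t (ans ++ r) = probe t' r) (hd : Dep t' d) :
    ex O' (iter (simStep h M t) d ans) (fun ans => f ((probe t ans).elim Prod.fst fun _ => b₀)) =
      ex O t' f := by
  induction d generalizing ans t' with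
  | zero =>
    cases t' with
    | ret b =>
      have h0 := hr []
      rw [List.append_nil] at h0
      simp only [iter, ex_ret, h0, probe, Sum.elim_inl]
    | ask q k => exact absurd rfl hd.1
  | succ d ih =>
    have h0 := hr []
    rw [List.append_nil] at h0
    rw [iter, simStep, h0]
    rcases t' with b | ⟨_ | q, k⟩
    · exact ih ans _ hr trivial
    · simp only [probe, Sum.elim_inr, Option.elim_none]
      rw [ex_bind, ex_map, ex_coin, ih _ _ (Sim_res hr _) (hd.2 _), ih _ _ (Sim_res hr _) (hd.2 _)]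
      rfl
    · simp only [probe, Sum.elim_inr, Option.elim_some]
      rw [((hh q.1 q.2).map _).ex_bind, min_eq_left (hM _ _), ih _ _ (Sim_res hr _) (hd.2 _)]
      rfl

theorem Sim_allO {O O' : Orc} {h : Bool → List Bool → QT ℕ} {M : ℕ} (hh : ∀ b s, Det O' (h b s) (O b s))
    (hM : ∀ b s, O b s ≤ M) (t : QT β) (b₀ : β) (P : β → Prop) (d : ℕ) (ans : List ℕ) (t' : QT β)
    (hr : ∀ r, probe t (ans ++ r) = probe t' r) (hd : Dep t' d) (hP : AllO O P t') :
    AllO O' (fun ans => P ((probe t ans).elim Prod.fst fun _ => b₀)) (iter (simStep h M t) d ans) := by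
  induction d generalizing ans t' with
  | zero =>
    cases t' with
    | ret b =>
      have h0 := hr []
      rw [List.append_nil] at h0
      simp only [iter, allO_ret, h0, probe, Sum.elim_inl]
      exact hP
    | ask q k => exact absurd rfl hd.1
  | succ d ih =>
    have h0 := hr []
    rw [List.append_nil] at h0
    rw [iter, simStep, h0]
    rcases t' with b | ⟨_ | q, k⟩
    · exact ih ans _ hr trivial hP
    · simp only [probe, Sum.elim_inr, Option.elim_none]
      rw [allO_bind, allO_map]
      refine allO_of_forall _ fun c => ?_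
      cases c
      · exact ih _ _ (Sim_res hr _) (hd.2 _) hP.1
      · exact ih _ _ (Sim_res hr _) (hd.2 _) hP.2
    · simp only [probe, Sum.elim_inr, Option.elim_some]
      rw [((hh q.1 q.2).map _).allO_bind, min_eq_left (hM _ _)]
      exact ih _ _ (Sim_res hr _) (hd.2 _) hP

theorem ex_sim {O O' : Orc} {h : Bool → List Bool → QT ℕ} {M : ℕ} (hh : ∀ b s, Det O' (h b s) (O b s))
    (hM : ∀ b s, O b s ≤ M) {t : QT β} {d : ℕ} (hd : Dep t d) (b₀ : β) (f : β → ℝ) :
    ex O' (sim h M t d b₀) f = ex O t f := by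
  rw [sim, ex_map]
  exact Sim_ex hh hM t b₀ f d [] t (fun _ => rfl) hd

theorem allO_sim {O O' : Orc} {h : Bool → List Bool → QT ℕ} {M : ℕ} (hh : ∀ b s, Det O' (h b s) (O b s))
    (hM : ∀ b s, O b s ≤ M) {t : QT β} {d : ℕ} (hd : Dep t d) (b₀ : β) {P : β → Prop}
    (hP : AllO O P t) : AllO O' P (sim h M t d b₀) := by
  rw [sim, allO_map]
  exact Sim_allO hh hM t b₀ P d [] t (fun _ => rfl) hd hP

variable [Enc α] [Enc β] [Enc γ] [Enc δ]

theorem PTO.sum_elim {s : α → β ⊕ γ} {f : α → β → QT δ} {g : α → γ → QT δ} (hs : PT s)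
    (hf : PTO fun p : α × β => f p.1 p.2) (hg : PTO fun p : α × γ => g p.1 p.2) :
    PTO fun a => (s a).elim (f a) (g a) := by
  have hb : PB fun a => esize a + esize (s a) + 1 := (PB.esize_id.add (PB.esize hs)).add (PB.const 1)
  have e1 : ∀ a b, s a = Sum.inl b → esize (a, b) ≤ esize a + esize (s a) + 1 := by
    intro a b h
    rw [h, esize_pair, esize_inl]
    omega
  have e2 : ∀ a c, s a = Sum.inr c → esize (a, c) ≤ esize a + esize (s a) + 1 := by
    intro a c h
    rw [h, esize_pair, esize_inr]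
    omega
  refine ⟨?_, ?_, ?_⟩
  · refine (PT.sum_elim (s := fun p : α × List ℕ => s p.1) (f := fun p b => probe (f p.1 b) p.2)
      (g := fun p c => probe (g p.1 c) p.2) (by fun_prop)
      (hf.pt.comp (g := fun q : (α × List ℕ) × β => ((q.1.1, q.2), q.1.2)) (by fun_prop))
      (hg.pt.comp (g := fun q : (α × List ℕ) × γ => ((q.1.1, q.2), q.1.2)) (by fun_prop))).of_eq
      fun p => ?_
    cases s p.1 <;> rfl
  · obtain ⟨d1, hd1, h1⟩ := hf.dep
    obtain ⟨d2, hd2, h2⟩ := hg.dep
    obtain ⟨B1, hB1, g1⟩ := hd1.exists_bound hb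
    obtain ⟨B2, hB2, g2⟩ := hd2.exists_bound hb
    refine ⟨fun a => B1 a + B2 a, hB1.add hB2, fun a => ?_⟩
    rcases h : s a with b | c
    · exact Sim_dep_mono (h1 (a, b)) (le_add_right (g1 a _ (e1 a b h)))
    · exact Sim_dep_mono (h2 (a, c)) (le_add_left (g2 a _ (e2 a c h)))
  · obtain ⟨d1, hd1, h1⟩ := hf.size
    obtain ⟨d2, hd2, h2⟩ := hg.size
    obtain ⟨B1, hB1, g1⟩ := hd1.exists_bound hb
    obtain ⟨B2, hB2, g2⟩ := hd2.exists_bound hb
    refine ⟨fun a => B1 a + B2 a, hB1.add hB2, fun a => ?_⟩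
    rcases h : s a with b | c
    · exact (h1 (a, b)).mono fun x hx => hx.trans (le_add_right (g1 a _ (e1 a b h)))
    · exact (h2 (a, c)).mono fun x hx => hx.trans (le_add_left (g2 a _ (e2 a c h)))

theorem PTO.option_elim {o : α → Option β} {f : α → QT δ} {g : α → β → QT δ} (ho : PT o)
    (hf : PTO f) (hg : PTO fun p : α × β => g p.1 p.2) : PTO fun a => (o a).elim (f a) (g a) := by
  refine (PTO.sum_elim (s := fun a => (o a).elim (Sum.inl ()) Sum.inr) (f := fun a _ => f a) (g := g)
    (by fun_prop) (hf.comp (by fun_prop)) hg).of_eq fun a => ?_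
  cases o a <;> rfl

theorem PTO.sim {h : α → Bool → List Bool → QT ℕ} {M d : α → ℕ} {t : α → QT β} {b₀ : α → β}
    (hh : PTO fun p : α × Bool × List Bool => h p.1 p.2.1 p.2.2) (hM : PT M) (ht : PTO t) (hd : PT d)
    (hd' : PB d) (hb : PT b₀) : PTO fun a => R302.sim (h a) (M a) (t a) (d a) (b₀ a) := by
  have hstep : PTO fun p : α × List ℕ => simStep (h p.1) (M p.1) (t p.1) p.2 := by
    refine PTO.sum_elim (s := fun p : α × List ℕ => probe (t p.1) p.2) (f := fun p _ => QT.ret p.2)
      (g := fun p q => q.elim (QT.coin.map fun c => p.2 ++ [c.toNat])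
        fun q => (h p.1 q.1 q.2).map fun v => p.2 ++ [min v (M p.1)]) ht.pt (PTO.ret (by fun_prop)) ?_
    refine PTO.option_elim (o := fun p : (α × List ℕ) × Qy => p.2)
      (f := fun p => QT.coin.map fun c => p.1.2 ++ [c.toNat])
      (g := fun p q => (h p.1.1 q.1 q.2).map fun v => p.1.2 ++ [min v (M p.1.1)]) (by fun_prop)
      (PTO.map PTO.coin (by fun_prop)) ?_
    exact PTO.map (f := fun p : ((α × List ℕ) × Qy) × Bool × List Bool => h p.1.1.1 p.2.1 p.2.2)
      (g := fun p v => p.1.1.2 ++ [min v (M p.1.1.1)])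
      (hh.comp (g := fun p : ((α × List ℕ) × Qy) × Bool × List Bool => (p.1.1.1, p.2)) (by fun_prop))
      (by fun_prop)
  have hit : PTO fun a => iter (simStep (h a) (M a) (t a)) (d a) [] := by
    refine PTO.iter_inv' (step := fun a => simStep (h a) (M a) (t a)) (ini := fun _ => [])
      (fun a => d a * (esize (M a + 1) + 1) + 1)
      (fun a i ans => ans.length ≤ i ∧ ∀ v ∈ ans, v ≤ M a + 1) hd hd' (by fun_prop) hstep
      (by fun_prop) (fun a => by simp) (fun a i ans _ hI => ?_) fun a i ans hi hI => ?_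
    · have key : ∀ v ≤ M a + 1, (ans ++ [v]).length ≤ i + 1 ∧ ∀ w ∈ ans ++ [v], w ≤ M a + 1 := by
        intro v hv
        refine ⟨by simpa using hI.1, fun w hw => ?_⟩
        rcases List.mem_append.1 hw with hw | hw
        · exact hI.2 w hw
        · rw [List.mem_singleton.1 hw]
          exact hv
      unfold simStep
      rcases probe (t a) ans with x | _ | q
      · exact ⟨hI.1.trans (Nat.le_succ i), hI.2⟩
      · simp only [Sum.elim_inr, Option.elim_none]
        rw [all_map]
        exact all_of_forall _ fun c => key _ (by have := Bool.toNat_le c; omega)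
      · simp only [Sum.elim_inr, Option.elim_some]
        rw [all_map]
        exact all_of_forall _ fun v => key _ (by omega)
    · refine (esize_list_le fun v hv => esize_nat_mono (hI.2 v hv)).trans ?_
      exact Nat.add_le_add_right (Nat.mul_le_mul_right _ (hI.1.trans hi)) 1
  refine PTO.map (g := fun a ans => (probe (t a) ans).elim Prod.fst fun _ => b₀ a) hit ?_
  exact PT.sum_elim (s := fun p : α × List ℕ => probe (t p.1) p.2) (f := fun _ => Prod.fst)
    (g := fun p _ => b₀ p.1) ht.pt (by fun_prop) (by fun_prop)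

/-- the depth bound of a `PTO` family can be taken computable -/
theorem PTO.exists_dep {t : α → QT β} (ht : PTO t) : ∃ d : α → ℕ, PT d ∧ PB d ∧ ∀ a, Dep (t a) (d a) := by
  obtain ⟨d, ⟨k, hk⟩, h⟩ := ht.dep
  have he : PT fun a : α => esize a := (PT.encBits PT.id').length.of_eq fun _ => Tr.length_bits _
  exact ⟨fun a => (esize a + 1) ^ k, by fun_prop, ⟨k, fun _ => le_rfl⟩, fun a => Sim_dep_mono (h a) (hk a)⟩

end Crest.Agent.R302
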