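import Crest.Agent.R302.RamB
import Crest.Agent.R302.Sim
import Crest.Agent.R309.RamF
import Crest.Prelude.Def_Polymatroid

/-!
# Row 302: from `PTO` to the oracle word RAM

For a list `l = x ++ [w] ++ r` (`x = countInput n R ε δ`, six words) let `S l` be `sizeParam` computed from the words of `x`
(`⌈ε⁻¹⌉₊ = (den + num - 1) / num`; a `PT` function of `l`, in binary).  With the pad `u = replicate (S l + w) ()` (`PT.exists_CT_of_pad`) put
`tr = (A (u.take (S l), l.take 6)).map (ratWords (min w |u|))`, `ratWords w (a, b) = k :: digits a ++ digits b` in base `2 ^ w`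
(`k = a.size + 1` digits `a / (2 ^ w) ^ i % 2 ^ w`, and `b.size + 1` digits), `G l U = gWords (min (l.headD 0) |u|) U (probe tr (l.drop 7))`.
This is `CT` with time `(esize (l, U) + S l + w + 2) ^ k`.  The leaves of `tr` consist of words `< 2 ^ w` (`PTO.size` bounds `k`).
`D = 7 + d`, `d` the depth bound.  `ORounds.tree` with `Q`, `E` composed with `decodeRat w` (`decodeRat w (ratWords w y) = some (y.1 / y.2)` if `0 < y.2`).
As in `R309.exists_ram`: `ramF_decoder`, `ramF_outCode_pt`, `ramF_length`, `runs_inP`, `runs_outP`.  Then choose `c₀` with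
`C * (…) < 2 ^ w` for `w = c₀ * clog 2 X`, `X = n + R + … + 2` (`S ≤ 7 X`, `X ≤ 2 ^ clog 2 X`, `1 ≤ clog 2 X ≤ S + 3`), and `C, d`.
-/

set_option autoImplicit false

noncomputable section

namespace Crest.Agent.R302

open Finset Crest.WordRAM Crest.OracleRAM Crest.Polymatroid Crest.Agent.Lib.PolyTime Crest.Agent.R309 QT

/-- `sizeParam` computed from the input words -/
def rcS (l : List ℕ) : ℕ :=
  l.getD 0 0 + Nat.clog 2 (l.getD 1 0 + 2) + Nat.clog 2 (l.getD 2 0 + 2) + Nat.clog 2 (l.getD 3 0 + 2) +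
    Nat.clog 2 (l.getD 4 0 + 2) + Nat.clog 2 (l.getD 5 0 + 2) +
    (l.getD 3 0 + l.getD 2 0 - 1) / l.getD 2 0

theorem rcS_pt : PT rcS := by
  unfold rcS
  fun_prop

theorem rc_ceil {ε : ℚ} (h : 0 < ε) : ⌈ε⁻¹⌉₊ = (ε.den + ε.num.natAbs - 1) / ε.num.natAbs := by
  have h1 : 0 < ε.num := Rat.num_pos.2 h
  have h2 : ε⁻¹ = (ε.den : ℚ) / (ε.num.natAbs : ℕ) := by
    rw [← Int.cast_natCast (R := ℚ) ε.num.natAbs, Int.natAbs_of_nonneg h1.le]
    conv_lhs => rw [← Rat.num_div_den ε]
    rw [inv_div]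
  have h3 : 0 < ε.num.natAbs := Int.natAbs_pos.2 h1.ne'
  rw [h2]
  generalize ε.num.natAbs = a at h3
  generalize ε.den = b
  have ha : (0 : ℚ) < a := by exact_mod_cast h3
  apply le_antisymm
  · rw [Nat.ceil_le, div_le_iff₀ ha]
    have : b ≤ (b + a - 1) / a * a := by
      have := Nat.div_add_mod (b + a - 1) a
      have := Nat.mod_lt (b + a - 1) h3
      rw [mul_comm]
      omega
    exact_mod_cast this
  · have h4 := Nat.le_ceil ((b : ℚ) / a)
    rw [div_le_iff₀ ha] at h4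
    have h5 : b ≤ ⌈(b : ℚ) / a⌉₊ * a := by exact_mod_cast h4
    generalize ⌈(b : ℚ) / a⌉₊ = c at h5
    refine Nat.lt_succ_iff.1 ((Nat.div_lt_iff_lt_mul h3).2 ?_)
    rw [Nat.succ_mul]
    omega

theorem rcS_eq (n R : ℕ) {ε : ℚ} (δ : ℚ) (h : 0 < ε) (r : List ℕ) :
    rcS (countInput n R ε δ ++ r) = sizeParam n R ε δ := by
  rw [sizeParam, rc_ceil h]
  rfl

/-- a fraction written in words -/
def ratWords (w : ℕ) (y : ℕ × ℕ) : List ℕ :=
  (y.1.size + 1) :: (digs (2 ^ w) (y.1.size + 1) y.1 ++ digs (2 ^ w) (y.2.size + 1) y.2)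

theorem rc_digs_pt {α : Type} [Enc α] {w T U : α → ℕ} (hw : PT w) (hw' : PB w) (hT : PT T)
    (hT' : PB T) (hU : PT U) : PT fun a => digs (2 ^ w a) (T a) (U a) := by
  have hN : PT fun a => 2 ^ w a := (PT.const 2).nat_pow hw hw'
  have h2 : PT fun a => (List.range (T a)).map fun τ =>
      U a / (2 ^ w a) ^ (min τ (T a)) % 2 ^ w a := by
    refine PT.map (PT.range hT hT') ?_
    have hN' : PT fun x : α × ℕ => 2 ^ w x.1 := hN.comp PT.fst'
    have hT2 : PT fun x : α × ℕ => T x.1 := hT.comp PT.fst'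
    have hT3 : PB fun x : α × ℕ => T x.1 := hT'.comp PT.fst'
    exact ((hU.comp PT.fst').nat_div (hN'.nat_pow (PT.snd'.nat_min hT2) hT3.min_right)).nat_mod hN'
  refine h2.of_eq fun p => List.map_congr_left fun τ hτ => ?_
  rw [min_eq_left (List.mem_range.1 hτ).le]

theorem ratWords_pt {α : Type} [Enc α] {w : α → ℕ} {y : α → ℕ × ℕ} (hw : PT w) (hw' : PB w)
    (hy : PT y) : PT fun a => ratWords (w a) (y a) := by
  have h1 : PT fun a => (y a).1.size + 1 := (PT.natSize hy.fst).nat_add (PT.const 1)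
  have h2 : PT fun a => (y a).2.size + 1 := (PT.natSize hy.snd).nat_add (PT.const 1)
  have h1' : PB fun a => (y a).1.size + 1 := (PB.natSize hy.fst).add (PB.const 1)
  have h2' : PB fun a => (y a).2.size + 1 := (PB.natSize hy.snd).add (PB.const 1)
  exact h1.cons ((rc_digs_pt hw hw' h1 h1' hy.fst).append (rc_digs_pt hw hw' h2 h2' hy.snd))

theorem wordsVal_digs (w T U : ℕ) : wordsVal w (digs (2 ^ w) T U) = U % (2 ^ w) ^ T := by
  induction T generalizing U with
  | zero => simp [digs, wordsVal, Nat.mod_one]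
  | succ T ih => rw [digs_succ, wordsVal, ih, pow_succ', Nat.mod_mul]

theorem wordsVal_digs_size {w : ℕ} (hw : 1 ≤ w) (U : ℕ) :
    wordsVal w (digs (2 ^ w) (U.size + 1) U) = U := by
  rw [wordsVal_digs, ← pow_mul]
  refine Nat.mod_eq_of_lt ((Nat.lt_size_self U).trans_le (Nat.pow_le_pow_right (by omega) ?_))
  nlinarith

theorem decodeRat_ratWords {w : ℕ} (hw : 1 ≤ w) {y : ℕ × ℕ} (hy : 0 < y.2) :
    decodeRat w (ratWords w y) = some ((y.1 : ℚ) / y.2) := by
  have hl : (digs (2 ^ w) (y.1.size + 1) y.1).length = y.1.size + 1 := by simp [digs]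
  rw [ratWords, decodeRat, List.drop_left' hl, List.take_left' hl, wordsVal_digs_size hw,
    wordsVal_digs_size hw, if_neg hy.ne']

theorem ratWords_lt {w : ℕ} {y : ℕ × ℕ} (hy : y.1.size + 1 < 2 ^ w) :
    ∀ a ∈ ratWords w y, a < 2 ^ w := by
  intro a ha
  simp only [ratWords, List.mem_cons, List.mem_append] at ha
  rcases ha with rfl | ha | ha
  · exact hy
  · exact (tape_digs (by positivity) _ _).2 a ha
  · exact (tape_digs (by positivity) _ _).2 a ha

theorem gWords_pt {α : Type} [Enc α] {n U : α → ℕ} {z : α → (List ℕ × List ℕ) ⊕ Qy} (hn : PT n)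
    (hn' : PB n) (hU : PT U) (hz : PT z) : PT fun a => gWords (n a) (U a) (z a) := by
  have h : PT fun a => (z a).elim (fun p => 0 :: p.1) fun o => o.elim [1, U a % 2] fun q =>
      (2 + q.1.toNat) :: (List.range (n a)).map fun j => (q.2.getD j false).toNat := by
    refine hz.sum_elim (by fun_prop) (PT.option_elim PT.snd' (by fun_prop) ?_)
    refine PT.cons (by fun_prop) (PT.map (PT.range (hn.comp (by fun_prop)) (hn'.comp (by fun_prop))) ?_)
    fun_prop
  refine h.of_eq fun a => ?_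
  rcases z a with p | _ | q <;> rfl

theorem probe_all {β : Type} {P : β → Prop} {t : QT β} (h : All P t) {l : List ℕ}
    {p : β × List ℕ} (e : probe t l = Sum.inl p) : P p.1 := by
  induction t generalizing l with
  | ret b =>
    simp only [probe, Sum.inl.injEq] at e
    subst e
    exact h
  | ask q k ih =>
    cases l with
    | nil => simp [probe] at e
    | cons v l => exact ih v (h v) e

theorem dep_map {β γ : Type} {t : QT β} {d : ℕ} (h : Dep t d) (f : β → γ) : Dep (t.map f) d := by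
  induction t generalizing d with
  | ret b => trivial
  | ask q k ih => exact ⟨h.1, fun v => ih v (h.2 v)⟩

theorem gWords_lt {n U w : ℕ} (hw : 2 ≤ w) {t : QT (List ℕ)}
    (ht : All (fun y => ∀ a ∈ y, a < 2 ^ w) t) (r : List ℕ) :
    ∀ a ∈ gWords n U (probe t r), a < 2 ^ w := by
  have h4 : 4 ≤ 2 ^ w := Nat.pow_le_pow_right (n := 2) (by omega) hw
  intro a ha
  rcases e : probe t r with p | _ | q <;> rw [e] at ha
  · rcases List.mem_cons.1 ha with rfl | ha
    · omega
    · exact probe_all ht e a ha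
  · simp only [gWords, List.mem_cons, List.not_mem_nil, or_false] at ha
    omega
  · simp only [gWords, List.mem_cons, List.mem_map] at ha
    rcases ha with rfl | ⟨j, _, rfl⟩
    · have := Bool.toNat_le q.1
      omega
    · have := Bool.toNat_le (q.2.getD j false)
      omega

/-- the words of a round, computed with the pad `u` -/
def rcG (A : List Unit × List ℕ → QT (ℕ × ℕ)) (a : List ℕ × ℕ) (u : List Unit) : List ℕ :=
  gWords (min (a.1.getD 0 0) u.length) a.2
    (probe ((A (u.take (rcS a.1), a.1.take 6)).map (ratWords (min (a.1.getD 6 0) u.length)))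
      (a.1.drop 7))

theorem rc_probe_pt {α β : Type} [Enc α] [Enc β] {f : α → QT β} {l : α → List ℕ} (hf : PTO f)
    (hl : PT l) : PT fun a => probe (f a) (l a) :=
  hf.pt.comp (g := fun a => (a, l a)) (PT.id'.prodMk hl)

theorem rc_tree_pto {α : Type} [Enc α] {f : α → QT (ℕ × ℕ)} {w : α → ℕ} (hf : PTO f) (hw : PT w)
    (hw' : PB w) : PTO fun a => (f a).map (ratWords (w a)) :=
  hf.map (g := fun a y => ratWords (w a) y)
    (ratWords_pt (hw.comp PT.fst') (hw'.comp PT.fst') PT.snd')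

theorem rcG_pt {A : List Unit × List ℕ → QT (ℕ × ℕ)} (hA : PTO A) :
    PT fun p : (List ℕ × ℕ) × List Unit => rcG A p.1 p.2 := by
  have hS : PT fun p : (List ℕ × ℕ) × List Unit => rcS p.1.1 := rcS_pt.comp (by fun_prop)
  have h0 : PT fun p : (List ℕ × ℕ) × List Unit => (p.2.take (rcS p.1.1), p.1.1.take 6) :=
    (PT.take hS PT.snd').prodMk (by fun_prop)
  have h4 : ∀ i, PT fun p : (List ℕ × ℕ) × List Unit => min (p.1.1.getD i 0) p.2.length := fun i => by
    fun_prop
  have h5 : ∀ i, PB fun p : (List ℕ × ℕ) × List Unit => min (p.1.1.getD i 0) p.2.length := fun i =>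
    (PB.length PT.snd').min_right
  have h6 : PT fun p : (List ℕ × ℕ) × List Unit => p.1.2 := by fun_prop
  have h7 : PT fun p : (List ℕ × ℕ) × List Unit => p.1.1.drop 7 := by fun_prop
  exact gWords_pt (h4 0) (h5 0) h6 (rc_probe_pt (rc_tree_pto (hA.comp h0) (h4 6) (h5 6)) h7)

/-- the time of a round -/
def rcT (k m N : ℕ) : ℕ := 172 * m + 16 + 10 * (16 * m + N + 3) ^ k

theorem rc_prog {A : List Unit × List ℕ → QT (ℕ × ℕ)} (hA : PTO A) :
    ∃ (p : Prog) (m k : ℕ), ∀ (l : List ℕ) (U w : ℕ), (∀ a ∈ l, a < 2 ^ w) → U < 2 ^ w →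
      Runs p m (Crest.Enc.listCode l ++ Crest.Enc.natCode U).reverse
        (outCode (some (rcG A (l, U) (List.replicate (rcS l + l.getD 6 0) ()))))
        (rcT k ((l.length + 2) * (w + 1)) (rcS l + l.getD 6 0)) := by
  obtain ⟨dec, hdec, hdec'⟩ := ramF_decoder
  have hN : PT fun s => rcS (dec s).1 + (dec s).1.getD 6 0 :=
    (rcS_pt.comp hdec.fst).nat_add (by fun_prop)
  have hg : PT fun p : List Bool × List Unit => outCode (some (rcG A (dec p.1) p.2)) :=
    ramF_outCode_pt.comp (PT.some ((rcG_pt hA).comp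
      (g := fun p : List Bool × List Unit => (dec p.1, p.2)) (by fun_prop)))
  obtain ⟨k, hk⟩ := PT.exists_CT_of_pad hN hg
  obtain ⟨p, n, hp⟩ := id hk
  refine ⟨.seq inP (.seq p outP), max n 2, k, fun l U w hl hU => ?_⟩
  have hL := ramF_length hl hU
  have hd := hdec' l U
  generalize (Crest.Enc.listCode l ++ Crest.Enc.natCode U).reverse = s at hL hd
  generalize (l.length + 2) * (w + 1) = m at hL
  have r := hp s
  have e1 := hk.esize_le s
  have e0 := esize_boolList_le s
  simp only [hd] at r e1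
  generalize rcS l + l.getD 6 0 = N at r e1 ⊢
  generalize outCode (some (rcG A (l, U) (List.replicate N ()))) = y at r e1 ⊢
  have e4 := length_lt_esize y
  have a1 : (esize s + N + 2) ^ k ≤ (16 * m + N + 3) ^ k := Nat.pow_le_pow_left (by omega) _
  refine (((runs_inP s).mono (le_max_right n 2) le_rfl).seq ((r.mono (le_max_left n 2) le_rfl).seq
    ((runs_outP y).mono (le_max_right n 2) le_rfl))).mono le_rfl ?_
  unfold rcT
  omega

theorem rc_clog_le (a : ℕ) : Nat.clog 2 (a + 2) ≤ a + 2 :=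
  Nat.clog_le_of_le_pow Nat.lt_two_pow_self.le

theorem rc_esize (n R : ℕ) (ε δ : ℚ) :
    esize (List.replicate (sizeParam n R ε δ) (), countInput n R ε δ) ≤
      38 * sizeParam n R ε δ + 15 := by
  have h : ∀ a : ℕ, esize a ≤ 6 * Nat.clog 2 (a + 2) + 1 := fun a =>
    esize_nat_le_of_lt_two_pow (lt_of_lt_of_le (by omega) (Nat.le_pow_clog one_lt_two (a + 2)))
  have h0 := esize_nat_le_self n
  have h1 := h R
  have h2 := h ε.num.natAbs
  have h3 := h ε.den
  have h4 := h δ.num.natAbs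
  have h5 := h δ.den
  have h6 := esize_list_le (l := List.replicate (sizeParam n R ε δ) ()) (B := 1) (fun y _ => by simp)
  rw [List.length_replicate] at h6
  simp only [esize_pair, countInput, esize_cons, esize_nil]
  unfold sizeParam at *
  omega

theorem rc_S_le (n R : ℕ) {ε : ℚ} (δ : ℚ) (h : 0 < ε) :
    sizeParam n R ε δ ≤ 7 * (n + R + ε.num.natAbs + ε.den + δ.num.natAbs + δ.den + 2) := by
  have h1 := rc_clog_le R
  have h2 := rc_clog_le ε.num.natAbs
  have h3 := rc_clog_le ε.den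
  have h4 := rc_clog_le δ.num.natAbs
  have h5 := rc_clog_le δ.den
  have h6 := Nat.div_le_self (ε.den + ε.num.natAbs - 1) ε.num.natAbs
  rw [sizeParam, rc_ceil h]
  omega

theorem rc_L_le (n R : ℕ) (ε δ : ℚ) :
    Nat.clog 2 (n + R + ε.num.natAbs + ε.den + δ.num.natAbs + δ.den + 2) ≤ sizeParam n R ε δ + 3 := by
  have h : ∀ a : ℕ, Nat.clog 2 (a + 2) ≤ sizeParam n R ε δ → a + 2 ≤ 2 ^ sizeParam n R ε δ :=
    fun a ha => (Nat.le_pow_clog one_lt_two (a + 2)).trans (Nat.pow_le_pow_right (by omega) ha)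
  have h0 : n < 2 ^ sizeParam n R ε δ :=
    Nat.lt_two_pow_self.trans_le (Nat.pow_le_pow_right (by omega) (by unfold sizeParam; omega))
  have h1 := h R (by unfold sizeParam; omega)
  have h2 := h ε.num.natAbs (by unfold sizeParam; omega)
  have h3 := h ε.den (by unfold sizeParam; omega)
  have h4 := h δ.num.natAbs (by unfold sizeParam; omega)
  have h5 := h δ.den (by unfold sizeParam; omega)
  refine Nat.clog_le_of_le_pow ?_
  rw [pow_add]
  omega

theorem exists_s0' (κ c : ℕ) : ∃ s₀ : ℕ, 20 ≤ s₀ ∧ ∀ s, s₀ ≤ s → κ * (s + 2) ^ c ≤ 2 ^ s := by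
  have h := (tendsto_pow_const_div_const_pow_of_one_lt c (one_lt_two (α := ℝ))).eventually
    (gt_mem_nhds (show (0 : ℝ) < 1 / (4 * κ + 1) by positivity))
  obtain ⟨n₀, hn₀⟩ := Filter.eventually_atTop.1 h
  refine ⟨max 20 n₀, le_max_left _ _, fun s hs => ?_⟩
  have h1 := hn₀ (s + 2) (by omega)
  rw [div_lt_div_iff₀ (by positivity) (by positivity), one_mul, pow_add] at h1
  have h2 : (0 : ℝ) ≤ ((s + 2 : ℕ) : ℝ) ^ c := by positivity
  have h3 : (κ : ℝ) * ((s + 2 : ℕ) : ℝ) ^ c ≤ 2 ^ s := by nlinarith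
  exact_mod_cast h3

theorem rc_c0 (e : ℕ) : ∃ c₀ : ℕ, 2 ≤ c₀ ∧ ∀ L X S : ℕ, 1 ≤ L → X ≤ 2 ^ L → S ≤ 7 * X →
    (S + c₀ * L + 2) ^ e < 2 ^ (c₀ * L) ∧ X < 2 ^ (c₀ * L) := by
  obtain ⟨s₀, h20, hs₀⟩ := exists_s0' (2 ^ e * 2 ^ 8) e
  refine ⟨s₀, by omega, fun L X S hL hX hS => ⟨?_, ?_⟩⟩
  · have h1 : L < 2 ^ L := Nat.lt_two_pow_self
    have h2 : s₀ * L ≤ s₀ * 2 ^ L := Nat.mul_le_mul_left _ h1.le
    have h3 : S + s₀ * L + 2 ≤ (s₀ + 9) * 2 ^ L := by nlinarith
    have h4 : (s₀ + 9) * 2 ^ L ≤ (2 * (s₀ + 9)) ^ L := by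
      rw [mul_pow, mul_comm]
      exact Nat.mul_le_mul_left _ (Nat.le_self_pow (by omega) _)
    have h5 : (2 * (s₀ + 9)) ^ e < 2 ^ s₀ := by
      have h6 := hs₀ (s₀ + 7) (by omega)
      have h7 : 0 < 2 ^ e * (s₀ + 9) ^ e := by positivity
      rw [mul_pow]
      rw [pow_add, show s₀ + 7 + 2 = s₀ + 9 by omega] at h6
      nlinarith
    calc (S + s₀ * L + 2) ^ e ≤ ((2 * (s₀ + 9)) ^ L) ^ e := Nat.pow_le_pow_left (h3.trans h4) e
      _ = ((2 * (s₀ + 9)) ^ e) ^ L := by rw [← pow_mul, ← pow_mul, mul_comm L e]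
      _ < (2 ^ s₀) ^ L := Nat.pow_lt_pow_left h5 (by omega)
      _ = 2 ^ (s₀ * L) := by rw [← pow_mul]
  · exact hX.trans_lt (Nat.pow_lt_pow_right (by omega) (by nlinarith))

theorem exists_oram (A : List Unit × List ℕ → QT (ℕ × ℕ)) (hA : PTO A) :
    ∃ (P : OProgram) (c₀ C d : ℕ), ∀ (n R : ℕ) (O : Bool → Finset (Fin n) → ℕ) (ε δ : ℚ),
      0 < ε → ε < 1 → 0 < δ → δ < 1 → (∀ b S, O b S ≤ R + 1) →
      ∀ w, w = c₀ * Nat.clog 2 (n + R + ε.num.natAbs + ε.den + δ.num.natAbs + δ.den + 2) →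
      ∀ T, T = C * (sizeParam n R ε δ + 1) ^ d →
      ∀ t, t = A (List.replicate (sizeParam n R ε δ) (), countInput n R ε δ) →
      AllO (ol n O) (fun y => 0 < y.2) t →
      (∀ ρ, (orun P n O w ρ (countInput n R ε δ) T).cfg.halted = true) ∧
      (∀ Q : ℚ → Prop, AllO (ol n O) (fun y => Q ((y.1 : ℚ) / y.2)) t → ∀ ρ, ∃ z, Q z ∧
        decodeRat w (orun P n O w ρ (countInput n R ε δ) T).cfg.output = some z) ∧
      ∀ E : ℚ → Prop, oprobAfter P n O w (countInput n R ε δ) T
          (fun c => ∃ z, decodeRat w c.cfg.output = some z ∧ E z) =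
        pr (ol n O) t fun y => E ((y.1 : ℚ) / y.2) := by
  obtain ⟨p, m, k, hp⟩ := rc_prog hA
  obtain ⟨P, C, hP⟩ := exists_orounds p m
  obtain ⟨dd, ⟨kd, hkd⟩, hdep⟩ := hA.dep
  obtain ⟨B, ⟨kB, hkB⟩, hB⟩ := hA.size
  have b1 : PolyIn (fun p : ℕ × ℕ => p.1 + p.2) fun p => p.1 := .of_le fun a => by omega
  have b2 : PolyIn (fun p : ℕ × ℕ => p.1 + p.2) fun p => p.2 := .of_le fun a => by omega
  obtain ⟨e, he⟩ : PolyIn (fun p : ℕ × ℕ => p.1 + p.2) fun p =>
      ((38 * p.1 + 16) ^ kd + 2) * (C * (rcT k ((7 + (38 * p.1 + 16) ^ kd + 2) * (p.2 + 1)) (p.1 + p.2) +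
        (7 + (38 * p.1 + 16) ^ kd + 2) * (p.2 + 1))) + (38 * p.1 + 16) ^ kB := by
    unfold rcT
    poly_in
  obtain ⟨c₀, hc₀, hc⟩ := rc_c0 e
  refine ⟨P, c₀, (4 * c₀ + 2) ^ e, e, fun n R O ε δ hε _ hδ _ hO w hw T hT t ht hpos => ?_⟩
  have hS7 := rc_S_le n R δ hε
  have hL3 := rc_L_le n R ε δ
  have hes := rc_esize n R ε δ
  have hS := rcS_eq n R δ hε
  have hL1 : 1 ≤ Nat.clog 2 (n + R + ε.num.natAbs + ε.den + δ.num.natAbs + δ.den + 2) :=
    Nat.clog_pos one_lt_two (by omega)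
  obtain ⟨h1, h2⟩ := hc _ _ _ hL1 (Nat.le_pow_clog one_lt_two _) hS7
  have hnS : n ≤ sizeParam n R ε δ := by unfold sizeParam; omega
  have hw2 : 2 ≤ w := by rw [hw]; nlinarith
  have hwS : w ≤ c₀ * (sizeParam n R ε δ + 3) := hw ▸ Nat.mul_le_mul_left _ hL3
  rw [← hw] at h1 h2
  have hx : ∀ a ∈ countInput n R ε δ, a < 2 ^ w := by
    intro a ha
    simp only [countInput, List.mem_cons, List.not_mem_nil, or_false] at ha
    omega
  have hO' : ∀ b A, O b A < 2 ^ w := fun b A => by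
    have := hO b A
    omega
  have hlen : (countInput n R ε δ).length = 6 := rfl
  have hd := hdep (List.replicate (sizeParam n R ε δ) (), countInput n R ε δ)
  have hd' := (hkd (List.replicate (sizeParam n R ε δ) (), countInput n R ε δ)).trans
    (Nat.pow_le_pow_left (show _ ≤ 38 * sizeParam n R ε δ + 16 by omega) kd)
  have hb := hB (List.replicate (sizeParam n R ε δ) (), countInput n R ε δ)
  have hb' := (hkB (List.replicate (sizeParam n R ε δ) (), countInput n R ε δ)).trans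
    (Nat.pow_le_pow_left (show _ ≤ 38 * sizeParam n R ε δ + 16 by omega) kB)
  have he' := he (sizeParam n R ε δ, w)
  have hG : ∀ r U, rcG A (countInput n R ε δ ++ [w] ++ r, U)
      (List.replicate (sizeParam n R ε δ + w) ()) = gWords n U (probe (t.map (ratWords w)) r) := by
    intro r U
    have e1 : rcS (countInput n R ε δ ++ [w] ++ r) = sizeParam n R ε δ := by
      rw [List.append_assoc, hS]
    have e2 : (countInput n R ε δ ++ [w] ++ r).getD 0 0 = n := rfl
    have e3 : (countInput n R ε δ ++ [w] ++ r).getD 6 0 = w := rfl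
    have e4 : (countInput n R ε δ ++ [w] ++ r).take 6 = countInput n R ε δ := rfl
    have e5 : (countInput n R ε δ ++ [w] ++ r).drop 7 = r := rfl
    simp only [rcG, e1, e2, e3, e4, e5, List.length_replicate, List.take_replicate]
    rw [min_eq_left (by omega : n ≤ _), min_eq_left (by omega : w ≤ _),
      min_eq_left (by omega : sizeParam n R ε δ ≤ _), ht]
  rw [← ht] at hd hb
  simp only at he'
  generalize sizeParam n R ε δ = S at *
  generalize dd (List.replicate S (), countInput n R ε δ) = d at hd hd'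
  generalize B (List.replicate S (), countInput n R ε δ) = b at hb hb'
  generalize (38 * S + 16) ^ kd = D at *
  generalize (38 * S + 16) ^ kB = Bb at *
  have hall : All (fun y => ∀ a ∈ y, a < 2 ^ w) (t.map (ratWords w)) := by
    rw [all_map]
    refine hb.mono fun y hy => ratWords_lt ?_
    rw [esize_prod, esize_nat] at hy
    omega
  have hτ : C * (rcT k ((7 + D + 2) * (w + 1)) (S + w) + (7 + D + 2) * (w + 1)) ≤
      (D + 2) * (C * (rcT k ((7 + D + 2) * (w + 1)) (S + w) + (7 + D + 2) * (w + 1))) :=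
    Nat.le_mul_of_pos_left _ (by omega)
  have hR := hP n O w (countInput n R ε δ)
    (fun l U => rcG A (l, U) (List.replicate (S + w) ())) (7 + D)
    (rcT k ((7 + D + 2) * (w + 1)) (S + w)) (fun l U hl hD hl' hU => by
      obtain ⟨r, rfl⟩ := hl
      refine ⟨?_, ?_⟩
      · have r1 := hp _ U w hl' hU
        have e3 : (countInput n R ε δ ++ [w] ++ r).getD 6 0 = w := rfl
        rw [e3, show rcS (countInput n R ε δ ++ [w] ++ r) = S by rw [List.append_assoc, hS]] at r1
        refine r1.mono le_rfl ?_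
        unfold rcT
        gcongr
      · rw [hG]
        exact gWords_lt hw2 hall r) hx (by omega) (by omega)
  have hT' : (d + 2) * (C * (rcT k ((7 + D + 2) * (w + 1)) (S + w) + (7 + D + 2) * (w + 1))) ≤ T := by
    refine (Nat.mul_le_mul_right _ (by omega : d + 2 ≤ D + 2)).trans ((le_self_add.trans he').trans ?_)
    rw [hT, ← mul_pow]
    exact Nat.pow_le_pow_left (by nlinarith) e
  obtain ⟨r1, r2, r3⟩ := hR.tree hG (dep_map hd (ratWords w)) (by omega) hx (by omega) hO' hT'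
  refine ⟨r1, fun Q hQ ρ => r2 (fun out => ∃ z, Q z ∧ decodeRat w out = some z) ?_ ρ, fun E => ?_⟩
  · rw [allO_map]
    exact (hQ.and hpos).mono fun y hy => ⟨_, hy.1, decodeRat_ratWords (by omega) hy.2⟩
  · rw [r3 fun out => ∃ z, decodeRat w out = some z ∧ E z, pr_map]
    refine ex_congr_on hpos fun y hy => ?_
    simp only [decodeRat_ratWords (by omega : 1 ≤ w) hy, Option.some.injEq, exists_eq_left']

end Crest.Agent.R302
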