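import Crest.Agent.R302.DL

/-!
# Row 302: the softened indicator of a base polytope is DL

`f : Finset ι → ℤ` is submodular with `f ∅ = 0` (no monotonicity).  `rk f a = min_A f A + a (Aᶜ)`,
`dfc f a = (a univ - rk f a) + (f univ - rk f a) ≥ 0` vanishes exactly on the base polytope.

Recipe.
* `rk_le_succ`, `rk_succ_le`: `f A + (a + e_i)(Aᶜ) = f A + a (Aᶜ) + [i ∉ A]`.
* `rk_local`: if `rk (a + e_i) = rk a`, some minimiser `A` at `a` contains `i` (take a minimiser at `a + e_i`); for a minimiser `A'` at `a + e_j`,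
  `A ∪ A'` is again a minimiser at `a + e_j` (submodularity of `X ↦ f X + a (Xᶜ)` and `[j ∉ A ∪ A'] ≤ [j ∉ A']`) and contains `i`.
* `dl_dfc`: `DL.of_schur`.  Put `ρ = rk b`, `P i j ↔ rk (b+e_i) = ρ+1 ∧ rk (b+e_j) = ρ+1 ∧ rk (b+e_i+e_j) = ρ+1`.
  `δ_ij = rk (b+e_i+e_j) + rk b - rk (b+e_i) - rk (b+e_j)` is `-1` if `P i j` and `0` otherwise (`rk_local`), so
  `c b * c (b+e_i+e_j) = c (b+e_i) c (b+e_j) (1 - (1 - ε^2) [P i j])`.  `P` is symmetric and transitive (`rk_local` at the base `b + e_j`), hence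
  `∑ ψ_i ψ_j [P i j] ≥ 0` (`per_psd`: with `g i` the class of `i`, it is the sum over the classes of `(∑_{i in the class} ψ_i)^2`).
* `dfc_dual`: `A ↦ Aᶜ` is a bijection.
-/

set_option autoImplicit false
set_option linter.unusedSectionVars false

noncomputable section

namespace Crest.Agent.R302

open Finset

variable {ι : Type} [Fintype ι] [DecidableEq ι]

/-- normalised submodular functions -/
structure Sub (f : Finset ι → ℤ) : Prop where
  empty : f ∅ = 0
  sub : ∀ A B, f (A ∪ B) + f (A ∩ B) ≤ f A + f B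

/-- integer bases -/
def IsB (f : Finset ι → ℤ) (a : ι → ℤ) : Prop := (∀ A, ∑ j ∈ A, a j ≤ f A) ∧ ∑ j, a j = f univ

/-- rank of a vector -/
def rk (f : Finset ι → ℤ) (a : ι → ℤ) : ℤ :=
  (univ : Finset (Finset ι)).inf' univ_nonempty fun A => f A + ∑ j ∈ Aᶜ, a j

/-- defect of a vector -/
def dfc (f : Finset ι → ℤ) (a : ι → ℤ) : ℕ := ((∑ j, a j) - rk f a + (f univ - rk f a)).toNat

/-- the dual function -/
def dual (f : Finset ι → ℤ) (A : Finset ι) : ℤ := f Aᶜ - f univ

variable {f : Finset ι → ℤ}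

theorem rank_sum_single (a : ι → ℤ) (i : ι) (S : Finset ι) :
    ∑ j ∈ S, (a + Pi.single i 1 : ι → ℤ) j = ∑ j ∈ S, a j + if i ∈ S then 1 else 0 := by
  simp only [Pi.add_apply, sum_add_distrib, Finset.sum_pi_single']

theorem rank_sum_single_univ (a : ι → ℤ) (i : ι) :
    ∑ j, (a + Pi.single i 1 : ι → ℤ) j = ∑ j, a j + 1 := by
  rw [rank_sum_single, if_pos (mem_univ i)]

theorem rk_le (f : Finset ι → ℤ) (a : ι → ℤ) (A : Finset ι) : rk f a ≤ f A + ∑ j ∈ Aᶜ, a j := by
  exact Finset.inf'_le (fun A => f A + ∑ j ∈ Aᶜ, a j) (mem_univ A)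

theorem exists_rk (f : Finset ι → ℤ) (a : ι → ℤ) : ∃ A, rk f a = f A + ∑ j ∈ Aᶜ, a j := by
  obtain ⟨A, -, hA⟩ := Finset.exists_mem_eq_inf' (univ_nonempty (α := Finset ι))
    fun A => f A + ∑ j ∈ Aᶜ, a j
  exact ⟨A, hA⟩

theorem rk_le_succ (f : Finset ι → ℤ) (a : ι → ℤ) (i : ι) : rk f a ≤ rk f (a + Pi.single i 1) := by
  obtain ⟨A, hA⟩ := exists_rk f (a + Pi.single i 1)
  have h := rk_le f a A
  rw [hA, rank_sum_single]
  split_ifs <;> linarith

theorem rk_succ_le (f : Finset ι → ℤ) (a : ι → ℤ) (i : ι) : rk f (a + Pi.single i 1) ≤ rk f a + 1 := by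
  obtain ⟨A, hA⟩ := exists_rk f a
  have h := rk_le f (a + Pi.single i 1) A
  rw [rank_sum_single] at h
  split_ifs at h <;> linarith

theorem Sub.rk_local (hf : Sub f) (a : ι → ℤ) (i j : ι) (h : rk f (a + Pi.single i 1) = rk f a) :
    rk f (a + Pi.single j 1 + Pi.single i 1) = rk f (a + Pi.single j 1) := by
  refine le_antisymm ?_ (rk_le_succ f _ i)
  obtain ⟨A, hA⟩ := exists_rk f (a + Pi.single i 1)
  obtain ⟨B, hB⟩ := exists_rk f (a + Pi.single j 1)
  have h1 := rk_le f a A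
  have h2 := rk_le f a (A ∩ B)
  have h3 := rk_le f (a + Pi.single j 1 + Pi.single i 1) (A ∪ B)
  have h4 := hf.sub A B
  have h5 : ∑ k ∈ (A ∩ B)ᶜ, a k + ∑ k ∈ (A ∪ B)ᶜ, a k = ∑ k ∈ Aᶜ, a k + ∑ k ∈ Bᶜ, a k := by
    rw [compl_union, compl_inter, sum_union_inter]
  rw [rank_sum_single] at hA hB
  rw [rank_sum_single, rank_sum_single] at h3
  have hi : i ∉ Aᶜ := by
    intro hi
    rw [if_pos hi] at hA
    linarith
  rw [if_neg hi] at hA
  have hi' : i ∉ (A ∪ B)ᶜ := by
    rw [compl_union, mem_inter]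
    exact fun h' => hi h'.1
  rw [if_neg hi'] at h3
  by_cases hj : j ∈ (A ∪ B)ᶜ
  · have hj' : j ∈ Bᶜ := by
      rw [compl_union, mem_inter] at hj
      exact hj.2
    rw [if_pos hj] at h3
    rw [if_pos hj'] at hB
    linarith
  · rw [if_neg hj] at h3
    split_ifs at hB <;> linarith

theorem Sub.dfc_cast (hf : Sub f) (a : ι → ℤ) :
    (dfc f a : ℤ) = (∑ j, a j) - rk f a + (f univ - rk f a) := by
  have h1 := rk_le f a ∅
  have h2 := rk_le f a univ
  rw [hf.empty, compl_empty] at h1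
  rw [compl_univ, sum_empty] at h2
  unfold dfc
  rw [Int.toNat_of_nonneg]
  linarith

theorem Sub.dfc_eq_zero (hf : Sub f) (a : ι → ℤ) : dfc f a = 0 ↔ IsB f a := by
  have h0 := hf.dfc_cast a
  have h1 := rk_le f a ∅
  have h2 := rk_le f a univ
  rw [hf.empty, compl_empty] at h1
  rw [compl_univ, sum_empty] at h2
  constructor
  · intro h
    rw [h] at h0
    push_cast at h0
    refine ⟨fun A => ?_, by linarith⟩
    have h3 := rk_le f a A
    have h4 := sum_add_sum_compl A a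
    linarith
  · rintro ⟨h3, h4⟩
    obtain ⟨A, hA⟩ := exists_rk f a
    have h5 := sum_add_sum_compl A a
    have h6 := h3 A
    have : (dfc f a : ℤ) = 0 := by linarith
    exact_mod_cast this

theorem Sub.dfc_succ_le (hf : Sub f) (a : ι → ℤ) (i : ι) : dfc f (a + Pi.single i 1) ≤ dfc f a + 1 := by
  have h0 := hf.dfc_cast a
  have h1 := hf.dfc_cast (a + Pi.single i 1)
  have h2 := rk_le_succ f a i
  rw [rank_sum_single_univ] at h1
  omega

theorem Sub.dfc_le_succ (hf : Sub f) (a : ι → ℤ) (i : ι) : dfc f a ≤ dfc f (a + Pi.single i 1) + 1 := by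
  have h0 := hf.dfc_cast a
  have h1 := hf.dfc_cast (a + Pi.single i 1)
  have h2 := rk_succ_le f a i
  rw [rank_sum_single_univ] at h1
  omega

theorem Sub.dual (hf : Sub f) : Sub (dual f) := by
  refine ⟨by simp [R302.dual], fun A B => ?_⟩
  have h := hf.sub Aᶜ Bᶜ
  simp only [R302.dual, compl_union, compl_inter]
  linarith

theorem rank_rk_dual (f : Finset ι → ℤ) (a : ι → ℤ) :
    rk (R302.dual f) (-a) = rk f a - ∑ j, a j - f univ := by
  apply le_antisymm
  · obtain ⟨A, hA⟩ := exists_rk f a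
    have h := rk_le (R302.dual f) (-a) Aᶜ
    have h5 := sum_add_sum_compl A a
    simp only [R302.dual, compl_compl, Pi.neg_apply, sum_neg_distrib] at h
    linarith
  · obtain ⟨A, hA⟩ := exists_rk (R302.dual f) (-a)
    have h := rk_le f a Aᶜ
    have h5 := sum_add_sum_compl A a
    simp only [R302.dual, compl_compl, Pi.neg_apply, sum_neg_distrib] at hA h
    linarith

theorem Sub.dfc_dual (hf : Sub f) (a : ι → ℤ) : dfc (R302.dual f) (-a) = dfc f a := by
  have h0 := hf.dfc_cast a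
  have h1 := hf.dual.dfc_cast (-a)
  rw [rank_rk_dual] at h1
  simp only [R302.dual, compl_univ, hf.empty, Pi.neg_apply, sum_neg_distrib] at h1
  omega

theorem per_psd (P : ι → ι → Prop) [DecidableRel P] (hs : ∀ i j, P i j → P j i)
    (ht : ∀ i j k, P i j → P j k → P i k) (ψ : ι → ℝ) :
    0 ≤ ∑ i, ∑ j, if P i j then ψ i * ψ j else 0 := by
  let cls : ι → Finset ι := fun i => univ.filter (P i)
  have key : ∀ i j, P i j ↔ (P i i ∧ P j j ∧ cls i = cls j) := by
    intro i j
    constructor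
    · intro h
      refine ⟨ht _ _ _ h (hs _ _ h), ht _ _ _ (hs _ _ h) h, ?_⟩
      ext k
      simp only [cls, mem_filter, mem_univ, true_and]
      exact ⟨fun h' => ht _ _ _ (hs _ _ h) h', fun h' => ht _ _ _ h h'⟩
    · rintro ⟨-, h2, h3⟩
      have : j ∈ cls j := by simp [cls, h2]
      rw [← h3] at this
      simpa [cls] using this
  have e : (∑ i, ∑ j, if P i j then ψ i * ψ j else 0) =
      ∑ C : Finset ι, (∑ i, if P i i ∧ cls i = C then ψ i else 0) ^ 2 := by
    simp only [sq, sum_mul_sum]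
    rw [sum_comm (s := (univ : Finset (Finset ι)))]
    refine sum_congr rfl fun i _ => ?_
    rw [sum_comm (s := (univ : Finset (Finset ι)))]
    refine sum_congr rfl fun j _ => ?_
    rw [sum_eq_single (cls i)]
    · by_cases h : P i j
      · obtain ⟨h1, h2, h3⟩ := (key i j).1 h
        rw [if_pos h, if_pos ⟨h1, rfl⟩, if_pos ⟨h2, h3.symm⟩]
      · rw [if_neg h]
        by_cases h1 : P i i
        · have : ¬ (P j j ∧ cls j = cls i) := fun h' => h ((key i j).2 ⟨h1, h'.1, h'.2.symm⟩)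
          rw [if_neg this, mul_zero]
        · rw [if_neg (fun h' => h1 h'.1), zero_mul]
    · intro C _ hC
      rw [if_neg (fun h' => hC h'.2.symm), zero_mul]
    · intro h
      exact absurd (mem_univ _) h
  rw [e]
  exact sum_nonneg fun C _ => sq_nonneg _

/-- the relation of the recipe -/
def rankP (f : Finset ι → ℤ) (a : ι → ℤ) (i j : ι) : Prop :=
  rk f (a + Pi.single i 1) = rk f a + 1 ∧ rk f (a + Pi.single j 1) = rk f a + 1 ∧
    rk f (a + Pi.single i 1 + Pi.single j 1) = rk f a + 1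

theorem rankP_symm {a : ι → ℤ} (i j : ι) (h : rankP f a i j) : rankP f a j i :=
  ⟨h.2.1, h.1, by rw [add_right_comm]; exact h.2.2⟩

theorem Sub.rankP_trans (hf : Sub f) {a : ι → ℤ} (i j k : ι) (h : rankP f a i j)
    (h' : rankP f a j k) : rankP f a i k := by
  refine ⟨h.1, h'.2.1, le_antisymm ?_ ?_⟩
  · have h1 : rk f (a + Pi.single j 1 + Pi.single i 1) = rk f (a + Pi.single j 1) := by
      rw [add_right_comm, h.2.2, h.2.1]
    have h2 := hf.rk_local (a + Pi.single j 1) i k h1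
    have h3 := rk_le_succ f (a + Pi.single i 1 + Pi.single k 1) j
    have e : (a + Pi.single i 1 + Pi.single k 1 + Pi.single j 1 : ι → ℤ) =
        a + Pi.single j 1 + Pi.single k 1 + Pi.single i 1 := by abel
    rw [e, h2, h'.2.2] at h3
    exact h3
  · rw [← h.1]
    exact rk_le_succ f _ k

open Classical in
theorem Sub.rank_dfc_four (hf : Sub f) (a : ι → ℤ) (i j : ι) :
    dfc f (a + Pi.single i 1 + Pi.single j 1) + dfc f a =
      dfc f (a + Pi.single i 1) + dfc f (a + Pi.single j 1) + if rankP f a i j then 2 else 0 := by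
  have h0 := hf.dfc_cast a
  have h1 := hf.dfc_cast (a + Pi.single i 1)
  have h2 := hf.dfc_cast (a + Pi.single j 1)
  have h3 := hf.dfc_cast (a + Pi.single i 1 + Pi.single j 1)
  rw [rank_sum_single_univ] at h1 h2
  rw [rank_sum_single_univ, rank_sum_single_univ] at h3
  have a1 := rk_le_succ f a i
  have a2 := rk_succ_le f a i
  have a3 := rk_le_succ f a j
  have a4 := rk_succ_le f a j
  have a5 := rk_le_succ f (a + Pi.single i 1) j
  have a6 := rk_succ_le f (a + Pi.single i 1) j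
  have a7 := hf.rk_local a j i
  have a8 := hf.rk_local a i j
  rw [add_right_comm a (Pi.single j 1) (Pi.single i 1)] at a8
  unfold rankP
  split_ifs with hP <;> omega

theorem Sub.dl_dfc (hf : Sub f) (l : ι → ℤ) {ε : ℝ} (h0 : 0 < ε) (h1 : ε ≤ 1) :
    DL fun u : ι → ℕ => ε ^ dfc f fun j => l j + u j := by
  classical
  refine DL.of_schur (fun b => pow_pos h0 _) fun b φ => ?_
  set a : ι → ℤ := fun j => l j + b j with ha
  have e1' : ∀ (b' : ι → ℕ) (i : ι), (fun j => l j + ((b' + e1 i : ι → ℕ) j : ℤ)) =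
      (fun j => l j + (b' j : ℤ)) + Pi.single i 1 := by
    intro b' i
    funext j
    by_cases h : j = i
    · subst h
      simp [add_assoc]
    · simp [h]
  simp only [e1']
  rw [← ha]
  set ψ : ι → ℝ := fun i => φ i * ε ^ dfc f (a + Pi.single i 1) with hψ
  have key : ∀ i j, φ i * φ j * ε ^ dfc f (a + Pi.single i 1 + Pi.single j 1) * ε ^ dfc f a =
      ψ i * ψ j - (1 - ε ^ 2) * if rankP f a i j then ψ i * ψ j else 0 := by
    intro i j
    rw [mul_assoc, ← pow_add, hf.rank_dfc_four a i j]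
    simp only [hψ]
    split_ifs <;> ring
  have hp := per_psd (rankP f a) rankP_symm hf.rankP_trans ψ
  have hε : 0 ≤ 1 - ε ^ 2 := by nlinarith
  calc (∑ i, ∑ j, φ i * φ j * ε ^ dfc f (a + Pi.single i 1 + Pi.single j 1)) * ε ^ dfc f a
      = (∑ i, ψ i) ^ 2 - (1 - ε ^ 2) * ∑ i, ∑ j, if rankP f a i j then ψ i * ψ j else 0 := by
        rw [sq (∑ i, ψ i), sum_mul_sum]
        simp only [sum_mul, mul_sum, key, sum_sub_distrib]
    _ ≤ (∑ i, ψ i) ^ 2 := by nlinarith [mul_nonneg hε hp]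

theorem Sub.dl_dfc_neg (hf : Sub f) (h : ι → ℤ) {ε : ℝ} (h0 : 0 < ε) (h1 : ε ≤ 1) :
    DL fun u : ι → ℕ => ε ^ dfc f fun j => h j - u j := by
  have h2 := hf.dual.dl_dfc (-h) h0 h1
  have e : (fun u : ι → ℕ => ε ^ dfc f fun j => h j - u j) =
      fun u : ι → ℕ => ε ^ dfc (R302.dual f) fun j => (-h) j + u j := by
    funext u
    rw [← hf.dfc_dual]
    congr 2
    funext j
    simp only [Pi.neg_apply]
    ring
  rw [e]
  exact h2

end Crest.Agent.R302
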