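import Crest.Agent.R302.PTO

/-!
# Row 302: submodular function minimisation (Iwata–Orlin), definitions

`F : Finset ℕ → ℤ` is submodular, `F ∅ = 0`, `|F| ≤ M`; the ground set is `range n`.  A state is a list `W` and a list of entries
`(l, d, y, c)`: an order `l` of `W`, labels `d` (non-decreasing along `l`), the greedy vertex `y` of `l`, and a multiplicity `c` (`∑ c = Q`).
`x = ∑ c y`.  `restrict` cuts `W` at the first empty level of `dm = min d`; `push` moves the high elements of the lowest level occupied by a
high element one level up in one order.  DEFINITIONS ONLY; do not edit (message helper41).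
-/

set_option autoImplicit false

noncomputable section

namespace Crest.Agent.R302.SFM

open Finset

/-- submodular functions on finite sets of numbers -/
structure SubN (F : Finset ℕ → ℤ) (M : ℕ) : Prop where
  empty : F ∅ = 0
  sub : ∀ A B, F (A ∪ B) + F (A ∩ B) ≤ F A + F B
  bdd : ∀ A, |F A| ≤ M

/-- the elements before `v` -/
def pre (l : List ℕ) (v : ℕ) : List ℕ := l.takeWhile fun u => u != v

/-- the greedy vertex of the order `l` -/
def gv (F : Finset ℕ → ℤ) (l : List ℕ) (v : ℕ) : ℤ := F (v :: pre l v).toFinset - F (pre l v).toFinset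

/-- the table of the greedy vertex -/
def vtx (F : Finset ℕ → ℤ) (n : ℕ) (l : List ℕ) : List ℤ := (List.range n).map (gv F l)

/-- order, labels, vertex, multiplicity -/
abbrev Ent : Type := List ℕ × List ℕ × List ℤ × ℕ

/-- working set and entries -/
abbrev St : Type := List ℕ × List Ent

/-- label -/
def dv (e : Ent) (v : ℕ) : ℕ := e.2.1.getD v 0

/-- vertex coordinate -/
def yv (e : Ent) (v : ℕ) : ℤ := e.2.2.1.getD v 0

/-- the current (scaled) point -/
def xv (s : St) (v : ℕ) : ℤ := (s.2.map fun e => (e.2.2.2 : ℤ) * yv e v).sum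

/-- the minimal label -/
def dm (n : ℕ) (s : St) (v : ℕ) : ℕ := (s.2.map fun e => dv e v).foldr min n

/-- the first empty level -/
def gap (n : ℕ) (s : St) : ℕ :=
  ((List.range (n + 1)).find? fun k => s.1.all fun v => dm n s v != k).getD n

/-- cut at the first empty level -/
def restrict (n : ℕ) (s : St) : St :=
  (s.1.filter fun v => decide (dm n s v < gap n s),
    s.2.map fun e => (e.1.filter fun v => decide (dm n s v < gap n s), e.2))

/-- the largest positive part -/
def eta (s : St) : ℕ := (s.1.map fun v => (xv s v).toNat).foldr max 0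

/-- the step size -/
def dl (n : ℕ) (s : St) : ℕ := eta s / (2 * n + 2)

/-- the threshold: no coordinate lies strictly between `thr` and `thr + 2 dl` -/
def thr (n : ℕ) (s : St) : ℕ :=
  2 * dl n s * ((List.range (n + 1)).find? fun j => s.1.all fun v =>
    decide (xv s v ≤ (2 * dl n s * j : ℕ) ∨ ((2 * dl n s * (j + 1) : ℕ) : ℤ) ≤ xv s v)).getD 0

/-- the lowest level of a high element -/
def lev (n : ℕ) (s : St) : ℕ :=
  ((s.1.filter fun v => decide ((thr n s : ℤ) < xv s v)).map (dm n s)).foldr min n

/-- entries in which a high element has the lowest level -/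
def sel (n : ℕ) (s : St) (e : Ent) : Bool :=
  s.1.any fun v => decide ((thr n s : ℤ) < xv s v ∧ dv e v = lev n s)

/-- the chosen entry -/
def cho (n : ℕ) (s : St) : Ent := (s.2.find? (sel n s)).getD ([], [], [], 0)

/-- the new labels -/
def newD (n : ℕ) (s : St) : List ℕ :=
  (List.range n).map fun v =>
    if dv (cho n s) v = lev n s ∧ (thr n s : ℤ) < xv s v then lev n s + 1 else dv (cho n s) v

/-- the new order -/
def newL (n : ℕ) (s : St) : List ℕ :=
  ((cho n s).1.filter fun v => decide ((newD n s).getD v 0 ≤ lev n s)) ++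
    (cho n s).1.filter fun v => !decide ((newD n s).getD v 0 ≤ lev n s)

/-- the largest change of a vertex coordinate -/
def bet (n : ℕ) (s : St) (y : List ℤ) : ℕ :=
  (s.1.map fun v => (y.getD v 0 - yv (cho n s) v).natAbs).foldr max 0

/-- the amount pushed -/
def alp (n : ℕ) (s : St) (y : List ℤ) : ℕ :=
  if bet n s y = 0 then (cho n s).2.2.2 else min (cho n s).2.2.2 (dl n s / bet n s y)

/-- the push; `y` is the vertex of the new order -/
def push (n : ℕ) (s : St) (y : List ℤ) : St :=
  (s.1, (newL n s, newD n s, y, alp n s y) ::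
    if alp n s y = (cho n s).2.2.2 then s.2.eraseP (sel n s)
    else ((cho n s).1, (cho n s).2.1, (cho n s).2.2.1, (cho n s).2.2.2 - alp n s y) ::
      s.2.eraseP (sel n s))

/-- the scale -/
def qq (n M : ℕ) : ℕ := 100 * (n + 1) ^ 2 * (M + 1)

/-- one step -/
def step (F : Finset ℕ → ℤ) (n M : ℕ) (s : St) : St :=
  if n * eta (restrict n s) < qq n M then restrict n s
  else push n (restrict n s) (vtx F n (newL n (restrict n s)))

/-- the initial state; `y` is the vertex of the order `range n` -/
def ini (n M : ℕ) (y : List ℤ) : St := (List.range n, [(List.range n, List.replicate n 0, y, qq n M)])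

/-- the number of steps -/
def nst (n M : ℕ) : ℕ := (n ^ 2 + 1) * (16 * (n + 1) ^ 3 * (3 * n.size + 2 * M.size + 3) + 3)

/-- the invariant -/
structure Inv (F : Finset ℕ → ℤ) (n M : ℕ) (s : St) : Prop where
  nodup : s.1.Nodup
  lt : ∀ v ∈ s.1, v < n
  perm : ∀ e ∈ s.2, e.1.Perm s.1
  sorted : ∀ e ∈ s.2, e.1.Pairwise fun u v => dv e u ≤ dv e v
  vert : ∀ e ∈ s.2, ∀ v ∈ s.1, yv e v = gv F e.1 v
  total : (s.2.map fun e => e.2.2.2).sum = qq n M
  zero : ∀ v ∈ s.1, xv s v ≤ 0 → ∀ e ∈ s.2, dv e v = 0
  close : ∀ e ∈ s.2, ∀ e' ∈ s.2, ∀ v ∈ s.1, dv e v ≤ dv e' v + 1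
  le : ∀ e ∈ s.2, ∀ v ∈ s.1, dv e v ≤ n
  keep : ∀ A ⊆ range n, F (A ∩ s.1.toFinset) ≤ F A

/-- first potential -/
def Phi (s : St) : ℕ := (s.1.map fun v => (xv s v).toNat ^ 2).sum

/-- second potential -/
def Gam (n : ℕ) (s : St) : ℕ := (s.2.map fun e => (s.1.map fun v => n - dv e v).sum).sum

/-- characteristic vector of a list -/
def mask (n : ℕ) (l : List ℕ) : List Bool := (List.range n).map fun v => l.contains v

/-- the vertex computed with the evaluation procedure `fq` -/
def vtxQ (fq : List Bool → QT ℤ) (n : ℕ) (l : List ℕ) : QT (List ℤ) :=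
  QT.mapQ (fun v => (fq (mask n (v :: pre l v))).bind fun a => (fq (mask n (pre l v))).map fun b => a - b)
    (List.range n)

/-- one step as a query tree -/
def stepQ (fq : List Bool → QT ℤ) (n M : ℕ) (s : St) : QT St :=
  if n * eta (restrict n s) < qq n M then QT.ret (restrict n s)
  else (vtxQ fq n (newL n (restrict n s))).map (push n (restrict n s))

end SFM

open SFM in
/-- minimum and a minimiser of the function evaluated by `fq` on the subsets of `range n`, `M` a bound for its values -/
def sfmQ (fq : List Bool → QT ℤ) (n M : ℕ) : QT (ℤ × List Bool) :=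
  (vtxQ fq n (List.range n)).bind fun y =>
    (QT.iter (stepQ fq n M) (nst n M) (ini n M y)).bind fun s =>
      (fq (mask n s.1)).map fun v => (v, mask n s.1)

end Crest.Agent.R302
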