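import Crest.Agent.R302.SFM0

/-!
# Row 302: SFM, greedy vertices
* `gv_sum`, `gv_le`: induction on `l` from the right (`List.reverseRecOn`; `pre (l ++ [a]) v = pre l v` for `v ∈ l`, `pre (l ++ [a]) a = l` if `a ∉ l`); for `gv_le`
  split `A` according to `a ∈ A` and use submodularity for `l.toFinset` and `A` (`F (insert a l) - F l ≤ F A - F (A.erase a)`).
* `gv_anti`: submodularity for `insert v (pre l v)` and `pre l' v`.
* `pre_filter_*`: induction on `l`.
* `Inv.x_le`, `Inv.x_eq`: exchange the sums.  `Inv.opt`: `Q F W = x W ≤ x (A ∩ W) + n eta < Q F (A ∩ W) + Q`.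
* `dm`, `eta`: `foldr min`/`foldr max` of a list is a bound and (unless it is the initial value) attained.
-/

set_option autoImplicit false

noncomputable section

namespace Crest.Agent.R302.SFM

open Finset

variable {F : Finset ℕ → ℤ} {n M : ℕ} {s : St}

theorem pre_nil (v : ℕ) : pre [] v = [] := rfl

theorem pre_cons_self (l : List ℕ) (v : ℕ) : pre (v :: l) v = [] := by
  simp [pre]

theorem pre_cons_ne (l : List ℕ) {a v : ℕ} (h : a ≠ v) : pre (a :: l) v = a :: pre l v := by
  simp [pre, h]

theorem pre_subset (l : List ℕ) (v : ℕ) : pre l v ⊆ l :=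
  (List.takeWhile_sublist _).subset

theorem pre_append_left {l₁ : List ℕ} (l₂ : List ℕ) {v : ℕ} (hv : v ∈ l₁) :
    pre (l₁ ++ l₂) v = pre l₁ v := by
  induction l₁ with
  | nil => simp at hv
  | cons a l ih =>
    by_cases h : a = v
    · subst h; rw [List.cons_append, pre_cons_self, pre_cons_self]
    · rw [List.cons_append, pre_cons_ne _ h, pre_cons_ne _ h,
        ih ((List.mem_cons.1 hv).resolve_left (Ne.symm h))]

theorem pre_append_right {l₁ : List ℕ} (l₂ : List ℕ) {v : ℕ} (hv : v ∉ l₁) :
    pre (l₁ ++ l₂) v = l₁ ++ pre l₂ v := by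
  induction l₁ with
  | nil => rfl
  | cons a l ih =>
    rw [List.mem_cons, not_or] at hv
    rw [List.cons_append, pre_cons_ne _ (Ne.symm hv.1), ih hv.2, List.cons_append]

theorem pre_filter (l : List ℕ) (p : ℕ → Bool) {v : ℕ} (hp : p v = true) :
    pre (l.filter p) v = (pre l v).filter p := by
  induction l with
  | nil => rfl
  | cons a l ih =>
    by_cases h : a = v
    · subst h; rw [List.filter_cons_of_pos hp, pre_cons_self, pre_cons_self]; rfl
    · rw [pre_cons_ne _ h]
      by_cases ha : p a = true
      · rw [List.filter_cons_of_pos ha, List.filter_cons_of_pos ha, pre_cons_ne _ h, ih]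
      · rw [List.filter_cons_of_neg ha, List.filter_cons_of_neg ha, ih]

theorem pre_split {l : List ℕ} (p : ℕ → Bool) {v : ℕ} (hp : p v = false) :
    pre (l.filter p ++ l.filter fun u => !p u) v = l.filter p ++ (pre l v).filter fun u => !p u := by
  rw [pre_append_right _ (by simp [hp]), pre_filter _ _ (by simp [hp])]

theorem gv_snoc {l : List ℕ} {a : ℕ} (ha : a ∉ l) :
    gv F (l ++ [a]) a = F (insert a l.toFinset) - F l.toFinset := by
  unfold gv
  rw [pre_append_right _ ha, pre_cons_self, List.append_nil, List.toFinset_cons]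

theorem foldr_min_le (l : List ℕ) (b : ℕ) : l.foldr min b ≤ b ∧ ∀ a ∈ l, l.foldr min b ≤ a := by
  induction l with
  | nil => simp
  | cons c l ih =>
    rw [List.foldr_cons]
    refine ⟨(min_le_right _ _).trans ih.1, fun a ha => ?_⟩
    rcases List.mem_cons.1 ha with rfl | ha
    · exact min_le_left _ _
    · exact (min_le_right _ _).trans (ih.2 a ha)

theorem foldr_min_mem (l : List ℕ) (b : ℕ) : l.foldr min b = b ∨ l.foldr min b ∈ l := by
  induction l with
  | nil => simp
  | cons c l ih =>
    rw [List.foldr_cons]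
    rcases min_choice c (l.foldr min b) with h | h <;> rw [h]
    · exact Or.inr List.mem_cons_self
    · exact ih.imp id (List.mem_cons_of_mem _)

theorem le_foldr_max (l : List ℕ) (b : ℕ) : ∀ a ∈ l, a ≤ l.foldr max b := by
  induction l with
  | nil => simp
  | cons c l ih =>
    intro a ha
    rw [List.foldr_cons]
    rcases List.mem_cons.1 ha with rfl | ha
    · exact le_max_left _ _
    · exact (ih a ha).trans (le_max_right _ _)

theorem foldr_max_mem (l : List ℕ) (b : ℕ) : l.foldr max b = b ∨ l.foldr max b ∈ l := by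
  induction l with
  | nil => simp
  | cons c l ih =>
    rw [List.foldr_cons]
    rcases max_choice c (l.foldr max b) with h | h <;> rw [h]
    · exact Or.inr List.mem_cons_self
    · exact ih.imp id (List.mem_cons_of_mem _)

theorem sum_xv (s : St) (A : Finset ℕ) :
    ∑ v ∈ A, xv s v = (s.2.map fun e => (e.2.2.2 : ℤ) * ∑ v ∈ A, yv e v).sum := by
  unfold xv
  induction s.2 with
  | nil => simp
  | cons e E ih => simp only [List.map_cons, List.sum_cons, sum_add_distrib, ih, mul_sum]

theorem sum_mult (E : List Ent) (c : ℤ) :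
    (E.map fun e => (e.2.2.2 : ℤ) * c).sum = ((E.map fun e => e.2.2.2).sum : ℕ) * c := by
  induction E with
  | nil => simp
  | cons e E ih => simp only [List.map_cons, List.sum_cons, ih, Nat.cast_add, add_mul]

theorem not_mem_pre (l : List ℕ) (v : ℕ) : v ∉ pre l v := by
  intro h
  simpa using List.mem_takeWhile_imp h

theorem gv_append_left {l₁ l₂ : List ℕ} {v : ℕ} (hv : v ∈ l₁) : gv F (l₁ ++ l₂) v = gv F l₁ v := by
  unfold gv
  rw [pre_append_left _ hv]

theorem gv_sum (hF : SubN F M) {l : List ℕ} (hl : l.Nodup) : ∑ v ∈ l.toFinset, gv F l v = F l.toFinset := by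
  induction l using List.reverseRecOn with
  | nil => simp [hF.empty]
  | append_singleton l a ih =>
    have ha : a ∉ l := fun h => (List.nodup_append.1 hl).2.2 a h a (by simp) rfl
    have e : (l ++ [a]).toFinset = insert a l.toFinset := by ext; simp [or_comm]
    rw [e, sum_insert (by simpa using ha), gv_snoc ha,
      sum_congr rfl fun v hv => gv_append_left (List.mem_toFinset.1 hv), ih (List.nodup_append.1 hl).1]
    ring

theorem gv_le (hF : SubN F M) {l : List ℕ} (hl : l.Nodup) {A : Finset ℕ} (hA : A ⊆ l.toFinset) :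
    ∑ v ∈ A, gv F l v ≤ F A := by
  induction l using List.reverseRecOn generalizing A with
  | nil =>
    have : A = ∅ := by simpa using hA
    simp [this, hF.empty]
  | append_singleton l a ih =>
    have ha : a ∉ l := fun h => (List.nodup_append.1 hl).2.2 a h a (by simp) rfl
    have e : (l ++ [a]).toFinset = insert a l.toFinset := by ext; simp [or_comm]
    rw [e] at hA
    have h1 : A.erase a ⊆ l.toFinset := by rwa [← subset_insert_iff]
    have h2 := ih (List.nodup_append.1 hl).1 h1
    rw [← sum_congr rfl fun v hv => gv_append_left (l₂ := [a]) (List.mem_toFinset.1 (h1 hv))] at h2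
    by_cases haA : a ∈ A
    · have h3 := hF.sub A l.toFinset
      have e1 : A ∪ l.toFinset = insert a l.toFinset := by
        ext v
        simp only [mem_union, mem_insert]
        exact ⟨fun h => h.elim (fun h => mem_insert.1 (hA h)) Or.inr,
          fun h => h.elim (fun h => Or.inl (h ▸ haA)) Or.inr⟩
      have e2 : A ∩ l.toFinset = A.erase a := by
        ext v
        simp only [mem_inter, mem_erase]
        exact ⟨fun h => ⟨fun e => ha (List.mem_toFinset.1 (e ▸ h.2)), h.1⟩,
          fun h => ⟨h.2, h1 (mem_erase.2 h)⟩⟩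
      rw [e1, e2] at h3
      rw [← add_sum_erase _ _ haA, gv_snoc ha]
      linarith
    · rwa [erase_eq_of_notMem haA] at h2

theorem gv_anti (hF : SubN F M) {l l' : List ℕ} {v : ℕ} (h : pre l v ⊆ pre l' v) :
    gv F l' v ≤ gv F l v := by
  have h1 := hF.sub (insert v (pre l v).toFinset) (pre l' v).toFinset
  have h2 : (pre l v).toFinset ⊆ (pre l' v).toFinset := fun u hu =>
    List.mem_toFinset.2 (h (List.mem_toFinset.1 hu))
  rw [insert_union, union_eq_right.2 h2,
    insert_inter_of_notMem (by simpa using not_mem_pre l' v), inter_eq_left.2 h2] at h1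
  unfold gv
  rw [List.toFinset_cons, List.toFinset_cons]
  linarith

theorem gv_abs_le (hF : SubN F M) (l : List ℕ) (v : ℕ) : |gv F l v| ≤ 2 * M := by
  have h1 := abs_le.1 (hF.bdd (v :: pre l v).toFinset)
  have h2 := abs_le.1 (hF.bdd (pre l v).toFinset)
  unfold gv
  rw [abs_le]
  constructor <;> linarith [h1.1, h1.2, h2.1, h2.2]

theorem pre_filter_pos {l : List ℕ} (p : ℕ → Bool) {v : ℕ} (hv : v ∈ l) (hp : p v = true) :
    pre (l.filter p ++ l.filter fun u => !p u) v ⊆ pre l v := by
  rw [pre_append_left _ (List.mem_filter.2 ⟨hv, hp⟩), pre_filter _ _ hp]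
  exact List.filter_subset_self _

theorem pre_filter_neg {l : List ℕ} (p : ℕ → Bool) {v : ℕ} (hp : p v = false) :
    pre l v ⊆ pre (l.filter p ++ l.filter fun u => !p u) v := by
  rw [pre_split p hp]
  intro u hu
  rw [List.mem_append, List.mem_filter, List.mem_filter]
  cases h : p u
  · exact Or.inr ⟨hu, rfl⟩
  · exact Or.inl ⟨pre_subset l v hu, rfl⟩

/-- if all `p`-elements come before `v` nothing changes for `v` -/
theorem pre_filter_late {l : List ℕ} (p : ℕ → Bool) {v : ℕ} (hp : p v = false)
    (h : ∀ u ∈ l, p u = true → u ∈ pre l v) :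
    pre (l.filter p ++ l.filter fun u => !p u) v ⊆ pre l v := by
  rw [pre_split p hp]
  intro u hu
  rw [List.mem_append, List.mem_filter, List.mem_filter] at hu
  exact hu.elim (fun hu => h u hu.1 hu.2) fun hu => hu.1

/-- in a list sorted by `d`, an element with a smaller label comes earlier -/
theorem mem_pre_of_sorted {l : List ℕ} {d : ℕ → ℕ} (hl : l.Pairwise fun u v => d u ≤ d v) {u v : ℕ}
    (hu : u ∈ l) (h : d u < d v) : u ∈ pre l v := by
  induction l with
  | nil => simp at hu
  | cons a l ih =>
    rw [List.pairwise_cons] at hl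
    rcases List.mem_cons.1 hu with rfl | hu
    · rw [pre_cons_ne _ fun e => by rw [e] at h; exact lt_irrefl _ h]
      exact List.mem_cons_self
    · rw [pre_cons_ne _ fun e => by have := hl.1 u hu; rw [e] at this; omega]
      exact List.mem_cons_of_mem _ (ih hl.2 hu)

/-- a filter that is a down-set of the labels is a prefix -/
theorem filter_prefix {l : List ℕ} {d : ℕ → ℕ} (hl : l.Pairwise fun u v => d u ≤ d v) (p : ℕ → Bool)
    (h : ∀ u ∈ l, ∀ v ∈ l, p u = true → p v = false → d u < d v) :
    l = l.filter p ++ l.filter fun u => !p u := by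
  induction l with
  | nil => rfl
  | cons a l ih =>
    rw [List.pairwise_cons] at hl
    cases ha : p a
    · have h1 : ∀ u ∈ a :: l, p u = false := fun u hu => by
        rcases List.mem_cons.1 hu with rfl | hu'
        · exact ha
        · by_contra hc
          have := h u hu a List.mem_cons_self (by simpa using hc) ha
          have := hl.1 u hu'
          omega
      rw [List.filter_eq_nil_iff.2 fun u hu => by simp [h1 u hu],
        List.filter_eq_self.2 fun u hu => by simp [h1 u hu], List.nil_append]
    · rw [List.filter_cons_of_pos ha, List.filter_cons_of_neg (by simp [ha]), List.cons_append,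
        ← ih hl.2 fun u hu v hv => h u (List.mem_cons_of_mem _ hu) v (List.mem_cons_of_mem _ hv)]

theorem getD_vtx (l : List ℕ) {v : ℕ} (hv : v < n) : (vtx F n l).getD v 0 = gv F l v := by
  simp [vtx, List.getD_eq_getElem?_getD, hv]

theorem dm_le {e : Ent} (he : e ∈ s.2) (v : ℕ) : dm n s v ≤ dv e v := by
  exact (foldr_min_le _ _).2 _ (List.mem_map_of_mem he)

theorem dm_le_n (s : St) (v : ℕ) : dm n s v ≤ n := by
  exact (foldr_min_le _ _).1

theorem exists_dm {v : ℕ} (h : dm n s v < n) : ∃ e ∈ s.2, dv e v = dm n s v := by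
  exact List.mem_map.1 ((foldr_min_mem _ n).resolve_left h.ne)

theorem le_eta {v : ℕ} (hv : v ∈ s.1) : xv s v ≤ eta s := by
  have := le_foldr_max _ 0 _ (List.mem_map_of_mem (f := fun v => (xv s v).toNat) hv)
  change _ ≤ eta s at this
  omega

theorem exists_eta (h : 0 < eta s) : ∃ v ∈ s.1, xv s v = eta s := by
  obtain ⟨v, hv, e⟩ := List.mem_map.1 ((foldr_max_mem _ 0).resolve_left h.ne')
  change _ = eta s at e
  exact ⟨v, hv, by omega⟩

theorem Inv.length_le (h : Inv F n M s) : s.1.length ≤ n := by
  rw [← List.toFinset_card_of_nodup h.nodup, ← card_range n]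
  exact card_le_card fun v hv => mem_range.2 (h.lt v (List.mem_toFinset.1 hv))

theorem Inv.ne_nil (h : Inv F n M s) : s.2 ≠ [] := by
  intro e
  have := h.total
  rw [e] at this
  simp [qq] at this

theorem Inv.x_le (hF : SubN F M) (h : Inv F n M s) {A : Finset ℕ} (hA : A ⊆ s.1.toFinset) :
    ∑ v ∈ A, xv s v ≤ qq n M * F A := by
  rw [sum_xv, ← h.total, ← sum_mult]
  refine List.sum_le_sum fun e he => mul_le_mul_of_nonneg_left ?_ (Nat.cast_nonneg _)
  rw [sum_congr rfl fun v hv => h.vert e he v (List.mem_toFinset.1 (hA hv))]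
  exact gv_le hF ((h.perm e he).nodup_iff.2 h.nodup) (by rwa [List.toFinset_eq_of_perm _ _ (h.perm e he)])

/-- tightness of a set that is a prefix of every order -/
theorem Inv.x_eq (hF : SubN F M) (h : Inv F n M s) (p : ℕ → Bool)
    (hp : ∀ e ∈ s.2, e.1 = e.1.filter p ++ e.1.filter fun u => !p u) :
    ∑ v ∈ (s.1.filter p).toFinset, xv s v = qq n M * F (s.1.filter p).toFinset := by
  rw [sum_xv, ← h.total, ← sum_mult]
  congr 1
  refine List.map_congr_left fun e he => ?_
  congr 1
  rw [sum_congr rfl fun v hv => h.vert e he v (List.mem_filter.1 (List.mem_toFinset.1 hv)).1,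
    ← List.toFinset_eq_of_perm _ _ ((h.perm e he).filter p),
    ← gv_sum hF (((h.perm e he).nodup_iff.2 h.nodup).filter p)]
  refine sum_congr rfl fun v hv => ?_
  rw [← gv_append_left (l₂ := e.1.filter fun u => !p u) (List.mem_toFinset.1 hv), ← hp e he]

theorem Inv.opt (hF : SubN F M) (h : Inv F n M s) (hd : n * eta s < qq n M) {A : Finset ℕ}
    (hA : A ⊆ range n) : F s.1.toFinset ≤ F A := by
  have h1 := h.x_eq hF (fun _ => true) fun e _ => by simp
  rw [List.filter_true] at h1
  have h2 := h.x_le hF (A := A ∩ s.1.toFinset) inter_subset_right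
  have h3 := sum_sdiff (f := xv s) (inter_subset_right (s₁ := A) (s₂ := s.1.toFinset))
  have h4 := sum_le_card_nsmul (s.1.toFinset \ (A ∩ s.1.toFinset)) (xv s) (eta s)
    fun v hv => le_eta (List.mem_toFinset.1 (mem_sdiff.1 hv).1)
  have h5 : (s.1.toFinset \ (A ∩ s.1.toFinset)).card ≤ n :=
    ((card_le_card sdiff_subset).trans (List.toFinset_card_le _)).trans h.length_le
  have h6 : ((s.1.toFinset \ (A ∩ s.1.toFinset)).card : ℤ) * eta s < qq n M := by
    exact_mod_cast (Nat.mul_le_mul_right _ h5).trans_lt hd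
  rw [nsmul_eq_mul] at h4
  have h7 : (qq n M : ℤ) * F s.1.toFinset < qq n M * (F (A ∩ s.1.toFinset) + 1) := by linarith
  have h8 := lt_of_mul_lt_mul_left h7 (Nat.cast_nonneg _)
  have h9 := h.keep A hA
  omega

end Crest.Agent.R302.SFM
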