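import Crest.Agent.R302.SFM1

/-!
# Row 302: SFM, the restriction step and the initial state
Let `k = gap n s`, `p v = (dm v < k)`.  No `v ∈ W` has `dm v = k` (pigeonhole: at most `n` elements, `n + 1` levels, so `find?` succeeds), and every level `< k` is occupied,
so `k ≤ |W| ≤ n`.  For an entry `e`, `p u` and `¬ p v` give `dv e u ≤ dm u + 1 ≤ k < dm v ≤ dv e v` (`exists_dm`, `close`), so `filter_prefix` applies;
`xv`, `dm`, `dv`, `yv` are unchanged.  `keep`: with `W' = W.filter p`, `B = A ∩ W`: `F (B ∪ W') + F (B ∩ W') ≤ F B + F W'` and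
`Q F (B ∪ W') ≥ x (B ∪ W') ≥ x W' = Q F W'` because `x > 0` outside `W'` (`zero`: `dm v > 0`).
-/

set_option autoImplicit false

noncomputable section

namespace Crest.Agent.R302.SFM

open Finset

variable {F : Finset ℕ → ℤ} {n M : ℕ} {s : St}

theorem xv_restrict (s : St) (v : ℕ) : xv (restrict n s) v = xv s v := by
  simp only [xv, restrict, List.map_map]
  rfl

theorem dm_restrict (s : St) (v : ℕ) : dm n (restrict n s) v = dm n s v := by
  simp only [dm, restrict, List.map_map]
  rfl

theorem gap_le (s : St) : gap n s ≤ n := by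
  unfold gap
  cases hf : (List.range (n + 1)).find? fun k => s.1.all fun v => dm n s v != k with
  | none => simp
  | some k =>
    have := List.mem_range.1 (List.mem_of_find?_eq_some hf)
    simp only [Option.getD_some]
    omega

theorem Inv.dm_ne_gap (h : Inv F n M s) {v : ℕ} (hv : v ∈ s.1) : dm n s v ≠ gap n s := by
  unfold gap
  cases hf : (List.range (n + 1)).find? fun k => s.1.all fun v => dm n s v != k with
  | none =>
    exfalso
    rw [List.find?_eq_none] at hf
    have h1 : range (n + 1) ⊆ s.1.toFinset.image (dm n s) := by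
      intro k hk
      have h2 := hf k (List.mem_range.2 (Finset.mem_range.1 hk))
      simp only [List.all_eq_true, bne_iff_ne, ne_eq, not_forall, not_not] at h2
      obtain ⟨u, hu, hk⟩ := h2
      exact Finset.mem_image.2 ⟨u, List.mem_toFinset.2 hu, hk⟩
    have h3 := Finset.card_le_card h1
    have h4 := Finset.card_image_le (s := s.1.toFinset) (f := dm n s)
    have h5 := List.toFinset_card_le s.1
    have h6 := h.length_le
    rw [Finset.card_range] at h3
    omega
  | some k =>
    have h1 := List.find?_some hf
    simp only [List.all_eq_true, bne_iff_ne, ne_eq] at h1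
    simpa using h1 v hv

theorem Inv.prefix_gap (h : Inv F n M s) {e : Ent} (he : e ∈ s.2) :
    e.1 = e.1.filter (fun v => decide (dm n s v < gap n s)) ++
      e.1.filter fun u => !(fun v => decide (dm n s v < gap n s)) u := by
  refine filter_prefix (h.sorted e he) _ ?_
  intro u hu v hv hpu hpv
  have hu' : u ∈ s.1 := (h.perm e he).subset hu
  have hv' : v ∈ s.1 := (h.perm e he).subset hv
  simp only [decide_eq_true_eq, decide_eq_false_iff_not, not_lt] at hpu hpv
  have h1 := gap_le (n := n) s
  obtain ⟨e', he', h2⟩ := exists_dm (n := n) (s := s) (v := u) (by omega)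
  have h3 := h.close e he e' he' u hu'
  have h4 := h.dm_ne_gap hv'
  have h5 := dm_le (n := n) he v
  omega

theorem mem_restrict_snd {e : Ent} (he : e ∈ (restrict n s).2) :
    ∃ e' ∈ s.2, e = (e'.1.filter fun v => decide (dm n s v < gap n s), e'.2) := by
  obtain ⟨e', he', rfl⟩ := List.mem_map.1 he
  exact ⟨e', he', rfl⟩

theorem mem_restrict_fst {v : ℕ} (hv : v ∈ (restrict n s).1) :
    v ∈ s.1 ∧ dm n s v < gap n s := by
  have := List.mem_filter.1 hv
  exact ⟨this.1, by simpa using this.2⟩

theorem Inv.restrict (hF : SubN F M) (h : Inv F n M s) : Inv F n M (restrict n s) := by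
  refine ⟨h.nodup.filter _, fun v hv => h.lt v (mem_restrict_fst hv).1, ?_, ?_, ?_, ?_, ?_, ?_,
    ?_, ?_⟩
  · intro e he
    obtain ⟨e', he', rfl⟩ := mem_restrict_snd he
    exact (h.perm e' he').filter _
  · intro e he
    obtain ⟨e', he', rfl⟩ := mem_restrict_snd he
    exact (h.sorted e' he').filter _
  · intro e he v hv
    obtain ⟨e', he', rfl⟩ := mem_restrict_snd he
    have hv' := mem_restrict_fst hv
    have h1 := h.vert e' he' v hv'.1
    have h2 : v ∈ e'.1.filter fun v => decide (dm n s v < gap n s) :=
      List.mem_filter.2 ⟨(h.perm e' he').symm.subset hv'.1, by simpa using hv'.2⟩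
    have h3 := gv_append_left (F := F)
      (l₂ := e'.1.filter fun u => !(fun v => decide (dm n s v < gap n s)) u) h2
    rw [← h.prefix_gap he'] at h3
    exact h1.trans h3
  · have := h.total
    simp only [SFM.restrict, List.map_map]
    exact this
  · intro v hv hx e he
    obtain ⟨e', he', rfl⟩ := mem_restrict_snd he
    rw [xv_restrict] at hx
    exact h.zero v (mem_restrict_fst hv).1 hx e' he'
  · intro e he e2 he2 v hv
    obtain ⟨e', he', rfl⟩ := mem_restrict_snd he
    obtain ⟨e2', he2', rfl⟩ := mem_restrict_snd he2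
    exact h.close e' he' e2' he2' v (mem_restrict_fst hv).1
  · intro e he v hv
    obtain ⟨e', he', rfl⟩ := mem_restrict_snd he
    exact h.le e' he' v (mem_restrict_fst hv).1
  · intro A hA
    have hW' : (SFM.restrict n s).1.toFinset ⊆ s.1.toFinset := fun v hv =>
      List.mem_toFinset.2 (mem_restrict_fst (List.mem_toFinset.1 hv)).1
    have hx := h.x_eq hF (fun v => decide (dm n s v < gap n s)) fun e he => h.prefix_gap he
    change ∑ v ∈ (SFM.restrict n s).1.toFinset, xv s v =
      qq n M * F (SFM.restrict n s).1.toFinset at hx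
    have hpos : ∀ v ∈ s.1, v ∉ (SFM.restrict n s).1.toFinset → 0 ≤ xv s v := by
      intro v hv hv'
      by_contra hneg
      obtain ⟨e, he⟩ := List.exists_mem_of_ne_nil _ h.ne_nil
      have h1 := h.zero v hv (by omega) e he
      have h2 := dm_le (n := n) he v
      have h3 := h.dm_ne_gap hv
      apply hv'
      exact List.mem_toFinset.2 (List.mem_filter.2 ⟨hv, by simp only [decide_eq_true_eq]; omega⟩)
    generalize (SFM.restrict n s).1.toFinset = W' at hW' hx hpos ⊢
    have h1 := h.keep A hA
    have h2 := hF.sub (A ∩ s.1.toFinset) W'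
    have h3 : A ∩ s.1.toFinset ∩ W' = A ∩ W' := by
      rw [Finset.inter_assoc, Finset.inter_eq_right.2 hW']
    have hsub : A ∩ s.1.toFinset ∪ W' ⊆ s.1.toFinset :=
      Finset.union_subset Finset.inter_subset_right hW'
    have h4 := h.x_le hF hsub
    have h5 : ∑ v ∈ W', xv s v ≤ ∑ v ∈ A ∩ s.1.toFinset ∪ W', xv s v :=
      Finset.sum_le_sum_of_subset_of_nonneg Finset.subset_union_right fun v hv hv' =>
        hpos v (List.mem_toFinset.1 (hsub hv)) hv'
    have hq : (0 : ℤ) < qq n M := by
      have : 0 < qq n M := by unfold qq; positivity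
      exact_mod_cast this
    have h6 : F W' ≤ F (A ∩ s.1.toFinset ∪ W') := le_of_mul_le_mul_left (by linarith) hq
    rw [h3] at h2
    linarith

theorem Inv.dm_restrict_lt (h : Inv F n M s) : ∀ v ∈ (SFM.restrict n s).1, dm n (SFM.restrict n s) v < n := by
  intro v hv
  rw [dm_restrict]
  exact (mem_restrict_fst hv).2.trans_le (gap_le s)

theorem eta_restrict_le (s : St) : eta (restrict n s) ≤ eta s := by
  rcases Nat.eq_zero_or_pos (eta (restrict n s)) with h0 | h0
  · omega
  · obtain ⟨v, hv, h1⟩ := exists_eta h0
    rw [xv_restrict] at h1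
    have h2 := le_eta (mem_restrict_fst hv).1
    omega

theorem Phi_restrict_le (s : St) : Phi (restrict n s) ≤ Phi s := by
  simp only [Phi, xv_restrict]
  exact (List.filter_sublist.map _).sum_le_sum fun a _ => Nat.zero_le a

theorem Gam_restrict_le (s : St) : Gam n (restrict n s) ≤ Gam n s := by
  simp only [Gam, restrict, List.map_map]
  refine List.sum_le_sum fun e _ => ?_
  exact (List.filter_sublist.map _).sum_le_sum fun a _ => Nat.zero_le a

theorem length_restrict (s : St) : (restrict n s).2.length = s.2.length := by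
  simp [restrict]

theorem getD_replicate_zero (n v : ℕ) : (List.replicate n 0).getD v 0 = 0 := by
  rw [List.getD_eq_getElem?_getD, List.getElem?_replicate]
  split_ifs <;> rfl

theorem dv_ini {y : List ℤ} {e : Ent} (he : e ∈ (ini n M y).2) (v : ℕ) : dv e v = 0 := by
  obtain rfl : e = (List.range n, List.replicate n 0, y, qq n M) := by simpa [ini] using he
  exact getD_replicate_zero n v

theorem inv_ini (hF : SubN F M) : Inv F n M (ini n M (vtx F n (List.range n))) := by
  refine ⟨List.nodup_range, fun v hv => List.mem_range.1 hv, ?_, ?_, ?_, by simp [ini], ?_, ?_,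
    ?_, ?_⟩
  · intro e he
    obtain rfl : e = (List.range n, List.replicate n 0, vtx F n (List.range n), qq n M) := by
      simpa [ini] using he
    exact List.Perm.refl _
  · intro e he
    refine List.Pairwise.imp (R := fun _ _ => True) ?_ (List.pairwise_of_forall fun _ _ => trivial)
    intro u v _
    rw [dv_ini he, dv_ini he]
  · intro e he v hv
    obtain rfl : e = (List.range n, List.replicate n 0, vtx F n (List.range n), qq n M) := by
      simpa [ini] using he
    exact getD_vtx _ (List.mem_range.1 hv)
  · intro v _ _ e he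
    exact dv_ini he v
  · intro e he e' _ v _
    rw [dv_ini he]
    exact Nat.zero_le _
  · intro e he v _
    rw [dv_ini he]
    exact Nat.zero_le _
  · intro A hA
    have : A ∩ (ini n M (vtx F n (List.range n))).1.toFinset = A := by
      refine Finset.inter_eq_left.2 fun v hv => ?_
      exact List.mem_toFinset.2 (List.mem_range.2 (Finset.mem_range.1 (hA hv)))
    rw [this]

theorem Phi_ini (hF : SubN F M) : Phi (ini n M (vtx F n (List.range n))) ≤ n * (2 * M * qq n M) ^ 2 := by
  have h := List.sum_le_card_nsmul
    ((List.range n).map fun v => (xv (ini n M (vtx F n (List.range n))) v).toNat ^ 2)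
    ((2 * M * qq n M) ^ 2) (by
      intro a ha
      obtain ⟨v, hv, rfl⟩ := List.mem_map.1 ha
      refine Nat.pow_le_pow_left ?_ 2
      have h1 : xv (ini n M (vtx F n (List.range n))) v = qq n M * gv F (List.range n) v := by
        simp only [xv, ini, yv, List.map_cons, List.map_nil, List.sum_cons, List.sum_nil, add_zero]
        rw [getD_vtx _ (List.mem_range.1 hv)]
      have h2 := (le_abs_self _).trans (gv_abs_le hF (List.range n) v)
      rw [h1, Int.toNat_le]
      push_cast
      have h3 : (0 : ℤ) ≤ qq n M := Int.natCast_nonneg _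
      nlinarith)
  simpa [Phi, ini] using h

theorem Gam_ini (y : List ℤ) : Gam n (ini n M y) ≤ n ^ 2 := by
  have h := List.sum_le_card_nsmul
    ((List.range n).map fun v => n - dv (List.range n, List.replicate n 0, y, qq n M) v) n (by
      intro a ha
      obtain ⟨v, _, rfl⟩ := List.mem_map.1 ha
      exact Nat.sub_le _ _)
  simpa [Gam, ini, sq] using h

end Crest.Agent.R302.SFM
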