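import Crest.Agent.R302.SFM1

/-!
# Row 302: SFM, the push step (local facts and invariant)
`Run`: the invariant holds, all levels are `< n`, and the stopping test fails.  Write `δ = dl`, `a = thr`, `k = lev`, `e = cho`, `d' = newD`, `y' = vtx F n newL`.
* `4 M + 4 ≤ δ` since `n eta ≥ 100 (n+1)^2 (M+1)`.  `find?` in `thr` succeeds (pigeonhole: `n + 1` disjoint open intervals, at most `n` points), `a + 2 δ ≤ eta`.
* A high element (`a < x v`) of minimal level exists (`exists_eta`), so `find? sel` succeeds; `s.2 ~ e :: eraseP sel` (`List.perm_cons_erase`-like: `List.find?_eq_some_iff_append`,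
  `List.eraseP_append_right`).  Every high `v` has `k ≤ dm v`, so the elements with `d' v ≤ k` are low.
* `y' v ≥ y v` if `d' v ≤ k` (`pre_filter_pos`), `y' v ≤ y v` otherwise (`pre_filter_neg`), with equality if `dv e v > k` (`pre_filter_late`, `mem_pre_of_sorted`).
* `x' v = x v + α (y' v - y v)`, `α |y' v - y v| ≤ δ`.
-/

set_option autoImplicit false

noncomputable section

namespace Crest.Agent.R302.SFM

open Finset

variable {F : Finset ℕ → ℤ} {n M : ℕ} {s : St}

/-- the situation in which a push is made -/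
structure Run (F : Finset ℕ → ℤ) (n M : ℕ) (s : St) : Prop where
  sub : SubN F M
  inv : Inv F n M s
  lt : ∀ v ∈ s.1, dm n s v < n
  go : qq n M ≤ n * eta s

theorem s3_foldr_min_le {l : List ℕ} {a : ℕ} (h : a ∈ l) (b : ℕ) : l.foldr min b ≤ a := by
  induction l with
  | nil => simp at h
  | cons c l ih =>
    rcases List.mem_cons.1 h with rfl | h
    · exact min_le_left _ _
    · exact (min_le_right _ _).trans (ih h)

theorem s3_foldr_min_mem (l : List ℕ) (b : ℕ) : l.foldr min b = b ∨ l.foldr min b ∈ l := by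
  induction l with
  | nil => exact Or.inl rfl
  | cons c l ih =>
    rw [List.foldr_cons]
    rcases le_total c (l.foldr min b) with h | h
    · rw [min_eq_left h]
      exact Or.inr List.mem_cons_self
    · rw [min_eq_right h]
      exact ih.imp id (List.mem_cons_of_mem _)

theorem s3_le_foldr_max {l : List ℕ} {a : ℕ} (h : a ∈ l) (b : ℕ) : a ≤ l.foldr max b := by
  induction l with
  | nil => simp at h
  | cons c l ih =>
    rcases List.mem_cons.1 h with rfl | h
    · exact le_max_left _ _
    · exact (ih h).trans (le_max_right _ _)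

theorem s3_find_perm {α : Type} {p : α → Bool} {l : List α} {a : α} (h : l.find? p = some a) :
    l.Perm (a :: l.eraseP p) := by
  induction l with
  | nil => simp at h
  | cons c l ih =>
    by_cases hc : p c = true
    · rw [List.find?_cons_of_pos hc, Option.some.injEq] at h
      rw [List.eraseP_cons_of_pos hc, h]
    · rw [List.find?_cons_of_neg hc] at h
      rw [List.eraseP_cons_of_neg hc]
      exact ((ih h).cons c).trans (List.Perm.swap _ _ _)

theorem Run.dl_ge (h : Run F n M s) : 4 * M + 4 ≤ dl n s := by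
  have h1 := h.go
  unfold qq at h1
  unfold dl
  rw [Nat.le_div_iff_mul_le (by omega)]
  refine Nat.le_of_mul_le_mul_left ?_ (Nat.succ_pos n)
  rw [Nat.succ_eq_add_one]
  nlinarith [Nat.zero_le (eta s), Nat.zero_le ((n + 1) ^ 2 * (M + 1))]

theorem Run.eta_le (h : Run F n M s) : eta s ≤ (4 * n + 4) * dl n s := by
  have h1 := h.dl_ge
  have h2 : eta s < (2 * n + 2) * (dl n s + 1) := Nat.lt_mul_div_succ _ (by omega)
  nlinarith

theorem Run.s3_thr (h : Run F n M s) : ∃ j ≤ n, thr n s = 2 * dl n s * j ∧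
    ∀ v ∈ s.1, xv s v ≤ (2 * dl n s * j : ℕ) ∨ ((2 * dl n s * (j + 1) : ℕ) : ℤ) ≤ xv s v := by
  unfold thr
  rcases hf : (List.range (n + 1)).find? fun j => s.1.all fun v =>
    decide (xv s v ≤ (2 * dl n s * j : ℕ) ∨ ((2 * dl n s * (j + 1) : ℕ) : ℤ) ≤ xv s v) with _ | j
  · exfalso
    rw [List.find?_eq_none] at hf
    have hex : ∀ j : ℕ, ∃ v, j < n + 1 → v ∈ s.1 ∧ ((2 * dl n s * j : ℕ) : ℤ) < xv s v ∧
        xv s v < (2 * dl n s * (j + 1) : ℕ) := by
      intro j
      by_cases hj : j < n + 1
      · have h1 := hf j (List.mem_range.2 hj)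
        simp only [List.all_eq_true, decide_eq_true_eq, not_forall, not_or, not_le] at h1
        obtain ⟨v, hv, h2⟩ := h1
        exact ⟨v, fun _ => ⟨hv, h2⟩⟩
      · exact ⟨0, fun h' => absurd h' hj⟩
    choose g hg using hex
    have key : ∀ i j, i < n + 1 → j < n + 1 → i < j → g i ≠ g j := by
      intro i j hi hj hij he
      have h1 := (hg i hi).2.2
      have h2 := (hg j hj).2.1
      rw [he] at h1
      have h3 : 2 * dl n s * (i + 1) ≤ 2 * dl n s * j := Nat.mul_le_mul_left _ hij
      omega
    have hc := Finset.card_le_card_of_injOn (s := range (n + 1)) (t := s.1.toFinset) g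
      (fun j hj => by simpa using (hg j (by simpa using hj)).1) (fun i hi j hj he => by
        have hi' : i < n + 1 := by simpa using hi
        have hj' : j < n + 1 := by simpa using hj
        rcases lt_trichotomy i j with h' | h' | h'
        · exact absurd he (key i j hi' hj' h')
        · exact h'
        · exact absurd he.symm (key j i hj' hi' h'))
    have h1 := List.toFinset_card_le s.1
    have h2 := h.inv.length_le
    rw [card_range] at hc
    omega
  · have h1 := List.find?_some hf
    have h2 := List.mem_range.1 (List.mem_of_find?_eq_some hf)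
    simp only [List.all_eq_true, decide_eq_true_eq] at h1
    exact ⟨j, by omega, rfl, h1⟩

theorem Run.s3_thr_le (h : Run F n M s) : thr n s + 2 * dl n s ≤ eta s := by
  obtain ⟨j, hj, h1, -⟩ := h.s3_thr
  have h2 : dl n s * (2 * n + 2) ≤ eta s := Nat.div_mul_le_self _ _
  rw [h1]
  nlinarith [Nat.mul_le_mul_left (dl n s) hj]

theorem s3_lev_le {v : ℕ} (hv : v ∈ s.1) (hx : (thr n s : ℤ) < xv s v) : lev n s ≤ dm n s v :=
  s3_foldr_min_le (List.mem_map_of_mem (List.mem_filter.2 ⟨hv, decide_eq_true hx⟩)) n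

theorem Run.s3_lev_lt (h : Run F n M s) : lev n s < n := by
  have h1 := h.s3_thr_le
  have h2 := h.dl_ge
  obtain ⟨v, hv, hx⟩ := exists_eta (s := s) (by omega)
  exact lt_of_le_of_lt (s3_lev_le hv (by omega)) (h.lt v hv)

theorem Run.s3_find (h : Run F n M s) : s.2.find? (sel n s) = some (cho n s) := by
  have h1 := h.s3_lev_lt
  rcases s3_foldr_min_mem ((s.1.filter fun v => decide ((thr n s : ℤ) < xv s v)).map (dm n s)) n
    with h2 | h2
  · exact absurd h2 h1.ne
  obtain ⟨v, hv, h3⟩ := List.mem_map.1 h2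
  obtain ⟨hv, hx⟩ := List.mem_filter.1 hv
  obtain ⟨e, he, h4⟩ := exists_dm (h.lt v hv)
  have h5 : sel n s e = true :=
    List.any_eq_true.2 ⟨v, hv, decide_eq_true ⟨of_decide_eq_true hx, h4.trans h3⟩⟩
  unfold cho
  rcases hf : s.2.find? (sel n s) with _ | e'
  · exact absurd h5 (List.find?_eq_none.1 hf e he)
  · rfl

theorem Run.s3_mem (h : Run F n M s) : cho n s ∈ s.2 := List.mem_of_find?_eq_some h.s3_find

theorem Run.thr_gap (h : Run F n M s) :
    ∀ v ∈ s.1, xv s v ≤ thr n s ∨ (thr n s : ℤ) + 2 * dl n s ≤ xv s v := by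
  obtain ⟨j, -, h1, h2⟩ := h.s3_thr
  intro v hv
  rw [h1]
  refine (h2 v hv).imp id fun h3 => le_of_eq_of_le ?_ h3
  push_cast
  ring

theorem Run.cho_perm (h : Run F n M s) : s.2.Perm (cho n s :: s.2.eraseP (sel n s)) := by
  exact s3_find_perm h.s3_find

theorem Run.exists_high (h : Run F n M s) :
    ∃ v ∈ s.1, (thr n s : ℤ) < xv s v ∧ dv (cho n s) v = lev n s := by
  have h0 : sel n s (cho n s) = true := List.find?_some h.s3_find
  obtain ⟨v, hv, h1⟩ := List.any_eq_true.1 h0
  exact ⟨v, hv, of_decide_eq_true h1⟩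

theorem Run.lev_lt (h : Run F n M s) : lev n s < n := by
  exact h.s3_lev_lt

theorem lev_le {v : ℕ} (hv : v ∈ s.1) (hx : (thr n s : ℤ) < xv s v) : lev n s ≤ dm n s v := by
  exact s3_lev_le hv hx

theorem s3_alp_le (y : List ℤ) : alp n s y ≤ (cho n s).2.2.2 := by
  unfold alp
  split_ifs
  · exact le_rfl
  · exact min_le_left _ _

theorem Run.xv_push (h : Run F n M s) (y : List ℤ) (v : ℕ) :
    xv (push n s y) v = xv s v + alp n s y * (y.getD v 0 - yv (cho n s) v) := by
  have h1 : xv s v = ((cho n s).2.2.2 : ℤ) * yv (cho n s) v +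
      ((s.2.eraseP (sel n s)).map fun e => (e.2.2.2 : ℤ) * yv e v).sum := by
    unfold xv
    rw [(h.cho_perm.map _).sum_eq, List.map_cons, List.sum_cons]
  rw [h1]
  unfold xv push
  split_ifs with hc
  · simp only [List.map_cons, List.sum_cons, yv, hc]
    ring
  · simp only [List.map_cons, List.sum_cons, yv, Nat.cast_sub (s3_alp_le y)]
    ring

theorem alp_mul_le (y : List ℤ) {v : ℕ} (hv : v ∈ s.1) :
    (alp n s y : ℤ) * |y.getD v 0 - yv (cho n s) v| ≤ dl n s := by
  have h1 : (y.getD v 0 - yv (cho n s) v).natAbs ≤ bet n s y :=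
    s3_le_foldr_max (List.mem_map_of_mem (f := fun v => (y.getD v 0 - yv (cho n s) v).natAbs) hv) 0
  rw [Int.abs_eq_natAbs]
  norm_cast
  unfold alp
  split_ifs with hb
  · rw [show (y.getD v 0 - yv (cho n s) v).natAbs = 0 by omega]
    exact Nat.zero_le _
  · exact (Nat.mul_le_mul (min_le_right _ _) h1).trans (Nat.div_mul_le_self _ _)

theorem s3_newD {v : ℕ} (hv : v < n) : (newD n s).getD v 0 =
    if dv (cho n s) v = lev n s ∧ (thr n s : ℤ) < xv s v then lev n s + 1 else dv (cho n s) v := by
  simp [newD, List.getD_eq_getElem?_getD, hv]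

theorem s3_newL_perm : (newL n s).Perm (cho n s).1 := List.filter_append_perm _ _

theorem s3_mem_push {y : List ℤ} (h : cho n s ∈ s.2) {e : Ent} (he : e ∈ (push n s y).2) :
    e = (newL n s, newD n s, y, alp n s y) ∨ ∃ e' ∈ s.2, e.1 = e'.1 ∧ dv e = dv e' ∧ yv e = yv e' := by
  unfold push at he
  rcases List.mem_cons.1 he with he | he
  · exact Or.inl he
  right
  split_ifs at he
  · exact ⟨e, List.mem_of_mem_eraseP he, rfl, rfl, rfl⟩
  · rcases List.mem_cons.1 he with rfl | he
    · exact ⟨_, h, rfl, rfl, rfl⟩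
    · exact ⟨e, List.mem_of_mem_eraseP he, rfl, rfl, rfl⟩

/-- low elements go up, high elements go down -/
theorem Run.mono (h : Run F n M s) {v : ℕ} (hv : v ∈ s.1) :
    (xv s v ≤ thr n s → yv (cho n s) v ≤ (vtx F n (newL n s)).getD v 0) ∧
      ((thr n s : ℤ) < xv s v → (vtx F n (newL n s)).getD v 0 ≤ yv (cho n s) v) := by
  have hm := h.s3_mem
  have hp := h.inv.perm _ hm
  have hvn := h.inv.lt v hv
  rw [getD_vtx _ hvn, h.inv.vert _ hm v hv]
  refine ⟨fun hx => gv_anti h.sub ?_, fun hx => gv_anti h.sub ?_⟩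
  · by_cases hk : (newD n s).getD v 0 ≤ lev n s
    · exact pre_filter_pos _ (hp.mem_iff.2 hv) (decide_eq_true hk)
    · refine pre_filter_late _ (decide_eq_false hk) fun u hu hu' => ?_
      refine mem_pre_of_sorted (h.inv.sorted _ hm) hu ?_
      have h1 := of_decide_eq_true hu'
      rw [s3_newD (h.inv.lt u (hp.mem_iff.1 hu))] at h1
      rw [s3_newD hvn, if_neg (fun h' => absurd h'.2 (not_lt.2 hx))] at hk
      split_ifs at h1 <;> omega
  · refine pre_filter_neg _ (decide_eq_false ?_)
    have h1 := (lev_le hv hx).trans (dm_le hm v)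
    rw [s3_newD hvn]
    split_ifs with h2
    · omega
    · have : dv (cho n s) v ≠ lev n s := fun h' => h2 ⟨h', hx⟩
      omega

theorem Run.sum_eq (h : Run F n M s) :
    ∑ v ∈ s.1.toFinset, ((vtx F n (newL n s)).getD v 0 - yv (cho n s) v) = 0 := by
  have hm := h.s3_mem
  have hp := h.inv.perm _ hm
  have hp' : (newL n s).Perm s.1 := s3_newL_perm.trans hp
  have h1 := gv_sum h.sub (hp.nodup_iff.2 h.inv.nodup)
  have h2 := gv_sum h.sub (hp'.nodup_iff.2 h.inv.nodup)
  rw [List.toFinset_eq_of_perm _ _ hp] at h1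
  rw [List.toFinset_eq_of_perm _ _ hp'] at h2
  rw [Finset.sum_congr rfl fun v hv => by
    rw [getD_vtx _ (h.inv.lt v (List.mem_toFinset.1 hv)), h.inv.vert _ hm v (List.mem_toFinset.1 hv)],
    Finset.sum_sub_distrib, h1, h2, sub_self]

theorem Run.inv_push (h : Run F n M s) : Inv F n M (push n s (vtx F n (newL n s))) := by
  have hm := h.s3_mem
  have hp := h.inv.perm _ hm
  have hN : ∀ v, dv (newL n s, newD n s, vtx F n (newL n s), alp n s (vtx F n (newL n s))) v =
      (newD n s).getD v 0 := fun _ => rfl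
  have hge : ∀ v ∈ s.1, dv (cho n s) v ≤ (newD n s).getD v 0 := by
    intro v hv
    rw [s3_newD (h.inv.lt v hv)]
    split_ifs with h1
    · omega
    · exact le_rfl
  refine ⟨h.inv.nodup, h.inv.lt, fun e he => ?_, fun e he => ?_, fun e he v hv => ?_, ?_,
    fun v hv hx e he => ?_, fun e he e' he' v hv => ?_, fun e he v hv => ?_, h.inv.keep⟩
  · rcases s3_mem_push hm he with rfl | ⟨e', he', h1, -, -⟩
    · exact s3_newL_perm.trans hp
    · rw [h1]
      exact h.inv.perm e' he'
  · rcases s3_mem_push hm he with rfl | ⟨e', he', h1, h2, -⟩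
    · simp only [hN]
      have hs := h.inv.sorted _ hm
      have hl : ∀ u ∈ (cho n s).1, u < n := fun u hu => h.inv.lt u (hp.mem_iff.1 hu)
      unfold newL
      refine List.pairwise_append.2 ⟨?_, ?_, fun u hu v hv => ?_⟩
      · refine List.Pairwise.imp_of_mem (fun {u v} hu hv huv => ?_) (hs.filter _)
        obtain ⟨hu, hu'⟩ := List.mem_filter.1 hu
        obtain ⟨hv, hv'⟩ := List.mem_filter.1 hv
        have h1 := of_decide_eq_true hu'
        have h2 := of_decide_eq_true hv'
        rw [s3_newD (hl u hu)] at h1 ⊢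
        rw [s3_newD (hl v hv)] at h2 ⊢
        split_ifs at h1 h2 ⊢ <;> omega
      · refine List.Pairwise.imp_of_mem (fun {u v} hu hv huv => ?_) (hs.filter _)
        obtain ⟨hu, hu'⟩ := List.mem_filter.1 hu
        obtain ⟨hv, hv'⟩ := List.mem_filter.1 hv
        simp only [Bool.not_eq_true', decide_eq_false_iff_not] at hu' hv'
        rw [s3_newD (hl u hu)] at hu' ⊢
        rw [s3_newD (hl v hv)] at hv' ⊢
        split_ifs at hu' hv' ⊢ <;> omega
      · have h1 := of_decide_eq_true (List.mem_filter.1 hu).2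
        have h2 := (List.mem_filter.1 hv).2
        simp only [Bool.not_eq_true', decide_eq_false_iff_not] at h2
        omega
    · rw [h1, h2]
      exact h.inv.sorted e' he'
  · rcases s3_mem_push hm he with rfl | ⟨e', he', h1, -, h3⟩
    · exact getD_vtx _ (h.inv.lt v hv)
    · rw [h1, h3]
      exact h.inv.vert e' he' v hv
  · have h1 := h.inv.total
    rw [(h.cho_perm.map _).sum_eq, List.map_cons, List.sum_cons] at h1
    have h2 := s3_alp_le (n := n) (s := s) (vtx F n (newL n s))
    unfold push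
    split_ifs with hc
    · simp only [List.map_cons, List.sum_cons]
      omega
    · simp only [List.map_cons, List.sum_cons]
      omega
  · have hv' : v ∈ s.1 := hv
    rw [h.xv_push] at hx
    have h1 := alp_mul_le (n := n) (vtx F n (newL n s)) hv'
    have h2 := h.dl_ge
    have hlow : xv s v ≤ thr n s := by
      refine (h.thr_gap v hv').resolve_right fun h3 => ?_
      have h4 := mul_le_mul_of_nonneg_left
        (neg_abs_le ((vtx F n (newL n s)).getD v 0 - yv (cho n s) v))
        (Int.natCast_nonneg (alp n s (vtx F n (newL n s))))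
      rw [mul_neg] at h4
      omega
    have h3 := mul_nonneg (Int.natCast_nonneg (alp n s (vtx F n (newL n s))))
      (sub_nonneg.2 ((h.mono hv').1 hlow))
    have h4 := h.inv.zero v hv' (by omega)
    rcases s3_mem_push hm he with rfl | ⟨e', he', -, h5, -⟩
    · rw [hN, s3_newD (h.inv.lt v hv'), if_neg (fun h' => absurd h'.2 (not_lt.2 hlow))]
      exact h4 _ hm
    · rw [h5]
      exact h4 e' he'
  · have hv' : v ∈ s.1 := hv
    rcases s3_mem_push hm he with rfl | ⟨a, ha, -, h1, -⟩ <;>
      rcases s3_mem_push hm he' with rfl | ⟨b, hb, -, h2, -⟩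
    · exact Nat.le_succ _
    · rw [hN, h2, s3_newD (h.inv.lt v hv')]
      split_ifs with h3
      · exact Nat.succ_le_succ ((lev_le hv' h3.2).trans (dm_le hb v))
      · exact h.inv.close _ hm b hb v hv'
    · rw [hN, h1]
      exact (h.inv.close a ha _ hm v hv').trans (Nat.succ_le_succ (hge v hv'))
    · rw [h1, h2]
      exact h.inv.close a ha b hb v hv'
  · have hv' : v ∈ s.1 := hv
    rcases s3_mem_push hm he with rfl | ⟨a, ha, -, h1, -⟩
    · rw [hN, s3_newD (h.inv.lt v hv')]
      split_ifs with h3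
      · exact h.lev_lt
      · exact h.inv.le _ hm v hv'
    · rw [h1]
      exact h.inv.le a ha v hv'

end Crest.Agent.R302.SFM
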