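import Crest.Agent.R302.SFM2
import Crest.Agent.R302.SFM3

/-!
# Row 302: SFM, potentials and termination
* `Run.Phi_push`: with `t v = α (y' v - y v)`, `|t v| ≤ δ`, `∑ t = 0`: a low `v` has `t ≥ 0` and `((x+t)⁺)^2 - (x⁺)^2 ≤ t (2 a + δ)`, a high `v` has `t ≤ 0`, `x ≥ a + 2 δ` and
  `(x+t)^2 - x^2 ≤ t (2 a + 3 δ)`; so `Φ' ≤ Φ - 2 δ T`, `T = ∑ t⁺ = ∑ t⁻ ≥ max |t| = α β`.  If `α ≠ c` then `β ≠ 0`, `α = δ / β`, `β ≤ 4 M ≤ δ`, so `2 α β ≥ δ`, and
  `Φ ≤ n eta^2 ≤ 16 (n+1)^3 δ^2`.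
* `Run.Gam_push`: the new labels are `≥` the old ones, `≤ n`, and larger at the element of `exists_high`.
* `final`: `c = 16 (n+1)^3`, `A = c (3 size n + 2 size M + 3)`.  Along the run `Inv` holds and `Φ ≤ (1 - 1/c) ^ (len - 1) Φ₀` (in `ℝ`).  If the test fails then
  `Q^2 ≤ n^2 eta^2 ≤ n^2 Φ ≤ (1 - 1/c) ^ (len - 1) 4 n^3 M^2 Q^2`, and `(1 - 1/c) ^ c ≤ 1/2`, so `len - 1 ≤ A`.  While the test fails
  `Gam + (n^2 + 1) (A + 2 - len)` decreases; once the test holds it holds for ever (`eta_restrict_le`).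
-/

set_option autoImplicit false

noncomputable section

namespace Crest.Agent.R302.SFM

open Finset

variable {F : Finset ℕ → ℤ} {n M : ℕ} {s : St}

theorem SFM4_foldr_max (l : List ℕ) (h : l.foldr max 0 ≠ 0) : l.foldr max 0 ∈ l := by
  induction l with
  | nil => simp at h
  | cons a l ih =>
    rw [List.foldr_cons] at h ⊢
    rcases le_total a (l.foldr max 0) with h1 | h1
    · rw [max_eq_right h1] at h ⊢
      exact List.mem_cons_of_mem _ (ih h)
    · rw [max_eq_left h1]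
      exact List.mem_cons_self

theorem SFM4_Phi (hs : s.1.Nodup) : (Phi s : ℤ) = ∑ v ∈ s.1.toFinset, ((xv s v).toNat : ℤ) ^ 2 := by
  rw [Phi, ← List.sum_toFinset _ hs]
  push_cast
  rfl

theorem SFM4_pt {x t a δ : ℤ} (ha : 0 ≤ a) (ht : |t| ≤ δ) (h1 : x ≤ a → 0 ≤ t) (h2 : a < x → t ≤ 0)
    (h3 : x ≤ a ∨ a + 2 * δ ≤ x) :
    ((x + t).toNat : ℤ) ^ 2 ≤ (x.toNat : ℤ) ^ 2 + (t * (2 * a + 2 * δ) - δ * |t|) := by
  have hδ : 0 ≤ δ := (abs_nonneg t).trans ht
  rcases le_or_gt x a with h | h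
  · have h4 := h1 h
    rw [abs_of_nonneg h4] at ht ⊢
    have h5 : ((x + t).toNat : ℤ) ≤ x.toNat + t := by omega
    have h6 : (x.toNat : ℤ) ≤ a := by omega
    have h7 : (0 : ℤ) ≤ (x + t).toNat := by omega
    have h8 := pow_le_pow_left₀ h7 h5 2
    nlinarith [mul_le_mul_of_nonneg_left h6 h4, mul_le_mul_of_nonneg_left ht h4]
  · have h4 := h2 h
    have h5 : a + 2 * δ ≤ x := h3.resolve_left (not_le.2 h)
    rw [abs_of_nonpos h4] at ht ⊢
    have h6 : ((x + t).toNat : ℤ) = x + t := by omega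
    have h7 : (x.toNat : ℤ) = x := by omega
    rw [h6, h7]
    nlinarith [mul_nonneg (neg_nonneg.2 h4) (show 0 ≤ 2 * x + t - 2 * a - 3 * δ by linarith)]

theorem Run.SFM4_cho (h : Run F n M s) : cho n s ∈ s.2 := h.cho_perm.symm.subset List.mem_cons_self

theorem SFM4_Phi_le (h : Inv F n M s) : Phi s ≤ n * eta s ^ 2 := by
  refine (List.sum_le_card_nsmul _ (eta s ^ 2) fun z hz => ?_).trans ?_
  · obtain ⟨v, hv, rfl⟩ := List.mem_map.1 hz
    have := le_eta hv
    exact Nat.pow_le_pow_left (by omega) 2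
  · rw [List.length_map, smul_eq_mul]
    exact Nat.mul_le_mul_right _ h.length_le

theorem SFM4_le_Phi (s : St) : eta s ^ 2 ≤ Phi s := by
  rcases Nat.eq_zero_or_pos (eta s) with h | h
  · simp [h]
  · obtain ⟨v, hv, h1⟩ := exists_eta h
    refine List.single_le_sum (fun _ _ => Nat.zero_le _) _ (List.mem_map.2 ⟨v, hv, ?_⟩)
    rw [h1, Int.toNat_natCast]

theorem SFM4_newD {v : ℕ} (hv : v < n) : (newD n s).getD v 0 =
    if dv (cho n s) v = lev n s ∧ (thr n s : ℤ) < xv s v then lev n s + 1 else dv (cho n s) v := by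
  simp [newD, List.getD_eq_getElem?_getD, hv]

theorem SFM4_run (hF : SubN F M) (h : Inv F n M s) (hd : ¬ n * eta (restrict n s) < qq n M) :
    Run F n M (restrict n s) := ⟨hF, h.restrict hF, h.dm_restrict_lt, not_lt.1 hd⟩

theorem Run.Phi_push (h : Run F n M s) :
    Phi (push n s (vtx F n (newL n s))) ≤ Phi s ∧
      (alp n s (vtx F n (newL n s)) ≠ (cho n s).2.2.2 →
        16 * (n + 1) ^ 3 * Phi (push n s (vtx F n (newL n s))) + Phi s ≤ 16 * (n + 1) ^ 3 * Phi s) := by
  set y := vtx F n (newL n s) with hy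
  set t : ℕ → ℤ := fun v => alp n s y * (y.getD v 0 - yv (cho n s) v) with ht
  have h0 : ∑ v ∈ s.1.toFinset, t v = 0 := by rw [← mul_sum, h.sum_eq, mul_zero]
  have h1 : (Phi (push n s y) : ℤ) ≤ Phi s - dl n s * ∑ v ∈ s.1.toFinset, |t v| := by
    rw [SFM4_Phi (s := push n s y) h.inv.nodup, SFM4_Phi h.inv.nodup]
    refine (sum_le_sum (g := fun v => ((xv s v).toNat : ℤ) ^ 2 +
      (t v * (2 * thr n s + 2 * dl n s) - dl n s * |t v|)) fun v hv => ?_).trans (le_of_eq ?_)
    · have hv' : v ∈ s.1 := List.mem_toFinset.1 hv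
      rw [h.xv_push]
      refine SFM4_pt (Nat.cast_nonneg _) ?_ (fun hx => ?_) (fun hx => ?_) (h.thr_gap v hv')
      · rw [abs_mul, Nat.abs_cast]
        exact alp_mul_le y hv'
      · exact mul_nonneg (Nat.cast_nonneg _) (sub_nonneg.2 ((h.mono hv').1 hx))
      · exact mul_nonpos_of_nonneg_of_nonpos (Nat.cast_nonneg _) (sub_nonpos.2 ((h.mono hv').2 hx))
    · show ∑ v ∈ s.1.toFinset, _ = _
      rw [sum_add_distrib, sum_sub_distrib, ← sum_mul, h0, ← mul_sum]
      ring
  have h2 : 0 ≤ ∑ v ∈ s.1.toFinset, |t v| := sum_nonneg fun v _ => abs_nonneg _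
  refine ⟨?_, fun ha => ?_⟩
  · have := mul_nonneg (Nat.cast_nonneg (dl n s) : (0 : ℤ) ≤ _) h2
    exact_mod_cast h1.trans (sub_le_self _ this)
  · have hb : bet n s y ≠ 0 := fun hb => ha (by rw [alp, if_pos hb])
    have hα : alp n s y = dl n s / bet n s y := by
      rw [alp, if_neg hb] at ha ⊢
      omega
    obtain ⟨v, hv, h3⟩ := List.mem_map.1 (SFM4_foldr_max _ hb)
    have h4 : (bet n s y : ℤ) = |y.getD v 0 - yv (cho n s) v| := by
      rw [← Int.natCast_natAbs, h3]
      rfl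
    have h5 : bet n s y ≤ dl n s := by
      have e1 := gv_abs_le h.sub (newL n s) v
      have e2 := gv_abs_le h.sub (cho n s).1 v
      rw [hy, getD_vtx _ (h.inv.lt v hv), h.inv.vert _ h.SFM4_cho v hv, ← hy] at h4
      have e3 := abs_sub (gv F (newL n s) v) (gv F (cho n s).1 v)
      have e4 := h.dl_ge
      omega
    have h6 : dl n s ≤ 2 * (alp n s y * bet n s y) := by
      have e1 := Nat.div_add_mod' (dl n s) (bet n s y)
      have e2 := Nat.mod_lt (dl n s) (Nat.pos_of_ne_zero hb)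
      have e3 := Nat.mul_le_mul_right (bet n s y) (Nat.div_pos h5 (Nat.pos_of_ne_zero hb))
      rw [hα]
      omega
    have h7 : 2 * |t v| ≤ ∑ v ∈ s.1.toFinset, |t v| := by
      have hv' := List.mem_toFinset.2 hv
      rw [← add_sum_erase _ _ hv'] at h0 ⊢
      have e1 := abs_sum_le_sum_abs t (s.1.toFinset.erase v)
      rw [← neg_eq_of_add_eq_zero_right h0, abs_neg] at e1
      linarith
    have h8 : |t v| = (alp n s y * bet n s y : ℕ) := by
      rw [Nat.cast_mul, h4, ht, abs_mul, Nat.abs_cast]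
    have h9 : (dl n s : ℤ) ≤ ∑ v ∈ s.1.toFinset, |t v| := by omega
    have h10 : Phi (push n s y) + dl n s * dl n s ≤ Phi s := by
      have := mul_le_mul_of_nonneg_left h9 (Nat.cast_nonneg (dl n s))
      exact_mod_cast (show (Phi (push n s y) : ℤ) + dl n s * dl n s ≤ Phi s by linarith)
    have h11 : Phi s ≤ 16 * (n + 1) ^ 3 * (dl n s * dl n s) := by
      refine (SFM4_Phi_le h.inv).trans ((Nat.mul_le_mul (Nat.le_succ n)
        (Nat.pow_le_pow_left h.eta_le 2)).trans (le_of_eq ?_))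
      rw [Nat.succ_eq_add_one]
      ring
    have h12 := Nat.mul_le_mul_left (16 * (n + 1) ^ 3) h10
    rw [mul_add] at h12
    omega

theorem Run.Gam_push (h : Run F n M s) (y : List ℤ) :
    (alp n s y = (cho n s).2.2.2 → (push n s y).2.length = s.2.length ∧ Gam n (push n s y) < Gam n s) ∧
      (alp n s y ≠ (cho n s).2.2.2 →
        (push n s y).2.length = s.2.length + 1 ∧ Gam n (push n s y) ≤ Gam n s + n ^ 2) := by
  have h1 := h.cho_perm.length_eq
  have h2 := (h.cho_perm.map fun e => (s.1.map fun v => n - dv e v).sum).sum_eq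
  rw [List.length_cons] at h1
  rw [List.map_cons, List.sum_cons] at h2
  have h3 : (s.1.map fun v => n - (newD n s).getD v 0).sum < (s.1.map fun v => n - dv (cho n s) v).sum := by
    obtain ⟨v, hv, h4, h5⟩ := h.exists_high
    refine List.sum_lt_sum _ _ (fun u hu => ?_) ⟨v, hv, ?_⟩
    · rw [SFM4_newD (h.inv.lt u hu)]
      split_ifs with h6
      · omega
      · exact le_rfl
    · have := h.lev_lt
      rw [SFM4_newD (h.inv.lt v hv), if_pos ⟨h5, h4⟩]
      omega
  have h4 : (s.1.map fun v => n - (newD n s).getD v 0).sum ≤ n ^ 2 := by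
    refine (List.sum_le_card_nsmul _ n fun z hz => ?_).trans ?_
    · obtain ⟨v, -, rfl⟩ := List.mem_map.1 hz
      exact Nat.sub_le _ _
    · rw [List.length_map, smul_eq_mul, sq]
      exact Nat.mul_le_mul_right _ h.inv.length_le
  refine ⟨fun ha => ?_, fun ha => ?_⟩
  · simp only [Gam, push, if_pos ha, List.length_cons, List.map_cons, List.sum_cons, h1, h2]
    exact ⟨trivial, Nat.add_lt_add_right h3 _⟩
  · simp only [Gam, push, if_neg ha, List.length_cons, List.map_cons, List.sum_cons, h1, h2]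
    refine ⟨trivial, ?_⟩
    rw [add_comm]
    exact Nat.add_le_add_left h4 _

theorem Inv.step (hF : SubN F M) (h : Inv F n M s) : Inv F n M (step F n M s) := by
  unfold SFM.step
  split_ifs with hd
  · exact h.restrict hF
  · exact (SFM4_run hF h hd).inv_push

/-- the invariant of the run -/
theorem SFM4_main (hF : SubN F M) (k : ℕ) (s : St)
    (hs : s = (step F n M)^[k] (ini n M (vtx F n (List.range n)))) :
    Inv F n M s ∧ (n * eta s < qq n M ∨ ∃ j : ℕ, s.2.length = j + 1 ∧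
      (Phi s : ℝ) ≤ (1 - 1 / (16 * (n + 1) ^ 3 : ℕ)) ^ j * (n * (2 * M * qq n M) ^ 2 : ℕ) ∧
      Gam n s + k ≤ n ^ 2 + (n ^ 2 + 1) * j) := by
  induction k generalizing s with
  | zero =>
    subst hs
    refine ⟨inv_ini hF, Or.inr ⟨0, rfl, ?_, Gam_ini _⟩⟩
    rw [pow_zero, one_mul]
    exact_mod_cast Phi_ini hF
  | succ k ih =>
    rw [Function.iterate_succ_apply'] at hs
    obtain ⟨h1, h2⟩ := ih _ rfl
    generalize (step F n M)^[k] (ini n M (vtx F n (List.range n))) = t at hs h1 h2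
    subst hs
    refine ⟨h1.step hF, ?_⟩
    by_cases hd : n * eta (restrict n t) < qq n M
    · left
      rwa [step, if_pos hd]
    · right
      obtain ⟨j, h3, h4, h5⟩ := h2.resolve_left fun h3 =>
        hd ((Nat.mul_le_mul_left _ (eta_restrict_le t)).trans_lt h3)
      have hr := SFM4_run hF h1 hd
      have h6 := hr.Phi_push
      have h7 := hr.Gam_push (vtx F n (newL n (restrict n t)))
      have h8 : (Phi (restrict n t) : ℝ) ≤ Phi t := by exact_mod_cast Phi_restrict_le t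
      have h9 := Gam_restrict_le (n := n) t
      rw [length_restrict, h3] at h7
      rw [step, if_neg hd]
      by_cases ha : alp n (restrict n t) (vtx F n (newL n (restrict n t))) = (cho n (restrict n t)).2.2.2
      · refine ⟨j, (h7.1 ha).1, le_trans ?_ (h8.trans h4), ?_⟩
        · exact_mod_cast h6.1
        · have := (h7.1 ha).2
          omega
      · refine ⟨j + 1, (h7.2 ha).1, ?_, ?_⟩
        · have h10 := h6.2 ha
          have hc : 1 ≤ 16 * (n + 1) ^ 3 := Nat.succ_le_of_lt (by positivity)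
          generalize 16 * (n + 1) ^ 3 = c at h4 h10 hc ⊢
          have hc' : (1 : ℝ) ≤ c := by exact_mod_cast hc
          have h11 : (c : ℝ) * Phi (push n (restrict n t) (vtx F n (newL n (restrict n t)))) +
              Phi (restrict n t) ≤ c * Phi (restrict n t) := by exact_mod_cast h10
          have h12 : (0 : ℝ) ≤ 1 - 1 / c := sub_nonneg.2 ((div_le_one (by linarith)).2 hc')
          rw [pow_succ', mul_assoc]
          refine le_trans ?_ (mul_le_mul_of_nonneg_left (h8.trans h4) h12)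
          have e : (1 - 1 / (c : ℝ)) * Phi (restrict n t) =
              (c * Phi (restrict n t) - Phi (restrict n t)) / c := by
            field_simp
          rw [e, le_div_iff₀ (by linarith)]
          linarith
        · have := (h7.2 ha).2
          rw [mul_add]
          omega

theorem final (hF : SubN F M) {A : Finset ℕ} (hA : A ⊆ range n) :
    F ((step F n M)^[nst n M] (ini n M (vtx F n (List.range n)))).1.toFinset ≤ F A := by
  obtain ⟨h1, h2⟩ := SFM4_main (n := n) hF (nst n M) _ rfl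
  generalize (step F n M)^[nst n M] (ini n M (vtx F n (List.range n))) = s at h1 h2
  by_cases hd : n * eta s < qq n M
  · exact h1.opt hF hd hA
  exfalso
  obtain ⟨j, -, h3, h4⟩ := h2.resolve_left hd
  have hc : 1 ≤ 16 * (n + 1) ^ 3 := Nat.succ_le_of_lt (by positivity)
  unfold nst at h4
  generalize 16 * (n + 1) ^ 3 = c at h3 h4 hc
  have hj : c * (3 * n.size + 2 * M.size + 3) ≤ j := by
    by_contra hj
    have := Nat.mul_le_mul_left (n ^ 2 + 1) (not_le.1 hj).le
    rw [mul_add] at h4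
    omega
  have hc' : (1 : ℝ) ≤ c := by exact_mod_cast hc
  have h5 : (0 : ℝ) ≤ 1 - 1 / c := sub_nonneg.2 ((div_le_one (by linarith)).2 hc')
  have h6 : (1 - 1 / (c : ℝ)) ^ c ≤ 2⁻¹ := by
    refine (Real.one_sub_div_pow_le_exp_neg hc').trans ?_
    rw [Real.exp_neg]
    exact inv_anti₀ (by norm_num) (by linarith [Real.add_one_le_exp 1])
  have h7 : (1 - 1 / (c : ℝ)) ^ j ≤ 2⁻¹ ^ (3 * n.size + 2 * M.size + 3) := by
    refine (pow_le_pow_of_le_one h5 (sub_le_self _ (by positivity)) hj).trans ?_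
    rw [pow_mul]
    exact pow_le_pow_left₀ (pow_nonneg h5 _) h6 _
  have h8 : qq n M ^ 2 ≤ n ^ 2 * Phi s := by
    refine (Nat.pow_le_pow_left (not_lt.1 hd) 2).trans ?_
    rw [mul_pow]
    exact Nat.mul_le_mul_left _ (SFM4_le_Phi s)
  have h9 : 8 * (n ^ 2 * (n * (2 * M * qq n M) ^ 2)) ≤ 4 * (2 ^ (3 * n.size + 2 * M.size + 3) * qq n M ^ 2) := by
    have e1 := Nat.pow_le_pow_left (Nat.lt_size_self n).le 3
    have e2 := Nat.pow_le_pow_left (Nat.lt_size_self M).le 2
    refine (le_of_eq ?_).trans ((Nat.mul_le_mul_right (32 * qq n M ^ 2) (Nat.mul_le_mul e1 e2)).trans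
      (le_of_eq ?_)) <;> ring
  have hQ : (0 : ℝ) < (qq n M : ℝ) ^ 2 := by
    have : 0 < qq n M := by
      unfold qq
      positivity
    positivity
  have h10 : (qq n M : ℝ) ^ 2 ≤ n ^ 2 * Phi s := by exact_mod_cast h8
  have h11 : 8 * ((n : ℝ) ^ 2 * (n * (2 * M * qq n M) ^ 2 : ℕ)) ≤
      4 * (2 ^ (3 * n.size + 2 * M.size + 3) * (qq n M : ℝ) ^ 2) := by exact_mod_cast h9
  have h12 := mul_le_mul_of_nonneg_left (h3.trans (mul_le_mul_of_nonneg_right h7 (Nat.cast_nonneg _)))
    (sq_nonneg (n : ℝ))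
  have h13 := mul_le_mul_of_nonneg_left h11
    (show (0 : ℝ) ≤ 2⁻¹ ^ (3 * n.size + 2 * M.size + 3) by positivity)
  have h14 : (2⁻¹ : ℝ) ^ (3 * n.size + 2 * M.size + 3) * (4 * (2 ^ (3 * n.size + 2 * M.size + 3) *
      (qq n M : ℝ) ^ 2)) = 4 * (qq n M : ℝ) ^ 2 := by
    rw [inv_pow]
    field_simp
  rw [h14] at h13
  nlinarith

end Crest.Agent.R302.SFM
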