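import Crest.Agent.R302.SFM4
import Crest.Agent.R302.Rank
import Crest.Agent.R302.RamB

/-!
# Row 302: SFM as a query tree
* `sfmQ_spec`: `F A = f (univ.filter fun j => j.val ∈ A)` is `SubN`, `bset n (mask n l) = univ.filter (·.val ∈ l.toFinset)`; `det_mapQ`, `det_iter` (with `P = True`), `SFM.final`
  applied to `A.map Fin.valEmbedding`.
* `PTO.sfmQ`: `PT` of `xv, dm, gap, restrict, …, push` by `unfold; fun_prop` (for functions of `(n, s)` the lists `List.range n` need `PB n`: state these lemmas as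
  `PT n → PB n → PT s → PT fun a => gap (n a) (s a)`).  `PTO.iter_inv'` with the invariant: `s.1` and all orders have length `≤ n` and entries `< n`, label tables have length `≤ n` and
  entries `≤ n + 1`, `esize y ≤ B a` (from `PTO.size` of `vtxQ` via `PB.exists_bound`), multiplicities `≤ qq n M`, at most `i + 1` entries.
-/

set_option autoImplicit false

noncomputable section

namespace Crest.Agent.R302

open Finset Crest.Agent.Lib.PolyTime QT

namespace SFM

theorem length_mask (n : ℕ) (l : List ℕ) : (mask n l).length = n := by simp [mask]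

theorem bset_mask (n : ℕ) (l : List ℕ) : bset n (mask n l) = univ.filter fun j : Fin n => j.val ∈ l.toFinset := by
  ext j
  simp [bset, mask, List.getD_eq_getElem?_getD]

theorem det_vtxQ {O : Orc} {n : ℕ} {F : Finset ℕ → ℤ} {fq : List Bool → QT ℤ}
    (hq : ∀ l : List ℕ, Det O (fq (mask n l)) (F l.toFinset)) (l : List ℕ) : Det O (vtxQ fq n l) (vtx F n l) :=
  det_mapQ fun _ _ => (hq _).bind ((hq _).map _)

theorem det_stepQ {O : Orc} {n M : ℕ} {F : Finset ℕ → ℤ} {fq : List Bool → QT ℤ}
    (hq : ∀ l : List ℕ, Det O (fq (mask n l)) (F l.toFinset)) (s : St) : Det O (stepQ fq n M s) (step F n M s) := by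
  unfold stepQ step
  split_ifs
  · exact det_ret _
  · exact (det_vtxQ hq _).map _

section pt

variable {α : Type} [Enc α] {n M v : α → ℕ} {s : α → St} {e : α → Ent} {l : α → List ℕ} {y : α → List ℤ}

@[fun_prop] theorem pt_pre (hl : PT l) (hv : PT v) : PT fun a => pre (l a) (v a) := by
  unfold pre; fun_prop

@[fun_prop] theorem pt_mask (hn : PT n) (hn' : PB n) (hl : PT l) : PT fun a => mask (n a) (l a) := by
  unfold mask; fun_prop

@[fun_prop] theorem pt_dv (he : PT e) (hv : PT v) : PT fun a => dv (e a) (v a) := by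
  unfold dv; fun_prop

@[fun_prop] theorem pt_yv (he : PT e) (hv : PT v) : PT fun a => yv (e a) (v a) := by
  unfold yv; fun_prop

@[fun_prop] theorem pt_xv (hs : PT s) (hv : PT v) : PT fun a => xv (s a) (v a) := by
  unfold xv; fun_prop

@[fun_prop] theorem pt_dm (hn : PT n) (hs : PT s) (hv : PT v) : PT fun a => dm (n a) (s a) (v a) := by
  unfold dm; fun_prop

@[fun_prop] theorem pt_gap (hn : PT n) (hn' : PB n) (hs : PT s) : PT fun a => gap (n a) (s a) := by
  unfold gap; fun_prop

@[fun_prop] theorem pt_restrict (hn : PT n) (hn' : PB n) (hs : PT s) : PT fun a => restrict (n a) (s a) := by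
  unfold restrict; fun_prop

@[fun_prop] theorem pt_eta (hs : PT s) : PT fun a => eta (s a) := by
  unfold eta; fun_prop

@[fun_prop] theorem pt_dl (hn : PT n) (hs : PT s) : PT fun a => dl (n a) (s a) := by
  unfold dl; fun_prop

@[fun_prop] theorem pt_thr (hn : PT n) (hn' : PB n) (hs : PT s) : PT fun a => thr (n a) (s a) := by
  unfold thr; fun_prop

@[fun_prop] theorem pt_lev (hn : PT n) (hn' : PB n) (hs : PT s) : PT fun a => lev (n a) (s a) := by
  unfold lev; fun_prop

@[fun_prop] theorem pt_sel (hn : PT n) (hn' : PB n) (hs : PT s) (he : PT e) : PT fun a => sel (n a) (s a) (e a) := by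
  unfold sel; fun_prop

@[fun_prop] theorem pt_cho (hn : PT n) (hn' : PB n) (hs : PT s) : PT fun a => cho (n a) (s a) := by
  unfold cho; fun_prop

@[fun_prop] theorem pt_newD (hn : PT n) (hn' : PB n) (hs : PT s) : PT fun a => newD (n a) (s a) := by
  unfold newD; fun_prop

@[fun_prop] theorem pt_newL (hn : PT n) (hn' : PB n) (hs : PT s) : PT fun a => newL (n a) (s a) := by
  unfold newL; fun_prop

@[fun_prop] theorem pt_bet (hn : PT n) (hn' : PB n) (hs : PT s) (hy : PT y) : PT fun a => bet (n a) (s a) (y a) := by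
  unfold bet; fun_prop

@[fun_prop] theorem pt_alp (hn : PT n) (hn' : PB n) (hs : PT s) (hy : PT y) : PT fun a => alp (n a) (s a) (y a) := by
  unfold alp; fun_prop

@[fun_prop] theorem pt_push (hn : PT n) (hn' : PB n) (hs : PT s) (hy : PT y) : PT fun a => push (n a) (s a) (y a) := by
  unfold push; fun_prop

@[fun_prop] theorem pt_qq (hn : PT n) (hM : PT M) : PT fun a => qq (n a) (M a) :=
  (((PT.const 100).nat_mul (PT.nat_pow (hn.nat_add (PT.const 1)) (PT.const 2) (PB.const 2))).nat_mul
    (hM.nat_add (PT.const 1))).of_eq fun a => by rw [qq]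

@[fun_prop] theorem pt_nst (hn : PT n) (hM : PT M) : PT fun a => nst (n a) (M a) := by
  have h1 : PT fun a => n a ^ 2 + 1 := (PT.nat_pow hn (PT.const 2) (PB.const 2)).nat_add (PT.const 1)
  have h2 : PT fun a => 16 * (n a + 1) ^ 3 :=
    (PT.const 16).nat_mul (PT.nat_pow (hn.nat_add (PT.const 1)) (PT.const 3) (PB.const 3))
  have h3 : PT fun a => 3 * (n a).size + 2 * (M a).size + 3 :=
    (((PT.const 3).nat_mul hn.natSize).nat_add ((PT.const 2).nat_mul hM.natSize)).nat_add (PT.const 3)
  have h4 := PT.nat_mul h1 (PT.nat_add (PT.nat_mul h2 h3) (PT.const 3))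
  exact h4.of_eq fun a => by rw [nst]

@[fun_prop] theorem pb_nst (hn : PT n) (hn' : PB n) (hM : PT M) : PB fun a => nst (n a) (M a) := by
  unfold nst; fun_prop

@[fun_prop] theorem pt_ini (hn : PT n) (hn' : PB n) (hM : PT M) (hy : PT y) : PT fun a => ini (n a) (M a) (y a) := by
  unfold ini; fun_prop

theorem pto_vtxQ {fq : α → List Bool → QT ℤ} (hq : PTO fun p : α × List Bool => fq p.1 p.2) (hn : PT n) (hn' : PB n) :
    PTO fun p : α × List ℕ => vtxQ (fq p.1) (n p.1) p.2 := by
  unfold vtxQ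
  refine PTO.mapQ (by fun_prop) (PTO.bind
    (hq.comp (g := fun p : (α × List ℕ) × ℕ => (p.1.1, mask (n p.1.1) (p.2 :: pre p.1.2 p.2))) (by fun_prop))
    (PTO.map (hq.comp (g := fun p : ((α × List ℕ) × ℕ) × ℤ => (p.1.1.1, mask (n p.1.1.1) (pre p.1.1.2 p.1.2)))
      (by fun_prop)) (by fun_prop)))

theorem pto_stepQ {fq : α → List Bool → QT ℤ} (hq : PTO fun p : α × List Bool => fq p.1 p.2) (hn : PT n) (hn' : PB n)
    (hM : PT M) : PTO fun p : α × St => stepQ (fq p.1) (n p.1) (M p.1) p.2 := by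
  unfold stepQ
  exact PTO.ite (by fun_prop) (PTO.ret (by fun_prop)) (PTO.map ((pto_vtxQ hq hn hn').comp
    (g := fun p : α × St => (p.1, newL (n p.1) (restrict (n p.1) p.2))) (by fun_prop)) (by fun_prop))

end pt

/-- small entries -/
def EOK (n L B Q : ℕ) (e : Ent) : Prop :=
  esize e.1 ≤ L ∧ e.2.1.length ≤ n ∧ (∀ d ∈ e.2.1, d ≤ n + 1) ∧ esize e.2.2.1 ≤ B ∧ e.2.2.2 ≤ Q

/-- small states -/
def SOK (n L B Q k : ℕ) (s : St) : Prop := esize s.1 ≤ L ∧ s.2.length ≤ k ∧ ∀ e ∈ s.2, EOK n L B Q e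

variable {n L B Q k : ℕ} {s : St}

theorem SOK.esize_le (h : SOK n L B Q k s) :
    esize s ≤ L + (k * (L + (n * (6 * (n + 1) + 2) + 1) + B + esize Q + 4) + 1) + 1 := by
  have h1 := esize_list_le (l := s.2) (B := L + (n * (6 * (n + 1) + 2) + 1) + B + esize Q + 3) fun e he => by
    obtain ⟨a1, a2, a3, a4, a5⟩ := h.2.2 e he
    have b1 := esize_list_le (l := e.2.1) (B := 6 * (n + 1) + 1) fun d hd =>
      (esize_nat_mono (a3 d hd)).trans (esize_nat_le_self _)
    have b2 := b1.trans (Nat.add_le_add_right (Nat.mul_le_mul_right (6 * (n + 1) + 2) a2) 1)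
    have b3 := esize_nat_mono a5
    rw [esize_prod, esize_prod e.2, esize_prod e.2.2]
    omega
  have h2 := h1.trans (Nat.add_le_add_right
    (Nat.mul_le_mul_right (L + (n * (6 * (n + 1) + 2) + 1) + B + esize Q + 4) h.2.1) 1)
  have h3 := h.1
  rw [esize_prod]
  omega

theorem SOK.restrict (h : SOK n L B Q k s) : SOK n L B Q k (restrict n s) := by
  refine ⟨(esize_sublist List.filter_sublist).trans h.1, (List.length_map _).le.trans h.2.1, fun e he => ?_⟩
  obtain ⟨e', he', rfl⟩ := List.mem_map.1 he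
  exact ⟨(esize_sublist List.filter_sublist).trans (h.2.2 e' he').1, (h.2.2 e' he').2⟩

theorem SOK.cho (h : SOK n L B Q k s) (hB : 1 ≤ B) : EOK n L B Q (cho n s) := by
  unfold SFM.cho
  rcases hf : s.2.find? (sel n s) with _ | e
  · exact ⟨le_trans (esize_pos s.1) h.1, Nat.zero_le _, fun d hd => absurd hd List.not_mem_nil, hB, Nat.zero_le _⟩
  · exact h.2.2 e (List.mem_of_find?_eq_some hf)

theorem SOK.newL (h : SOK n L B Q k s) (hB : 1 ≤ B) : esize (newL n s) ≤ L :=
  (esize_perm (List.filter_append_perm _ _)).le.trans (h.cho hB).1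

theorem foldr_min_le' (l : List ℕ) (n : ℕ) : l.foldr min n ≤ n := by
  induction l with
  | nil => exact le_rfl
  | cons a l ih => exact (min_le_right _ _).trans ih

theorem SOK.push (h : SOK n L B Q k s) {y : List ℤ} (hy : esize y ≤ B) : SOK n L B Q (k + 2) (push n s y) := by
  have hB : 1 ≤ B := le_trans (esize_pos y) hy
  have hc := h.cho hB
  have h1 : (s.2.eraseP (sel n s)).length ≤ k := List.length_eraseP_le.trans h.2.1
  have h2 : ∀ e ∈ s.2.eraseP (sel n s), EOK n L B Q e := fun e he => h.2.2 e (List.mem_of_mem_eraseP he)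
  have h3 : EOK n L B Q (SFM.newL n s, newD n s, y, alp n s y) := by
    refine ⟨h.newL hB, by simp [newD], fun d hd => ?_, hy, le_trans ?_ hc.2.2.2.2⟩
    · obtain ⟨v, -, rfl⟩ := List.mem_map.1 hd
      split_ifs
      · exact Nat.succ_le_succ (foldr_min_le' _ _)
      · unfold dv
        rw [List.getD_eq_getElem?_getD]
        rcases hv : (SFM.cho n s).2.1[v]? with _ | d
        · exact Nat.zero_le _
        · exact hc.2.2.1 d (List.mem_of_getElem? hv)
    · show alp n s y ≤ _
      unfold alp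
      split_ifs
      · exact le_rfl
      · exact min_le_left _ _
  unfold SFM.push
  split_ifs
  · exact ⟨h.1, by simp only [List.length_cons]; omega, List.forall_mem_cons.2 ⟨h3, h2⟩⟩
  · exact ⟨h.1, by simp only [List.length_cons]; omega, List.forall_mem_cons.2 ⟨h3, List.forall_mem_cons.2
      ⟨⟨hc.1, hc.2.1, hc.2.2.1, hc.2.2.2.1, (Nat.sub_le _ _).trans hc.2.2.2.2⟩, h2⟩⟩⟩

end SFM

open SFM

theorem sfmQ_spec {O : Orc} {n M : ℕ} {f : Finset (Fin n) → ℤ} (hf : Sub f) (hM : ∀ A, |f A| ≤ M)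
    {fq : List Bool → QT ℤ} (hq : ∀ s, s.length = n → Det O (fq s) (f (bset n s))) :
    ∃ s : List Bool, s.length = n ∧ Det O (sfmQ fq n M) (f (bset n s), s) ∧ ∀ A, f (bset n s) ≤ f A := by
  obtain ⟨F, hF⟩ : ∃ F : Finset ℕ → ℤ, ∀ A, F A = f (univ.filter fun j : Fin n => j.val ∈ A) := ⟨_, fun _ => rfl⟩
  have hS : SubN F M := by
    refine ⟨by rw [hF, ← hf.empty]; simp, fun A B => ?_, fun A => by rw [hF]; exact hM _⟩
    simp only [hF, mem_union, mem_inter, filter_or, filter_and]
    exact hf.sub _ _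
  have hq' : ∀ l : List ℕ, Det O (fq (mask n l)) (F l.toFinset) := fun l => by
    rw [hF, ← bset_mask]
    exact hq _ (length_mask n l)
  refine ⟨mask n ((step F n M)^[nst n M] (ini n M (vtx F n (List.range n)))).1, length_mask _ _, ?_, fun A => ?_⟩
  · refine (det_vtxQ hq' _).bind ((det_iter (P := fun _ => True) (F := step F n M)
      (fun s _ => ⟨det_stepQ hq' s, trivial⟩) _ trivial).bind ?_)
    exact (hq _ (length_mask _ _)).map _
  · have h1 := final hS (n := n) (A := A.map Fin.valEmbedding) fun v hv => by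
      obtain ⟨j, -, rfl⟩ := mem_map.1 hv
      exact mem_range.2 j.2
    rw [hF, hF, ← bset_mask] at h1
    refine h1.trans_eq (congrArg f ?_)
    ext j
    simp [Fin.val_inj]

theorem PTO.sfmQ {α : Type} [Enc α] {fq : α → List Bool → QT ℤ} {n M : α → ℕ}
    (hq : PTO fun p : α × List Bool => fq p.1 p.2) (hn : PT n) (hn' : PB n) (hM : PT M) :
    PTO fun a => R302.sfmQ (fq a) (n a) (M a) := by
  have hv := pto_vtxQ hq hn hn'
  obtain ⟨C, hC, hC'⟩ := hv.size
  obtain ⟨C', k1, k2⟩ := hC.exists_bound (s := fun a : α => esize a + esize (List.range (n a)) + 1)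
    ((PB.esize_id.add (by fun_prop)).add (PB.const 1))
  unfold R302.sfmQ
  refine PTO.bind (hv.comp (g := fun a => (a, List.range (n a))) (by fun_prop)) (PTO.bind ?_
    (PTO.map (hq.comp (g := fun p : (α × List ℤ) × SFM.St => (p.1.1, mask (n p.1.1) p.2.1)) (by fun_prop))
      (by fun_prop)))
  refine PTO.iter_inv' (step := fun p : α × List ℤ => stepQ (fq p.1) (n p.1) (M p.1))
    (fun p => esize (List.range (n p.1)) + ((2 * nst (n p.1) (M p.1) + 1) * (esize (List.range (n p.1)) +
      (n p.1 * (6 * (n p.1 + 1) + 2) + 1) + (esize p.2 + C' p.1) + esize (qq (n p.1) (M p.1)) + 4) + 1) + 1)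
    (fun p i s => SOK (n p.1) (esize (List.range (n p.1))) (esize p.2 + C' p.1) (qq (n p.1) (M p.1)) (2 * i + 1) s)
    (by fun_prop) (by fun_prop) (by fun_prop)
    ((pto_stepQ hq hn hn' hM).comp (g := fun p : (α × List ℤ) × SFM.St => (p.1.1, p.2)) (by fun_prop))
    (by fun_prop) (fun p => ⟨le_rfl, le_rfl, fun e he => ?_⟩) (fun p i s _ hs => ?_) fun p i s hi hs => ?_
  · rw [List.mem_singleton.1 he]
    exact ⟨le_rfl, by simp, fun d hd => by rw [(List.mem_replicate.1 hd).2]; exact Nat.zero_le _,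
      Nat.le_add_right _ _, le_rfl⟩
  · have h1 := hs.restrict
    unfold stepQ
    split_ifs
    · exact ⟨h1.1, h1.2.1.trans (by omega), h1.2.2⟩
    · rw [all_map]
      refine (hC' (p.1, newL (n p.1) (SFM.restrict (n p.1) s))).mono fun y hy =>
        h1.push (hy.trans ((k2 p.1 _ ?_).trans (Nat.le_add_left _ _)))
      have := h1.newL (le_trans (esize_pos p.2) (Nat.le_add_right _ _))
      rw [esize_pair]
      omega
  · exact SOK.esize_le ⟨hs.1, hs.2.1.trans (by omega), hs.2.2⟩

end Crest.Agent.R302
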