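import Crest.Agent.R302.RamC

/-!
# Row 302: the target of the algorithmic part, and S0461 from it
-/

set_option autoImplicit false

noncomputable section

namespace Crest.Agent.R302

open Finset Crest.WordRAM Crest.OracleRAM Crest.Polymatroid Crest.Agent.Lib.PolyTime Crest.Agent.R309 QT

/-- `A` is an approximation scheme for the number of common integer bases -/
def Good (A : List Unit × List ℕ → QT (ℕ × ℕ)) : Prop :=
  ∀ (n R : ℕ) (r₁ r₂ : Finset (Fin n) → ℕ) (ε δ : ℚ),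
    IsPolymatroidRank r₁ → IsPolymatroidRank r₂ → r₁ univ = R → r₂ univ = R →
    0 < ε → ε < 1 → 0 < δ → δ < 1 →
    AllO (ol n fun b => if b then r₂ else r₁)
        (fun y => 0 < y.2 ∧ (numCommonIntBases R r₁ r₂ = 0 → y.1 = 0))
        (A (List.replicate (sizeParam n R ε δ) (), countInput n R ε δ)) ∧
      pr (ol n fun b => if b then r₂ else r₁)
        (A (List.replicate (sizeParam n R ε δ) (), countInput n R ε δ))
        (fun y => ¬ ((1 - ε) * numCommonIntBases R r₁ r₂ ≤ (y.1 : ℚ) / y.2 ∧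
          (y.1 : ℚ) / y.2 ≤ (1 + ε) * numCommonIntBases R r₁ r₂)) ≤ δ

/-- the machine statement for an arbitrary family of oracles -/
theorem machine (A : List Unit × List ℕ → QT (ℕ × ℕ)) (hA : PTO A) :
    ∃ (P : OProgram) (c₀ C d : ℕ), ∀ (n R : ℕ) (O : Bool → Finset (Fin n) → ℕ) (ε δ : ℚ) (N : ℕ),
      0 < ε → ε < 1 → 0 < δ → δ < 1 → (∀ b S, O b S ≤ R + 1) →
      AllO (ol n O) (fun y => 0 < y.2 ∧ (N = 0 → y.1 = 0))
        (A (List.replicate (sizeParam n R ε δ) (), countInput n R ε δ)) →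
      pr (ol n O) (A (List.replicate (sizeParam n R ε δ) (), countInput n R ε δ))
        (fun y => ¬ ((1 - ε) * N ≤ (y.1 : ℚ) / y.2 ∧ (y.1 : ℚ) / y.2 ≤ (1 + ε) * N)) ≤ δ →
      (∀ ρ : ℕ → ℕ, (orun P n O
          (c₀ * Nat.clog 2 (n + R + ε.num.natAbs + ε.den + δ.num.natAbs + δ.den + 2)) ρ
          (countInput n R ε δ) (C * (sizeParam n R ε δ + 1) ^ d)).cfg.halted = true) ∧
      (∀ ρ : ℕ → ℕ, ∃ z : ℚ, 0 ≤ z ∧
        decodeRat (c₀ * Nat.clog 2 (n + R + ε.num.natAbs + ε.den + δ.num.natAbs + δ.den + 2))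
          (orun P n O (c₀ * Nat.clog 2 (n + R + ε.num.natAbs + ε.den + δ.num.natAbs + δ.den + 2)) ρ
            (countInput n R ε δ) (C * (sizeParam n R ε δ + 1) ^ d)).cfg.output = some z) ∧
      (N = 0 → ∀ ρ : ℕ → ℕ,
        decodeRat (c₀ * Nat.clog 2 (n + R + ε.num.natAbs + ε.den + δ.num.natAbs + δ.den + 2))
          (orun P n O (c₀ * Nat.clog 2 (n + R + ε.num.natAbs + ε.den + δ.num.natAbs + δ.den + 2)) ρ
            (countInput n R ε δ) (C * (sizeParam n R ε δ + 1) ^ d)).cfg.output = some 0) ∧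
      1 - (δ : ℝ) ≤ oprobAfter P n O
        (c₀ * Nat.clog 2 (n + R + ε.num.natAbs + ε.den + δ.num.natAbs + δ.den + 2))
        (countInput n R ε δ) (C * (sizeParam n R ε δ + 1) ^ d)
        (fun c => ∃ z : ℚ, decodeRat
            (c₀ * Nat.clog 2 (n + R + ε.num.natAbs + ε.den + δ.num.natAbs + δ.den + 2))
            c.cfg.output = some z ∧ (1 - ε) * N ≤ z ∧ z ≤ (1 + ε) * N) := by
  obtain ⟨P, c₀, C, d, h⟩ := exists_oram A hA
  refine ⟨P, c₀, C, d, fun n R O ε δ N h1 h2 h3 h4 hO ha hp => ?_⟩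
  obtain ⟨k1, k2, k3⟩ := h n R O ε δ h1 h2 h3 h4 hO _ rfl _ rfl _ rfl (ha.mono fun y hy => hy.1)
  refine ⟨k1, k2 (fun z => 0 ≤ z) (allO_of_forall _ fun y => by positivity), fun hN ρ => ?_, ?_⟩
  · obtain ⟨z, rfl, hz⟩ := k2 (fun z => z = 0) (ha.mono fun y hy => by simp [hy.2 hN]) ρ
    exact hz
  · rw [k3 fun z => (1 - ε) * N ≤ z ∧ z ≤ (1 + ε) * N]
    rw [pr_not] at hp
    linarith

theorem IsPolymatroidRank.le_succ {n R : ℕ} {r₁ r₂ : Finset (Fin n) → ℕ} (h₁ : IsPolymatroidRank r₁)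
    (h₂ : IsPolymatroidRank r₂) (e₁ : r₁ univ = R) (e₂ : r₂ univ = R) (b : Bool) (S : Finset (Fin n)) :
    (if b then r₂ else r₁) S ≤ R + 1 := by
  have a₁ := h₁.2.1 S univ (subset_univ S)
  have a₂ := h₂.2.1 S univ (subset_univ S)
  cases b
  · simp only [Bool.false_eq_true, if_false]; omega
  · simp only [if_true]; omega

end Crest.Agent.R302
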